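import Vale.Agent.P092.H108.PartOne
import Vale.Agent.P092.H160.Cube

/-!
Part (I) for partial isometric representations of the integers on `ℓ²(Λ)`: if the averages of the
heights do not tend to zero, then there is a nonzero vector with tight orbit.
-/

set_option linter.all false

namespace Vale.Agent.P092.R2.H289
open Vale.Agent.P092.H160
open Vale.Agent.P092.H108 (tri tri_apply cub cub_apply star_apply_inner)
open Filter Topology ContinuousLinearMap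
open scoped InnerProductSpace ComplexOrder

section main

variable {Λ : Type} [Group Λ] {u : ℤ → (Ell2 Λ →L[ℂ] Ell2 Λ)}

/-- A representation of the integers by partial isometries in the corner of `u 0`. -/
structure PU (u : ℤ → (Ell2 Λ →L[ℂ] Ell2 Λ)) : Prop where
  add : ∀ m n, u (m + n) = u m * u n
  st : ∀ n, star (u n) = u (-n)
  comm : ∀ n s, u n * rho s = rho s * u n

theorem PU.add_apply (h : PU u) (m n : ℤ) (a : Ell2 Λ) : u m (u n a) = u (m + n) a := by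
  rw [h.add]; rfl

theorem PU.norm_eq (h : PU u) (n : ℤ) (a : Ell2 Λ) : ‖u n a‖ = ‖u 0 a‖ := by
  have key : ∀ n, ⟪u n a, u n a⟫_ℂ = ⟪u 0 a, a⟫_ℂ := by
    intro n
    have h2 := star_apply_inner (u n) (u n a) a
    rw [h.st, h.add_apply, neg_add_cancel] at h2
    exact h2.symm
  have h1 : ⟪u n a, u n a⟫_ℂ = ⟪u 0 a, u 0 a⟫_ℂ := by rw [key, key]
  rw [inner_self_eq_norm_sq_to_K, inner_self_eq_norm_sq_to_K] at h1
  have h2 : ‖u n a‖ ^ 2 = ‖u 0 a‖ ^ 2 := by exact_mod_cast h1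
  exact (pow_left_inj₀ (norm_nonneg _) (norm_nonneg _) two_ne_zero).1 h2

theorem PU.norm_le (h : PU u) (n : ℤ) (a : Ell2 Λ) : ‖u n a‖ ≤ ‖a‖ := by
  rw [h.norm_eq]
  have h2 := star_apply_inner (u 0) (u 0 a) a
  rw [h.st, h.add_apply, neg_zero, add_zero] at h2
  have h3 : ‖u 0 a‖ ^ 2 ≤ ‖u 0 a‖ * ‖a‖ := by
    have h4 : ((‖u 0 a‖ ^ 2 : ℝ) : ℂ) = ⟪u 0 a, a⟫_ℂ := by
      rw [h2, inner_self_eq_norm_sq_to_K]
      push_cast
      rfl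
    have h5 := norm_inner_le_norm (𝕜 := ℂ) (u 0 a) a
    rw [← h4, Complex.norm_real, Real.norm_of_nonneg (by positivity)] at h5
    exact h5
  by_cases h0 : ‖u 0 a‖ = 0
  · rw [h0]; exact norm_nonneg _
  · have h6 : 0 < ‖u 0 a‖ := lt_of_le_of_ne (norm_nonneg _) (Ne.symm h0)
    rw [sq] at h3
    exact le_of_mul_le_mul_left h3 h6

theorem opNorm_tens_le {X Y X' Y' : Type} (A : Ell2 X →L[ℂ] Ell2 X') (B : Ell2 Y →L[ℂ] Ell2 Y')
    (hA : ‖A‖ ≤ 1) (hB : ‖B‖ ≤ 1) : ‖tens A B‖ ≤ 1 := by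
  have hsw : ∀ {X Y : Type} (f : Ell2 (X × Y)), ‖sw f‖ = ‖f‖ := fun f => norm_rei _ f
  have hR : ∀ f, ‖ampR X B f‖ ≤ 1 * ‖f‖ := fun f =>
    (norm_ampF_le B f).trans (by gcongr)
  have hR' : ∀ f, ‖ampR Y' A f‖ ≤ 1 * ‖f‖ := fun f =>
    (norm_ampF_le A f).trans (by gcongr)
  refine opNorm_le_bound _ zero_le_one fun f => ?_
  change ‖sw (ampR Y' A (sw (ampR X B f)))‖ ≤ _
  rw [hsw]
  refine (hR' _).trans ?_
  rw [hsw, one_mul]
  exact hR f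

theorem opNorm_bar_le {X Y : Type} (S : Ell2 X →L[ℂ] Ell2 Y) : ‖bar S‖ ≤ ‖S‖ :=
  LinearMap.mkContinuous_norm_le _ (norm_nonneg _) _

theorem PU.opNorm_le (h : PU u) (n : ℤ) : ‖u n‖ ≤ 1 :=
  opNorm_le_bound _ zero_le_one fun v => by rw [one_mul]; exact h.norm_le n v

theorem tri_eq (a : Ell2 Λ) : tri a = tv a (tv (cj a) a) := by
  apply ext_inner_dl
  rintro ⟨b, c, d⟩
  rfl

/-- The form `B_j(a, ζ) = ⟨cub (u^{-j} a), u^{-j} ζ⟩`. -/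
noncomputable def BB (u : ℤ → (Ell2 Λ →L[ℂ] Ell2 Λ)) (j : ℤ) (a ζ : Ell2 Λ) : ℂ :=
  ⟪cub (u (-j) a), u (-j) ζ⟫_ℂ

theorem exists_T (h : PU u) (j : ℤ) :
    ∃ T : Ell2 Λ →L[ℂ] Ell2 (Λ × Λ × Λ), (∀ a, ‖T a‖ ≤ ‖a‖) ∧
      ∀ a ζ : Ell2 Λ, ⟪tri a, T ζ⟫_ℂ = BB u j a ζ := by
  refine ⟨tens (u j) (tens (bar (u j)) (u j)) ∘L T0 Λ ∘L u (-j), fun a => ?_, fun a ζ => ?_⟩
  · have h1 : ‖tens (u j) (tens (bar (u j)) (u j))‖ ≤ 1 :=
      opNorm_tens_le _ _ (h.opNorm_le j) (opNorm_tens_le _ _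
        ((opNorm_bar_le _).trans (h.opNorm_le j)) (h.opNorm_le j))
    rw [comp_apply, comp_apply]
    calc _ ≤ 1 * ‖T0 Λ (u (-j) a)‖ := le_of_opNorm_le _ h1 _
      _ ≤ ‖a‖ := by rw [one_mul, norm_T0]; exact h.norm_le _ _
  · rw [comp_apply, comp_apply, ← adjoint_inner_left, adjoint_tens, adjoint_tens, adjoint_bar,
      ← star_eq_adjoint, h.st, tri_eq, tens_tv, tens_tv, bar_cj, ← adjoint_inner_left]
    congr 1
    apply ext_inner_dl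
    intro s
    rw [T0_adj_apply]
    rfl

theorem BB_bound (h : PU u) (j : ℤ) (a ζ : Ell2 Λ) :
    ‖BB u j a ζ‖ ≤ ‖a‖ ^ 3 * ‖ζ‖ := by
  obtain ⟨T, h1, h2⟩ := exists_T h j
  rw [← h2]
  refine (norm_inner_le_norm _ _).trans ?_
  rw [H108.norm_tri]
  have := h1 ζ
  gcongr

theorem BB_shift (h : PU u) (j k : ℤ) (a ζ : Ell2 Λ) :
    BB u (j + k) (u k a) (u k ζ) = BB u j a ζ := by
  have h1 : ∀ b : Ell2 Λ, u (-(j + k)) (u k b) = u (-j) b := by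
    intro b
    rw [h.add_apply]
    congr 2
    ring
  rw [BB, h1, h1, BB]

theorem cub_rho (s : Λ) (a : Ell2 Λ) : cub (rho s a) = rho s (cub a) := by
  apply ext_inner_dl
  intro x
  rw [cub_apply, rho_apply, rho_apply, cub_apply]

theorem BB_rho (h : PU u) (j : ℤ) (s : Λ) (a ζ : Ell2 Λ) :
    BB u j (rho s a) (rho s ζ) = BB u j a ζ := by
  have h1 : ∀ b : Ell2 Λ, u (-j) (rho s b) = rho s (u (-j) b) := fun b =>
    DFunLike.congr_fun (h.comm (-j) s) b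
  rw [BB, h1, h1, cub_rho, inner_rho, BB]

theorem BB_zero_right (h : PU u) (j : ℤ) (a ζ : Ell2 Λ) : BB u j a (u 0 ζ) = BB u j a ζ := by
  rw [BB, h.add_apply, add_zero, BB]

/-- The key construction. -/
theorem exists_vectors (h : PU u) (U : Ultrafilter ℕ) (hU : (U : Filter ℕ) ≤ atTop) :
    ∃ (η : Ell2 Λ) (ξ : Ell2 (Λ × Λ × Λ)),
      Tendsto (fun N : ℕ => (N : ℂ)⁻¹ * ∑ j ∈ Finset.range N, BB u (j + 1) (dl 1) (dl 1)) U
        (𝓝 ⟪η, dl 1⟫_ℂ) ∧ u 0 η = η ∧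
      ∀ (k : ℤ) (s : Λ), (u k η) s = ⟪ξ, tri (u k (dl s⁻¹))⟫_ℂ := by
  have hn1 : ‖(dl 1 : Ell2 Λ)‖ = 1 := norm_dl 1
  choose T hT1 hT2 using fun j => exists_T h j
  obtain ⟨ηN, hηN⟩ : ∃ ηN : ℕ → Ell2 Λ, ηN = fun N : ℕ => (N : ℂ)⁻¹ •
    ∑ j ∈ Finset.range N, u ((j : ℤ) + 1) (cub (u (-((j : ℤ) + 1)) (dl 1))) := ⟨_, rfl⟩
  obtain ⟨ξN, hξN⟩ : ∃ ξN : ℕ → Ell2 (Λ × Λ × Λ), ξN = fun N : ℕ => (N : ℂ)⁻¹ •
    ∑ j ∈ Finset.range N, T ((j : ℤ) + 1) (dl 1) := ⟨_, rfl⟩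
  have hbd : ∀ {E : Type} [NormedAddCommGroup E] [NormedSpace ℂ E] (v : ℕ → E),
      (∀ j, ‖v j‖ ≤ 1) → ∀ N : ℕ, ‖(N : ℂ)⁻¹ • ∑ j ∈ Finset.range N, v j‖ ≤ 1 := by
    intro E _ _ v hv N
    rw [norm_smul, norm_inv, Complex.norm_natCast]
    rcases Nat.eq_zero_or_pos N with h | h
    · subst h; simp
    · have h1 : ‖∑ j ∈ Finset.range N, v j‖ ≤ N := by
        refine (norm_sum_le _ _).trans ?_
        refine (Finset.sum_le_sum fun j _ => hv j).trans ?_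
        simp
      have h2 : (0 : ℝ) < N := by exact_mod_cast h
      rw [inv_mul_le_iff₀ h2, mul_one]
      exact h1
  have hη1 : ∀ N, ‖ηN N‖ ≤ 1 := by
    intro N
    rw [hηN]
    refine hbd _ (fun j => ?_) N
    refine (h.norm_le _ _).trans ?_
    refine (H108.norm_cub_le _).trans ?_
    have h3 := h.norm_le (-((j : ℤ) + 1)) (dl 1)
    rw [hn1] at h3
    exact pow_le_one₀ (norm_nonneg _) h3
  have hξ1 : ∀ N, ‖ξN N‖ ≤ 1 := by
    intro N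
    rw [hξN]
    refine hbd _ (fun j => ?_) N
    exact (hT1 _ _).trans hn1.le
  obtain ⟨η, hη⟩ := H108.exists_weak_limit U ηN 1 hη1
  obtain ⟨ξ, hξ⟩ := H108.exists_weak_limit U ξN 1 hξ1
  have hηi : ∀ N ζ, ⟪ηN N, ζ⟫_ℂ =
      (N : ℂ)⁻¹ * ∑ j ∈ Finset.range N, BB u ((j : ℤ) + 1) (dl 1) ζ := by
    intro N ζ
    rw [hηN]
    simp only [inner_smul_left, sum_inner, map_inv₀, map_natCast]
    congr 1
    refine Finset.sum_congr rfl fun j _ => ?_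
    have h1 := star_apply_inner (u (-((j : ℤ) + 1))) (cub (u (-((j : ℤ) + 1)) (dl 1))) ζ
    rw [h.st, neg_neg] at h1
    rw [h1, BB]
  have hξi : ∀ N a, ⟪tri a, ξN N⟫_ℂ =
      (N : ℂ)⁻¹ * ∑ j ∈ Finset.range N, BB u ((j : ℤ) + 1) a (dl 1) := by
    intro N a
    rw [hξN]
    simp only [inner_smul_right, inner_sum, hT2]
  have hη' : ∀ ζ, Tendsto (fun N : ℕ => (N : ℂ)⁻¹ * ∑ j ∈ Finset.range N,
      BB u ((j : ℤ) + 1) (dl 1) ζ) U (𝓝 ⟪η, ζ⟫_ℂ) := by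
    intro ζ
    have h1 := (Complex.continuous_conj.tendsto _).comp (hη ζ)
    rw [inner_conj_symm] at h1
    refine h1.congr fun N => ?_
    rw [Function.comp_apply, inner_conj_symm, hηi]
  have h0 : ∀ (k : ℤ) (s : Λ), (u k η) s = (starRingEnd ℂ) ⟪η, u (-k) (dl s)⟫_ℂ := by
    intro k s
    rw [inner_conj_symm, ← inner_dl]
    have := star_apply_inner (u k) (dl s) η
    rw [h.st] at this
    exact this.symm
  refine ⟨η, ξ, hη' (dl 1), ?_, fun k s => ?_⟩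
  · apply ext_inner_dl
    intro s
    rw [h0, neg_zero]
    have h1 : ⟪η, u 0 (dl s)⟫_ℂ = ⟪η, dl s⟫_ℂ := by
      refine tendsto_nhds_unique (hη' _) ?_
      simp only [BB_zero_right h]
      exact hη' _
    rw [h1, inner_dl_right, Complex.conj_conj]
  have h1 := h0 k s
  rw [h1, ← inner_conj_symm ξ]
  congr 1
  refine tendsto_nhds_unique (hη' _) ?_
  have h2 : ∀ j : ℤ, BB u j (dl 1) (u (-k) (dl s)) = BB u (j + k) (u k (dl 1)) (dl s) := by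
    intro j
    rw [← BB_shift h j k, h.add_apply, add_neg_cancel, BB_zero_right h]
  have h3 : ∀ j : ℤ, BB u j (u k (dl s⁻¹)) (dl 1) = BB u j (u k (dl 1)) (dl s) := by
    intro j
    rw [← BB_rho h j s (u k (dl 1)) (dl s)]
    have h4 : rho s (u k (dl 1)) = u k (rho s (dl 1)) :=
      (DFunLike.congr_fun (h.comm k s) (dl 1)).symm
    rw [h4, rho_dl, rho_dl, one_mul, mul_inv_cancel]
  obtain ⟨g, hg⟩ : ∃ g : ℤ → ℂ, g = fun j => BB u (j + 1) (u k (dl 1)) (dl s) := ⟨_, rfl⟩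
  have hgb : ∀ j, ‖g j‖ ≤ 1 := by
    intro j
    rw [hg]
    refine (BB_bound h _ _ _).trans ?_
    rw [norm_dl, mul_one]
    have h3 := h.norm_le k (dl 1)
    rw [hn1] at h3
    exact pow_le_one₀ (norm_nonneg _) h3
  obtain ⟨D, hD⟩ := H108.shift_bound g 1 hgb k
  have h5 := (H108.tendsto_avg_zero hD).mono_left hU
  have h6 := (hξ (tri (u k (dl s⁻¹)))).add h5
  rw [add_zero] at h6
  refine h6.congr fun N => ?_
  rw [hξi]
  simp only [h3, h2]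
  rw [mul_sub, hg]
  have h7 : ∀ j : ℕ, (j : ℤ) + k + 1 = (j : ℤ) + 1 + k := fun j => by ring
  simp only [h7]
  ring

theorem tsum_sum_le (f : Ell2 Λ) (hf : ‖f‖ ≤ 1) (F0 : Finset (Λ × Λ × Λ))
    (c : Λ × Λ × Λ → ℝ) (hc : ∀ x, 0 ≤ c x) :
    (Summable fun s => ∑ x ∈ F0, c x * (‖f (x.1 * s)‖ * ‖f (x.2.1 * s)‖)) ∧
      ∑' s, ∑ x ∈ F0, c x * (‖f (x.1 * s)‖ * ‖f (x.2.1 * s)‖) ≤ ∑ x ∈ F0, c x := by
  have h1 : ∀ x ∈ F0, Summable fun s => c x * (‖f (x.1 * s)‖ * ‖f (x.2.1 * s)‖) := by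
    intro x _
    exact (H108.summable_prod_shift f x.1 x.2.1).1.mul_left (c x)
  refine ⟨summable_sum h1, ?_⟩
  have h2 := Summable.tsum_finsetSum h1
  rw [h2]
  refine Finset.sum_le_sum fun x _ => ?_
  rw [tsum_mul_left]
  have h5 := (H108.summable_prod_shift f x.1 x.2.1).2
  have h7 : ‖f‖ ^ 2 ≤ 1 := pow_le_one₀ (norm_nonneg _) hf
  have h6 := hc x
  calc c x * ∑' s, ‖f (x.1 * s)‖ * ‖f (x.2.1 * s)‖ ≤ c x * 1 := by
        gcongr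
        exact h5.trans h7
    _ = c x := mul_one _

/-- The family `s ↦ tri (u k δ_{s⁻¹})` is a Bessel family. -/
theorem bes_tri (h : PU u) (k : ℤ) : Bes 1 fun s : Λ => tri (u k (dl s⁻¹)) := by
  set A : Ell2 (Λ × Λ × Λ) →L[ℂ] Ell2 (Λ × Λ × Λ) := tens (u k) (tens (bar (u k)) (u k)) with hA
  have hA1 : ‖A‖ ≤ 1 := opNorm_tens_le _ _ (h.opNorm_le k) (opNorm_tens_le _ _
        ((opNorm_bar_le _).trans (h.opNorm_le k)) (h.opNorm_le k))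
  set e : Λ ≃ Λ := Equiv.inv Λ with he
  have h1 : (fun s : Λ => tri (u k (dl s⁻¹))) = fun s => (A ∘L T0 Λ ∘L rei e) (dl s) := by
    funext s
    rw [comp_apply, comp_apply, rei_dl, T0_dl, hA, tens_dl, tens_dl, bar_dl, tri_eq]
    rfl
  rw [h1]
  refine (bes_of_op (A ∘L T0 Λ ∘L rei e)).mono (norm_nonneg _) ?_
  refine opNorm_le_bound _ zero_le_one fun v => ?_
  rw [comp_apply, comp_apply]
  refine (le_of_opNorm_le _ hA1 _).trans ?_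
  rw [norm_T0, norm_rei]

theorem tight_of_vectors (h : PU u) {η : Ell2 Λ} {ξ : Ell2 (Λ × Λ × Λ)}
    (hη : ∀ (k : ℤ) (s : Λ), (u k η) s = ⟪ξ, tri (u k (dl s⁻¹))⟫_ℂ) :
    H108.TightSet (Set.range fun k : ℤ => u k η) := by
  classical
  intro ε hε
  -- finite approximation of `ξ`
  obtain ⟨F0, hF0⟩ : ∃ F0 : Finset (Λ × Λ × Λ),
      ‖ξ - ∑ x ∈ F0, lp.single 2 x (ξ x)‖ ≤ ε / 2 :=
    H108.exists_finset_approx (lp.hasSum_single (p := 2) (by norm_num) ξ) (half_pos hε)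
  obtain ⟨ξ0, hξ0⟩ : ∃ ξ0 : Ell2 (Λ × Λ × Λ), ξ0 = ∑ x ∈ F0, lp.single 2 x (ξ x) := ⟨_, rfl⟩
  rw [← hξ0] at hF0
  have hinn : ∀ a, ⟪ξ0, tri a⟫_ℂ = ∑ x ∈ F0, (starRingEnd ℂ) (ξ x) * tri a x := by
    intro a
    rw [hξ0, sum_inner]
    refine Finset.sum_congr rfl fun x _ => ?_
    rw [lp.inner_single_left, RCLike.inner_apply, mul_comm]
  obtain ⟨A, hA⟩ : ∃ A : ℝ, A = ∑ x ∈ F0, ‖ξ x‖ := ⟨_, rfl⟩
  have hA0 : 0 ≤ A := by rw [hA]; exact Finset.sum_nonneg fun _ _ => norm_nonneg _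
  obtain ⟨δ, hδ⟩ : ∃ δ : ℝ, δ = (ε / 2) ^ 2 / (A + 1) := ⟨_, rfl⟩
  have hδ0 : 0 < δ := by rw [hδ]; positivity
  refine ⟨⌊A / δ⌋₊, ?_⟩
  rintro _ ⟨k, rfl⟩
  obtain ⟨f, hf⟩ : ∃ f : Ell2 Λ, f = u k (dl 1) := ⟨_, rfl⟩
  have hfn : ‖f‖ ≤ 1 := by
    rw [hf]
    refine (h.norm_le k _).trans ?_
    rw [norm_dl]
  have hfs : ∀ s : Λ, u k (dl s⁻¹) = rho s f := by
    intro s
    have h4 : rho s (u k (dl 1)) = u k (rho s (dl 1)) :=
      (DFunLike.congr_fun (h.comm k s) (dl 1)).symm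
    rw [hf, h4, rho_dl, one_mul]
  have htri : ∀ (s : Λ) (x : Λ × Λ × Λ), ‖tri (u k (dl s⁻¹)) x‖ ≤
      ‖f (x.1 * s)‖ * ‖f (x.2.1 * s)‖ := by
    intro s x
    rw [hfs, tri_apply, norm_mul, norm_mul, RCLike.norm_conj, rho_apply, rho_apply, rho_apply]
    have h5 : ‖f (x.2.2 * s)‖ ≤ 1 := (norm_coord_le _ _).trans hfn
    have h6 := norm_nonneg (f (x.2.1 * s))
    have h7 := norm_nonneg (f (x.1 * s))
    gcongr
    nlinarith
  have hh1 : ∀ s, ‖⟪ξ0, tri (u k (dl s⁻¹))⟫_ℂ‖ ≤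
      ∑ x ∈ F0, ‖ξ x‖ * (‖f (x.1 * s)‖ * ‖f (x.2.1 * s)‖) := by
    intro s
    rw [hinn]
    refine (norm_sum_le _ _).trans (Finset.sum_le_sum fun x _ => ?_)
    rw [norm_mul, RCLike.norm_conj]
    gcongr
    exact htri s x
  obtain ⟨hh2, hh5⟩ := tsum_sum_le f hfn F0 (fun x => ‖ξ x‖) (fun x => norm_nonneg _)
  have hh3 : Summable fun s => ‖⟪ξ0, tri (u k (dl s⁻¹))⟫_ℂ‖ :=
    Summable.of_nonneg_of_le (fun _ => norm_nonneg _) hh1 hh2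
  have hh4 : ∑' s, ‖⟪ξ0, tri (u k (dl s⁻¹))⟫_ℂ‖ ≤ A := by
    rw [hA]
    exact (Summable.tsum_le_tsum hh1 hh3 hh2).trans hh5
  have hbes := bes_tri h k
  have hsym : ∀ s : Λ, ‖⟪ξ - ξ0, tri (u k (dl s⁻¹))⟫_ℂ‖ ^ 2 =
      ‖⟪tri (u k (dl s⁻¹)), ξ - ξ0⟫_ℂ‖ ^ 2 := fun s => by rw [norm_inner_symm]
  have hg1 : Summable fun s => ‖⟪ξ - ξ0, tri (u k (dl s⁻¹))⟫_ℂ‖ ^ 2 := by
    simp only [hsym]
    exact hbes.summable (ξ - ξ0)
  have hg2 : ∑' s, ‖⟪ξ - ξ0, tri (u k (dl s⁻¹))⟫_ℂ‖ ^ 2 ≤ (ε / 2) ^ 2 := by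
    simp only [hsym]
    refine (hbes.summable (ξ - ξ0)).tsum_le_of_sum_le fun F => ?_
    refine (hbes F (ξ - ξ0)).trans ?_
    rw [one_pow, one_mul]
    gcongr
  obtain ⟨F, ζ, hF, hζ1, hζ2⟩ := H108.sparse_approx (u k η)
    (fun s => ⟪ξ0, tri (u k (dl s⁻¹))⟫_ℂ) (fun s => ⟪ξ - ξ0, tri (u k (dl s⁻¹))⟫_ℂ)
    (fun s => by rw [hη, ← inner_add_left, add_sub_cancel]) A hh3 hh4 hδ0 hg1
    (half_pos hε).le hg2
  refine ⟨F, ζ, hF, hζ1, hζ2.trans ?_⟩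
  have h7 : Real.sqrt (δ * A) ≤ ε / 2 := by
    rw [Real.sqrt_le_iff]
    refine ⟨(half_pos hε).le, ?_⟩
    rw [hδ, div_mul_eq_mul_div, div_le_iff₀ (by positivity)]
    have : 0 ≤ (ε / 2) ^ 2 := by positivity
    nlinarith
  linarith

theorem pow_four_le (h : PU u) (n : ℤ) (x : Λ) :
    ‖(u n (dl 1)) x‖ ^ 4 ≤ (BB u n (dl 1) (dl 1)).re := by
  obtain ⟨v, hv⟩ : ∃ v : Ell2 Λ, v = u (-n) (dl 1) := ⟨_, rfl⟩
  have h1 : ‖(u n (dl 1)) x‖ = ‖v x⁻¹‖ := by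
    rw [hv, H108.u_neg_apply h.st h.comm, inv_inv, RCLike.norm_conj]
  have h2 : ∀ y, (starRingEnd ℂ) (cub v y) * v y = ((‖v y‖ ^ 4 : ℝ) : ℂ) := by
    intro y
    have h3 : (starRingEnd ℂ) (v y) * v y = ((‖v y‖ ^ 2 : ℝ) : ℂ) := by
      rw [RCLike.conj_mul]
      norm_cast
    rw [cub_apply, map_mul, map_mul, starRingEnd_self_apply]
    calc _ = ((starRingEnd ℂ) (v y) * v y) * ((starRingEnd ℂ) (v y) * v y) := by ring
      _ = _ := by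
        rw [h3, ← Complex.ofReal_mul]
        congr 1
        ring
  have h4 : BB u n (dl 1) (dl 1) = ∑' y, ((‖v y‖ ^ 4 : ℝ) : ℂ) := by
    rw [BB, ← hv, H108.inner_eq]
    exact tsum_congr h2
  have h5 : Summable fun y => ‖v y‖ ^ 4 := by
    have := H108.summable_inner (cub v) v
    refine this.congr fun y => ?_
    rw [h2, Complex.norm_real, Real.norm_of_nonneg (by positivity)]
  rw [h1, h4, ← Complex.ofReal_tsum, Complex.ofReal_re]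
  exact h5.le_tsum x⁻¹ fun y _ => by positivity

/-- **Part (I)** in the corner. -/
theorem part_one (h : PU u)
    (hnot : ¬ Tendsto (fun N : ℕ => (∑ k ∈ Finset.range N,
      ⨆ s, ‖(u ((k : ℤ) + 1) (dl 1) : Ell2 Λ) s‖) / N) atTop (𝓝 0)) :
    ∃ ξ : Ell2 Λ, ξ ≠ 0 ∧ u 0 ξ = ξ ∧ H108.TightSet (Set.range fun k : ℤ => u k ξ) := by
  obtain ⟨a, ha⟩ : ∃ a : ℕ → ℝ, a = fun k : ℕ => ⨆ s, ‖(u ((k : ℤ) + 1) (dl 1) : Ell2 Λ) s‖ :=
    ⟨_, rfl⟩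
  have ha0 : ∀ k, 0 ≤ a k := fun k => by
    rw [ha]
    exact Real.iSup_nonneg fun s => norm_nonneg _
  have ha4 : ∀ k : ℕ, a k ^ 4 ≤ (BB u ((k : ℤ) + 1) (dl 1) (dl 1)).re := by
    intro k
    obtain ⟨b, hb⟩ : ∃ b, b = (BB u ((k : ℤ) + 1) (dl 1) (dl 1)).re := ⟨_, rfl⟩
    have h1 : ∀ s, ‖(u ((k : ℤ) + 1) (dl 1) : Ell2 Λ) s‖ ^ 4 ≤ b := fun s => by
      rw [hb]
      exact pow_four_le h _ s
    have hb0 : 0 ≤ b := (by positivity : (0 : ℝ) ≤ _).trans (h1 1)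
    obtain ⟨c, hc⟩ : ∃ c, c = b ^ (1 / 4 : ℝ) := ⟨_, rfl⟩
    have hc0 : 0 ≤ c := by rw [hc]; positivity
    have hc4 : c ^ 4 = b := by
      rw [hc, ← Real.rpow_natCast, ← Real.rpow_mul hb0]
      norm_num
    have h2 : a k ≤ c := by
      rw [ha]
      refine ciSup_le fun s => ?_
      refine (pow_le_pow_iff_left₀ (norm_nonneg _) hc0 (n := 4) (by norm_num)).1 ?_
      rw [hc4]
      exact h1 s
    rw [← hb, ← hc4]
    have := ha0 k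
    gcongr
  obtain ⟨ε, hε, hfr⟩ : ∃ ε > 0, ∃ᶠ N : ℕ in atTop, ε ≤ (∑ k ∈ Finset.range N, a k) / N := by
    by_contra hcon
    push Not at hcon
    refine hnot ?_
    rw [Metric.tendsto_atTop]
    intro ε hε
    have h1 := hcon ε hε
    rw [eventually_atTop] at h1
    obtain ⟨N0, hN0⟩ := h1
    refine ⟨N0, fun N hN => ?_⟩
    have h2 := hN0 N hN
    rw [ha] at h2
    rw [Real.dist_eq, sub_zero, abs_of_nonneg]
    · exact h2
    · refine div_nonneg (Finset.sum_nonneg fun k _ => ?_) (Nat.cast_nonneg _)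
      exact Real.iSup_nonneg fun s => norm_nonneg _
  obtain ⟨S, hS⟩ : ∃ S : Set ℕ, S = {N : ℕ | ε ≤ (∑ k ∈ Finset.range N, a k) / N} := ⟨_, rfl⟩
  have hne : (atTop ⊓ 𝓟 S : Filter ℕ).NeBot := by
    rw [← frequently_mem_iff_neBot, hS]
    exact hfr
  obtain ⟨U, hU⟩ : ∃ U : Ultrafilter ℕ, (U : Filter ℕ) ≤ atTop ⊓ 𝓟 S :=
    ⟨Ultrafilter.of (atTop ⊓ 𝓟 S), Ultrafilter.of_le _⟩
  have hUS : ∀ᶠ N in (U : Filter ℕ), N ∈ S := (hU.trans inf_le_right) (mem_principal_self S)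
  obtain ⟨η, ξ, h1, hproj, h2⟩ := exists_vectors h U (hU.trans inf_le_left)
  refine ⟨η, ?_, hproj, tight_of_vectors h h2⟩
  intro hη
  have h3 := (Complex.continuous_re.tendsto _).comp h1
  rw [hη, inner_zero_left, Complex.zero_re] at h3
  have h4 : ε ^ 4 ≤ 0 := by
    refine ge_of_tendsto h3 ?_
    filter_upwards [hUS] with N hN
    rw [hS] at hN
    change ε ≤ (∑ k ∈ Finset.range N, a k) / N at hN
    have hN0 : 0 < (N : ℝ) := by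
      rcases Nat.eq_zero_or_pos N with h | h
      · subst h
        simp at hN
        linarith
      · exact_mod_cast h
    rw [le_div_iff₀ hN0] at hN
    have h5 : ((N : ℂ)⁻¹ * ∑ j ∈ Finset.range N, BB u ((j : ℤ) + 1) (dl 1) (dl 1)).re =
        (N : ℝ)⁻¹ * ∑ j ∈ Finset.range N, (BB u ((j : ℤ) + 1) (dl 1) (dl 1)).re := by
      rw [← Complex.re_sum, ← Complex.ofReal_natCast, ← Complex.ofReal_inv, Complex.re_ofReal_mul]
    rw [Function.comp_apply, h5, ← div_eq_inv_mul, le_div_iff₀ hN0]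
    calc ε ^ 4 * N ≤ 4 * ε ^ 3 * (∑ k ∈ Finset.range N, a k) - 3 * ε ^ 4 * N := by
          have : 0 < ε ^ 3 := by positivity
          nlinarith
      _ = ∑ k ∈ Finset.range N, (4 * ε ^ 3 * a k - 3 * ε ^ 4) := by
          rw [Finset.sum_sub_distrib, ← Finset.mul_sum]
          simp
          ring
      _ ≤ ∑ k ∈ Finset.range N, a k ^ 4 := by
          refine Finset.sum_le_sum fun k _ => ?_
          have h6 : 0 ≤ (a k - ε) ^ 2 * (a k ^ 2 + 2 * a k * ε + 3 * ε ^ 2) := by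
            have := ha0 k
            positivity
          nlinarith
      _ ≤ _ := Finset.sum_le_sum fun k _ => ha4 k
  have : 0 < ε ^ 4 := by positivity
  linarith

end main

end Vale.Agent.P092.R2.H289
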