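import Vale.Agent.P092.H160.Cube
import Vale.Agent.P092.R2.H289.CornerOne

/-!
Cubic intertwiners for corner representations: `α(1)` may be a projection.
-/

set_option linter.all false

open scoped InnerProductSpace
open Filter Topology ContinuousLinearMap

namespace Vale.Agent.P092.R2.H289
open Vale.Agent.P092.H160

section cubic

variable {Γ Λ : Type} [Group Γ] [Group Λ]

/-- A representation by partial isometries in a corner, commuting with right translations. -/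
structure CF (α : Γ → (Ell2 Λ →L[ℂ] Ell2 Λ)) : Prop where
  mul : ∀ g h, α (g * h) = α g * α h
  adj : ∀ g, adjoint (α g) = α g⁻¹
  comm : ∀ g s, α g * rho s = rho s * α g

variable {α : Γ → (Ell2 Λ →L[ℂ] Ell2 Λ)}

theorem CF.mul_apply (hα : CF α) (g h : Γ) (v : Ell2 Λ) : α g (α h v) = α (g * h) v := by
  rw [hα.mul]; rfl

theorem CF.apply_comm (hα : CF α) (g : Γ) (s : Λ) (v : Ell2 Λ) :
    α g (rho s v) = rho s (α g v) := congrArg (fun T : Ell2 Λ →L[ℂ] Ell2 Λ => T v) (hα.comm g s)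

theorem CF.cmm_rho (hα : CF α) (g : Γ) : Cmm rhoH (α g) := fun s => hα.comm g s

theorem CF.pu (hα : CF α) (x : Γ) : PU (fun k : ℤ => α (x ^ k)) where
  add m n := by rw [zpow_add, hα.mul]
  st n := by rw [star_eq_adjoint, hα.adj, zpow_neg]
  comm n s := hα.comm _ s

theorem CF.norm_le (hα : CF α) (g : Γ) (v : Ell2 Λ) : ‖α g v‖ ≤ ‖v‖ := by
  have := (hα.pu g).norm_le 1 v
  simpa using this

theorem CF.opNorm_le (hα : CF α) (g : Γ) : ‖α g‖ ≤ 1 :=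
  opNorm_le_bound _ zero_le_one fun v => by rw [one_mul]; exact hα.norm_le g v

theorem CF.inner_left (hα : CF α) (g : Γ) (u v : Ell2 Λ) : ⟪α g u, v⟫_ℂ = ⟪u, α g⁻¹ v⟫_ℂ := by
  rw [← hα.adj, adjoint_inner_right]

variable (α) in
/-- `α ⊗ conj α ⊗ α`. -/
noncomputable def A3c (g : Γ) : Ell2 (Λ × Λ × Λ) →L[ℂ] Ell2 (Λ × Λ × Λ) :=
  tens (α g) (tens (bar (α g)) (α g))

theorem A3c_apply (g : Γ) : A3c α g = tens (α g) (tens (bar (α g)) (α g)) := rfl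

theorem A3c_mul (hα : CF α) (g h : Γ) : A3c α (g * h) = A3c α g * A3c α h := by
  rw [A3c, A3c, A3c, hα.mul, bar_mul, tens_mul, tens_mul]

theorem A3c_adj (hα : CF α) (g : Γ) : adjoint (A3c α g) = A3c α g⁻¹ := by
  rw [A3c, adjoint_tens, adjoint_tens, adjoint_bar, hα.adj, A3c]

theorem barc_comm_rho (hα : CF α) (g : Γ) (s : Λ) :
    bar (α g) * rho s = rho s * bar (α g) := by
  rw [← bar_rho s, ← bar_mul, ← bar_mul, hα.comm]

theorem A3c_comm (hα : CF α) (g : Γ) (x : Λ × Λ × Λ) :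
    A3c α g * rho x = rho x * A3c α g := by
  obtain ⟨a, b, c⟩ := x
  rw [A3c, ← tens_rho, ← tens_rho, ← tens_mul, ← tens_mul, ← tens_mul, ← tens_mul,
    hα.comm, hα.comm, barc_comm_rho hα]

theorem A3c_opNorm (hα : CF α) (g : Γ) : ‖A3c α g‖ ≤ 1 :=
  opNorm_tens_le _ _ (hα.opNorm_le g) (opNorm_tens_le _ _
    ((opNorm_bar_le _).trans (hα.opNorm_le g)) (hα.opNorm_le g))

theorem A3c_norm (hα : CF α) (g : Γ) (w : Ell2 (Λ × Λ × Λ)) : ‖A3c α g w‖ ≤ ‖w‖ := by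
  have := le_of_opNorm_le _ (A3c_opNorm hα g) w
  rwa [one_mul] at this

variable (α) in
/-- `T_g`. -/
noncomputable def Tgc (g : Γ) : Ell2 Λ →L[ℂ] Ell2 (Λ × Λ × Λ) := A3c α g ∘L T0 Λ ∘L α g⁻¹

theorem norm_Tgc_apply (hα : CF α) (g : Γ) (v : Ell2 Λ) : ‖Tgc α g v‖ ≤ ‖v‖ := by
  change ‖A3c α g (T0 Λ (α g⁻¹ v))‖ ≤ _
  refine (A3c_norm hα g _).trans ?_
  rw [norm_T0]
  exact hα.norm_le _ _

theorem norm_Tgc_le (hα : CF α) (g : Γ) : ‖Tgc α g‖ ≤ 1 :=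
  opNorm_le_bound _ zero_le_one fun v => by rw [one_mul]; exact norm_Tgc_apply hα g v

theorem Tgc_rho (hα : CF α) (g : Γ) (s : Λ) (v : Ell2 Λ) :
    Tgc α g (rho s v) = rho (ι3 s) (Tgc α g v) := by
  change A3c α g (T0 Λ (α g⁻¹ (rho s v))) = rho (ι3 s) (A3c α g (T0 Λ (α g⁻¹ v)))
  rw [hα.apply_comm, T0_rho, ← mul_ap, A3c_comm hα]
  rfl

theorem Tgc_one (hα : CF α) (g : Γ) (v : Ell2 Λ) : Tgc α g (α 1 v) = Tgc α g v := by
  change A3c α g (T0 Λ (α g⁻¹ (α 1 v))) = A3c α g (T0 Λ (α g⁻¹ v))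
  rw [hα.mul_apply, mul_one]

theorem Tgc_coord (hα : CF α) (g : Γ) (a b c d : Λ) : Tgc α g (dl a) (b, c, d) =
    ∑' s, (α g⁻¹ (dl a)) s * (starRingEnd ℂ) ((α g⁻¹ (dl b)) s) * (α g⁻¹ (dl c)) s *
      (starRingEnd ℂ) ((α g⁻¹ (dl d)) s) := by
  rw [← inner_dl]
  change ⟪dl (b, c, d), A3c α g (T0 Λ (α g⁻¹ (dl a)))⟫_ℂ = _
  rw [← adjoint_inner_left, A3c_adj hα, ← adjoint_inner_left, inner_eq]
  congr 1
  funext s
  rw [T0_adj_apply, A3c_apply, tens_dl, tens_dl, tv_apply, tv_apply, bar_dl, cj_apply, map_mul,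
    map_mul, Complex.conj_conj]
  ring

/-- Bounded equivariant operators with a positive corner. -/
structure GoodC (p : Ell2 Λ →L[ℂ] Ell2 Λ) (c : ℝ) (T : Ell2 Λ →L[ℂ] Ell2 (Λ × Λ × Λ)) : Prop where
  norm_le : ‖T‖ ≤ 1
  rho_map : ∀ s v, T (rho s v) = rho (ι3 s) (T v)
  proj : ∀ v, T (p v) = T v
  pos : c ≤ (T (dl 1) (1, 1, 1)).re

/-- `∑_s |(α(g) δ_e)(s)|^4`. -/
noncomputable def p4c (α : Γ → (Ell2 Λ →L[ℂ] Ell2 Λ)) (g : Γ) : ℝ :=
  ∑' s, ‖(α g (dl 1)) s‖ ^ 4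

theorem Tgc_corner (hα : CF α) (g : Γ) : Tgc α g (dl 1) (1, 1, 1) = (p4c α g⁻¹ : ℂ) := by
  rw [Tgc_coord hα, p4c, Complex.ofReal_tsum]
  congr 1
  funext s
  set z := (α g⁻¹ (dl 1)) s
  rw [mul_assoc, Complex.mul_conj, Complex.normSq_eq_norm_sq]
  push_cast
  ring

theorem goodC_Tg (hα : CF α) {c : ℝ} (hc : ∀ g, c ≤ p4c α g) (g : Γ) :
    GoodC (α 1) c (Tgc α g) where
  norm_le := norm_Tgc_le hα g
  rho_map := Tgc_rho hα g
  proj := Tgc_one hα g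
  pos := by
    rw [Tgc_corner hα, Complex.ofReal_re]
    exact hc _

theorem cvx_goodC (p : Ell2 Λ →L[ℂ] Ell2 Λ) (c : ℝ) :
    Cvx {T : Ell2 Λ →L[ℂ] Ell2 (Λ × Λ × Λ) | GoodC p c T} := by
  intro T hT S hS x y hx hy hxy
  refine ⟨?_, fun s v => ?_, fun v => ?_, ?_⟩
  · calc ‖(x : ℂ) • T + (y : ℂ) • S‖ ≤ ‖(x : ℂ) • T‖ + ‖(y : ℂ) • S‖ := norm_add_le _ _
      _ = x * ‖T‖ + y * ‖S‖ := by
          rw [norm_smul, norm_smul, Complex.norm_real, Complex.norm_real, Real.norm_of_nonneg hx,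
            Real.norm_of_nonneg hy]
      _ ≤ x * 1 + y * 1 := by gcongr; exacts [hT.norm_le, hS.norm_le]
      _ = 1 := by linarith
  · change (x : ℂ) • T (rho s v) + (y : ℂ) • S (rho s v) = rho (ι3 s) ((x : ℂ) • T v + (y : ℂ) • S v)
    rw [hT.rho_map, hS.rho_map, map_add, map_smul, map_smul]
  · change (x : ℂ) • T (p v) + (y : ℂ) • S (p v) = (x : ℂ) • T v + (y : ℂ) • S v
    rw [hT.proj, hS.proj]
  · rw [lc_apply, Complex.add_re, Complex.re_ofReal_mul, Complex.re_ofReal_mul]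
    have h1 := hT.pos
    have h2 := hS.pos
    calc c = x * c + y * c := by rw [← add_mul, hxy, one_mul]
      _ ≤ _ := by gcongr

/-- Limits of good operators. -/
theorem goodC_closed {p : Ell2 Λ →L[ℂ] Ell2 Λ} (hp : ∀ s v, p (rho s v) = rho s (p v))
    {c : ℝ} {ω : Ell2 (Λ × Λ × Λ)}
    (h : ω ∈ closure ((fun T : Ell2 Λ →L[ℂ] Ell2 (Λ × Λ × Λ) => T (dl 1)) '' {T | GoodC p c T})) :
    ∃ T, GoodC p c T ∧ T (dl 1) = ω := by
  rw [mem_closure_iff_seq_limit] at h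
  obtain ⟨x, hx, hlim⟩ := h
  choose T hT hTx using hx
  have hTx' : ∀ n, T n (dl 1) = x n := hTx
  have hTs : ∀ s n, T n (dl s) = rho (ι3 s⁻¹) (x n) := fun s n => by
    rw [dl_eq_rho, (hT n).rho_map, hTx']
  have hlims : ∀ s, Tendsto (fun n => T n (dl s)) atTop (𝓝 (rho (ι3 s⁻¹) ω)) := by
    intro s
    simp only [hTs]
    exact ((rho (ι3 s⁻¹)).continuous.tendsto ω).comp hlim
  have hb : Bes 1 (fun s : Λ => rho (ι3 s⁻¹) ω) := by
    intro s v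
    have h1 : Tendsto (fun n => ∑ t ∈ s, ‖⟪T n (dl t), v⟫_ℂ‖ ^ 2) atTop
        (𝓝 (∑ t ∈ s, ‖⟪rho (ι3 t⁻¹) ω, v⟫_ℂ‖ ^ 2)) :=
      tendsto_finsetSum s fun t _ => (((hlims t).inner tendsto_const_nhds).norm).pow 2
    refine le_of_tendsto h1 (Eventually.of_forall fun n => ?_)
    exact ((bes_of_op (T n)).mono (norm_nonneg _) (hT n).norm_le) s v
  have hdl : ∀ s, opOf hb (dl s) = rho (ι3 s⁻¹) ω := fun s => opOf_dl hb s
  have hrm : ∀ s v, opOf hb (rho s v) = rho (ι3 s) (opOf hb v) := by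
    intro s v
    have h1 : opOf hb ∘L rho s = rho (ι3 s) ∘L opOf hb := by
      apply op_ext
      intro t
      rw [comp_apply, comp_apply, rho_dl, hdl, hdl, mul_inv_rev, inv_inv, map_mul, rho_mul]
      rfl
    exact congrArg (fun L : Ell2 Λ →L[ℂ] Ell2 (Λ × Λ × Λ) => L v) h1
  -- strong convergence
  have hstrong : ∀ v, Tendsto (fun n => T n v) atTop (𝓝 (opOf hb v)) := by
    intro v
    rw [Metric.tendsto_atTop]
    intro ε hε
    obtain ⟨F, hF⟩ := H108.exists_finset_approx (hasSum_dl v) (show 0 < ε / 4 by positivity)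
    set w := ∑ i ∈ F, v i • (dl i : Ell2 Λ) with hw
    have h2 : Tendsto (fun n => T n w) atTop (𝓝 (opOf hb w)) := by
      rw [hw]
      simp only [map_sum, map_smul]
      refine tendsto_finsetSum F fun i _ => ?_
      have := hlims i
      rw [← hdl] at this
      exact this.const_smul (v i)
    rw [Metric.tendsto_atTop] at h2
    obtain ⟨N, hN⟩ := h2 (ε / 2) (by positivity)
    refine ⟨N, fun n hn => ?_⟩
    have h3 := hN n hn
    rw [dist_eq_norm] at h3 ⊢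
    have e1 : T n v - opOf hb v = (T n (v - w)) + (T n w - opOf hb w) - opOf hb (v - w) := by
      rw [map_sub, map_sub]; abel
    have h4 : ‖T n (v - w)‖ ≤ ε / 4 := by
      refine ((T n).le_of_opNorm_le (hT n).norm_le _).trans ?_
      rw [one_mul]; exact hF
    have h5 : ‖opOf hb (v - w)‖ ≤ ε / 4 := by
      have h6 : ‖opOf hb‖ ≤ 1 := by simpa using norm_opOf_le hb
      refine ((opOf hb).le_of_opNorm_le h6 _).trans ?_
      rw [one_mul]; exact hF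
    rw [e1]
    calc _ ≤ ‖T n (v - w) + (T n w - opOf hb w)‖ + ‖opOf hb (v - w)‖ := norm_sub_le _ _
      _ ≤ (‖T n (v - w)‖ + ‖T n w - opOf hb w‖) + ‖opOf hb (v - w)‖ := by
          gcongr; exact norm_add_le _ _
      _ < ε := by linarith
  refine ⟨opOf hb, ⟨?_, hrm, fun v => ?_, ?_⟩, ?_⟩
  · simpa using norm_opOf_le hb
  · refine tendsto_nhds_unique (hstrong (p v)) ?_
    simp only [fun n => (hT n).proj v]
    exact hstrong v
  · have h1 : Tendsto (fun n => T n (dl 1) (1, 1, 1)) atTop (𝓝 (opOf hb (dl 1) (1, 1, 1))) := by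
      have h2 := (tendsto_const_nhds (x := (dl ((1 : Λ), (1 : Λ), (1 : Λ)) : Ell2 (Λ × Λ × Λ)))).inner
        (𝕜 := ℂ) (hstrong (dl 1))
      simpa only [inner_dl] using h2
    exact ge_of_tendsto ((Complex.continuous_re.tendsto _).comp h1)
      (Eventually.of_forall fun n => (hT n).pos)
  · rw [hdl, inv_one, map_one, rho_one]; rfl

/-- The trace identity for equivariant operators. -/
theorem norm_le_of_equivariant (hα : CF α) {K : Type} [Group K] {ι : Λ →* K}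
    {S : Ell2 Λ →L[ℂ] Ell2 K} (hS : ∀ s v, S (rho s v) = rho (ι s) (S v))
    (hp : ∀ v, S (α 1 v) = S v) (g : Γ) :
    ‖S (α g (dl 1))‖ = ‖S (dl 1)‖ := by
  set B : Ell2 Λ →L[ℂ] Ell2 Λ := adjoint S ∘L S with hB
  have hBc : Cmm rhoH B := by
    intro s
    ext1 v
    refine ext_inner_left ℂ fun u => ?_
    change ⟪u, adjoint S (S (rho s v))⟫_ℂ = ⟪u, rho s (adjoint S (S v))⟫_ℂ
    have e1 := (regRep_rho (G := Λ)).inner_right s u (adjoint S (S v))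
    rw [rhoH_apply, rhoH_apply] at e1
    have e2 := (regRep_rho (G := K)).inner_right (ι s) (S u) (S v)
    rw [rhoH_apply, rhoH_apply] at e2
    rw [e1, adjoint_inner_right, adjoint_inner_right, hS, e2, hS, map_inv]
  have h1 : ∀ u v, ⟪S u, S v⟫_ℂ = ⟪u, B v⟫_ℂ := fun u v => (adjoint_inner_right S u (S v)).symm
  have h2 : ⟪S (α g (dl 1)), S (α g (dl 1))⟫_ℂ = ⟪S (dl 1), S (dl 1)⟫_ℂ := by
    have e3 : B (α 1 (dl 1)) = B (dl 1) := by
      change adjoint S (S (α 1 (dl 1))) = adjoint S (S (dl 1))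
      rw [hp]
    rw [h1, h1, hα.inner_left, ← mul_ap B,
      regRep_rho.trace_comm (hα.cmm_rho g⁻¹) (hBc.mul (hα.cmm_rho g)), mul_ap, hα.mul_apply,
      mul_inv_cancel, e3]
  rw [inner_self_eq_norm_sq_to_K, inner_self_eq_norm_sq_to_K] at h2
  have h3 : ‖S (α g (dl 1))‖ ^ 2 = ‖S (dl 1)‖ ^ 2 := by exact_mod_cast h2
  exact (pow_left_inj₀ (norm_nonneg _) (norm_nonneg _) two_ne_zero).mp h3

theorem conjC_rho (hα : CF α) {T : Ell2 Λ →L[ℂ] Ell2 (Λ × Λ × Λ)}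
    (hT : ∀ s v, T (rho s v) = rho (ι3 s) (T v)) (g : Γ) (s : Λ) (v : Ell2 Λ) :
    (A3c α g ∘L T ∘L α g⁻¹) (rho s v) = rho (ι3 s) ((A3c α g ∘L T ∘L α g⁻¹) v) := by
  change A3c α g (T (α g⁻¹ (rho s v))) = rho (ι3 s) (A3c α g (T (α g⁻¹ v)))
  rw [hα.apply_comm, hT, ← mul_ap, A3c_comm hα]
  rfl

theorem conjC_Tg (hα : CF α) (g h : Γ) : A3c α h ∘L Tgc α g ∘L α h⁻¹ = Tgc α (h * g) := by
  ext1 v
  change A3c α h (A3c α g (T0 Λ (α g⁻¹ (α h⁻¹ v)))) = A3c α (h * g) (T0 Λ (α (h * g)⁻¹ v))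
  rw [mul_inv_rev, A3c_mul hα, hα.mul]
  rfl

theorem conjC_hull (hα : CF α) (h : Γ) {S : Ell2 Λ →L[ℂ] Ell2 (Λ × Λ × Λ)}
    (hS : S ∈ hull (Set.range (Tgc α))) :
    A3c α h ∘L S ∘L α h⁻¹ ∈ hull (Set.range (Tgc α)) := by
  have hcv : Cvx {R : Ell2 Λ →L[ℂ] Ell2 (Λ × Λ × Λ) |
      A3c α h ∘L R ∘L α h⁻¹ ∈ hull (Set.range (Tgc α))} := by
    intro R hR R' hR' a b ha hb hab
    have h1 := cvx_hull _ _ hR _ hR' a b ha hb hab
    have e : A3c α h ∘L ((a : ℂ) • R + (b : ℂ) • R') ∘L α h⁻¹ =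
        (a : ℂ) • (A3c α h ∘L R ∘L α h⁻¹) + (b : ℂ) • (A3c α h ∘L R' ∘L α h⁻¹) := by
      ext1 v
      change A3c α h ((a : ℂ) • R (α h⁻¹ v) + (b : ℂ) • R' (α h⁻¹ v)) = _
      rw [map_add, map_smul, map_smul]
      rfl
    change A3c α h ∘L ((a : ℂ) • R + (b : ℂ) • R') ∘L α h⁻¹ ∈ hull (Set.range (Tgc α))
    rw [e]
    exact h1
  refine hull_subset hcv ?_ hS
  rintro _ ⟨g, rfl⟩
  change A3c α h ∘L Tgc α g ∘L α h⁻¹ ∈ hull (Set.range (Tgc α))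
  rw [conjC_Tg hα]
  exact subset_hull _ ⟨_, rfl⟩

theorem conjC_norm (hα : CF α) (h : Γ) {T : Ell2 Λ →L[ℂ] Ell2 (Λ × Λ × Λ)}
    (hT : ∀ s v, T (rho s v) = rho (ι3 s) (T v)) (hp : ∀ v, T (α 1 v) = T v) :
    ‖(A3c α h ∘L T ∘L α h⁻¹) (dl 1)‖ ≤ ‖T (dl 1)‖ := by
  rw [comp_apply, comp_apply]
  refine (A3c_norm hα _ _).trans ?_
  rw [norm_le_of_equivariant hα hT hp]

theorem conjC_norm_sub (hα : CF α) (h : Γ) {T S : Ell2 Λ →L[ℂ] Ell2 (Λ × Λ × Λ)}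
    (hT : ∀ s v, T (rho s v) = rho (ι3 s) (T v)) (hS : ∀ s v, S (rho s v) = rho (ι3 s) (S v))
    (hpT : ∀ v, T (α 1 v) = T v) (hpS : ∀ v, S (α 1 v) = S v) :
    ‖(A3c α h ∘L T ∘L α h⁻¹) (dl 1) - (A3c α h ∘L S ∘L α h⁻¹) (dl 1)‖ ≤ ‖T (dl 1) - S (dl 1)‖ := by
  have h1 := conjC_norm hα h (T := T - S) (fun s v => by
    rw [sub_apply, sub_apply, hT, hS, map_sub]) (fun v => by
    rw [sub_apply, sub_apply, hpT, hpS])
  rw [sub_apply] at h1
  refine le_trans (le_of_eq ?_) h1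
  rw [comp_apply, comp_apply, comp_apply, comp_apply, comp_apply, comp_apply, sub_apply,
    map_sub]

theorem existsC_inv_aux (hα : CF α) {c : ℝ} (hc : ∀ g, c ≤ p4c α g) :
    ∃ T : Ell2 Λ →L[ℂ] Ell2 (Λ × Λ × Λ), GoodC (α 1) c T ∧
      T (dl 1) ∈ closure (ev '' hull (Set.range (Tgc α))) ∧
      ∀ v ∈ closure (ev '' hull (Set.range (Tgc α))), ‖v‖ ≤ ‖T (dl 1)‖ → v = T (dl 1) := by
  have hgood : hull (Set.range (Tgc α)) ⊆ {T | GoodC (α 1) c T} :=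
    hull_subset (cvx_goodC _ c) (by
    rintro _ ⟨g, rfl⟩
    exact goodC_Tg hα hc g)
  have hKc : Cvx (closure (ev '' hull (Set.range (Tgc α)))) := ((cvx_hull _).image ev).closure
  have hne : (closure (ev '' hull (Set.range (Tgc α)))).Nonempty :=
    ⟨ev (Tgc α 1), subset_closure ⟨_, subset_hull _ ⟨1, rfl⟩, rfl⟩⟩
  obtain ⟨ω, hω, hmin, huniq⟩ := min_norm_ell2 hne isClosed_closure hKc
  have h1 : ω ∈ closure ((fun T : Ell2 Λ →L[ℂ] Ell2 (Λ × Λ × Λ) => T (dl 1)) ''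
      {T | GoodC (α 1) c T}) := by
    refine closure_mono ?_ hω
    rintro _ ⟨T, hT, rfl⟩
    exact ⟨T, hgood hT, rfl⟩
  obtain ⟨T, hT, hTω⟩ := goodC_closed (p := α 1) (fun s v => hα.apply_comm 1 s v) (c := c) (ω := ω) h1
  refine ⟨T, hT, ?_, ?_⟩
  · rw [hTω]; exact hω
  · rw [hTω]; exact huniq

theorem conjC_mem_closure (hα : CF α) {c : ℝ} (hc : ∀ g, c ≤ p4c α g)
    {T : Ell2 Λ →L[ℂ] Ell2 (Λ × Λ × Λ)} (hT : ∀ s v, T (rho s v) = rho (ι3 s) (T v))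
    (hpT : ∀ v, T (α 1 v) = T v)
    (hω : T (dl 1) ∈ closure (ev '' hull (Set.range (Tgc α)))) (h : Γ) :
    (A3c α h ∘L T ∘L α h⁻¹) (dl 1) ∈ closure (ev '' hull (Set.range (Tgc α))) := by
  have hgood : hull (Set.range (Tgc α)) ⊆ {T | GoodC (α 1) c T} :=
    hull_subset (cvx_goodC _ c) (by
    rintro _ ⟨g, rfl⟩
    exact goodC_Tg hα hc g)
  rw [Metric.mem_closure_iff] at hω ⊢
  intro ε hε
  obtain ⟨_, ⟨S, hS, rfl⟩, hd⟩ := hω ε hε
  refine ⟨ev (A3c α h ∘L S ∘L α h⁻¹), ⟨_, conjC_hull hα h hS, rfl⟩, ?_⟩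
  rw [dist_eq_norm, ev_apply]
  refine (conjC_norm_sub hα h hT (hgood hS).rho_map hpT (hgood hS).proj).trans_lt ?_
  rw [← dist_eq_norm]
  exact hd

/-- The invariant cubic intertwiner in the corner. -/
theorem existsC_invariant (hα : CF α) {c : ℝ} (hc : ∀ g, c ≤ p4c α g) :
    ∃ T : Ell2 Λ →L[ℂ] Ell2 (Λ × Λ × Λ), GoodC (α 1) c T ∧
      ∀ g v, T (α g v) = A3c α g (T v) := by
  obtain ⟨T, hT, hmem, huniq⟩ := existsC_inv_aux hα hc
  refine ⟨T, hT, fun g v => ?_⟩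
  have h3 := conjC_mem_closure hα hc hT.rho_map hT.proj hmem g
  have h4 := conjC_norm hα g hT.rho_map hT.proj
  have hinv := huniq _ h3 h4
  have h1 : A3c α g ∘L T ∘L α g⁻¹ = T := ext3 (conjC_rho hα hT.rho_map g) hT.rho_map hinv
  have h2 : (A3c α g ∘L T ∘L α g⁻¹) (α g v) = T (α g v) := by rw [h1]
  change A3c α g (T (α g⁻¹ (α g v))) = T (α g v) at h2
  rw [hα.mul_apply, inv_mul_cancel, hT.proj] at h2
  exact h2.symm

end cubic

end Vale.Agent.P092.R2.H289
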