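import Vale.Agent.P092.H350.PartTwo
import Vale.Agent.P092.R2.H289.Corner3

/-!
Abstract frames: two commuting unitary representations `α` of `Γ` and `β` of `Λ` on a Hilbert
space with a vector `u` which generates a tight frame under `Λ` and is a trace vector for the
commutant of `Λ`.
-/

set_option linter.all false

open scoped InnerProductSpace
open Filter Topology ContinuousLinearMap

namespace Vale.Agent.P092.R2.H289
open Vale.Agent.P092.H160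
open Vale.Agent.P092.H350 (Tight RC)

section

variable {Γ Λ H : Type} [Group Γ] [Group Λ] [NormedAddCommGroup H] [InnerProductSpace ℂ H]
  [CompleteSpace H]

/-- `A` commutes with the representation `β`. -/
def CL (β : Λ →* (H →L[ℂ] H)) (A : H →L[ℂ] H) : Prop := ∀ s v, A (β s v) = β s (A v)

/-- Abstract frames. -/
structure Fr (α : Γ →* (H →L[ℂ] H)) (β : Λ →* (H →L[ℂ] H)) (u : H) (t : ℝ) : Prop where
  tpos : 0 < t
  adj : ∀ g, adjoint (α g) = α g⁻¹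
  adjβ : ∀ s, adjoint (β s) = β s⁻¹
  rc : ∀ g, CL β (α g)
  norm_u : ‖u‖ = 1
  frame : ∀ v, HasSum (fun s => ‖⟪β s u, v⟫_ℂ‖ ^ 2) (t * ‖v‖ ^ 2)
  orth : ∀ g, g ≠ 1 → ⟪u, α g u⟫_ℂ = 0
  tr : ∀ {A B : H →L[ℂ] H}, CL β A → CL β B → ⟪u, A (B u)⟫_ℂ = ⟪u, B (A u)⟫_ℂ
  tot : ∀ {A : H →L[ℂ] H}, CL β A →
    A u ∈ (Submodule.span ℂ (Set.range fun g => α g u)).topologicalClosure

variable {β : Λ →* (H →L[ℂ] H)}

theorem CL.mul {A B : H →L[ℂ] H} (hA : CL β A) (hB : CL β B) : CL β (A * B) := fun s v => by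
  change A (B (β s v)) = β s (A (B v))
  rw [hB, hA]

theorem CL.one : CL β (1 : H →L[ℂ] H) := fun _ _ => rfl

theorem CL.zero : CL β (0 : H →L[ℂ] H) := fun s _ => by simp

theorem CL.sub {A B : H →L[ℂ] H} (hA : CL β A) (hB : CL β B) : CL β (A - B) := fun s v => by
  change A (β s v) - B (β s v) = β s (A v - B v)
  rw [hA, hB, map_sub]

theorem CL.smul {A : H →L[ℂ] H} (hA : CL β A) (c : ℂ) : CL β (c • A) := fun s v => by
  change c • A (β s v) = β s (c • A v)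
  rw [hA, map_smul]

theorem CL.adjoint (hβ : ∀ s, ContinuousLinearMap.adjoint (β s) = β s⁻¹) {A : H →L[ℂ] H}
    (hA : CL β A) : CL β (ContinuousLinearMap.adjoint A) := by
  intro s v
  refine ext_inner_right ℂ fun w => ?_
  rw [adjoint_inner_left, ← adjoint_inner_right, hβ, ← hA, ← hβ, ← adjoint_inner_left A,
    adjoint_inner_right]

namespace Fr

variable {α : Γ →* (H →L[ℂ] H)} {u : H} {t : ℝ}

theorem ap_mul (α : Γ →* (H →L[ℂ] H)) (g h : Γ) (ξ : H) : α (g * h) ξ = α g (α h ξ) := by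
  rw [map_mul]; rfl

theorem ap_one (α : Γ →* (H →L[ℂ] H)) (ξ : H) : α 1 ξ = ξ := by
  rw [map_one]; rfl

theorem bes (h : Fr α β u t) : Bes (Real.sqrt t) (fun s => β s⁻¹ u) := by
  intro F v
  rw [Real.sq_sqrt h.tpos.le]
  have h1 := (Equiv.inv Λ).hasSum_iff.mpr (h.frame v)
  exact sum_le_hasSum F (fun _ _ => by positivity) h1

/-- The coordinate map `v ↦ (⟨β(s⁻¹) u, v⟩)_s`. -/
noncomputable def cc (h : Fr α β u t) : H →L[ℂ] Ell2 Λ := anOp h.bes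

theorem cc_apply (h : Fr α β u t) (v : H) (s : Λ) : h.cc v s = ⟪β s⁻¹ u, v⟫_ℂ := rfl

/-- The synthesis map. -/
noncomputable def sy (h : Fr α β u t) : Ell2 Λ →L[ℂ] H := adjoint h.cc

theorem sy_dl (h : Fr α β u t) (s : Λ) : h.sy (dl s) = β s⁻¹ u := opOf_dl h.bes s

theorem adj_sy (h : Fr α β u t) : adjoint h.sy = h.cc := adjoint_adjoint _

theorem norm_cc (h : Fr α β u t) (v : H) : ‖h.cc v‖ ^ 2 = t * ‖v‖ ^ 2 := by
  rw [norm_sq]
  exact ((Equiv.inv Λ).hasSum_iff.mpr (h.frame v)).tsum_eq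

theorem sy_cc (h : Fr α β u t) (v : H) : h.sy (h.cc v) = (t : ℂ) • v := by
  have h0 : h.sy ∘L h.cc - (t : ℂ) • ContinuousLinearMap.id ℂ H = 0 := by
    have h1 : ((h.sy ∘L h.cc - (t : ℂ) • ContinuousLinearMap.id ℂ H : H →L[ℂ] H) : H →ₗ[ℂ] H) = 0 := by
      rw [← inner_map_self_eq_zero]
      intro x
      change ⟪h.sy (h.cc x) - (t : ℂ) • x, x⟫_ℂ = 0
      rw [inner_sub_left, sy, adjoint_inner_left, inner_smul_left, inner_self_eq_norm_sq_to_K,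
        inner_self_eq_norm_sq_to_K]
      have h2 := h.norm_cc x
      have h3 : ((‖h.cc x‖ : ℂ)) ^ 2 = (t : ℂ) * (‖x‖ : ℂ) ^ 2 := by exact_mod_cast h2
      simp only [Complex.coe_algebraMap, Complex.conj_ofReal]
      rw [h3, sub_self]
    ext1 x
    exact congrArg (fun L : H →ₗ[ℂ] H => L x) h1
  have h1 := congrArg (fun L : H →L[ℂ] H => L v) h0
  have h2 : h.sy (h.cc v) - (t : ℂ) • v = 0 := h1
  exact sub_eq_zero.mp h2

theorem inner_cc (h : Fr α β u t) (v w : H) : ⟪h.cc v, h.cc w⟫_ℂ = (t : ℂ) * ⟪v, w⟫_ℂ := by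
  rw [← inner_smul_right, ← h.sy_cc, sy, adjoint_inner_right]

theorem cc_beta (h : Fr α β u t) (s : Λ) (v : H) : h.cc (β s v) = rho s (h.cc v) := by
  apply ext_inner_dl
  intro x
  rw [rho_apply, cc_apply, cc_apply, ← adjoint_inner_left, h.adjβ, ← ap_mul, mul_inv_rev]

theorem sy_rho (h : Fr α β u t) (s : Λ) (w : Ell2 Λ) : h.sy (rho s w) = β s (h.sy w) := by
  have h1 : h.sy ∘L rho s = β s ∘L h.sy := by
    apply op_ext
    intro x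
    rw [comp_apply, comp_apply, rho_dl, h.sy_dl, h.sy_dl, mul_inv_rev, inv_inv, ap_mul]
  exact congrArg (fun L : Ell2 Λ →L[ℂ] H => L w) h1

/-- `u` is separating for the commutant of `β`. -/
theorem ext (h : Fr α β u t) {A B : H →L[ℂ] H} (hA : CL β A) (hB : CL β B) (he : A u = B u) :
    A = B := by
  have h1 : A ∘L h.sy = B ∘L h.sy := by
    apply op_ext
    intro x
    rw [comp_apply, comp_apply, h.sy_dl, hA, hB, he]
  ext1 v
  have h2 : A (h.sy (h.cc v)) = B (h.sy (h.cc v)) :=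
    congrArg (fun L : Ell2 Λ →L[ℂ] H => L (h.cc v)) h1
  rw [h.sy_cc, map_smul, map_smul] at h2
  have ht : (t : ℂ) ≠ 0 := by exact_mod_cast h.tpos.ne'
  exact smul_right_injective _ ht h2

/-- Transport of operators to `ℓ²(Λ)`. -/
noncomputable def tp (h : Fr α β u t) (A : H →L[ℂ] H) : Ell2 Λ →L[ℂ] Ell2 Λ :=
  ((t : ℂ)⁻¹) • (h.cc ∘L A ∘L h.sy)

theorem tp_apply (h : Fr α β u t) (A : H →L[ℂ] H) (w : Ell2 Λ) :
    h.tp A w = ((t : ℂ)⁻¹) • h.cc (A (h.sy w)) := rfl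

theorem tne (h : Fr α β u t) : (t : ℂ) ≠ 0 := by exact_mod_cast h.tpos.ne'

theorem tp_cc (h : Fr α β u t) (A : H →L[ℂ] H) (v : H) : h.tp A (h.cc v) = h.cc (A v) := by
  rw [tp_apply, h.sy_cc, map_smul, map_smul, smul_smul, inv_mul_cancel₀ h.tne, one_smul]

theorem sy_tp (h : Fr α β u t) (A : H →L[ℂ] H) (w : Ell2 Λ) :
    h.sy (h.tp A w) = A (h.sy w) := by
  rw [tp_apply, map_smul, h.sy_cc, smul_smul, inv_mul_cancel₀ h.tne, one_smul]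

theorem tp_mul (h : Fr α β u t) (A B : H →L[ℂ] H) : h.tp (A * B) = h.tp A * h.tp B := by
  ext1 w
  change h.tp (A * B) w = h.tp A (h.tp B w)
  rw [tp_apply h B, map_smul, h.tp_cc, tp_apply]
  rfl

theorem tp_adj (h : Fr α β u t) (A : H →L[ℂ] H) :
    adjoint (h.tp A) = h.tp (ContinuousLinearMap.adjoint A) := by
  rw [eq_comm, ContinuousLinearMap.eq_adjoint_iff]
  intro x y
  rw [tp_apply, tp_apply, inner_smul_left, inner_smul_right, ← h.adj_sy, adjoint_inner_left,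
    adjoint_inner_left, adjoint_inner_right]
  congr 1
  simp

theorem tp_rho (h : Fr α β u t) {A : H →L[ℂ] H} (hA : CL β A) (s : Λ) :
    h.tp A * rho s = rho s * h.tp A := by
  ext1 w
  change h.tp A (rho s w) = rho s (h.tp A w)
  rw [tp_apply, tp_apply, h.sy_rho, hA, h.cc_beta, map_smul]

/-- The corner representation on `ℓ²(Λ)`. -/
theorem cf (h : Fr α β u t) : CF (fun g => h.tp (α g)) where
  mul g g' := by rw [map_mul, h.tp_mul]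
  adj g := by rw [h.tp_adj, h.adj]
  comm g s := h.tp_rho (h.rc g) s

/-! ### Tight sets -/

/-- Tight sets of vectors of `H`. -/
def TH (h : Fr α β u t) (S : Set H) : Prop := Tight (h.cc '' S)

theorem TH.mono {h : Fr α β u t} {S T : Set H} (hT : h.TH T) (hS : S ⊆ T) : h.TH S :=
  H350.Tight.mono (Set.image_mono hS) hT

theorem th_singleton (h : Fr α β u t) (ξ : H) : h.TH {ξ} := by
  rw [TH, Set.image_singleton]
  exact H350.tight_singleton _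

theorem TH.union {h : Fr α β u t} {S T : Set H} (hS : h.TH S) (hT : h.TH T) : h.TH (S ∪ T) := by
  rw [TH, Set.image_union]
  exact H350.Tight.union hS hT

theorem th_iUnion {ι : Type*} [Finite ι] (h : Fr α β u t) (S : ι → Set H)
    (hS : ∀ i, h.TH (S i)) : h.TH (⋃ i, S i) := by
  rw [TH, Set.image_iUnion]
  exact H350.tight_iUnion _ hS

theorem th_of_finite (h : Fr α β u t) {S : Set H} (hS : S.Finite) : h.TH S :=
  H350.tight_of_finite (hS.image _)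

theorem TH.add {h : Fr α β u t} {S T U : Set H} (hS : h.TH S) (hT : h.TH T)
    (hU : ∀ ζ ∈ U, ∃ ξ ∈ S, ∃ η ∈ T, ζ = ξ + η) : h.TH U := by
  refine H350.Tight.add hS hT ?_
  rintro _ ⟨ζ, hζ, rfl⟩
  obtain ⟨ξ, hξ, η, hη, rfl⟩ := hU ζ hζ
  exact ⟨_, ⟨ξ, hξ, rfl⟩, _, ⟨η, hη, rfl⟩, map_add _ _ _⟩

theorem TH.smul {h : Fr α β u t} {S U : Set H} (hS : h.TH S) (c : ℂ)
    (hU : ∀ ζ ∈ U, ∃ ξ ∈ S, ζ = c • ξ) : h.TH U := by
  refine H350.Tight.smul hS c ?_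
  rintro _ ⟨ζ, hζ, rfl⟩
  obtain ⟨ξ, hξ, rfl⟩ := hU ζ hζ
  exact ⟨_, ⟨ξ, hξ, rfl⟩, map_smul _ _ _⟩

theorem th_of_approx (h : Fr α β u t) {S : Set H}
    (hS : ∀ ε > (0 : ℝ), ∃ T : Set H, h.TH T ∧ ∀ ξ ∈ S, ∃ η ∈ T, ‖ξ - η‖ ≤ ε) : h.TH S := by
  refine H350.tight_of_approx fun ε hε => ?_
  obtain ⟨T, hT, hST⟩ := hS (ε / (‖h.cc‖ + 1)) (by positivity)
  refine ⟨_, hT, ?_⟩
  rintro _ ⟨ξ, hξ, rfl⟩
  obtain ⟨η, hη, hd⟩ := hST ξ hξ
  refine ⟨_, ⟨η, hη, rfl⟩, ?_⟩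
  rw [← map_sub]
  calc ‖h.cc (ξ - η)‖ ≤ ‖h.cc‖ * ‖ξ - η‖ := h.cc.le_opNorm _
    _ ≤ (‖h.cc‖ + 1) * (ε / (‖h.cc‖ + 1)) := by
        gcongr
        linarith
    _ = ε := by field_simp

theorem norm_tp_le (h : Fr α β u t) (A : H →L[ℂ] H) : ‖h.tp A‖ ≤ t⁻¹ * (‖h.cc‖ * (‖A‖ * ‖h.sy‖)) := by
  rw [tp, norm_smul, norm_inv, Complex.norm_real, Real.norm_of_nonneg h.tpos.le]
  have := h.tpos
  gcongr
  refine (opNorm_comp_le _ _).trans ?_
  gcongr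
  exact opNorm_comp_le _ _

/-- Tight families of operators map tight families to tight families. -/
theorem TH.op {h : Fr α β u t} {B : Set (H →L[ℂ] H)} (hR : ∀ b ∈ B, CL β b) {C : ℝ}
    (hC : ∀ b ∈ B, ‖b‖ ≤ C) (hB : h.TH ((fun b : H →L[ℂ] H => b u) '' B))
    {S : Set H} {M : ℝ} (hM : ∀ ξ ∈ S, ‖ξ‖ ≤ M) (hS : h.TH S)
    {U : Set H} (hU : ∀ ζ ∈ U, ∃ b ∈ B, ∃ ξ ∈ S, ζ = b ξ) : h.TH U := by
  have hsy : h.sy (dl 1) = u := by rw [h.sy_dl, inv_one, ap_one]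
  refine H350.Tight.op (B := h.tp '' B) (C := t⁻¹ * (‖h.cc‖ * (C * ‖h.sy‖)))
    (M := ‖h.cc‖ * M) ?_ ?_ ?_ ?_ hS ?_
  · rintro _ ⟨b, hb, rfl⟩
    intro s ξ
    have h1 : (H350.rt s : Ell2 Λ →L[ℂ] Ell2 Λ) = rho s⁻¹ := by
      rw [rho, inv_inv]
      rfl
    rw [h1]
    exact congrArg (fun L : Ell2 Λ →L[ℂ] Ell2 Λ => L ξ) (h.tp_rho (hR b hb) s⁻¹)
  · rintro _ ⟨b, hb, rfl⟩
    refine (h.norm_tp_le b).trans ?_
    have := h.tpos
    have h2 := hC b hb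
    gcongr
  · refine H350.Tight.smul hB ((t : ℂ)⁻¹) ?_
    rintro _ ⟨_, ⟨b, hb, rfl⟩, rfl⟩
    refine ⟨_, ⟨_, ⟨b, hb, rfl⟩, rfl⟩, ?_⟩
    change h.tp b (dl 1) = (t : ℂ)⁻¹ • h.cc (b u)
    rw [h.tp_apply, hsy]
  · rintro _ ⟨ξ, hξ, rfl⟩
    exact (h.cc.le_opNorm ξ).trans (by
      have := hM ξ hξ
      gcongr)
  · rintro _ ⟨ζ, hζ, rfl⟩
    obtain ⟨b, hb, ξ, hξ, rfl⟩ := hU ζ hζ
    exact ⟨_, ⟨b, hb, rfl⟩, _, ⟨ξ, hξ, rfl⟩, (h.tp_cc b ξ).symm⟩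

/-- `β s` maps tight sets to tight sets. -/
theorem th_beta {h : Fr α β u t} (s : Λ) {S U : Set H} (hS : h.TH S)
    (hU : ∀ ζ ∈ U, ∃ ξ ∈ S, ζ = β s ξ) : h.TH U := by
  refine H350.GoodRep.tight_rt s⁻¹ hS ?_
  rintro _ ⟨ζ, hζ, rfl⟩
  obtain ⟨ξ, hξ, rfl⟩ := hU ζ hζ
  refine ⟨_, ⟨ξ, hξ, rfl⟩, ?_⟩
  rw [h.cc_beta]
  rfl

end Fr

end

end Vale.Agent.P092.R2.H289
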