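import Vale.Agent.P092.R2.H289.AFSub

/-!
Tight subspaces for elements of an overgroup of finite index, for abstract frames
(port of `H350.HT`).
-/

set_option linter.all false

open scoped InnerProductSpace
open Filter Topology ContinuousLinearMap

namespace Vale.Agent.P092.R2.H289
open Vale.Agent.P092.H160
open Vale.Agent.P092
open Vale.Agent.P092.H350 (Heis)

section

variable {G₀ : Type} [Group G₀] {Γ : Subgroup G₀} [hfi : Γ.FiniteIndex]
  {Λ H : Type} [Group Λ] [NormedAddCommGroup H] [InnerProductSpace ℂ H] [CompleteSpace H]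
  {α : Γ →* (H →L[ℂ] H)} {β : Λ →* (H →L[ℂ] H)} {u : H} {t : ℝ}

namespace Fr

/-- The tight subspace of `X ∈ G₀`. -/
noncomputable def HT (hα : Fr α β u t) (X : G₀) : Submodule ℂ H :=
  hα.Ht ⟨X ^ (H350.exists_pow_mem Γ X).choose, (H350.exists_pow_mem Γ X).choose_spec.2⟩

theorem HT_eq (hα : Fr α β u t) {X : G₀} {x : Γ} {m l : ℤ} (hm : m ≠ 0) (hl : l ≠ 0)
    (h : (x : G₀) ^ m = X ^ l) : hα.Ht x = hα.HT X := by
  obtain ⟨he, hmem⟩ := (H350.exists_pow_mem Γ X).choose_spec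
  rw [HT]
  set e := (H350.exists_pow_mem Γ X).choose
  rw [← hα.Ht_pow x (mul_ne_zero hm he), ← hα.Ht_pow ⟨X ^ e, hmem⟩ hl]
  congr 1
  ext
  push_cast
  rw [zpow_mul, h, ← zpow_mul, ← zpow_mul, mul_comm]

theorem HT_coe (hα : Fr α β u t) (x : Γ) : hα.HT (x : G₀) = hα.Ht x :=
  (hα.HT_eq (m := 1) (l := 1) one_ne_zero one_ne_zero rfl).symm

theorem HT_zpow (hα : Fr α β u t) (X : G₀) {m : ℤ} (hm : m ≠ 0) : hα.HT (X ^ m) = hα.HT X := by
  obtain ⟨a, ha, hX⟩ := H350.exists_pow_mem Γ X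
  have h1 : hα.Ht ⟨X ^ a, hX⟩ = hα.HT X := hα.HT_eq (m := 1) one_ne_zero ha (by simp)
  have h2 : hα.Ht ⟨X ^ a, hX⟩ = hα.HT (X ^ m) := hα.HT_eq hm ha (by
    simp only
    rw [← zpow_mul, ← zpow_mul, mul_comm])
  rw [← h1, ← h2]

theorem HT_ne_bot (hα : Fr α β u t) {X Y R : G₀} (h : Heis X Y R) (hX : hα.HT X ≠ ⊥) :
    hα.HT R ≠ ⊥ := by
  obtain ⟨a, b, x, y, r, ha, hb, ex, ey, er, hH⟩ := H350.GoodRep.heis_lift (Γ := Γ) h
  have h1 : hα.Ht x = hα.HT X := hα.HT_eq (m := 1) one_ne_zero ha (by rw [zpow_one, ex])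
  have h2 : hα.Ht r = hα.HT R := hα.HT_eq (m := 1) one_ne_zero (mul_ne_zero ha hb)
    (by rw [zpow_one, er])
  rw [← h1] at hX
  rw [← h2]
  exact hα.step_ne_bot hH hX

theorem HT_top (hα : Fr α β u t) {X Y R : G₀} (h : Heis X Y R) (hX : hα.HT X = ⊤) :
    hα.HT R = ⊤ := by
  obtain ⟨a, b, x, y, r, ha, hb, ex, ey, er, hH⟩ := H350.GoodRep.heis_lift (Γ := Γ) h
  have h1 : hα.Ht x = hα.HT X := hα.HT_eq (m := 1) one_ne_zero ha (by rw [zpow_one, ex])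
  have h2 : hα.Ht r = hα.HT R := hα.HT_eq (m := 1) one_ne_zero (mul_ne_zero ha hb)
    (by rw [zpow_one, er])
  rw [← h1] at hX
  rw [← h2]
  exact hα.step_top hH hX

/-- If `c x g ≠ 0` and `H ∈ G₀` commutes with `X`, where `x` is a power of `X`, then a nonzero
power of `H` commutes with `g`. -/
theorem exists_zpow_comm (hα : Fr α β u t) {x g : Γ} {Z : G₀} (hc : Commute Z (x : G₀))
    (hg : hα.c x g ≠ 0) : ∃ m : ℤ, m ≠ 0 ∧ Commute (Z ^ m) (g : G₀) := by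
  obtain ⟨a, ha, hH⟩ := H350.exists_pow_mem Γ Z
  have hc' : Commute (⟨Z ^ a, hH⟩ : Γ) x := Subtype.ext (hc.zpow_left a).eq
  obtain ⟨m, hm, h1⟩ := hα.exists_pow_comm hc' hg
  refine ⟨a * m, mul_ne_zero ha (by exact_mod_cast hm), ?_⟩
  have h2 := congrArg (Subtype.val : Γ → G₀) h1.eq
  push_cast at h2
  rw [← zpow_natCast, ← zpow_mul] at h2
  exact h2

end Fr

end

end Vale.Agent.P092.R2.H289
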