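import Vale.Agent.P092.R2.H289.Mod

/-!
The concrete module `q ℓ²(A × Fin (m+1))`, `q ≥ e₀₀`.
-/

set_option linter.all false

open scoped InnerProductSpace
open Filter Topology ContinuousLinearMap

namespace Vale.Agent.P092.R2.H289
open Vale.Agent.P092.H160

section emb

variable {A : Type} {m : ℕ}

theorem orth_emb (i : Fin (m + 1)) :
    Orthonormal ℂ (fun x : A => (dl (x, i) : Ell2 (A × Fin (m + 1)))) := by
  classical
  rw [orthonormal_iff_ite]
  intro x y
  rw [inner_dl]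
  by_cases hxy : x = y
  · subst hxy
    rw [dl_self, if_pos rfl]
  · rw [if_neg hxy, dl_ne]
    intro h
    exact hxy (congrArg Prod.fst h)

/-- The embedding `ℓ²(A) → ℓ²(A × Fin (m+1))` as the `i`-th column. -/
noncomputable def em (A : Type) {m : ℕ} (i : Fin (m + 1)) :
    Ell2 A →L[ℂ] Ell2 (A × Fin (m + 1)) := opOf (bes_of_orthonormal (orth_emb i))

theorem em_dl (i : Fin (m + 1)) (x : A) : em A i (dl x) = dl (x, i) := opOf_dl _ x

theorem em_adj_apply (i : Fin (m + 1)) (v : Ell2 (A × Fin (m + 1))) (x : A) :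
    adjoint (em A i) v x = v (x, i) := by
  rw [← inner_dl, adjoint_inner_right, em_dl, inner_dl]

theorem em_adj_em (i : Fin (m + 1)) (v : Ell2 A) : adjoint (em A i) (em A i v) = v :=
  congrArg (fun L : Ell2 A →L[ℂ] Ell2 A => L v) (opOf_isometry (orth_emb i))

theorem em_adj_em_ne {i j : Fin (m + 1)} (hij : i ≠ j) (v : Ell2 A) :
    adjoint (em A i) (em A j v) = 0 := by
  have h1 : adjoint (em A i) ∘L em A j = 0 := by
    apply op_ext
    intro x
    apply ext_inner_dl
    intro y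
    rw [comp_apply, em_adj_apply, em_dl, zero_apply, dl_ne]
    · rfl
    · intro h
      exact hij (congrArg Prod.snd h)
  exact congrArg (fun L : Ell2 A →L[ℂ] Ell2 A => L v) h1

theorem em_apply (i j : Fin (m + 1)) (v : Ell2 A) (x : A) :
    em A i v (x, j) = if i = j then v x else 0 := by
  rw [← em_adj_apply]
  split_ifs with h
  · subst h
    rw [em_adj_em]
  · rw [em_adj_em_ne (Ne.symm h)]
    rfl

theorem sum_em (v : Ell2 (A × Fin (m + 1))) : ∑ i, em A i (adjoint (em A i) v) = v := by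
  have h1 : ∑ i : Fin (m + 1), em A i ∘L adjoint (em A i) =
      ContinuousLinearMap.id ℂ (Ell2 (A × Fin (m + 1))) := by
    apply op_ext
    rintro ⟨x, j⟩
    rw [sum_apply, Finset.sum_eq_single_of_mem j (Finset.mem_univ j)]
    · rw [comp_apply, ← em_dl, em_adj_em, em_dl]
      rfl
    · intro i _ hij
      rw [comp_apply, ← em_dl, em_adj_em_ne hij, map_zero]
  have h2 := congrArg (fun L : Ell2 (A × Fin (m + 1)) →L[ℂ] Ell2 (A × Fin (m + 1)) => L v) h1
  simp only [sum_apply] at h2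
  exact h2

theorem inner_em (v w : Ell2 (A × Fin (m + 1))) :
    ⟪v, w⟫_ℂ = ∑ i, ⟪adjoint (em A i) v, adjoint (em A i) w⟫_ℂ := by
  conv_lhs => rw [← sum_em w]
  rw [inner_sum]
  refine Finset.sum_congr rfl fun i _ => ?_
  rw [adjoint_inner_left]

end emb

section group

variable {A : Type} [Group A] {m : ℕ}

theorem rr_aux (g : A) (v : Ell2 (A × Fin (m + 1))) (x : A) (i : Fin (m + 1)) :
    rei (Equiv.prodCongr (Equiv.mulRight g⁻¹) (Equiv.refl _)) v (x, i) = v (x * g, i) := by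
  rw [rei_apply]
  simp

/-- Right translations on `ℓ²(A × Fin (m+1))`. -/
noncomputable def rr (m : ℕ) : A →* (Ell2 (A × Fin (m + 1)) →L[ℂ] Ell2 (A × Fin (m + 1))) where
  toFun g := rei (Equiv.prodCongr (Equiv.mulRight g⁻¹) (Equiv.refl _))
  map_one' := by
    ext1 v
    apply ext_inner_dl
    rintro ⟨x, i⟩
    rw [rr_aux, mul_one]
    rfl
  map_mul' g h := by
    ext1 v
    apply ext_inner_dl
    rintro ⟨x, i⟩
    rw [mul_ap, rr_aux, rr_aux, rr_aux, mul_assoc]

theorem rr_apply (g : A) (v : Ell2 (A × Fin (m + 1))) (x : A) (i : Fin (m + 1)) :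
    rr m g v (x, i) = v (x * g, i) := rr_aux g v x i

theorem rr_dl (g x : A) (i : Fin (m + 1)) :
    rr m g (dl (x, i)) = dl (x * g⁻¹, i) := by
  change rei (Equiv.prodCongr (Equiv.mulRight g⁻¹) (Equiv.refl _)) (dl (x, i)) = _
  rw [rei_dl]
  rfl

theorem rr_adj (g : A) : adjoint (rr (A := A) m g) = rr m g⁻¹ := by
  change adjoint (rei _) = _
  rw [adjoint_rei]
  ext1 v
  apply ext_inner_dl
  rintro ⟨x, i⟩
  rw [rr_apply, rei_apply]
  simp

theorem em_rho (i : Fin (m + 1)) (g : A) (v : Ell2 A) : em A i (rho g v) = rr m g (em A i v) := by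
  apply ext_inner_dl
  rintro ⟨x, j⟩
  rw [rr_apply, em_apply, em_apply, rho_apply]

theorem em_adj_rr (i : Fin (m + 1)) (g : A) (v : Ell2 (A × Fin (m + 1))) :
    adjoint (em A i) (rr m g v) = rho g (adjoint (em A i) v) := by
  apply ext_inner_dl
  intro x
  rw [rho_apply, em_adj_apply, em_adj_apply, rr_apply]

/-- The trace on the commutant of the right translations. -/
theorem tr_cl {X Y : Ell2 (A × Fin (m + 1)) →L[ℂ] Ell2 (A × Fin (m + 1))} (hX : CL (rr m) X)
    (hY : CL (rr m) Y) : ∑ i, ⟪(dl (1, i) : Ell2 (A × Fin (m + 1))), X (Y (dl (1, i)))⟫_ℂ =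
      ∑ i, ⟪(dl (1, i) : Ell2 (A × Fin (m + 1))), Y (X (dl (1, i)))⟫_ℂ := by
  have key : ∀ {X : Ell2 (A × Fin (m + 1)) →L[ℂ] Ell2 (A × Fin (m + 1))}, CL (rr m) X →
      ∀ i j : Fin (m + 1), Cmm rhoH (adjoint (em A i) ∘L X ∘L em A j) := by
    intro X hX i j g
    ext1 v
    change adjoint (em A i) (X (em A j (rho g v))) = rho g (adjoint (em A i) (X (em A j v)))
    rw [em_rho, hX, em_adj_rr]
  have h1 : ∀ (X Y : Ell2 (A × Fin (m + 1)) →L[ℂ] Ell2 (A × Fin (m + 1))) (i : Fin (m + 1)),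
      ⟪(dl (1, i) : Ell2 (A × Fin (m + 1))), X (Y (dl (1, i)))⟫_ℂ =
      ∑ j, ⟪(dl 1 : Ell2 A), (adjoint (em A i) ∘L X ∘L em A j)
        ((adjoint (em A j) ∘L Y ∘L em A i) (dl 1))⟫_ℂ := by
    intro X Y i
    rw [← adjoint_inner_left, inner_em]
    refine Finset.sum_congr rfl fun j _ => ?_
    simp only [comp_apply]
    rw [adjoint_inner_left, adjoint_inner_left, adjoint_inner_right, em_dl]
  simp only [h1]
  rw [Finset.sum_comm]
  refine Finset.sum_congr rfl fun j _ => Finset.sum_congr rfl fun i _ => ?_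
  exact regRep_rho.trace_comm (key hX i j) (key hY j i)

/-! ### The corner -/

/-- The data of a corner: an isometry `j : H → ℓ²(A × Fin (m+1))` with range the range of a
projection `q` which commutes with the right translations and fixes `δ_(1,0)`. -/
structure Cor {H : Type} [NormedAddCommGroup H] [InnerProductSpace ℂ H] [CompleteSpace H]
    (q : Ell2 (A × Fin (m + 1)) →L[ℂ] Ell2 (A × Fin (m + 1)))
    (j : H →L[ℂ] Ell2 (A × Fin (m + 1))) : Prop where
  jj : ∀ v, adjoint j (j v) = v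
  jq : ∀ w, j (adjoint j w) = q w
  qc : CL (rr m) q
  q0 : q (dl (1, 0)) = dl (1, 0)

variable {H : Type} [NormedAddCommGroup H] [InnerProductSpace ℂ H] [CompleteSpace H]
  {q : Ell2 (A × Fin (m + 1)) →L[ℂ] Ell2 (A × Fin (m + 1))}
  {j : H →L[ℂ] Ell2 (A × Fin (m + 1))}

namespace Cor

theorem qj (h : Cor q j) (v : H) : q (j v) = j v := by rw [← h.jq, h.jj]

theorem qq (h : Cor q j) (w : Ell2 (A × Fin (m + 1))) : q (q w) = q w := by
  rw [← h.jq w, h.qj]

theorem jsq (h : Cor q j) (w : Ell2 (A × Fin (m + 1))) : adjoint j (q w) = adjoint j w := by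
  rw [← h.jq w, h.jj]

theorem qadj (h : Cor q j) : adjoint q = q := by
  rw [eq_comm, ContinuousLinearMap.eq_adjoint_iff]
  intro x y
  rw [← h.jq, ← h.jq, ← adjoint_inner_right j, adjoint_inner_left]

theorem q0' (h : Cor q j) (g : A) : q (dl (g, 0)) = dl (g, 0) := by
  have h1 : (dl (g, 0) : Ell2 (A × Fin (m + 1))) = rr m g⁻¹ (dl (1, 0)) := by
    rw [rr_dl, one_mul, inv_inv]
  rw [h1, h.qc, h.q0]

/-- right translations on the corner -/
noncomputable def al (h : Cor q j) : A →* (H →L[ℂ] H) where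
  toFun g := adjoint j ∘L rr m g ∘L j
  map_one' := by
    ext1 v
    rw [map_one]
    exact h.jj v
  map_mul' g k := by
    ext1 v
    change adjoint j (rr m (g * k) (j v)) = adjoint j (rr m g (j (adjoint j (rr m k (j v)))))
    rw [h.jq, h.qc, h.qj, map_mul]
    rfl

theorem al_apply (h : Cor q j) (g : A) (v : H) : h.al g v = adjoint j (rr m g (j v)) := rfl

theorem j_al (h : Cor q j) (g : A) (v : H) : j (h.al g v) = rr m g (j v) := by
  rw [al_apply, h.jq, h.qc, h.qj]

theorem al_js (h : Cor q j) (g : A) (w : Ell2 (A × Fin (m + 1))) :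
    h.al g (adjoint j w) = adjoint j (rr m g w) := by
  rw [al_apply, h.jq, ← h.qc, h.jsq]

/-- the generators -/
noncomputable def sg (j : H →L[ℂ] Ell2 (A × Fin (m + 1))) (i : Fin (m + 1)) : H :=
  adjoint j (dl (1, i))

theorem al_sg (h : Cor q j) (g : A) (i : Fin (m + 1)) :
    h.al g (sg j i) = adjoint j (dl (g⁻¹, i)) := by
  rw [sg, al_js, rr_dl, one_mul]

theorem j_sg0 (h : Cor q j) : j (sg j 0) = dl (1, 0) := by rw [sg, h.jq, h.q0]

/-- The operators `j* (λ(g) ⊗ e_{i0}) j`. -/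
noncomputable def XX (j : H →L[ℂ] Ell2 (A × Fin (m + 1))) (g : A) (i : Fin (m + 1)) : H →L[ℂ] H :=
  adjoint j ∘L em A i ∘L lam g ∘L adjoint (em A 0) ∘L j

theorem XX_apply (g : A) (i : Fin (m + 1)) (v : H) :
    XX j g i v = adjoint j (em A i (lam g (adjoint (em A 0) (j v)))) := rfl

theorem XX_cl (h : Cor q j) (g : A) (i : Fin (m + 1)) : CL h.al (XX j g i) := by
  intro k v
  rw [XX_apply, XX_apply, h.j_al, em_adj_rr, h.al_js, ← em_rho]
  congr 2
  exact (congrArg (fun L : Ell2 A →L[ℂ] Ell2 A => L (adjoint (em A 0) (j v))) (rho_lam k g)).symm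

theorem XX_sg0 (h : Cor q j) (g : A) (i : Fin (m + 1)) :
    XX j g i (sg j 0) = h.al g⁻¹ (sg j i) := by
  rw [XX_apply, h.j_sg0, ← em_dl, em_adj_em, lam_dl, em_dl, mul_one, h.al_sg, inv_inv]

theorem em0_q (h : Cor q j) (w : Ell2 (A × Fin (m + 1))) :
    adjoint (em A 0) (q w) = adjoint (em A 0) w := by
  apply ext_inner_dl
  intro x
  rw [← inner_dl, ← inner_dl, adjoint_inner_right, adjoint_inner_right, em_dl,
    ← adjoint_inner_left, h.qadj, h.q0']

theorem XX_sg (h : Cor q j) (g : A) {i : Fin (m + 1)} (hi : i ≠ 0) : XX j g 0 (sg j i) = 0 := by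
  rw [XX_apply, sg, h.jq, h.em0_q, ← em_dl, em_adj_em_ne (Ne.symm hi), map_zero, map_zero,
    map_zero]

theorem XX_adj (g : A) : adjoint (XX j g 0) = XX j g⁻¹ 0 := by
  rw [eq_comm, ContinuousLinearMap.eq_adjoint_iff]
  intro x y
  rw [XX_apply, XX_apply, adjoint_inner_left, ← adjoint_inner_right (em A 0), ← adjoint_lam,
    adjoint_inner_left, adjoint_inner_left, adjoint_inner_right]

/-- The concrete module. -/
theorem mod (h : Cor q j) : Mod h.al (sg j) (fun g => XX j g 0) where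
  adj g := by
    rw [eq_comm, ContinuousLinearMap.eq_adjoint_iff]
    intro x y
    rw [al_apply, al_apply, adjoint_inner_left, adjoint_inner_right, ← rr_adj, adjoint_inner_left]
  tot v hv := by
    have h1 : j v = 0 := by
      apply eq_zero_of_inner_dl
      rintro ⟨x, i⟩
      have h2 := hv x⁻¹ i
      rw [h.al_sg, inv_inv, adjoint_inner_left, inner_dl] at h2
      exact h2
    rw [← h.jj v, h1, map_zero]
  cyc g i := ⟨XX j g⁻¹ i, h.XX_cl _ _, by rw [h.XX_sg0, inv_inv]⟩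
  tr := by
    intro X Y hX hY
    have key : ∀ {X : H →L[ℂ] H}, CL h.al X → CL (rr m) (j ∘L X ∘L adjoint j) := by
      intro X hX g w
      change j (X (adjoint j (rr m g w))) = rr m g (j (X (adjoint j w)))
      rw [← h.al_js, hX, h.j_al]
    have h1 : ∀ X Y : H →L[ℂ] H, phi (sg j) (X * Y) =
        ∑ i, ⟪(dl (1, i) : Ell2 (A × Fin (m + 1))),
          (j ∘L X ∘L adjoint j) ((j ∘L Y ∘L adjoint j) (dl (1, i)))⟫_ℂ := by
      intro X Y
      rw [phi]
      refine Finset.sum_congr rfl fun i _ => ?_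
      change ⟪sg j i, X (Y (sg j i))⟫_ℂ =
        ⟪(dl (1, i) : Ell2 (A × Fin (m + 1))), j (X (adjoint j (j (Y (adjoint j (dl (1, i)))))))⟫_ℂ
      rw [h.jj, ← adjoint_inner_left j, sg]
    rw [h1, h1, tr_cl (key hX) (key hY)]
  nrm := by
    have h1 : ‖j (sg j 0)‖ ^ 2 = ‖sg j 0‖ ^ 2 := by
      have h2 : ⟪j (sg j 0), j (sg j 0)⟫_ℂ = ⟪sg j 0, sg j 0⟫_ℂ := by
        rw [← adjoint_inner_left, h.jj]
      rw [inner_self_eq_norm_sq_to_K, inner_self_eq_norm_sq_to_K] at h2
      exact_mod_cast h2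
    rw [h.j_sg0, norm_dl] at h1
    have h2 := norm_nonneg (sg j 0)
    nlinarith
  Lc g := h.XX_cl g 0
  Ladj g := XX_adj g
  L0 g := h.XX_sg0 g 0
  Li g i hi := h.XX_sg g hi
  hs x y := by
    have h1 := hasSum_inner' (adjoint (em A 0) (j x)) (adjoint (em A 0) (j y))
    have e1 : ⟪adjoint (em A 0) (j x), adjoint (em A 0) (j y)⟫_ℂ = ⟪x, XX j 1 0 y⟫_ℂ := by
      rw [XX_apply, lam_one, one_apply_eq_self, adjoint_inner_right j, ← adjoint_inner_left (em A 0)]
    rw [e1] at h1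
    have h2 := (Equiv.inv A).hasSum_iff.mpr h1
    have e2 : ∀ (g : A) (v : H), adjoint (em A 0) (j v) g⁻¹ = ⟪h.al g (sg j 0), v⟫_ℂ := by
      intro g v
      rw [h.al_sg, adjoint_inner_left, inner_dl, em_adj_apply]
    have e3 : (fun g => ⟪x, h.al g (sg j 0)⟫_ℂ * ⟪h.al g (sg j 0), y⟫_ℂ) =
        (fun g => adjoint (em A 0) (j y) g * (starRingEnd ℂ) (adjoint (em A 0) (j x) g)) ∘
          (Equiv.inv A) := by
      funext g
      simp only [Function.comp_apply, Equiv.inv_apply]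
      rw [e2, e2, inner_conj_symm, mul_comm]
    rw [e3]
    exact h2
  orth g hg := by
    rw [h.al_sg, sg, adjoint_inner_left, h.jq, h.q0', inner_dl, dl_ne]
    intro e
    exact hg (inv_eq_one.mp (congrArg Prod.fst e).symm)

end Cor

end group

end Vale.Agent.P092.R2.H289
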