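import Vale.Agent.P092.R2.H289.AFTwo
import Vale.Agent.P092.R2.H289.Model

/-!
From non-vanishing heights to the cubic intertwiner, and the index inequality for abstract frames.
-/

set_option linter.all false

open scoped InnerProductSpace
open Filter Topology ContinuousLinearMap

namespace Vale.Agent.P092.R2.H289
open Vale.Agent.P092.H160

section

variable {Γ Λ H : Type} [Group Γ] [Group Λ] [NormedAddCommGroup H] [InnerProductSpace ℂ H]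
  [CompleteSpace H] {α : Γ →* (H →L[ℂ] H)} {β : Λ →* (H →L[ℂ] H)} {u : H} {t : ℝ}

namespace Fr

theorem sy_dl_one (h : Fr α β u t) : h.sy (dl 1) = u := by
  rw [h.sy_dl, inv_one, ap_one]

theorem tp_dl_one (h : Fr α β u t) (A : H →L[ℂ] H) : h.tp A (dl 1) = ((t : ℂ)⁻¹) • h.cc (A u) := by
  rw [h.tp_apply, h.sy_dl_one]

theorem norm_tp_dl (h : Fr α β u t) (g : Γ) : ‖h.tp (α g) (dl 1)‖ ^ 2 = t⁻¹ := by
  have h1 := h.norm_cc (α g u)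
  rw [h.norm_map, h.norm_u] at h1
  rw [h.tp_dl_one, norm_smul, mul_pow, h1, norm_inv, Complex.norm_real,
    Real.norm_of_nonneg h.tpos.le]
  have := h.tpos
  field_simp

theorem tp_dl_apply (h : Fr α β u t) (g : Γ) (s : Λ) :
    ‖(h.tp (α g) (dl 1)) s‖ = t⁻¹ * ‖⟪β s⁻¹ u, α g u⟫_ℂ‖ := by
  rw [h.tp_dl_one]
  change ‖(t : ℂ)⁻¹ * (h.cc (α g u)) s‖ = _
  rw [norm_mul, norm_inv, Complex.norm_real, Real.norm_of_nonneg h.tpos.le, h.cc_apply]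

/-- Lower bound of the fourth power sums from tightness. -/
theorem p4c_of_tight (h : Fr α β u t) (hT : h.TH (Set.range fun g : Γ => α g u)) :
    ∃ c : ℝ, 0 < c ∧ ∀ g, c ≤ p4c (fun g => h.tp (α g)) g := by
  have ht := h.tpos
  have hs0 : 0 < Real.sqrt t := Real.sqrt_pos.mpr ht
  have hss : Real.sqrt t ^ 2 = t := Real.sq_sqrt ht.le
  have h1 : H350.Tight (Set.range fun g : Γ => ((Real.sqrt t : ℝ) : ℂ) • h.tp (α g) (dl 1)) := by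
    refine H350.Tight.smul hT (((Real.sqrt t : ℝ) : ℂ) * (t : ℂ)⁻¹) ?_
    rintro _ ⟨g, rfl⟩
    refine ⟨_, ⟨_, ⟨g, rfl⟩, rfl⟩, ?_⟩
    simp only
    rw [h.tp_dl_one, smul_smul]
  obtain ⟨N, hN⟩ := h1 (1 / 2) (by norm_num)
  refine ⟨(t ^ 2)⁻¹ * (9 / (16 * (N + 1))), by positivity, fun g => ?_⟩
  obtain ⟨F, η, hF, hη, hd⟩ := hN _ ⟨g, rfl⟩
  have h2 : ‖((Real.sqrt t : ℝ) : ℂ) • h.tp (α g) (dl 1)‖ = 1 := by
    have e : ‖((Real.sqrt t : ℝ) : ℂ) • h.tp (α g) (dl 1)‖ ^ 2 = 1 := by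
      rw [norm_smul, mul_pow, h.norm_tp_dl, Complex.norm_real, Real.norm_of_nonneg hs0.le, hss]
      field_simp
    have e0 := norm_nonneg (((Real.sqrt t : ℝ) : ℂ) • h.tp (α g) (dl 1))
    nlinarith
  have h3 := p4_vec h2 hF hη hd
  have h4 : ∑' s, ‖(((Real.sqrt t : ℝ) : ℂ) • h.tp (α g) (dl 1) : Ell2 Λ) s‖ ^ 4 =
      t ^ 2 * p4c (fun g => h.tp (α g)) g := by
    rw [p4c, ← tsum_mul_left]
    refine tsum_congr fun s => ?_
    change ‖((Real.sqrt t : ℝ) : ℂ) * (h.tp (α g) (dl 1)) s‖ ^ 4 = _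
    rw [norm_mul, mul_pow, Complex.norm_real, Real.norm_of_nonneg hs0.le]
    have : Real.sqrt t ^ 4 = t ^ 2 := by
      calc Real.sqrt t ^ 4 = (Real.sqrt t ^ 2) ^ 2 := by ring
        _ = t ^ 2 := by rw [hss]
    rw [this]
  rw [h4] at h3
  calc (t ^ 2)⁻¹ * (9 / (16 * (N + 1))) ≤ (t ^ 2)⁻¹ * (t ^ 2 * p4c (fun g => h.tp (α g)) g) := by
        gcongr
    _ = _ := by field_simp

/-- The tight vector of part (I). -/
theorem exists_tight (h : Fr α β u t) (x : Γ)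
    (hnot : ¬ Tendsto (fun N : ℕ => (∑ k ∈ Finset.range N,
      ⨆ s, ‖⟪β s u, α (x ^ (k + 1)) u⟫_ℂ‖) / N) atTop (𝓝 0)) :
    ∃ ξ : H, ξ ≠ 0 ∧ h.TH (Set.range fun k : ℤ => α (x ^ k) ξ) := by
  have hsup : ∀ k : ℕ, ⨆ s, ‖(h.tp (α (x ^ ((k : ℤ) + 1))) (dl 1) : Ell2 Λ) s‖ =
      t⁻¹ * ⨆ s, ‖⟪β s u, α (x ^ (k + 1)) u⟫_ℂ‖ := by
    intro k
    have e : x ^ ((k : ℤ) + 1) = x ^ (k + 1) := by
      rw [← zpow_natCast]
      push_cast
      rfl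
    rw [e, Real.mul_iSup_of_nonneg (inv_nonneg.mpr h.tpos.le)]
    simp only [h.tp_dl_apply]
    exact (Equiv.inv Λ).iSup_comp (g := fun s => t⁻¹ * ‖⟪β s u, α (x ^ (k + 1)) u⟫_ℂ‖)
  obtain ⟨ξ, hξ, hξ0, ht⟩ := part_one (h.cf.pu x) (by
    intro hten
    apply hnot
    have h1 := hten.const_mul t
    rw [mul_zero] at h1
    refine h1.congr fun N => ?_
    simp only [hsup]
    rw [← Finset.mul_sum, ← mul_div_assoc, ← mul_assoc, mul_inv_cancel₀ h.tpos.ne', one_mul])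
  refine ⟨h.sy ξ, ?_, ?_⟩
  · intro h0
    apply hξ
    rw [← hξ0]
    change h.tp (α (x ^ (0 : ℤ))) ξ = 0
    rw [h.tp_apply, h0, map_zero, map_zero, smul_zero]
  · refine H350.Tight.smul ht (t : ℂ) ?_
    rintro _ ⟨_, ⟨k, rfl⟩, rfl⟩
    refine ⟨_, ⟨k, rfl⟩, ?_⟩
    simp only
    rw [h.tp_apply, smul_smul, mul_inv_cancel₀ h.tne, one_smul]

/-- The cubic intertwiner. -/
theorem exists_T (h : Fr α β u t) (hT : h.TH (Set.range fun g : Γ => α g u)) :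
    ∃ T : Ell2 Λ →L[ℂ] Ell2 (Λ × Λ × Λ), (∀ s v, T (rho s v) = rho (ι3 s) (T v)) ∧
      (∀ g v, T (h.tp (α g) v) = A3c (fun g => h.tp (α g)) g (T v)) ∧
      ∃ v : H, T (h.cc v) ≠ 0 := by
  obtain ⟨c, hc, hp⟩ := h.p4c_of_tight hT
  obtain ⟨T, hT, hTA⟩ := existsC_invariant h.cf hp
  refine ⟨T, hT.rho_map, hTA, ?_⟩
  by_contra hcon
  push Not at hcon
  have h1 : T (dl 1) = 0 := by
    rw [← hT.proj, h.tp_apply, map_smul, hcon, smul_zero]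
  have h2 := hT.pos
  rw [h1] at h2
  have h3 : ((0 : Ell2 (Λ × Λ × Λ)) (1, 1, 1)).re = 0 := rfl
  rw [h3] at h2
  linarith

/-- The index inequality for the frame of an isomorphism. -/
theorem le_one (h : Fr α β u t)
    (hΛ : ∀ s : Λ, s ≠ 1 → Set.Infinite {y : Λ | ∃ h, y = h * s * h⁻¹})
    {m : ℕ} {σ : Fin m → H} (hD : TrD β (CL α) σ)
    {T : Ell2 Λ →L[ℂ] Ell2 (Λ × Λ × Λ)} (hTr : ∀ s v, T (rho s v) = rho (ι3 s) (T v))
    (hTA : ∀ g v, T (h.tp (α g) v) = A3c (fun g => h.tp (α g)) g (T v))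
    (hne : ∃ v : H, T (h.cc v) ≠ 0) : t ≤ 1 := by
  set S : H →L[ℂ] Ell2 (Λ × Λ × Λ) := T ∘L h.cc with hS
  have hSα : ∀ g v, S (α g v) = A3c (fun g => h.tp (α g)) g (S v) := by
    intro g v
    change T (h.cc (α g v)) = A3c (fun g => h.tp (α g)) g (T (h.cc v))
    rw [← hTA, h.tp_cc]
  have hSa : ∀ g w, adjoint S (A3c (fun g => h.tp (α g)) g w) = α g (adjoint S w) := by
    intro g w
    refine ext_inner_left ℂ fun v => ?_
    have h1 : ⟪v, α g (adjoint S w)⟫_ℂ = ⟪α g⁻¹ v, adjoint S w⟫_ℂ := by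
      rw [← h.adj g, adjoint_inner_left]
    rw [h1, adjoint_inner_right, adjoint_inner_right, hSα, ← adjoint_inner_left,
      A3c_adj h.cf]
  refine index_le (p := h.tp 1) (S := S) hΛ hD h.adjβ h.norm_u h.tpos h.frame ?_ ?_ ?_ ?_ ?_ ?_ ?_
  · rw [h.tp_adj, ← star_eq_adjoint, star_one]
  · exact fun g => h.tp_rho CL.one g
  · have h1 := h.norm_tp_dl 1
    rw [map_one] at h1
    exact h1
  · intro h0
    obtain ⟨v, hv⟩ := hne
    exact hv (congrArg (fun L : H →L[ℂ] Ell2 (Λ × Λ × Λ) => L v) h0)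
  · intro s v
    change T (h.cc (β s v)) = rho (ι3 s) (T (h.cc v))
    rw [h.cc_beta, hTr]
  · intro v
    have h1 := hSα 1 v
    rw [map_one, one_apply_eq_self, A3c_apply] at h1
    simp only [map_one] at h1
    exact h1.symm
  · intro x g v
    change adjoint S (rho x (S (α g v))) = α g (adjoint S (rho x (S v)))
    rw [hSα, ← mul_ap (rho x), ← A3c_comm h.cf, mul_ap, hSa]

end Fr

end

section main

open Matrix

variable {n : ℕ} {Γ : Subgroup (Matrix.SpecialLinearGroup (Fin n) ℤ)} [Γ.FiniteIndex]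
  {Λ H : Type} [Group Λ] [NormedAddCommGroup H] [InnerProductSpace ℂ H] [CompleteSpace H]
  {α : Γ →* (H →L[ℂ] H)} {β : Λ →* (H →L[ℂ] H)} {u : H} {t : ℝ}

/-- If the averages of the heights along a unipotent do not tend to zero, then there is a cubic
intertwiner. -/
theorem Fr.T_of_heights (h : Fr α β u t) (hn : 3 ≤ n)
    (hΓ : ∀ g ∈ Γ, (g : Matrix (Fin n) (Fin n) ℤ) ≠ -1) (x : Γ) (j : ℕ) (hxj : x ^ j ≠ 1)
    (hnil : IsNilpotent ((((x ^ j : Γ) : SpecialLinearGroup (Fin n) ℤ) :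
      Matrix (Fin n) (Fin n) ℤ) - 1))
    (hnot : ¬ Tendsto (fun N : ℕ => (∑ k ∈ Finset.range N,
      ⨆ s, ‖⟪β s u, α (x ^ (k + 1)) u⟫_ℂ‖) / N) atTop (𝓝 0)) :
    ∃ T : Ell2 Λ →L[ℂ] Ell2 (Λ × Λ × Λ), (∀ s v, T (rho s v) = rho (ι3 s) (T v)) ∧
      (∀ g v, T (h.tp (α g) v) = A3c (fun g => h.tp (α g)) g (T v)) ∧
      ∃ v : H, T (h.cc v) ≠ 0 := by
  obtain ⟨ξ, hξ, ht⟩ := h.exists_tight x hnot
  have ht' : h.TH (Set.range fun k : ℤ => α ((x ^ j) ^ k) ξ) := by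
    refine Fr.TH.mono ht ?_
    rintro _ ⟨k, rfl⟩
    refine ⟨(j : ℤ) * k, ?_⟩
    simp only
    rw [_root_.zpow_mul, zpow_natCast]
  exact h.exists_T (h.part_two hn hΓ (x ^ j) hxj hnil ξ hξ ht')

/-- **Main theorem, `t > 1`**, abstract form. -/
theorem main_gt {m : ℕ} {α : Γ →* (H →L[ℂ] H)} {σ : Fin (m + 1) → H} {L : Γ → (H →L[ℂ] H)}
    (h : Mod α σ L) (θ : LG Λ ≃⋆ₐ[ℂ] NN α) (hd : 1 < Mod.dm σ)
    (hΛ : ∀ s : Λ, s ≠ 1 → Set.Infinite {y : Λ | ∃ h, y = h * s * h⁻¹})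
    (hn : 3 ≤ n) (hΓ : ∀ g ∈ Γ, (g : Matrix (Fin n) (Fin n) ℤ) ≠ -1) (x : Γ) (j : ℕ)
    (hxj : x ^ j ≠ 1)
    (hnil : IsNilpotent ((((x ^ j : Γ) : SpecialLinearGroup (Fin n) ℤ) :
      Matrix (Fin n) (Fin n) ℤ) - 1)) :
    Tendsto (fun N : ℕ => (∑ k ∈ Finset.range N,
      ⨆ s, ‖⟪bt θ s (σ 0), α (x ^ (k + 1)) (σ 0)⟫_ℂ‖) / N) atTop (𝓝 0) := by
  by_contra hnot
  obtain ⟨T, h1, h2, h3⟩ := (fr hΛ h θ).T_of_heights hn hΓ x j hxj hnil hnot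
  have h4 := (fr hΛ h θ).le_one hΛ (trD hΛ h θ) h1 h2 h3
  linarith

end main

end Vale.Agent.P092.R2.H289
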