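import Vale.Agent.P092.R2.H289.AF

/-!
Tight subspaces for abstract frames (port of `H350.Sub` and `H350.Step`).
-/

set_option linter.all false

open scoped InnerProductSpace
open Filter Topology ContinuousLinearMap

namespace Vale.Agent.P092.R2.H289
open Vale.Agent.P092.H160
open Vale.Agent.P092.H350 (Heis)

section

variable {Γ Λ H : Type} [Group Γ] [Group Λ] [NormedAddCommGroup H] [InnerProductSpace ℂ H]
  [CompleteSpace H]

namespace Fr

variable {α : Γ →* (H →L[ℂ] H)} {β : Λ →* (H →L[ℂ] H)} {u : H} {t : ℝ}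

theorem inner_left (hα : Fr α β u t) (g : Γ) (ξ η : H) :
    ⟪α g ξ, η⟫_ℂ = ⟪ξ, α g⁻¹ η⟫_ℂ := by
  rw [← hα.adj, ContinuousLinearMap.adjoint_inner_right]

theorem inner_map (hα : Fr α β u t) (g : Γ) (ξ η : H) :
    ⟪α g ξ, α g η⟫_ℂ = ⟪ξ, η⟫_ℂ := by
  rw [hα.inner_left, ← ap_mul, inv_mul_cancel, ap_one]

theorem norm_map (hα : Fr α β u t) (g : Γ) (ξ : H) : ‖α g ξ‖ = ‖ξ‖ := by
  have h := hα.inner_map g ξ ξ
  rw [inner_self_eq_norm_sq_to_K, inner_self_eq_norm_sq_to_K] at h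
  have h' : ‖α g ξ‖ ^ 2 = ‖ξ‖ ^ 2 := by exact_mod_cast h
  nlinarith [norm_nonneg (α g ξ), norm_nonneg ξ, sq_nonneg (‖α g ξ‖ - ‖ξ‖)]

theorem opNorm_le (hα : Fr α β u t) (g : Γ) : ‖α g‖ ≤ 1 :=
  ContinuousLinearMap.opNorm_le_bound _ zero_le_one (fun ξ => by rw [hα.norm_map, one_mul])

/-- The subspace of the vectors whose orbit under `x` is tight. -/
def Ht (hα : Fr α β u t) (x : Γ) : Submodule ℂ H where
  carrier := {ξ | hα.TH (Set.range fun k : ℤ => α (x ^ k) ξ)}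
  add_mem' := by
    intro ξ η hξ hη
    refine TH.add hξ hη ?_
    rintro _ ⟨k, rfl⟩
    exact ⟨_, ⟨k, rfl⟩, _, ⟨k, rfl⟩, map_add _ _ _⟩
  zero_mem' := by
    refine (hα.th_singleton (0 : H)).mono ?_
    rintro _ ⟨k, rfl⟩
    simp
  smul_mem' := by
    intro c ξ hξ
    refine TH.smul hξ c ?_
    rintro _ ⟨k, rfl⟩
    exact ⟨_, ⟨k, rfl⟩, map_smul _ _ _⟩

theorem mem_Ht {hα : Fr α β u t} {x : Γ} {ξ : H} :
    ξ ∈ hα.Ht x ↔ hα.TH (Set.range fun k : ℤ => α (x ^ k) ξ) := Iff.rfl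

theorem isClosed_Ht (hα : Fr α β u t) (x : Γ) : IsClosed (hα.Ht x : Set H) := by
  rw [← closure_subset_iff_isClosed]
  intro ξ hξ
  show hα.TH _
  refine hα.th_of_approx (fun ε hε => ?_)
  obtain ⟨η, hη, hd⟩ := Metric.mem_closure_iff.mp hξ ε hε
  refine ⟨_, hη, ?_⟩
  rintro _ ⟨k, rfl⟩
  refine ⟨_, ⟨k, rfl⟩, ?_⟩
  rw [← map_sub, hα.norm_map, ← dist_eq_norm]
  exact hd.le

theorem Ht_complete (hα : Fr α β u t) (x : Γ) : CompleteSpace (hα.Ht x) :=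
  (hα.isClosed_Ht x).completeSpace_coe

theorem Ht_proj (hα : Fr α β u t) (x : Γ) : (hα.Ht x).HasOrthogonalProjection :=
  haveI := hα.Ht_complete x
  inferInstance

theorem beta_mem_Ht (hα : Fr α β u t) (x : Γ) (s : Λ) {ξ : H} (h : ξ ∈ hα.Ht x) :
    β s ξ ∈ hα.Ht x := by
  refine th_beta s h ?_
  rintro _ ⟨k, rfl⟩
  exact ⟨_, ⟨k, rfl⟩, hα.rc _ s ξ⟩

/-- A single operator commuting with `β` preserves tightness. -/
theorem tight_map {hα : Fr α β u t} {T : H →L[ℂ] H} (hT : CL β T) {S U : Set H} {M : ℝ}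
    (hM : ∀ ξ ∈ S, ‖ξ‖ ≤ M) (hS : hα.TH S) (hU : ∀ ζ ∈ U, ∃ ξ ∈ S, ζ = T ξ) : hα.TH U := by
  refine TH.op (B := {T}) (C := ‖T‖) (by rintro b rfl; exact hT) (by rintro b rfl; exact le_rfl)
    ?_ hM hS (fun ζ hζ => ⟨T, rfl, hU ζ hζ⟩)
  rw [Set.image_singleton]
  exact hα.th_singleton _

theorem pow_mem_Ht {hα : Fr α β u t} {x : Γ} {ξ : H} (h : ξ ∈ hα.Ht x) (m : ℤ) :
    ξ ∈ hα.Ht (x ^ m) := by
  refine TH.mono (h := hα) h ?_
  rintro _ ⟨k, rfl⟩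
  exact ⟨m * k, by simp only [zpow_mul]⟩

theorem mem_Ht_of_pow (hα : Fr α β u t) {x : Γ} {ξ : H} {m : ℤ} (hm : m ≠ 0)
    (h : ξ ∈ hα.Ht (x ^ m)) : ξ ∈ hα.Ht x := by
  have h1 : ∀ j : Fin m.natAbs, hα.TH ((fun η => α (x ^ (j : ℤ)) η) ''
      Set.range fun k : ℤ => α ((x ^ m) ^ k) ξ) := by
    intro j
    refine tight_map (hα.rc (x ^ (j : ℤ))) (M := ‖ξ‖) ?_ h ?_
    · rintro _ ⟨k, rfl⟩
      simp only [hα.norm_map]
      exact le_rfl
    · rintro _ ⟨η, hη, rfl⟩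
      exact ⟨η, hη, rfl⟩
  refine TH.mono (hα.th_iUnion _ h1) ?_
  rintro _ ⟨k, rfl⟩
  rw [Set.mem_iUnion]
  have hlt : (k % m).toNat < m.natAbs := by
    have h1 := Int.emod_lt_abs k hm
    have h2 := Int.emod_nonneg k hm
    rw [Int.abs_eq_natAbs] at h1
    omega
  refine ⟨⟨(k % m).toNat, hlt⟩, _, ⟨k / m, rfl⟩, ?_⟩
  simp only
  rw [← ap_mul, ← zpow_mul, ← zpow_add, Int.toNat_of_nonneg (Int.emod_nonneg k hm)]
  congr 2
  rw [Int.emod_add_mul_ediv]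

theorem Ht_pow (hα : Fr α β u t) (x : Γ) {m : ℤ} (hm : m ≠ 0) : hα.Ht (x ^ m) = hα.Ht x :=
  le_antisymm (fun _ h => hα.mem_Ht_of_pow hm h) (fun _ h => pow_mem_Ht h m)

/-- Operators commuting with `β` and with `α x` preserve `Ht x`. -/
theorem map_mem_Ht (hα : Fr α β u t) {x : Γ} {T : H →L[ℂ] H} (hT : CL β T)
    (hc : ∀ ξ, T (α x ξ) = α x (T ξ)) {ξ : H} (h : ξ ∈ hα.Ht x) : T ξ ∈ hα.Ht x := by
  have hc' : ∀ ξ, T (α x⁻¹ ξ) = α x⁻¹ (T ξ) := by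
    intro ξ
    have := hc (α x⁻¹ ξ)
    rw [← ap_mul, mul_inv_cancel, ap_one] at this
    rw [this, ← ap_mul, inv_mul_cancel, ap_one]
  have hk : ∀ (k : ℤ) (ξ), T (α (x ^ k) ξ) = α (x ^ k) (T ξ) := by
    intro k
    induction k using Int.induction_on with
    | zero => intro ξ; rw [zpow_zero, ap_one, ap_one]
    | succ k ih => intro ξ; rw [zpow_add_one, ap_mul, ap_mul, ih, hc]
    | pred k ih => intro ξ; rw [zpow_sub_one, ap_mul, ap_mul, ih, hc']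
  refine tight_map hT (M := ‖ξ‖) ?_ h ?_
  · rintro _ ⟨k, rfl⟩
    simp only [hα.norm_map]
    exact le_rfl
  · rintro _ ⟨k, rfl⟩
    exact ⟨_, ⟨k, rfl⟩, (hk k ξ).symm⟩

theorem conj_mem_Ht (hα : Fr α β u t) (g x : Γ) {ξ : H} (h : ξ ∈ hα.Ht x) :
    α g ξ ∈ hα.Ht (g * x * g⁻¹) := by
  refine tight_map (hα.rc g) (M := ‖ξ‖) ?_ h ?_
  · rintro _ ⟨k, rfl⟩
    simp only [hα.norm_map]
    exact le_rfl
  · rintro _ ⟨k, rfl⟩
    refine ⟨_, ⟨k, rfl⟩, ?_⟩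
    simp only
    rw [← ap_mul, ← ap_mul, conj_zpow, inv_mul_cancel_right]

/-- The projection onto the tight subspace. -/
noncomputable def P (hα : Fr α β u t) (x : Γ) : H →L[ℂ] H :=
  haveI := hα.Ht_proj x
  (hα.Ht x).starProjection

theorem P_mem (hα : Fr α β u t) (x : Γ) (ξ : H) : hα.P x ξ ∈ hα.Ht x := by
  have := hα.Ht_proj x
  exact (hα.Ht x).starProjection_apply_mem ξ

theorem P_eq_self (hα : Fr α β u t) {x : Γ} {ξ : H} (h : ξ ∈ hα.Ht x) : hα.P x ξ = ξ := by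
  have := hα.Ht_proj x
  exact Submodule.starProjection_eq_self_iff.mpr h

theorem P_adjoint (hα : Fr α β u t) (x : Γ) :
    ContinuousLinearMap.adjoint (hα.P x) = hα.P x := by
  have := hα.Ht_proj x
  have h : IsSelfAdjoint (hα.Ht x).starProjection := isSelfAdjoint_starProjection _
  exact h

theorem P_inner (hα : Fr α β u t) (x : Γ) (ξ η : H) :
    ⟪hα.P x ξ, η⟫_ℂ = ⟪ξ, hα.P x η⟫_ℂ := by
  conv_rhs => rw [← hα.P_adjoint x]
  rw [ContinuousLinearMap.adjoint_inner_right]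

theorem P_idem (hα : Fr α β u t) (x : Γ) (ξ : H) : hα.P x (hα.P x ξ) = hα.P x ξ :=
  hα.P_eq_self (hα.P_mem x ξ)

theorem P_norm (hα : Fr α β u t) (x : Γ) (ξ : H) : ‖hα.P x ξ‖ ≤ ‖ξ‖ := by
  have := hα.Ht_proj x
  exact (hα.Ht x).norm_starProjection_apply_le ξ

theorem P_eq_zero_iff (hα : Fr α β u t) (x : Γ) (ξ : H) :
    hα.P x ξ = 0 ↔ ∀ η ∈ hα.Ht x, ⟪η, ξ⟫_ℂ = 0 := by
  constructor
  · intro h η hη
    rw [← hα.P_eq_self hη, P_inner, h, inner_zero_right]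
  · intro h
    have h1 := h _ (hα.P_mem x ξ)
    rw [P_inner, ← P_idem, ← P_inner, inner_self_eq_zero] at h1
    exact h1

/-- If `T` and its adjoint preserve `Ht x` then `T` commutes with the projection. -/
theorem P_comm_of (hα : Fr α β u t) {x : Γ} {T : H →L[ℂ] H}
    (h1 : ∀ ξ ∈ hα.Ht x, T ξ ∈ hα.Ht x)
    (h2 : ∀ ξ ∈ hα.Ht x, ContinuousLinearMap.adjoint T ξ ∈ hα.Ht x) (ξ : H) :
    T (hα.P x ξ) = hα.P x (T ξ) := by
  have h3 : hα.P x (T (ξ - hα.P x ξ)) = 0 := by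
    rw [P_eq_zero_iff]
    intro η hη
    rw [← ContinuousLinearMap.adjoint_inner_left]
    have := (hα.P_eq_zero_iff x (ξ - hα.P x ξ)).mp (by rw [map_sub, P_idem, sub_self])
    exact this _ (h2 η hη)
  rw [map_sub, map_sub, sub_eq_zero] at h3
  rw [h3, hα.P_eq_self (h1 _ (hα.P_mem x ξ))]

theorem P_rc (hα : Fr α β u t) (x : Γ) : CL β (hα.P x) := by
  intro s ξ
  refine (hα.P_comm_of (T := β s) (fun ξ hξ => hα.beta_mem_Ht x s hξ) (fun ξ hξ => ?_) ξ).symm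
  rw [hα.adjβ]
  exact hα.beta_mem_Ht x s⁻¹ hξ

theorem P_comm (hα : Fr α β u t) {x h : Γ} (hc : Commute h x) (ξ : H) :
    α h (hα.P x ξ) = hα.P x (α h ξ) := by
  refine hα.P_comm_of (T := α h) (fun ξ hξ => ?_) (fun ξ hξ => ?_) ξ
  · refine hα.map_mem_Ht (hα.rc h) (fun ζ => ?_) hξ
    rw [← ap_mul, ← ap_mul, hc.eq]
  · rw [hα.adj]
    refine hα.map_mem_Ht (hα.rc h⁻¹) (fun ζ => ?_) hξ
    rw [← ap_mul, ← ap_mul, hc.inv_left.eq]

theorem P_conj (hα : Fr α β u t) (g x : Γ) (ξ : H) :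
    hα.P (g * x * g⁻¹) ξ = α g (hα.P x (α g⁻¹ ξ)) := by
  have hmem : α g (hα.P x (α g⁻¹ ξ)) ∈ hα.Ht (g * x * g⁻¹) :=
    hα.conj_mem_Ht g x (hα.P_mem x _)
  rw [← hα.P_eq_self hmem, ← sub_eq_zero, ← map_sub, P_eq_zero_iff]
  intro η hη
  have hη' : α g⁻¹ η ∈ hα.Ht x := by
    have := hα.conj_mem_Ht g⁻¹ _ hη
    have e : g⁻¹ * (g * x * g⁻¹) * g⁻¹⁻¹ = x := by group
    rwa [e] at this
  rw [inner_sub_right, sub_eq_zero]
  conv_rhs => rw [← inv_inv g, ← hα.inner_left, inv_inv]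
  rw [← P_inner, hα.P_eq_self hη', hα.inner_map]

theorem inner_self' (ξ : H) : ⟪ξ, ξ⟫_ℂ = ((‖ξ‖ ^ 2 : ℝ) : ℂ) := by
  rw [inner_self_eq_norm_sq_to_K]
  push_cast
  rfl

/-- The commutator step. -/
theorem step (hα : Fr α β u t) {x y r : Γ} (h : Heis x y r) {ξ : H}
    (hξ : ξ ∈ hα.Ht (y * x * y⁻¹)) : hα.P x ξ ∈ hα.Ht r := by
  refine TH.op (h := hα) (B := Set.range fun k : ℤ => α (x ^ k) * hα.P x) (C := 1) (M := ‖ξ‖)
    (S := Set.range fun k : ℤ => α ((y * x * y⁻¹) ^ k) ξ) ?_ ?_ ?_ ?_ hξ ?_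
  · rintro _ ⟨k, rfl⟩
    exact (hα.rc _).mul (hα.P_rc x)
  · rintro _ ⟨k, rfl⟩
    refine ContinuousLinearMap.opNorm_le_bound _ zero_le_one (fun ζ => ?_)
    show ‖α (x ^ k) (hα.P x ζ)‖ ≤ _
    rw [hα.norm_map, one_mul]
    exact hα.P_norm x ζ
  · rw [← Set.range_comp]
    exact hα.P_mem x u
  · rintro _ ⟨k, rfl⟩
    simp only [hα.norm_map]
    exact le_rfl
  · rintro _ ⟨k, rfl⟩
    refine ⟨_, ⟨k, rfl⟩, _, ⟨-k, rfl⟩, ?_⟩
    show α (r ^ k) (hα.P x ξ) = α (x ^ k) (hα.P x (α ((y * x * y⁻¹) ^ (-k)) ξ))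
    rw [hα.P_comm (h.cx.zpow_left k), hα.P_comm ((Commute.refl x).zpow_left k), ← ap_mul,
      ← h.zpow_eq]

/-- If the whole space is tight for `x`, it is tight for `r`. -/
theorem step_top (hα : Fr α β u t) {x y r : Γ} (h : Heis x y r) (hx : hα.Ht x = ⊤) :
    hα.Ht r = ⊤ := by
  rw [eq_top_iff]
  intro ξ _
  have h1 : ξ ∈ hα.Ht (y * x * y⁻¹) := by
    have := hα.conj_mem_Ht y x (ξ := α y⁻¹ ξ) (by rw [hx]; trivial)
    rwa [← ap_mul, mul_inv_cancel, ap_one] at this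
  have h2 := hα.step h h1
  rwa [hα.P_eq_self (by rw [hx]; trivial)] at h2

/-- the trace of the projection -/
theorem trace_conj (hα : Fr α β u t) (g x : Γ) :
    ⟪u, hα.P (g * x * g⁻¹) u⟫_ℂ = ⟪u, hα.P x u⟫_ℂ := by
  rw [P_conj]
  have h := hα.tr (hα.rc g) ((hα.P_rc x).mul (hα.rc g⁻¹))
  have h' : ⟪u, α g (hα.P x (α g⁻¹ u))⟫_ℂ = ⟪u, hα.P x (α g⁻¹ (α g u))⟫_ℂ := h
  rw [h', ← ap_mul, inv_mul_cancel, ap_one]

theorem trace_eq_norm (hα : Fr α β u t) (x : Γ) :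
    ⟪u, hα.P x u⟫_ℂ = ((‖hα.P x u‖ ^ 2 : ℝ) : ℂ) := by
  rw [← inner_self']
  conv_lhs => rw [← P_idem]
  rw [← P_inner]

theorem norm_P_conj (hα : Fr α β u t) (g x : Γ) :
    ‖hα.P (g * x * g⁻¹) u‖ = ‖hα.P x u‖ := by
  have h := hα.trace_conj g x
  rw [trace_eq_norm, trace_eq_norm] at h
  have h' : ‖hα.P (g * x * g⁻¹) u‖ ^ 2 = ‖hα.P x u‖ ^ 2 := by exact_mod_cast h
  nlinarith [norm_nonneg (hα.P (g * x * g⁻¹) u), norm_nonneg (hα.P x u),
    sq_nonneg (‖hα.P (g * x * g⁻¹) u‖ - ‖hα.P x u‖)]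

theorem Ht_eq_bot_of (hα : Fr α β u t) {x : Γ} (h : hα.P x u = 0) : hα.Ht x = ⊥ := by
  have h1 : hα.P x = 0 := hα.ext (hα.P_rc x) CL.zero (by rw [h]; rfl)
  rw [eq_bot_iff]
  intro ξ hξ
  rw [← hα.P_eq_self hξ, h1]
  simp

/-- From a nonzero tight subspace for `x` to one for `r = [x, y]`. -/
theorem step_ne_bot (hα : Fr α β u t) {x y r : Γ} (h : Heis x y r) (hx : hα.Ht x ≠ ⊥) :
    hα.Ht r ≠ ⊥ := by
  intro hr
  apply hx
  apply hα.Ht_eq_bot_of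
  by_contra hne
  set w : ℤ → H := fun m => hα.P (y ^ m * x * (y ^ m)⁻¹) u with hw
  have hnorm : ∀ m, ‖w m‖ = ‖hα.P x u‖ := fun m => hα.norm_P_conj _ _
  have horth : ∀ m : ℤ, m ≠ 0 → ∀ ξ ∈ hα.Ht (y ^ m * x * (y ^ m)⁻¹), hα.P x ξ = 0 := by
    intro m hm ξ hξ
    have h1 := hα.step (h.pow m) hξ
    rw [hα.Ht_pow r hm, hr] at h1
    simpa using h1
  have horth2 : ∀ m l : ℤ, m ≠ l → ⟪w m, w l⟫_ℂ = 0 := by
    intro m l hml
    have e1 : w m = α (y ^ m) (hα.P x (α (y ^ m)⁻¹ u)) := hα.P_conj _ _ _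
    have h3 : α (y ^ m)⁻¹ (w l) ∈ hα.Ht (y ^ (l - m) * x * (y ^ (l - m))⁻¹) := by
      have := hα.conj_mem_Ht (y ^ m)⁻¹ _ (hα.P_mem (y ^ l * x * (y ^ l)⁻¹) u)
      have e : (y ^ m)⁻¹ * (y ^ l * x * (y ^ l)⁻¹) * (y ^ m)⁻¹⁻¹
          = y ^ (l - m) * x * (y ^ (l - m))⁻¹ := by
        rw [zpow_sub]; group
      rwa [e] at this
    rw [e1, hα.inner_left, P_inner, horth (l - m) (sub_ne_zero.mpr (Ne.symm hml)) _ h3,
      inner_zero_right]
  have hbessel : ∀ N : ℕ, (N : ℝ) * ‖hα.P x u‖ ^ 2 ≤ 1 := by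
    intro N
    set s : H := ∑ m ∈ Finset.range N, w m with hs
    have h1 : ⟪s, s⟫_ℂ = ((N * ‖hα.P x u‖ ^ 2 : ℝ) : ℂ) := by
      rw [hs, sum_inner]
      have : ∀ m ∈ Finset.range N, ⟪w m, ∑ l ∈ Finset.range N, w l⟫_ℂ
          = ((‖hα.P x u‖ ^ 2 : ℝ) : ℂ) := by
        intro m hm
        rw [inner_sum, Finset.sum_eq_single_of_mem m hm]
        · rw [inner_self', hnorm]
        · intro l _ hl
          exact horth2 _ _ (by exact_mod_cast Ne.symm hl)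
      rw [Finset.sum_congr rfl this, Finset.sum_const, Finset.card_range, nsmul_eq_mul]
      push_cast; ring
    have h2 : ⟪u, s⟫_ℂ = ((N * ‖hα.P x u‖ ^ 2 : ℝ) : ℂ) := by
      rw [hs, inner_sum]
      have : ∀ m ∈ Finset.range N, ⟪u, w m⟫_ℂ
          = ((‖hα.P x u‖ ^ 2 : ℝ) : ℂ) := by
        intro m _
        rw [hw]
        simp only
        rw [trace_eq_norm, norm_P_conj]
      rw [Finset.sum_congr rfl this, Finset.sum_const, Finset.card_range, nsmul_eq_mul]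
      push_cast; ring
    have h3 : ‖s‖ ^ 2 = N * ‖hα.P x u‖ ^ 2 := by
      rw [inner_self'] at h1
      exact_mod_cast h1
    have h4 : N * ‖hα.P x u‖ ^ 2 ≤ ‖s‖ := by
      have h5 := norm_inner_le_norm (𝕜 := ℂ) u s
      rw [h2, hα.norm_u, one_mul, Complex.norm_real, Real.norm_of_nonneg (by positivity)] at h5
      exact h5
    rw [← h3] at h4 ⊢
    nlinarith [norm_nonneg s, sq_nonneg ‖s‖]
  have hpos : 0 < ‖hα.P x u‖ ^ 2 := by
    have : 0 < ‖hα.P x u‖ := norm_pos_iff.mpr hne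
    positivity
  obtain ⟨N, hN⟩ := exists_nat_gt (1 / ‖hα.P x u‖ ^ 2)
  have := hbessel N
  rw [div_lt_iff₀ hpos] at hN
  linarith

/-- The Fourier coefficients of the projection. -/
noncomputable def c (hα : Fr α β u t) (x g : Γ) : ℂ := ⟪α g u, hα.P x u⟫_ℂ

theorem c_conj (hα : Fr α β u t) (x g h : Γ) :
    hα.c (h * x * h⁻¹) (h * g * h⁻¹) = hα.c x g := by
  rw [c, c, P_conj, hα.inner_left, hα.inner_left]
  have h1 := hα.tr (hα.rc ((h * g * h⁻¹)⁻¹ * h)) ((hα.P_rc x).mul (hα.rc h⁻¹))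
  have h2 : ⟪u, α ((h * g * h⁻¹)⁻¹ * h) (hα.P x (α h⁻¹ u))⟫_ℂ =
      ⟪u, hα.P x (α h⁻¹ (α ((h * g * h⁻¹)⁻¹ * h) u))⟫_ℂ := h1
  rw [ap_mul, ← ap_mul α h⁻¹] at h2
  rw [h2]
  have e : h⁻¹ * ((h * g * h⁻¹)⁻¹ * h) = g⁻¹ := by group
  rw [e]
  exact hα.tr (hα.P_rc x) (hα.rc g⁻¹)

theorem c_comm (hα : Fr α β u t) {x h : Γ} (g : Γ) (hc : Commute h x) :
    hα.c x (h * g * h⁻¹) = hα.c x g := by
  have h1 := hα.c_conj x g h
  rwa [hc.eq, mul_inv_cancel_right] at h1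

theorem orthonormal (hα : Fr α β u t) : Orthonormal ℂ (fun g : Γ => α g u) := by
  classical
  rw [orthonormal_iff_ite]
  intro g h
  rw [hα.inner_left, ← ap_mul]
  split_ifs with e
  · subst e
    rw [inv_mul_cancel, ap_one, inner_self_eq_norm_sq_to_K, hα.norm_u]; simp
  · exact hα.orth _ (fun h' => e (inv_mul_eq_one.mp h'))

/-- If the Fourier coefficient of the projection at `g` is nonzero and `h` commutes with `x`,
then a nonzero power of `h` commutes with `g`. -/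
theorem exists_pow_comm (hα : Fr α β u t) {x g h : Γ} (hc : Commute h x) (hg : hα.c x g ≠ 0) :
    ∃ m : ℕ, m ≠ 0 ∧ Commute (h ^ m) g := by
  by_contra hcon
  push Not at hcon
  have hinj : Function.Injective (fun m : ℕ => h ^ m * g * (h ^ m)⁻¹) := by
    have key : ∀ m l : ℕ, m < l → h ^ m * g * (h ^ m)⁻¹ ≠ h ^ l * g * (h ^ l)⁻¹ := by
      intro m l hml e
      obtain ⟨d, rfl⟩ := Nat.exists_eq_add_of_lt hml
      apply hcon (d + 1) (by omega)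
      have e2 : h ^ (m + d + 1) = h ^ m * h ^ (d + 1) := by rw [← pow_add]; rfl
      rw [e2] at e
      have e3 : g = h ^ (d + 1) * g * (h ^ (d + 1))⁻¹ := by
        have := congrArg (fun z => (h ^ m)⁻¹ * z * h ^ m) e
        simp only [mul_inv_rev] at this
        calc g = (h ^ m)⁻¹ * (h ^ m * g * (h ^ m)⁻¹) * h ^ m := by group
          _ = (h ^ m)⁻¹ * (h ^ m * h ^ (d + 1) * g * ((h ^ (d + 1))⁻¹ * (h ^ m)⁻¹)) * h ^ m := this
          _ = h ^ (d + 1) * g * (h ^ (d + 1))⁻¹ := by group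
      show h ^ (d + 1) * g = g * h ^ (d + 1)
      conv_rhs => rw [e3]
      group
    intro m l e
    rcases lt_trichotomy m l with h1 | h1 | h1
    · exact absurd e (key _ _ h1)
    · exact h1
    · exact absurd e.symm (key _ _ h1)
  have hsum := (hα.orthonormal.inner_products_summable (x := hα.P x u)).comp_injective hinj
  have hconst : ((fun i : Γ => ‖⟪α i u, hα.P x u⟫_ℂ‖ ^ 2) ∘
      fun m : ℕ => h ^ m * g * (h ^ m)⁻¹) = fun _ => ‖hα.c x g‖ ^ 2 := by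
    funext m
    show ‖hα.c x (h ^ m * g * (h ^ m)⁻¹)‖ ^ 2 = _
    rw [hα.c_comm g (hc.pow_left m)]
  rw [hconst] at hsum
  have := (summable_const_iff _).mp hsum
  exact hg (by simpa using this)

theorem u_ne (hα : Fr α β u t) : u ≠ 0 := by
  intro e
  have := hα.norm_u
  rw [e, norm_zero] at this
  exact zero_ne_one this

/-- A vector `A u`, `A` in the commutant of `β`, which is orthogonal to all `α g u` is zero. -/
theorem eq_zero_of_coeff (hα : Fr α β u t) {A : H →L[ℂ] H} (hA : CL β A)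
    (h : ∀ g, ⟪α g u, A u⟫_ℂ = 0) : A = 0 := by
  have h1 : A u = 0 := by
    rw [← inner_self_eq_zero (𝕜 := ℂ)]
    have hclosed : IsClosed {ζ : H | ⟪ζ, A u⟫_ℂ = 0} :=
      isClosed_eq (by fun_prop) continuous_const
    refine closure_minimal ?_ hclosed (hα.tot hA)
    intro ζ hζ
    refine Submodule.span_induction ?_ ?_ ?_ ?_ hζ
    · rintro _ ⟨g, rfl⟩
      exact h g
    · simp
    · intro a b _ _ ha hb
      rw [Set.mem_ofPred_eq] at ha hb ⊢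
      rw [inner_add_left, ha, hb, add_zero]
    · intro a b _ hb
      rw [Set.mem_ofPred_eq] at hb ⊢
      rw [inner_smul_left, hb, mul_zero]
  exact hα.ext hA CL.zero (by rw [h1]; rfl)

/-- If all the Fourier coefficients of the projection at `g ≠ 1` vanish then it is trivial. -/
theorem Ht_bot_or_top (hα : Fr α β u t) {x : Γ} (h : ∀ g, g ≠ 1 → hα.c x g = 0) :
    hα.Ht x = ⊥ ∨ hα.Ht x = ⊤ := by
  set z : ℂ := hα.c x 1 with hz
  have h2 : hα.P x = z • (1 : H →L[ℂ] H) := by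
    rw [← sub_eq_zero]
    refine hα.eq_zero_of_coeff ((hα.P_rc x).sub (CL.one.smul z)) fun g => ?_
    change ⟪α g u, hα.P x u - z • u⟫_ℂ = 0
    rw [inner_sub_right, inner_smul_right]
    by_cases hg : g = 1
    · subst hg
      have e1 : ⟪α 1 u, hα.P x u⟫_ℂ = z := rfl
      rw [e1, ap_one, inner_self_eq_norm_sq_to_K, hα.norm_u]
      simp
    · have h2 := h g hg
      rw [c] at h2
      rw [h2, hα.inner_left, hα.orth _ (inv_ne_one.mpr hg)]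
      simp
  have h3 : z • (z • u) = z • u := by
    have := hα.P_idem x u
    rw [h2] at this
    simpa using this
  have h4 : z * z = z := by
    rw [smul_smul] at h3
    exact smul_left_injective ℂ hα.u_ne h3
  rcases (IsIdempotentElem.iff_eq_zero_or_one.mp h4).symm with h5 | h5
  · right
    rw [eq_top_iff]
    intro ξ _
    have := hα.P_mem x ξ
    rw [h2, h5] at this
    simpa using this
  · left
    apply hα.Ht_eq_bot_of
    rw [h2, h5, zero_smul]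
    rfl

/-- If the conjugates of the projection under the powers of `y` converge weakly to a scalar then
`Ht x ≤ Ht r`. -/
theorem step_le (hα : Fr α β u t) {x y r : Γ} (h : Heis x y r)
    (hfin : ∀ g, g ≠ 1 → ∃ M : ℕ, ∀ m : ℕ, M ≤ m → hα.c (y ^ m * x * (y ^ m)⁻¹) g = 0) :
    hα.Ht x ≤ hα.Ht r := by
  by_cases h0 : hα.P x u = 0
  · rw [hα.Ht_eq_bot_of h0]; exact bot_le
  set τ : ℝ := ‖hα.P x u‖ ^ 2 with ht
  have ht0 : 0 < τ := by
    have : 0 < ‖hα.P x u‖ := norm_pos_iff.mpr h0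
    positivity
  set w : ℕ → H := fun m => hα.P (y ^ m * x * (y ^ m)⁻¹) u with hw
  have hw1 : ∀ m, ‖w m‖ ≤ 1 := fun m => by
    have := hα.P_norm (y ^ m * x * (y ^ m)⁻¹) u
    rwa [hα.norm_u] at this
  have hspan : ∀ ζ ∈ Submodule.span ℂ (Set.range fun g => α g u),
      ∃ M : ℕ, ∀ m : ℕ, M ≤ m → ⟪ζ, w m⟫_ℂ = (τ : ℂ) * ⟪ζ, u⟫_ℂ := by
    intro ζ hζ
    refine Submodule.span_induction ?_ ?_ ?_ ?_ hζ
    · rintro _ ⟨g, rfl⟩
      by_cases hg : g = 1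
      · subst hg
        refine ⟨0, fun m _ => ?_⟩
        simp only [ap_one]
        rw [hw]
        simp only
        rw [trace_eq_norm, norm_P_conj, inner_self', hα.norm_u]
        simp [ht]
      · obtain ⟨M, hM⟩ := hfin g hg
        refine ⟨M, fun m hm => ?_⟩
        have := hM m hm
        rw [c] at this
        simp only
        rw [hα.inner_left g u u, hα.orth _ (inv_ne_one.mpr hg), mul_zero]
        exact this
    · exact ⟨0, fun m _ => by simp⟩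
    · rintro a b _ _ ⟨M, hM⟩ ⟨N, hN⟩
      refine ⟨max M N, fun m hm => ?_⟩
      rw [inner_add_left, inner_add_left, hM m (le_trans (le_max_left _ _) hm),
        hN m (le_trans (le_max_right _ _) hm), mul_add]
    · rintro a b _ ⟨M, hM⟩
      refine ⟨M, fun m hm => ?_⟩
      rw [inner_smul_left, inner_smul_left, hM m hm]; ring
  have hlim : ∀ ζ ∈ (Submodule.span ℂ (Set.range fun g => α g u)).topologicalClosure,
      (∀ m : ℕ, m ≠ 0 → ⟪ζ, w m⟫_ℂ = 0) → ⟪ζ, u⟫_ℂ = 0 := by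
    intro ζ hmem' hζ
    have hmem : ζ ∈ closure (Submodule.span ℂ (Set.range fun g => α g u) : Set H) := by
      rw [← Submodule.topologicalClosure_coe]; exact hmem'
    by_contra hne
    have hpos : 0 < ‖⟪ζ, u⟫_ℂ‖ := norm_pos_iff.mpr hne
    set d : ℝ := ‖⟪ζ, u⟫_ℂ‖ with hd
    obtain ⟨ζ', hζ', hdist⟩ := Metric.mem_closure_iff.mp hmem (τ * d / (1 + τ))
      (by positivity)
    rw [dist_eq_norm] at hdist
    obtain ⟨M, hM⟩ := hspan ζ' hζ'
    have e1 := hM (M + 1) (by omega)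
    have e2 : ((τ : ℂ) * ⟪ζ, u⟫_ℂ) =
        (τ : ℂ) * ⟪ζ - ζ', u⟫_ℂ - ⟪ζ - ζ', w (M + 1)⟫_ℂ := by
      rw [inner_sub_left, inner_sub_left, hζ (M + 1) (by omega), e1]; ring
    have e3 : τ * d ≤ τ * ‖ζ - ζ'‖ + ‖ζ - ζ'‖ := by
      calc τ * d = ‖(τ : ℂ) * ⟪ζ, u⟫_ℂ‖ := by
            rw [norm_mul, Complex.norm_real, Real.norm_of_nonneg ht0.le]
        _ ≤ ‖(τ : ℂ) * ⟪ζ - ζ', u⟫_ℂ‖ + ‖⟪ζ - ζ', w (M + 1)⟫_ℂ‖ := by
            rw [e2]; exact norm_sub_le _ _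
        _ ≤ τ * ‖ζ - ζ'‖ + ‖ζ - ζ'‖ := by
            refine add_le_add ?_ ?_
            · rw [norm_mul, Complex.norm_real, Real.norm_of_nonneg ht0.le]
              refine mul_le_mul_of_nonneg_left ?_ ht0.le
              refine (norm_inner_le_norm _ _).trans ?_
              rw [hα.norm_u, mul_one]
            · refine (norm_inner_le_norm _ _).trans ?_
              calc ‖ζ - ζ'‖ * ‖w (M + 1)‖ ≤ ‖ζ - ζ'‖ * 1 := by
                    gcongr; exact hw1 _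
                _ = ‖ζ - ζ'‖ := mul_one _
    rw [lt_div_iff₀ (by positivity)] at hdist
    nlinarith
  set Q : H →L[ℂ] H := hα.P x - hα.P r * hα.P x with hQ
  have hQrc : CL β Q := (hα.P_rc x).sub ((hα.P_rc r).mul (hα.P_rc x))
  have hQu : ∀ m : ℕ, m ≠ 0 → Q (w m) = 0 := by
    intro m hm
    have h1 : w m ∈ hα.Ht (y ^ (m : ℤ) * x * (y ^ (m : ℤ))⁻¹) := by
      rw [zpow_natCast]
      exact hα.P_mem _ _
    have h2 := hα.step (h.pow m) h1
    rw [hα.Ht_pow r (by exact_mod_cast hm)] at h2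
    show hα.P x (w m) - hα.P r (hα.P x (w m)) = 0
    rw [hα.P_eq_self h2, sub_self]
  have hQ1 : Q u = 0 := by
    rw [← inner_self_eq_zero (𝕜 := ℂ)]
    rw [← ContinuousLinearMap.adjoint_inner_left]
    apply hlim
    · exact hα.tot ((CL.adjoint hα.adjβ hQrc).mul hQrc)
    intro m hm
    rw [ContinuousLinearMap.adjoint_inner_left, hQu m hm, inner_zero_right]
  have hQ0 : Q = 0 := hα.ext hQrc CL.zero (by rw [hQ1]; rfl)
  intro ξ hξ
  have h1 : Q ξ = 0 := by rw [hQ0]; rfl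
  have h2 : hα.P x ξ - hα.P r (hα.P x ξ) = 0 := h1
  rw [hα.P_eq_self hξ, sub_eq_zero] at h2
  rw [h2]
  exact hα.P_mem r ξ

end Fr

end

end Vale.Agent.P092.R2.H289
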