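import Vale.Agent.P092.H160.StDefs

/-!
Definitions used in the statement about amplifications, in elementary form.
-/

namespace Vale.Agent.P092.R2.H289.St
open Vale.Agent.P092.H160 Vale.Agent.P092.H160.St

section

variable {G : Type} [Group G] {k : ℕ}

/-- `T ∈ M_{k+1}(L(G))`: the operator `T` on `ℓ²(G × {0,…,k})` is a matrix with entries in
`L(G)`. -/
def InM (T : Op (G × Fin (k + 1))) : Prop :=
  ∀ i j : Fin (k + 1), ∃ S : Op G, InL S ∧
    ∀ x y : G, ip (dl (x, i)) (ap T (dl (y, j))) = ip (dl x) (ap S (dl y))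

/-- The trace `(Tr ⊗ τ)(T)` with `Tr` unnormalized. -/
noncomputable def trM (T : Op (G × Fin (k + 1))) : ℂ :=
  ∑ i : Fin (k + 1), ip (dl (1, i)) (ap T (dl (1, i)))

/-- `q` is a projection of `M_{k+1}(L(G))` with `q ≥ e₀₀`. -/
structure IsProj (q : Op (G × Fin (k + 1))) : Prop where
  mem : InM q
  adj : IsAdj q q
  idem : mul q q = q
  above : ∀ g : G, ap q (dl (g, 0)) = dl (g, 0)

/-- Membership in the corner `q M_{k+1}(L(G)) q`. -/
def InC (q T : Op (G × Fin (k + 1))) : Prop := InM T ∧ mul q T = T ∧ mul T q = T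

end

/-- A `*`-isomorphism from `L(G₁)` onto the amplification `q M_{k+1}(L(G₂)) q`. -/
structure AmpIso (G₁ G₂ : Type) [Group G₁] [Group G₂] {k : ℕ} (q : Op (G₂ × Fin (k + 1))) where
  /-- the map (only its values on `L(G₁)` matter) -/
  toFun : Op G₁ → Op (G₂ × Fin (k + 1))
  /-- the inverse map (only its values on the corner matter) -/
  invFun : Op (G₂ × Fin (k + 1)) → Op G₁
  map_mem : ∀ T, InL T → InC q (toFun T)
  inv_mem : ∀ T, InC q T → InL (invFun T)
  left_inv : ∀ T, InL T → invFun (toFun T) = T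
  right_inv : ∀ T, InC q T → toFun (invFun T) = T
  map_add : ∀ S T, InL S → InL T → toFun (add S T) = add (toFun S) (toFun T)
  map_smul : ∀ c S T, InL S → InL T → IsSmul c S T → IsSmul c (toFun S) (toFun T)
  map_mul : ∀ S T, InL S → InL T → toFun (mul S T) = mul (toFun S) (toFun T)
  map_adj : ∀ S T, InL S → InL T → IsAdj S T → IsAdj (toFun S) (toFun T)

/-- The Fourier coefficient at `b` of the matrix entry `(i, j)` of `θ(u_a)`. -/
noncomputable def coef {G₁ G₂ : Type} [Group G₁] [Group G₂] {k : ℕ} {q : Op (G₂ × Fin (k + 1))}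
    (θ : AmpIso G₁ G₂ q) (a : G₁) (b : G₂) (i j : Fin (k + 1)) : ℂ :=
  ip (dl (b, i)) (ap (θ.toFun (u a)) (dl (1, j)))

/-- The height of `u_b` relative to the image of `G₁`. -/
noncomputable def hgt₁ {G₁ G₂ : Type} [Group G₁] [Group G₂] {k : ℕ} {q : Op (G₂ × Fin (k + 1))}
    (θ : AmpIso G₁ G₂ q) (b : G₂) : ℝ :=
  ⨆ p : G₁ × Fin (k + 1) × Fin (k + 1), ‖coef θ p.1 b p.2.1 p.2.2‖

/-- The height of `θ(u_a)`. -/
noncomputable def hgt₂ {G₁ G₂ : Type} [Group G₁] [Group G₂] {k : ℕ} {q : Op (G₂ × Fin (k + 1))}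
    (θ : AmpIso G₁ G₂ q) (a : G₁) : ℝ :=
  ⨆ p : G₂ × Fin (k + 1) × Fin (k + 1), ‖coef θ a p.1 p.2.1 p.2.2‖

end Vale.Agent.P092.R2.H289.St
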