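import Vale.Agent.P092.R2.H289.Dec

/-!
The abstract frame on `H ⊗ ℂ^(m+1)` for the image of a group under an isomorphism onto the
commutant of the right translations.
-/

set_option linter.all false

open scoped InnerProductSpace
open Filter Topology ContinuousLinearMap

namespace Vale.Agent.P092.R2.H289
open Vale.Agent.P092.H160

section

variable {A G H H' : Type} [Group A] [Group G] [NormedAddCommGroup H] [InnerProductSpace ℂ H]
  [CompleteSpace H] [NormedAddCommGroup H'] [InnerProductSpace ℂ H'] [CompleteSpace H']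
  {m : ℕ} {α : A →* (H →L[ℂ] H)} {σ : Fin (m + 1) → H} {L : A → (H →L[ℂ] H)}
  {R : Fin (m + 1) → (H →L[ℂ] H')}

/-- The Parseval identity for the right translates of the generators. -/
def Par (α : A →* (H →L[ℂ] H)) (σ : Fin (m + 1) → H) : Prop :=
  ∀ v, HasSum (fun p : A × Fin (m + 1) => ‖⟪α p.1 (σ p.2), v⟫_ℂ‖ ^ 2) (‖v‖ ^ 2)

theorem Par.fib (hp : Par α σ) (v : H) :
    HasSum (fun s => ∑ i, ‖⟪α s (σ i), v⟫_ℂ‖ ^ 2) (‖v‖ ^ 2) :=
  (hp v).prod_fiberwise fun s => hasSum_fintype _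

/-- The single generating vector. -/
noncomputable def uu' (R : Fin (m + 1) → (H →L[ℂ] H')) (σ : Fin (m + 1) → H) : H' :=
  (((Real.sqrt (Mod.dm σ))⁻¹ : ℝ) : ℂ) • ∑ k, R k (σ k)

theorem uu'_c (hd : Dec R) (k : Fin (m + 1)) :
    adjoint (R k) (uu' R σ) = (((Real.sqrt (Mod.dm σ))⁻¹ : ℝ) : ℂ) • σ k := by
  rw [uu', map_smul, hd.comp_sum]

theorem sq_inv (h : Mod α σ L) : ((Real.sqrt (Mod.dm σ))⁻¹) ^ 2 = (Mod.dm σ)⁻¹ := by
  rw [inv_pow, Real.sq_sqrt h.dm_pos.le]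

theorem norm_uu' (h : Mod α σ L) (hd : Dec R) : ‖uu' R σ‖ = 1 := by
  have h1 : ‖uu' R σ‖ ^ 2 = 1 := by
    rw [hd.norm_sq]
    simp only [uu'_c hd, norm_smul, mul_pow, Complex.norm_real, Real.norm_eq_abs, sq_abs,
      sq_inv h]
    rw [← Finset.mul_sum]
    exact inv_mul_cancel₀ h.dm_pos.ne'
  have := norm_nonneg (uu' R σ)
  nlinarith

theorem inner_uu'_amp (h : Mod α σ L) (hd : Dec R) (X : H →L[ℂ] H) :
    ⟪uu' R σ, amp R X (uu' R σ)⟫_ℂ = ((Mod.dm σ)⁻¹ : ℝ) * phi σ X := by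
  rw [hd.inner, phi, Finset.mul_sum]
  refine Finset.sum_congr rfl fun k _ => ?_
  rw [hd.amp_c, uu'_c hd, map_smul, inner_smul_left, inner_smul_right, Complex.conj_ofReal,
    ← mul_assoc, ← Complex.ofReal_mul, ← sq, sq_inv h]

theorem be'_uu' (hd : Dec R) (s : A) (w : SG m) (v : H') :
    ⟪hd.be' α (s, w) (uu' R σ), v⟫_ℂ = (((Real.sqrt (Mod.dm σ))⁻¹ : ℝ) : ℂ) *
      ∑ k, sgc (w.e k) * ⟪α s (σ (k - w.c)), adjoint (R k) v⟫_ℂ := by
  rw [hd.inner, Finset.mul_sum]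
  refine Finset.sum_congr rfl fun k _ => ?_
  rw [hd.be'_c, uu'_c hd, map_smul, inner_smul_left, inner_smul_left, sgc_conj,
    Complex.conj_ofReal]
  ring

theorem sum_w (h : Mod α σ L) (hd : Dec R) (s : A) (v : H') :
    ∑ w : SG m, ‖⟪hd.be' α (s, w) (uu' R σ), v⟫_ℂ‖ ^ 2 =
      (2 ^ (m + 1) / Mod.dm σ) * ∑ k, ∑ i, ‖⟪α s (σ i), adjoint (R k) v⟫_ℂ‖ ^ 2 := by
  rw [SG.sum_eq]
  have h1 : ∀ c : Fin (m + 1), ∑ e : Fin (m + 1) → ℤˣ,
      ‖⟪hd.be' α (s, ⟨e, c⟩) (uu' R σ), v⟫_ℂ‖ ^ 2 =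
      (2 ^ (m + 1) / Mod.dm σ) * ∑ k, ‖⟪α s (σ (k - c)), adjoint (R k) v⟫_ℂ‖ ^ 2 := by
    intro c
    have h2 : ∀ e : Fin (m + 1) → ℤˣ, ‖⟪hd.be' α (s, ⟨e, c⟩) (uu' R σ), v⟫_ℂ‖ ^ 2 =
        (Mod.dm σ)⁻¹ * ‖∑ k, sgc (e k) * ⟪α s (σ (k - c)), adjoint (R k) v⟫_ℂ‖ ^ 2 := by
      intro e
      rw [be'_uu', norm_mul, mul_pow, Complex.norm_real, Real.norm_eq_abs, sq_abs, sq_inv h]
    simp only [h2]
    rw [← Finset.mul_sum, sum_signs]
    ring
  simp only [h1]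
  rw [← Finset.mul_sum, Finset.sum_comm]
  congr 1
  refine Finset.sum_congr rfl fun k _ => ?_
  exact Equiv.sum_comp (Equiv.subLeft k) (fun i => ‖⟪α s (σ i), adjoint (R k) v⟫_ℂ‖ ^ 2)

theorem frame' (h : Mod α σ L) (hp : Par α σ) (hd : Dec R) (v : H') :
    HasSum (fun p => ‖⟪hd.be' α p (uu' R σ), v⟫_ℂ‖ ^ 2)
      ((2 ^ (m + 1) / Mod.dm σ) * ‖v‖ ^ 2) := by
  have h1 : HasSum (fun s => ∑ w : SG m, ‖⟪hd.be' α (s, w) (uu' R σ), v⟫_ℂ‖ ^ 2)
      ((2 ^ (m + 1) / Mod.dm σ) * ‖v‖ ^ 2) := by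
    simp only [sum_w h hd]
    rw [hd.norm_sq]
    exact (hasSum_sum fun k _ => hp.fib (adjoint (R k) v)).mul_left _
  have h2 : Summable (fun p : A × SG m => ‖⟪hd.be' α p (uu' R σ), v⟫_ℂ‖ ^ 2) := by
    rw [summable_prod_of_nonneg (fun _ => by positivity)]
    refine ⟨fun s => Summable.of_finite, ?_⟩
    simp only [tsum_fintype]
    exact h1.summable
  have h3 := h2.hasSum.prod_fiberwise fun s => hasSum_fintype _
  have h4 := h2.hasSum
  rw [← h1.unique h3] at h4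
  exact h4

theorem amp_inj (hd : Dec R) {X Y : H →L[ℂ] H} (he : amp R X = amp R Y) : X = Y := by
  ext1 v
  have h1 := congrArg (fun Z : H' →L[ℂ] H' => adjoint (R 0) (Z (R 0 v))) he
  simp only [hd.amp_c, hd.same] at h1
  exact h1

theorem be'_one (hd : Dec R) (s : A) : hd.be' α (s, 1) = amp R (α s) := by
  change amp R (α s) * ws R 1 = _
  rw [hd.ws_one, mul_one]

theorem be'_w (hd : Dec R) (w : SG m) : hd.be' α ((1 : A), w) = ws R w := by
  change amp R (α 1) * ws R w = _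
  rw [map_one, hd.amp_one, one_mul]

/-- The commutant of the amplified representation. -/
theorem cl_be' (hd : Dec R) {X : H' →L[ℂ] H'} (hX : CL (hd.be' α) X) :
    ∃ Y : H →L[ℂ] H, CL α Y ∧ X = amp R Y := by
  have h1 : X = amp R (adjoint (R 0) ∘L X ∘L R 0) := by
    refine hd.eq_amp fun w v => ?_
    have := hX (1, w) v
    rw [be'_w] at this
    exact this
  refine ⟨_, fun s v => ?_, h1⟩
  have h2 := hX (s, 1) (R 0 v)
  rw [be'_one] at h2
  have h3 : amp R (α s) (R 0 v) = R 0 (α s v) := by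
    refine hd.ext fun k => ?_
    rw [hd.amp_c]
    by_cases hk : k = 0
    · subst hk
      rw [hd.same, hd.same]
    · rw [hd.ne _ _ _ hk, hd.ne _ _ _ hk, map_zero]
  rw [h3] at h2
  change adjoint (R 0) (X (R 0 (α s v))) = α s (adjoint (R 0) (X (R 0 v)))
  rw [h2, hd.amp_c]

theorem norm_amp_uu' (hG : ∀ g : G, g ≠ 1 → Set.Infinite {y : G | ∃ h, y = h * g * h⁻¹})
    (h : Mod α σ L) (θ : LG G ≃⋆ₐ[ℂ] NN α) (hd : Dec R) (b : LG G) :
    ‖amp R (θ b : H →L[ℂ] H) (uu' R σ)‖ ^ 2 ≤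
      (m + 1) * ‖(b : Ell2 G →L[ℂ] Ell2 G) (dl 1)‖ ^ 2 := by
  rw [hd.norm_sq]
  have h1 : ∀ k, ‖adjoint (R k) (amp R (θ b : H →L[ℂ] H) (uu' R σ))‖ ^ 2 ≤
      ‖(b : Ell2 G →L[ℂ] Ell2 G) (dl 1)‖ ^ 2 := by
    intro k
    rw [hd.amp_c, uu'_c hd, map_smul, norm_smul, mul_pow, Complex.norm_real, Real.norm_eq_abs,
      sq_abs, sq_inv h, inv_mul_le_iff₀ h.dm_pos]
    exact norm_theta_le hG h θ b k
  refine (Finset.sum_le_sum fun k _ => h1 k).trans (le_of_eq ?_)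
  simp

/-- **The frame on `H ⊗ ℂ^(m+1)`.** -/
theorem frAmp (hG : ∀ g : G, g ≠ 1 → Set.Infinite {y : G | ∃ h, y = h * g * h⁻¹})
    (h : Mod α σ L) (θ : LG G ≃⋆ₐ[ℂ] NN α) (hp : Par α σ) (hd : Dec R) :
    Fr (hd.al' (bt θ)) (hd.be' α) (uu' R σ) (2 ^ (m + 1) / Mod.dm σ) where
  tpos := by
    have := h.dm_pos
    positivity
  adj g := by
    change adjoint (amp R (bt θ g)) = amp R (bt θ g⁻¹)
    rw [hd.amp_adj, bt_adj]
  adjβ p := by
    change adjoint (amp R (α p.1) * ws R p.2) = amp R (α p.1⁻¹) * ws R p.2⁻¹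
    rw [← star_eq_adjoint, star_mul, star_eq_adjoint, star_eq_adjoint, hd.amp_adj, hd.ws_adj,
      h.adj, hd.amp_ws]
  rc g p v := by
    obtain ⟨s, w⟩ := p
    refine hd.ext fun k => ?_
    rw [hd.al'_c, hd.be'_c, hd.be'_c, hd.al'_c, map_smul, bt_cl h θ g]
  norm_u := norm_uu' h hd
  frame := frame' h hp hd
  orth g hg := by
    change ⟪uu' R σ, amp R (bt θ g) (uu' R σ)⟫_ℂ = 0
    rw [inner_uu'_amp h hd, (trD hG h θ).zero g hg, mul_zero]
  tr := by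
    intro X Y hX hY
    obtain ⟨X0, hX0, rfl⟩ := cl_be' hd hX
    obtain ⟨Y0, hY0, rfl⟩ := cl_be' hd hY
    rw [← mul_ap, ← mul_ap, ← hd.amp_mul, ← hd.amp_mul, inner_uu'_amp h hd, inner_uu'_amp h hd,
      h.tr hX0 hY0]
  tot := by
    intro X hX
    obtain ⟨X0, hX0, rfl⟩ := cl_be' hd hX
    obtain ⟨a, rfl⟩ := exists_pre h θ hX0
    rw [← SetLike.mem_coe, Submodule.topologicalClosure_coe, Metric.mem_closure_iff]
    intro ε hε
    set K : ℝ := Real.sqrt (m + 1) with hK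
    have hK0 : 0 < K := Real.sqrt_pos.mpr (by positivity)
    have h5 := hasSum_dl ((a : Ell2 G →L[ℂ] Ell2 G) (dl 1))
    obtain ⟨t, ht⟩ := (h5.eventually (Metric.ball_mem_nhds _ (div_pos hε hK0))).exists
    set c : G → ℂ := fun g => (a : Ell2 G →L[ℂ] Ell2 G) (dl 1) g with hc
    refine ⟨amp R (θ (fc t c) : H →L[ℂ] H) (uu' R σ), ?_, ?_⟩
    · have e : amp R (θ (fc t c) : H →L[ℂ] H) (uu' R σ) =
          ∑ g ∈ t, c g • hd.al' (bt θ) g (uu' R σ) := by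
        have e1 : (θ (fc t c) : H →L[ℂ] H) = ∑ g ∈ t, c g • bt θ g := by
          rw [fc, map_sum]
          push_cast
          refine Finset.sum_congr rfl fun g _ => ?_
          rw [map_smul]
          rfl
        refine hd.ext fun k => ?_
        rw [hd.amp_c, e1, sum_apply, map_sum]
        refine Finset.sum_congr rfl fun g _ => ?_
        rw [smul_apply, map_smul, hd.al'_c]
      rw [e]
      exact Submodule.sum_mem _ fun g _ => Submodule.smul_mem _ _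
        (Submodule.subset_span ⟨g, rfl⟩)
    · have hbn : ‖((a - fc t c : LG G) : Ell2 G →L[ℂ] Ell2 G) (dl 1)‖ < ε / K := by
        have e1 : ((a - fc t c : LG G) : Ell2 G →L[ℂ] Ell2 G) (dl 1) =
            (a : Ell2 G →L[ℂ] Ell2 G) (dl 1) - ∑ g ∈ t, c g • dl g := by
          rw [← fc_dl]
          rfl
        rw [e1, ← dist_eq_norm, dist_comm]
        exact ht
      have e2 : amp R (θ a : H →L[ℂ] H) (uu' R σ) - amp R (θ (fc t c) : H →L[ℂ] H) (uu' R σ) =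
          amp R (θ (a - fc t c) : H →L[ℂ] H) (uu' R σ) := by
        refine hd.ext fun k => ?_
        rw [map_sub, hd.amp_c, hd.amp_c, hd.amp_c, th_sub, sub_apply]
      rw [dist_eq_norm, e2]
      have e3 := norm_amp_uu' hG h θ hd (a - fc t c)
      have e4 := Real.sqrt_le_sqrt e3
      rw [Real.sqrt_sq (norm_nonneg _), Real.sqrt_mul (by positivity), Real.sqrt_sq (norm_nonneg _)]
        at e4
      rw [lt_div_iff₀ hK0] at hbn
      calc _ ≤ K * ‖((a - fc t c : LG G) : Ell2 G →L[ℂ] Ell2 G) (dl 1)‖ := e4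
        _ = ‖((a - fc t c : LG G) : Ell2 G →L[ℂ] Ell2 G) (dl 1)‖ * K := mul_comm _ _
        _ < ε := hbn

end

end Vale.Agent.P092.R2.H289
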