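import Vale.Agent.P092.R2.H289.AmpFr

/-!
The case `t < 1`: transfer of the cubic intertwiner to the other group and the index inequality.
-/

set_option linter.all false

open scoped InnerProductSpace
open Filter Topology ContinuousLinearMap

namespace Vale.Agent.P092.R2.H289
open Vale.Agent.P092.H160

section tsum

variable {X Y X' Y' I : Type}

theorem tens_sum_left (F : Finset I) (A : I → (Ell2 X →L[ℂ] Ell2 X')) (B : Ell2 Y →L[ℂ] Ell2 Y') :
    tens (∑ i ∈ F, A i) B = ∑ i ∈ F, tens (A i) B := by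
  apply op_ext
  rintro ⟨x, y⟩
  rw [tens_dl, sum_apply, sum_apply]
  simp only [tens_dl]
  simp only [← tvl_apply (X := X') (B (dl y))]
  rw [map_sum]

theorem tens_sum_right (F : Finset I) (A : Ell2 X →L[ℂ] Ell2 X') (B : I → (Ell2 Y →L[ℂ] Ell2 Y')) :
    tens A (∑ i ∈ F, B i) = ∑ i ∈ F, tens A (B i) := by
  apply op_ext
  rintro ⟨x, y⟩
  rw [tens_dl, sum_apply, sum_apply]
  simp only [tens_dl]
  simp only [← tvr_apply (Y := Y') (A (dl x))]
  rw [map_sum]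

theorem bar_sum (F : Finset I) (A : I → (Ell2 X →L[ℂ] Ell2 Y)) :
    bar (∑ i ∈ F, A i) = ∑ i ∈ F, bar (A i) := by
  classical
  induction F using Finset.induction_on with
  | empty =>
    rw [Finset.sum_empty, Finset.sum_empty]
    ext1 v
    rw [bar_apply]
    apply ext_inner_dl
    intro y
    rw [cj_apply]
    simp
  | insert i F hi ih =>
    rw [Finset.sum_insert hi, Finset.sum_insert hi, ← ih]
    ext1 v
    rw [add_apply, bar_apply, bar_apply, bar_apply, add_apply, cj_add]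

/-- If a vector is fixed by `p ⊗ p̄ ⊗ p`, `p = ∑ B_k D_k`, and is not zero, then some
`D_i ⊗ D̄_j ⊗ D_k` does not kill it. -/
theorem exists_tens_ne {m : ℕ} {p : Ell2 X →L[ℂ] Ell2 X} (D : Fin (m + 1) → (Ell2 X →L[ℂ] Ell2 Y))
    (B : Fin (m + 1) → (Ell2 Y →L[ℂ] Ell2 X)) (hp : p = ∑ k, B k ∘L D k)
    {y : Ell2 (X × X × X)} (hy : y ≠ 0) (hpy : tens p (tens (bar p) p) y = y) :
    ∃ i j k, tens (D i) (tens (bar (D j)) (D k)) y ≠ 0 := by
  by_contra hcon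
  push Not at hcon
  apply hy
  rw [← hpy, hp, tens_sum_left, sum_apply]
  refine Finset.sum_eq_zero fun i _ => ?_
  rw [bar_sum, tens_sum_left, tens_sum_right, sum_apply]
  refine Finset.sum_eq_zero fun j _ => ?_
  rw [tens_sum_right, tens_sum_right, sum_apply]
  refine Finset.sum_eq_zero fun k _ => ?_
  rw [bar_comp, ← tens_comp, ← tens_comp, comp_apply, hcon, map_zero]

end tsum

section

variable {Γ Λ H : Type} [Group Γ] [Group Λ] [NormedAddCommGroup H] [InnerProductSpace ℂ H]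
  [CompleteSpace H] {α : Γ →* (H →L[ℂ] H)} {β : Λ →* (H →L[ℂ] H)} {u : H} {t : ℝ}

/-- The index inequality for an intertwiner with values in `ℓ²(Λ³)`. -/
theorem Fr.le_one' (h : Fr α β u t)
    (hΛ : ∀ s : Λ, s ≠ 1 → Set.Infinite {y : Λ | ∃ h, y = h * s * h⁻¹})
    {m : ℕ} {σ : Fin m → H} (hD : TrD β (CL α) σ)
    {S : H →L[ℂ] Ell2 (Λ × Λ × Λ)} (hS0 : S ≠ 0) (hSβ : ∀ s v, S (β s v) = rho (ι3 s) (S v))
    (hSα : ∀ g v, S (α g v) = A3c (fun g => h.tp (α g)) g (S v)) : t ≤ 1 := by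
  have hSa : ∀ g w, adjoint S (A3c (fun g => h.tp (α g)) g w) = α g (adjoint S w) := by
    intro g w
    refine ext_inner_left ℂ fun v => ?_
    have h1 : ⟪v, α g (adjoint S w)⟫_ℂ = ⟪α g⁻¹ v, adjoint S w⟫_ℂ := by
      rw [← h.adj g, adjoint_inner_left]
    rw [h1, adjoint_inner_right, adjoint_inner_right, hSα, ← adjoint_inner_left,
      A3c_adj h.cf]
  refine index_le (p := h.tp 1) (S := S) hΛ hD h.adjβ h.norm_u h.tpos h.frame ?_ ?_ ?_ hS0 hSβ ?_ ?_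
  · rw [h.tp_adj, ← star_eq_adjoint, star_one]
  · exact fun g => h.tp_rho CL.one g
  · have h1 := h.norm_tp_dl 1
    rw [map_one] at h1
    exact h1
  · intro v
    have h1 := hSα 1 v
    rw [map_one, one_apply_eq_self, A3c_apply] at h1
    simp only [map_one] at h1
    exact h1.symm
  · intro x g v
    change adjoint S (rho x (S (α g v))) = α g (adjoint S (rho x (S v)))
    rw [hSα, ← mul_ap (rho x), ← A3c_comm h.cf, mul_ap, hSa]

end

section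

variable {A G H H' : Type} [Group A] [Group G] [NormedAddCommGroup H] [InnerProductSpace ℂ H]
  [CompleteSpace H] [NormedAddCommGroup H'] [InnerProductSpace ℂ H'] [CompleteSpace H']
  {m : ℕ} {α : A →* (H →L[ℂ] H)} {σ : Fin (m + 1) → H} {L : A → (H →L[ℂ] H)}
  {R : Fin (m + 1) → (H →L[ℂ] H')} {β : G →* (H →L[ℂ] H)} {u : H} {u' : H'} {t t' : ℝ}

theorem R_amp (hd : Dec R) (X : H →L[ℂ] H) (l : Fin (m + 1)) (v : H) :
    R l (X v) = amp R X (R l v) := by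
  refine hd.ext fun k => ?_
  rw [hd.amp_c]
  by_cases hk : k = l
  · subst hk
    rw [hd.same, hd.same]
  · rw [hd.ne _ _ _ hk, hd.ne _ _ _ hk, map_zero]

/-- The transfer operators. -/
noncomputable def DD (R : Fin (m + 1) → (H →L[ℂ] H')) {α' : G →* (H' →L[ℂ] H')}
    {β' : A × SG m →* (H' →L[ℂ] H')} (F1 : Fr α β u t) (F2 : Fr α' β' u' t') (k : Fin (m + 1)) :
    Ell2 (A × SG m) →L[ℂ] Ell2 G := F1.cc ∘L adjoint (R k) ∘L F2.sy

variable (hd : Dec R) (F1 : Fr α β u t) (F2 : Fr (hd.al' β) (hd.be' α) u' t')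

theorem DD_tp (k : Fin (m + 1)) (g : G) :
    DD R F1 F2 k ∘L F2.tp (hd.al' β g) = rho g ∘L DD R F1 F2 k := by
  ext1 w
  change F1.cc (adjoint (R k) (F2.sy (F2.tp (hd.al' β g) w))) =
    rho g (F1.cc (adjoint (R k) (F2.sy w)))
  rw [F2.sy_tp, hd.al'_c, F1.cc_beta]

theorem DD_rho (k : Fin (m + 1)) (s : A) :
    DD R F1 F2 k ∘L rho (s, 1) = F1.tp (α s) ∘L DD R F1 F2 k := by
  ext1 w
  change F1.cc (adjoint (R k) (F2.sy (rho (s, 1) w))) =
    F1.tp (α s) (F1.cc (adjoint (R k) (F2.sy w)))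
  rw [F2.sy_rho, be'_one, hd.amp_c, F1.tp_cc]

theorem DD_sum : F2.tp 1 = ∑ k, (((t * t' : ℝ) : ℂ)⁻¹ • adjoint (DD R F1 F2 k)) ∘L
    DD R F1 F2 k := by
  have ht := F1.tne
  have ht' := F2.tne
  ext1 w
  rw [sum_apply]
  have h1 : ∀ k, ((((t * t' : ℝ) : ℂ)⁻¹ • adjoint (DD R F1 F2 k)) ∘L DD R F1 F2 k) w =
      (t' : ℂ)⁻¹ • F2.cc (R k (adjoint (R k) (F2.sy w))) := by
    intro k
    have e1 : adjoint (DD R F1 F2 k) = F2.cc ∘L R k ∘L F1.sy := by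
      rw [DD, adjoint_comp, adjoint_comp, adjoint_adjoint, F2.adj_sy]
      rfl
    rw [comp_apply, smul_apply, e1]
    change (((t * t' : ℝ) : ℂ)⁻¹) • F2.cc (R k (F1.sy (F1.cc (adjoint (R k) (F2.sy w))))) = _
    rw [F1.sy_cc, map_smul, map_smul, smul_smul]
    congr 1
    push_cast
    field_simp
  simp only [h1]
  rw [← Finset.smul_sum, ← map_sum, hd.sum]
  rfl

/-- The transferred intertwiner. -/
noncomputable def SS (R : Fin (m + 1) → (H →L[ℂ] H')) {α' : G →* (H' →L[ℂ] H')}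
    {β' : A × SG m →* (H' →L[ℂ] H')} (F1 : Fr α β u t) (F2 : Fr α' β' u' t')
    (T : Ell2 (A × SG m) →L[ℂ] Ell2 ((A × SG m) × (A × SG m) × (A × SG m)))
    (l i j k : Fin (m + 1)) : H →L[ℂ] Ell2 (G × G × G) :=
  tens (DD R F1 F2 i) (tens (bar (DD R F1 F2 j)) (DD R F1 F2 k)) ∘L T ∘L F2.cc ∘L R l

variable {T : Ell2 (A × SG m) →L[ℂ] Ell2 ((A × SG m) × (A × SG m) × (A × SG m))}

theorem SS_apply {α' : G →* (H' →L[ℂ] H')}
    {β' : A × SG m →* (H' →L[ℂ] H')} (F1 : Fr α β u t) (F2 : Fr α' β' u' t')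
    (l i j k : Fin (m + 1)) (v : H) : SS R F1 F2 T l i j k v =
      tens (DD R F1 F2 i) (tens (bar (DD R F1 F2 j)) (DD R F1 F2 k)) (T (F2.cc (R l v))) := rfl

theorem SS_beta (hTA : ∀ g v, T (F2.tp (hd.al' β g) v) =
    A3c (fun g => F2.tp (hd.al' β g)) g (T v)) (l i j k : Fin (m + 1)) (g : G) (v : H) :
    SS R F1 F2 T l i j k (β g v) = rho (ι3 g) (SS R F1 F2 T l i j k v) := by
  rw [SS_apply, SS_apply]
  have e1 : R l (β g v) = hd.al' β g (R l v) := R_amp hd _ _ _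
  rw [e1, ← F2.tp_cc, hTA, ← comp_apply, ← comp_apply, A3c_apply, tens_comp, tens_comp, DD_tp,
    ← bar_comp, DD_tp, DD_tp, bar_comp, bar_rho, ← tens_comp, ← tens_comp, tens_rho, tens_rho]
  rfl

theorem SS_alpha (hTr : ∀ s v, T (rho s v) = rho (ι3 s) (T v)) (l i j k : Fin (m + 1)) (s : A)
    (v : H) : SS R F1 F2 T l i j k (α s v) =
      A3c (fun s => F1.tp (α s)) s (SS R F1 F2 T l i j k v) := by
  rw [SS_apply, SS_apply]
  have e1 : R l (α s v) = hd.be' α (s, 1) (R l v) := by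
    rw [be'_one]
    exact R_amp hd _ _ _
  have e2 : (rho (ι3 ((s, 1) : A × SG m)) : Ell2 ((A × SG m) × (A × SG m) × (A × SG m)) →L[ℂ] _) =
      tens (rho (s, 1)) (tens (bar (rho (s, 1))) (rho (s, 1))) := by
    rw [bar_rho, tens_rho, tens_rho]
    rfl
  rw [e1, F2.cc_beta, hTr, e2, ← comp_apply, ← comp_apply, A3c_apply, tens_comp, tens_comp,
    DD_rho, ← bar_comp, DD_rho, DD_rho, bar_comp, ← tens_comp, ← tens_comp, comp_apply, comp_apply]

theorem exists_SS_ne (hTA : ∀ g v, T (F2.tp (hd.al' β g) v) =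
    A3c (fun g => F2.tp (hd.al' β g)) g (T v)) (hne : ∃ v : H', T (F2.cc v) ≠ 0) :
    ∃ l i j k, SS R F1 F2 T l i j k ≠ 0 := by
  obtain ⟨v, hv⟩ := hne
  obtain ⟨l, w, hw⟩ : ∃ l w, T (F2.cc (R l w)) ≠ 0 := by
    by_contra hcon
    push Not at hcon
    apply hv
    rw [← hd.sum v, map_sum, map_sum]
    exact Finset.sum_eq_zero fun l _ => hcon l _
  have h1 : tens (F2.tp 1) (tens (bar (F2.tp 1)) (F2.tp 1)) (T (F2.cc (R l w))) =
      T (F2.cc (R l w)) := by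
    have h2 := hTA 1 (F2.cc (R l w))
    rw [F2.tp_cc, map_one, one_apply_eq_self, A3c_apply] at h2
    simp only [map_one] at h2
    exact h2.symm
  obtain ⟨i, j, k, hne⟩ := exists_tens_ne (DD R F1 F2) _ (DD_sum hd F1 F2) hw h1
  exact ⟨l, i, j, k, fun h0 => hne (congrArg (fun Z : H →L[ℂ] Ell2 (G × G × G) => Z w) h0)⟩

/-- The heights on `H` are bounded by the heights on `H ⊗ ℂ^(m+1)`. -/
theorem height_le (h : Mod α σ L) (θ : LG G ≃⋆ₐ[ℂ] NN α)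
    (F2 : Fr (hd.al' (bt θ)) (hd.be' α) (uu' R σ) t') (g : G) :
    ⨆ p : A × Fin (m + 1) × Fin (m + 1), ‖⟪α p.1 (σ p.2.1), bt θ g (σ p.2.2)⟫_ℂ‖ ≤
      Mod.dm σ * ⨆ p, ‖⟪hd.be' α p (uu' R σ), hd.al' (bt θ) g (uu' R σ)⟫_ℂ‖ := by
  have hbdd : BddAbove (Set.range fun p =>
      ‖⟪hd.be' α p (uu' R σ), hd.al' (bt θ) g (uu' R σ)⟫_ℂ‖) := by
    refine ⟨‖F2.cc (hd.al' (bt θ) g (uu' R σ))‖, ?_⟩
    rintro _ ⟨p, rfl⟩
    have h1 := norm_coord_le (F2.cc (hd.al' (bt θ) g (uu' R σ))) p⁻¹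
    rw [F2.cc_apply, inv_inv] at h1
    exact h1
  refine ciSup_le ?_
  rintro ⟨s, i, j⟩
  simp only
  set z : Fin (m + 1) → ℂ := fun k => ⟪α s (σ (k - (j - i))), bt θ g (σ k)⟫_ℂ with hz
  have hzj : z j = ⟪α s (σ i), bt θ g (σ j)⟫_ℂ := by
    rw [hz]
    simp only
    rw [sub_sub_cancel]
  have h1 : ∃ e : Fin (m + 1) → ℤˣ, ‖z j‖ ≤ ‖∑ k, sgc (e k) * z k‖ := by
    by_contra hcon
    push Not at hcon
    have h2 := sum_signs z
    have h3 : ∑ e : Fin (m + 1) → ℤˣ, ‖∑ k, sgc (e k) * z k‖ ^ 2 <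
        ∑ e : Fin (m + 1) → ℤˣ, ‖z j‖ ^ 2 := by
      refine Finset.sum_lt_sum_of_nonempty Finset.univ_nonempty fun e _ => ?_
      have := hcon e
      gcongr
    rw [h2] at h3
    simp only [Finset.sum_const, Finset.card_univ, Fintype.card_pi, Fintype.card_units_int,
      Finset.prod_const, Fintype.card_fin, nsmul_eq_mul] at h3
    push_cast at h3
    have h4 : ‖z j‖ ^ 2 ≤ ∑ k, ‖z k‖ ^ 2 :=
      Finset.single_le_sum (f := fun k => ‖z k‖ ^ 2) (fun _ _ => by positivity)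
        (Finset.mem_univ j)
    have h5 : (0 : ℝ) < 2 ^ (m + 1) := by positivity
    nlinarith
  obtain ⟨e, he⟩ := h1
  have h2 : ⟪hd.be' α (s, ⟨e, j - i⟩) (uu' R σ), hd.al' (bt θ) g (uu' R σ)⟫_ℂ =
      ((Mod.dm σ)⁻¹ : ℝ) * ∑ k, sgc (e k) * z k := by
    rw [be'_uu', ← sq_inv h, sq, Complex.ofReal_mul, mul_assoc]
    congr 1
    rw [Finset.mul_sum]
    refine Finset.sum_congr rfl fun k _ => ?_
    rw [hd.al'_c, uu'_c hd, map_smul, inner_smul_right]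
    ring
  have h3 := le_ciSup hbdd (s, ⟨e, j - i⟩)
  rw [h2, norm_mul, Complex.norm_real, Real.norm_of_nonneg (inv_nonneg.mpr h.dm_pos.le)] at h3
  rw [← hzj]
  have h4 := h.dm_pos
  calc ‖z j‖ ≤ ‖∑ k, sgc (e k) * z k‖ := he
    _ = Mod.dm σ * ((Mod.dm σ)⁻¹ * ‖∑ k, sgc (e k) * z k‖) := by field_simp
    _ ≤ _ := by gcongr

end

section main

open Matrix

variable {n : ℕ} {Γ : Subgroup (Matrix.SpecialLinearGroup (Fin n) ℤ)} [Γ.FiniteIndex]
  {Λ H H' : Type} [Group Λ] [NormedAddCommGroup H] [InnerProductSpace ℂ H] [CompleteSpace H]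
  [NormedAddCommGroup H'] [InnerProductSpace ℂ H'] [CompleteSpace H']

/-- **Main theorem, `t < 1`**, abstract form. -/
theorem main_lt {m : ℕ} {α : Λ →* (H →L[ℂ] H)} {σ : Fin (m + 1) → H} {L : Λ → (H →L[ℂ] H)}
    {R : Fin (m + 1) → (H →L[ℂ] H')} (hd : Dec R)
    (h : Mod α σ L) (hp : Par α σ) (θ : LG Γ ≃⋆ₐ[ℂ] NN α) (hdm : 1 < Mod.dm σ)
    (hn : 3 ≤ n) (hΓ : ∀ g ∈ Γ, (g : Matrix (Fin n) (Fin n) ℤ) ≠ -1) (x : Γ) (j : ℕ)
    (hxj : x ^ j ≠ 1)
    (hnil : IsNilpotent ((((x ^ j : Γ) : SpecialLinearGroup (Fin n) ℤ) :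
      Matrix (Fin n) (Fin n) ℤ) - 1)) :
    Tendsto (fun N : ℕ => (∑ k ∈ Finset.range N,
      ⨆ p : Λ × Fin (m + 1) × Fin (m + 1), ‖⟪α p.1 (σ p.2.1), bt θ (x ^ (k + 1)) (σ p.2.2)⟫_ℂ‖)
        / N) atTop (𝓝 0) := by
  have hicc := icc_of_fi (by omega) Γ hΓ
  set F1 := fr hicc h θ
  set F2 := frAmp hicc h θ hp hd
  have main : Tendsto (fun N : ℕ => (∑ k ∈ Finset.range N,
      ⨆ p, ‖⟪hd.be' α p (uu' R σ), hd.al' (bt θ) (x ^ (k + 1)) (uu' R σ)⟫_ℂ‖) / N)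
        atTop (𝓝 0) := by
    by_contra hnot
    obtain ⟨T, h1, h2, h3⟩ := F2.T_of_heights hn hΓ x j hxj hnil hnot
    obtain ⟨l, i, j, k, hne⟩ := exists_SS_ne hd F1 F2 h2 h3
    have h4 := F1.le_one' hicc (trD hicc h θ) hne (SS_beta hd F1 F2 h2 l i j k)
      (SS_alpha hd F1 F2 h1 l i j k)
    linarith
  have h1 := main.const_mul (Mod.dm σ)
  rw [mul_zero] at h1
  refine squeeze_zero (fun N => ?_) (fun N => ?_) h1
  · refine div_nonneg (Finset.sum_nonneg fun k _ => ?_) (Nat.cast_nonneg _)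
    exact Real.iSup_nonneg fun s => norm_nonneg _
  · rw [← mul_div_assoc, Finset.mul_sum]
    gcongr with k _
    exact height_le hd h θ F2 (x ^ (k + 1))

end main

end Vale.Agent.P092.R2.H289
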