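import Vale.Agent.P092.R2.H289.Conc
import Vale.Agent.P092.H160.Bridge

/-!
From the elementary statement to the abstract theorems.
-/

set_option linter.all false

open scoped InnerProductSpace
open Filter Topology ContinuousLinearMap

namespace Vale.Agent.P092.R2.H289
open Vale.Agent.P092.H160 (Ell2 dl rei lam LG op_ext ext_inner_dl inner_dl rho rho_dl adjoint_rho
  mem_LG_iff inL_iff isAdj_iff isSmul_iff rhoH Cmm uu LG_comm_rho mul_ap cmm_rho_of_mem)
open Vale.Agent.P092.H160.St (Op ip ap mul add IsAdj IsSmul InL)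
open Vale.Agent.P092.R2.H289.St

section

variable {A : Type} [Group A] {m : ℕ}

theorem isAdj_iff' {X : Type} (S T : Op X) : IsAdj S T ↔ T = adjoint S := by
  constructor
  · intro h
    have h2 := (ContinuousLinearMap.eq_adjoint_iff S T).mpr h
    rw [h2, adjoint_adjoint]
  · rintro rfl ξ η
    change ⟪S ξ, η⟫_ℂ = ⟪ξ, adjoint S η⟫_ℂ
    rw [adjoint_inner_right]

theorem isSmul_iff' {X : Type} (c : ℂ) (S T : Op X) : IsSmul c S T ↔ T = c • S := by
  constructor
  · intro h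
    ext1 ξ
    exact h ξ
  · rintro rfl ξ
    rfl

theorem inM_iff {T : Op (A × Fin (m + 1))} : InM T ↔ CL (rr m) T := by
  constructor
  · intro h
    have key : ∀ g : A, T ∘L rr m g = rr m g ∘L T := by
      intro g
      apply op_ext
      rintro ⟨y, j⟩
      apply ext_inner_dl
      rintro ⟨x, i⟩
      obtain ⟨S, hS, hST⟩ := h i j
      have h1 := fun x y => hST x y
      simp only [ip, ap] at h1
      have hS' := (inL_iff S).mp hS
      rw [comp_apply, comp_apply, rr_dl, rr_apply, ← inner_dl, ← inner_dl, h1, h1]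
      have h2 : S (dl (y * g⁻¹)) = rho g (S (dl y)) := by
        rw [← rho_dl]
        exact DFunLike.congr_fun (LG_comm_rho hS' g) (dl y)
      rw [h2, ← adjoint_inner_left, adjoint_rho, rho_dl, inv_inv]
    intro g v
    exact congrArg (fun L : Op (A × Fin (m + 1)) => L v) (key g)
  · intro h i j
    refine ⟨adjoint (em A i) ∘L T ∘L em A j, ?_, fun x y => ?_⟩
    · rw [inL_iff, mem_LG_iff]
      intro g
      ext1 v
      change adjoint (em A i) (T (em A j (rho g v))) = rho g (adjoint (em A i) (T (em A j v)))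
      rw [em_rho, h, em_adj_rr]
    · change ⟪(dl (x, i) : Ell2 (A × Fin (m + 1))), T (dl (y, j))⟫_ℂ =
        ⟪(dl x : Ell2 A), adjoint (em A i) (T (em A j (dl y)))⟫_ℂ
      rw [adjoint_inner_right, em_dl, em_dl]

theorem cor_of_proj {q : Op (A × Fin (m + 1))} (hq : IsProj q) : Cor q (rg q).subtypeL := by
  refine cor_rg ((isAdj_iff' _ _).mp hq.adj).symm (fun v => ?_) (inM_iff.mp hq.mem) (hq.above 1)
  exact congrArg (fun L : Op (A × Fin (m + 1)) => L v) hq.idem

variable {H : Type} [NormedAddCommGroup H] [InnerProductSpace ℂ H] [CompleteSpace H]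
  {q : Op (A × Fin (m + 1))} {j : H →L[ℂ] Ell2 (A × Fin (m + 1))}

theorem cl_of_inC (h : Cor q j) {T : Op (A × Fin (m + 1))} (hT : InC q T) :
    CL h.al (adjoint j ∘L T ∘L j) := by
  intro g v
  change adjoint j (T (j (h.al g v))) = h.al g (adjoint j (T (j v)))
  rw [h.j_al, inM_iff.mp hT.1, h.al_js]

theorem inC_of_cl (h : Cor q j) {B : H →L[ℂ] H} (hB : CL h.al B) :
    InC q (j ∘L B ∘L adjoint j) := by
  refine ⟨inM_iff.mpr fun g v => ?_, ?_, ?_⟩
  · change j (B (adjoint j (rr m g v))) = rr m g (j (B (adjoint j v)))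
    rw [← h.al_js, hB, h.j_al]
  · ext1 v
    change q (j (B (adjoint j v))) = j (B (adjoint j v))
    rw [h.qj]
  · ext1 v
    change j (B (adjoint j (q v))) = j (B (adjoint j v))
    rw [h.jsq]

theorem inC_back (h : Cor q j) {T : Op (A × Fin (m + 1))} (hT : InC q T) :
    j ∘L (adjoint j ∘L T ∘L j) ∘L adjoint j = T := by
  ext1 v
  change j (adjoint j (T (j (adjoint j v)))) = T v
  rw [h.jq, h.jq]
  have h1 : q (T (q v)) = T (q v) := congrArg (fun L : Op (A × Fin (m + 1)) => L (q v)) hT.2.1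
  have h2 : T (q v) = T v := congrArg (fun L : Op (A × Fin (m + 1)) => L v) hT.2.2
  rw [h1, h2]

theorem cl_back (h : Cor q j) (B : H →L[ℂ] H) :
    adjoint j ∘L (j ∘L B ∘L adjoint j) ∘L j = B := by
  ext1 v
  change adjoint j (j (B (adjoint j (j v)))) = B v
  rw [h.jj, h.jj]

variable {G : Type} [Group G]

/-- The `≃⋆ₐ` attached to an elementary isomorphism onto an amplification. -/
noncomputable def toAlgA (h : Cor q j) (hm : ∀ g, adjoint (h.al g) = h.al g⁻¹) (θ : AmpIso G A q) :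
    LG G ≃⋆ₐ[ℂ] NN h.al where
  toFun T := ⟨adjoint j ∘L θ.toFun T.1 ∘L j,
    (mem_NN hm).mpr (cl_of_inC h (θ.map_mem _ ((inL_iff _).mpr T.2)))⟩
  invFun B := ⟨θ.invFun (j ∘L B.1 ∘L adjoint j),
    (inL_iff _).mp (θ.inv_mem _ (inC_of_cl h ((mem_NN hm).mp B.2)))⟩
  left_inv T := by
    apply Subtype.ext
    change θ.invFun (j ∘L (adjoint j ∘L θ.toFun T.1 ∘L j) ∘L adjoint j) = T.1
    rw [inC_back h (θ.map_mem _ ((inL_iff _).mpr T.2))]
    exact θ.left_inv _ ((inL_iff _).mpr T.2)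
  right_inv B := by
    apply Subtype.ext
    change adjoint j ∘L θ.toFun (θ.invFun (j ∘L B.1 ∘L adjoint j)) ∘L j = B.1
    rw [θ.right_inv _ (inC_of_cl h ((mem_NN hm).mp B.2)), cl_back h]
  map_mul' S T := by
    apply Subtype.ext
    ext1 v
    change adjoint j (θ.toFun (mul S.1 T.1) (j v)) =
      adjoint j (θ.toFun S.1 (j (adjoint j (θ.toFun T.1 (j v)))))
    rw [θ.map_mul _ _ ((inL_iff _).mpr S.2) ((inL_iff _).mpr T.2), h.jq]
    have h1 : θ.toFun S.1 (q (θ.toFun T.1 (j v))) = θ.toFun S.1 (θ.toFun T.1 (j v)) :=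
      congrArg (fun L : Op (A × Fin (m + 1)) => L (θ.toFun T.1 (j v)))
        (θ.map_mem _ ((inL_iff _).mpr S.2)).2.2
    rw [h1]
    rfl
  map_add' S T := by
    apply Subtype.ext
    ext1 v
    change adjoint j (θ.toFun (add S.1 T.1) (j v)) =
      adjoint j (θ.toFun S.1 (j v)) + adjoint j (θ.toFun T.1 (j v))
    rw [θ.map_add _ _ ((inL_iff _).mpr S.2) ((inL_iff _).mpr T.2), ← map_add]
    rfl
  map_star' T := by
    apply Subtype.ext
    change adjoint j ∘L θ.toFun (star T.1) ∘L j = adjoint (adjoint j ∘L θ.toFun T.1 ∘L j)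
    have h1 : θ.toFun (star T.1) = adjoint (θ.toFun T.1) :=
      (isAdj_iff' _ _).mp (θ.map_adj _ _ ((inL_iff _).mpr T.2)
        ((inL_iff _).mpr (star T).2) ((isAdj_iff _ _).mpr rfl))
    rw [h1, adjoint_comp, adjoint_comp, adjoint_adjoint]
    rfl
  map_smul' c T := by
    apply Subtype.ext
    have h1 : θ.toFun (c • T.1) = c • θ.toFun T.1 :=
      (isSmul_iff' _ _ _).mp (θ.map_smul c _ _ ((inL_iff _).mpr T.2)
        ((inL_iff _).mpr (c • T).2) ((isSmul_iff _ _ _).mpr rfl))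
    change adjoint j ∘L θ.toFun (c • T.1) ∘L j = c • (adjoint j ∘L θ.toFun T.1 ∘L j)
    rw [h1]
    ext1 v
    change adjoint j (c • θ.toFun T.1 (j v)) = c • adjoint j (θ.toFun T.1 (j v))
    rw [map_smul]

theorem coef_eq (h : Cor q j) (hm : ∀ g, adjoint (h.al g) = h.al g⁻¹) (θ : AmpIso G A q)
    (a : G) (b : A) (i k : Fin (m + 1)) :
    coef θ a b i k = ⟪h.al b⁻¹ (Cor.sg j i), bt (toAlgA h hm θ) a (Cor.sg j k)⟫_ℂ := by
  rw [h.al_sg, inv_inv, bt_apply, adjoint_inner_left]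
  change ⟪(dl (b, i) : Ell2 (A × Fin (m + 1))), θ.toFun (lam a) (dl (1, k))⟫_ℂ =
    ⟪(dl (b, i) : Ell2 (A × Fin (m + 1))), j (adjoint j (θ.toFun (lam a) (j (Cor.sg j k))))⟫_ℂ
  have hC : InC q (θ.toFun (lam a)) := θ.map_mem _ ((inL_iff _).mpr (uu a).2)
  rw [Cor.sg, h.jq, h.jq]
  have h1 : q (θ.toFun (lam a) (q (dl (1, k)))) = θ.toFun (lam a) (q (dl (1, k))) :=
    congrArg (fun L : Op (A × Fin (m + 1)) => L (q (dl (1, k)))) hC.2.1
  have h2 : θ.toFun (lam a) (q (dl (1, k))) = θ.toFun (lam a) (dl (1, k)) :=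
    congrArg (fun L : Op (A × Fin (m + 1)) => L (dl (1, k))) hC.2.2
  rw [h1, h2]

end

end Vale.Agent.P092.R2.H289
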