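import Vale.Agent.P092.R2.H289.CSep

/-!
`SepK` for ICC groups commensurable with `SL_n(ℤ)`.
-/

set_option linter.all false

namespace Vale.Agent.P092.R2.H289
open Matrix Vale.Agent.P092.H350

section

variable {n : ℕ}

/-- A `3 × 3` minor. -/
def det3 (a b c : Fin n → ℤ) (p q r : Fin n) : ℤ :=
  a p * (b q * c r - b r * c q) - a q * (b p * c r - b r * c p) + a r * (b p * c q - b q * c p)

/-- Linear independence of three functionals. -/
def LI3 (a b c : Fin n → ℤ) : Prop := ∃ p q r, det3 a b c p q r ≠ 0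

theorem LI3.swap {a b c : Fin n → ℤ} (h : LI3 a b c) : LI3 b a c := by
  obtain ⟨p, q, r, h⟩ := h
  refine ⟨p, q, r, fun e => h ?_⟩
  unfold det3 at *
  linear_combination -e

theorem LI3.rot {a b c : Fin n → ℤ} (h : LI3 a b c) : LI3 c a b := by
  obtain ⟨p, q, r, h⟩ := h
  refine ⟨p, q, r, fun e => h ?_⟩
  unfold det3 at *
  linear_combination e

theorem LI3.dual {a b c : Fin n → ℤ} (h : LI3 a b c) :
    ∃ v : Fin n → ℤ, b ⬝ᵥ v = 0 ∧ c ⬝ᵥ v = 0 ∧ a ⬝ᵥ v ≠ 0 := by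
  obtain ⟨p, q, r, h⟩ := h
  refine ⟨(b q * c r - b r * c q) • Pi.single p 1 - (b p * c r - b r * c p) • Pi.single q 1 +
    (b p * c q - b q * c p) • Pi.single r 1, ?_, ?_, ?_⟩
  · simp only [dotProduct_add, dotProduct_sub, dotProduct_smul, dotProduct_single, mul_one,
      smul_eq_mul]
    ring
  · simp only [dotProduct_add, dotProduct_sub, dotProduct_smul, dotProduct_single, mul_one,
      smul_eq_mul]
    ring
  · intro e
    simp only [dotProduct_add, dotProduct_sub, dotProduct_smul, dotProduct_single, mul_one,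
      smul_eq_mul] at e
    apply h
    unfold det3
    linear_combination e

variable {Γ₁ : Subgroup (Matrix.SpecialLinearGroup (Fin n) ℤ)} {Γ : Type} [Group Γ]
  {j : Γ₁ →* Γ} {g : Γ}

theorem vc_add {v w χ : Fin n → ℤ} {hv : χ ⬝ᵥ v = 0} {hw : χ ⬝ᵥ w = 0}
    (h1 : VC j g (root v χ hv)) (h2 : VC j g (root w χ hw)) (hvw : χ ⬝ᵥ (v + w) = 0) :
    VC j g (root (v + w) χ hvw) := by
  have h3 := h1.mul h2 (by
    change _ * _ = _ * _
    rw [root_mul, root_mul]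
    simp only [add_comm])
  rw [root_mul] at h3
  exact h3

theorem vc_of_smul {v χ : Fin n → ℤ} {k : ℤ} (hk : k ≠ 0) (hv : χ ⬝ᵥ v = 0)
    {hkv : χ ⬝ᵥ (k • v) = 0} (h : VC j g (root (k • v) χ hkv)) : VC j g (root v χ hv) := by
  refine VC.of_zpow hk ?_
  rw [root_zpow]
  exact h

/-- First half of the large root subgroup. -/
theorem vc_half [hfi : Γ₁.FiniteIndex] (hn : 3 ≤ n) (hj : Function.Injective j)
    (hj' : j.range.FiniteIndex) {φ ψ χ : Fin n → ℤ} (hφ : KG j g φ) (hψ : KG j g ψ)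
    (h3 : LI3 φ ψ χ) {v : Fin n → ℤ} (hχv : χ ⬝ᵥ v = 0) (hψv : ψ ⬝ᵥ v = 0) :
    VC j g (root v χ hχv) := by
  obtain ⟨v0, h1, h2, h3'⟩ := h3.dual
  obtain ⟨w0, hw1, hw2, hw3⟩ := h3.swap.dual
  obtain ⟨z, hz1, hz2, hz3⟩ := h3.rot.dual
  have key : ∀ v (hχv : χ ⬝ᵥ v = 0), ψ ⬝ᵥ v = 0 → φ ⬝ᵥ v ≠ 0 → VC j g (root v χ hχv) :=
    fun v hχv hψv hφv => vc_step hn hj hj' hφ hψ hχv hψv hφv hw1 hw2 hw3 hz1 hz3
  by_cases hφv : φ ⬝ᵥ v = 0
  · have e1 : χ ⬝ᵥ (v + v0) = 0 := by rw [dotProduct_add, hχv, h2, add_zero]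
    have e2 : χ ⬝ᵥ (-v0) = 0 := by rw [dotProduct_neg, h2, neg_zero]
    have k1 := key (v + v0) e1 (by rw [dotProduct_add, hψv, h1, add_zero])
      (by rw [dotProduct_add, hφv, zero_add]; exact h3')
    have k2 := key (-v0) e2 (by rw [dotProduct_neg, h1, neg_zero])
      (by rw [dotProduct_neg]; exact neg_ne_zero.mpr h3')
    have k3 := vc_add k1 k2 (by rw [dotProduct_add, e1, e2, add_zero])
    have e3 : v + v0 + -v0 = v := by abel
    have e4 : root (v + v0 + -v0) χ (by rw [dotProduct_add, e1, e2, add_zero]) = root v χ hχv := by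
      apply sl_ext
      rw [root_coe, root_coe, e3]
    rw [e4] at k3
    exact k3
  · exact key v hχv hψv hφv

/-- The third functional. -/
theorem KG_of_LI3 [hfi : Γ₁.FiniteIndex] (hn : 3 ≤ n) (hj : Function.Injective j)
    (hj' : j.range.FiniteIndex) {φ ψ χ : Fin n → ℤ} (hφ : KG j g φ) (hψ : KG j g ψ)
    (h3 : LI3 φ ψ χ) : KG j g χ := by
  intro v hv
  obtain ⟨v0, h1, h2, h3'⟩ := h3.dual
  have e1 : χ ⬝ᵥ ((φ ⬝ᵥ v) • v0) = 0 := by rw [dotProduct_smul, h2, smul_zero]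
  have e2 : χ ⬝ᵥ ((φ ⬝ᵥ v0) • v - (φ ⬝ᵥ v) • v0) = 0 := by
    rw [dotProduct_sub, dotProduct_smul, dotProduct_smul, hv, h2, smul_zero, smul_zero, sub_zero]
  have k1 := vc_half hn hj hj' hφ hψ h3 e1 (by rw [dotProduct_smul, h1, smul_zero])
  have k2 := vc_half hn hj hj' hψ hφ h3.swap e2 (by
    rw [dotProduct_sub, dotProduct_smul, dotProduct_smul, smul_eq_mul, smul_eq_mul]
    ring)
  have k3 := vc_add k1 k2 (by rw [dotProduct_add, e1, e2, add_zero])
  have e3 : (φ ⬝ᵥ v) • v0 + ((φ ⬝ᵥ v0) • v - (φ ⬝ᵥ v) • v0) = (φ ⬝ᵥ v0) • v := by abel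
  have e5 : χ ⬝ᵥ ((φ ⬝ᵥ v0) • v) = 0 := by rw [dotProduct_smul, hv, smul_zero]
  have e4 : root ((φ ⬝ᵥ v) • v0 + ((φ ⬝ᵥ v0) • v - (φ ⬝ᵥ v) • v0)) χ
      (by rw [dotProduct_add, e1, e2, add_zero]) = root ((φ ⬝ᵥ v0) • v) χ e5 := by
    apply sl_ext
    rw [root_coe, root_coe, e3]
  rw [e4] at k3
  exact vc_of_smul h3' hv k3

/-- All functionals. -/
theorem KG_all [hfi : Γ₁.FiniteIndex] (hn : 3 ≤ n) (hj : Function.Injective j)
    (hj' : j.range.FiniteIndex) {φ ψ : Fin n → ℤ} (hLI : LI φ ψ) (hφ : KG j g φ) (hψ : KG j g ψ)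
    (χ : Fin n → ℤ) : KG j g χ := by
  by_cases hχ : χ = 0
  · subst hχ
    intro w hw
    have e : root w 0 hw = 1 := by
      apply sl_ext
      rw [root_coe, vecMulVec_zero, add_zero]
      rfl
    rw [e]
    exact VC.one
  by_cases h3 : LI3 φ ψ χ
  · exact KG_of_LI3 hn hj hj' hφ hψ h3
  unfold LI3 at h3
  push Not at h3
  obtain ⟨p, q, hpq⟩ := hLI
  obtain ⟨r, hrp, hrq⟩ := exists_third hn p q
  have s1 : (Pi.single r 1 : Fin n → ℤ) p = 0 := by simp [Ne.symm hrp]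
  have s2 : (Pi.single r 1 : Fin n → ℤ) q = 0 := by simp [Ne.symm hrq]
  have s3 : (Pi.single r 1 : Fin n → ℤ) r = 1 := by simp
  have hθ : KG j g (Pi.single r 1) := by
    refine KG_of_LI3 hn hj hj' hφ hψ ⟨p, q, r, ?_⟩
    unfold det3
    rw [s1, s2, s3]
    intro e
    apply hpq
    linear_combination e
  by_cases hB : φ p * χ q - φ q * χ p = 0
  · by_cases hA : ψ p * χ q - ψ q * χ p = 0
    · exfalso
      apply hχ
      ext l
      rw [Pi.zero_apply]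
      have h4 := h3 p q l
      unfold det3 at h4
      have h5 : (φ p * ψ q - φ q * ψ p) * χ l = 0 := by
        linear_combination h4 + ψ l * hB - φ l * hA
      exact (mul_eq_zero.mp h5).resolve_left hpq
    · refine KG_of_LI3 hn hj hj' hψ hθ ⟨p, q, r, ?_⟩
      unfold det3
      rw [s1, s2, s3]
      intro e
      apply hA
      linear_combination -e
  · refine KG_of_LI3 hn hj hj' hφ hθ ⟨p, q, r, ?_⟩
    unfold det3
    rw [s1, s2, s3]
    intro e
    apply hB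
    linear_combination -e

/-- **Separation** for ICC groups commensurable with `SL_n(ℤ)`. -/
theorem sepK [hfi : Γ₁.FiniteIndex] (hn : 3 ≤ n) (hj : Function.Injective j)
    (hj' : j.range.FiniteIndex)
    (hΓ : ∀ g : Γ, g ≠ 1 → Set.Infinite {y : Γ | ∃ h, y = h * g * h⁻¹}) : SepK j := by
  intro g a b hab ha hb
  by_contra hg
  apply hΓ g hg
  have hall := KG_all hn hj hj' hab ha hb
  -- conjugation by g is trivial up to sign
  have hsr : ∀ X Y : Γ₁, SR j g X Y →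
      (((X * Y⁻¹ : Γ₁) : Matrix.SpecialLinearGroup (Fin n) ℤ) : Matrix (Fin n) (Fin n) ℤ) = 1 ∨
      (((X * Y⁻¹ : Γ₁) : Matrix.SpecialLinearGroup (Fin n) ℤ) : Matrix (Fin n) (Fin n) ℤ) = -1 := by
    intro X Y h
    have hK : ∀ χ, K (((X⁻¹ * Y : Γ₁) : Matrix.SpecialLinearGroup (Fin n) ℤ) :
        Matrix (Fin n) (Fin n) ℤ) χ := fun χ => K_of_SR hj h (hall _) (hall _)
    have hD := eq_pm_one hn (Matrix.SpecialLinearGroup.det_coe
      ((X⁻¹ * Y : Γ₁) : Matrix.SpecialLinearGroup (Fin n) ℤ)) hab (hK a) (hK b)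
    have h1 := coe_inv_mul X Y
    have h2 : ((Y : Matrix.SpecialLinearGroup (Fin n) ℤ) : Matrix (Fin n) (Fin n) ℤ) *
        (((Y⁻¹ : Γ₁) : Matrix.SpecialLinearGroup (Fin n) ℤ) : Matrix (Fin n) (Fin n) ℤ) = 1 := by
      have h : (Y : Matrix.SpecialLinearGroup (Fin n) ℤ) *
          ((Y⁻¹ : Γ₁) : Matrix.SpecialLinearGroup (Fin n) ℤ) = 1 := by
        rw [← Subgroup.coe_mul, mul_inv_cancel, Subgroup.coe_one]
      exact congrArg Subtype.val h
    have h3 : (((X * Y⁻¹ : Γ₁) : Matrix.SpecialLinearGroup (Fin n) ℤ) :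
        Matrix (Fin n) (Fin n) ℤ) = ((X : Matrix.SpecialLinearGroup (Fin n) ℤ) :
        Matrix (Fin n) (Fin n) ℤ) * (((Y⁻¹ : Γ₁) : Matrix.SpecialLinearGroup (Fin n) ℤ) :
        Matrix (Fin n) (Fin n) ℤ) := rfl
    rcases hD with hD | hD
    · left
      rw [hD, Matrix.mul_one] at h1
      rw [h3, h1, h2]
    · right
      rw [hD, Matrix.mul_neg, Matrix.mul_one] at h1
      have h4 : ((X : Matrix.SpecialLinearGroup (Fin n) ℤ) : Matrix (Fin n) (Fin n) ℤ) =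
          -((Y : Matrix.SpecialLinearGroup (Fin n) ℤ) : Matrix (Fin n) (Fin n) ℤ) := by
        rw [← h1, neg_neg]
      rw [h3, h4, Matrix.neg_mul, h2]
  -- the finite index subgroup
  set N : Subgroup Γ := j.range ⊓ j.range.comap (MulAut.conj g).toMonoidHom with hN
  have hNfi : N.FiniteIndex := by
    have := fi_comap (MulAut.conj g).toMonoidHom j.range
    exact inferInstance
  set S : Set Γ₁ := {Z | ((Z : Matrix.SpecialLinearGroup (Fin n) ℤ) : Matrix (Fin n) (Fin n) ℤ) = 1 ∨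
    ((Z : Matrix.SpecialLinearGroup (Fin n) ℤ) : Matrix (Fin n) (Fin n) ℤ) = -1} with hS
  have hSfin : S.Finite := by
    have hinj : Function.Injective (fun Z : Γ₁ =>
        ((Z : Matrix.SpecialLinearGroup (Fin n) ℤ) : Matrix (Fin n) (Fin n) ℤ)) := by
      intro Z Z' h
      exact Subtype.ext (sl_ext h)
    refine Set.Finite.preimage (f := fun Z : Γ₁ =>
        ((Z : Matrix.SpecialLinearGroup (Fin n) ℤ) : Matrix (Fin n) (Fin n) ℤ)) hinj.injOn
        (s := {1, -1}) (Set.toFinite _) |>.subset ?_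
    intro Z hZ
    exact hZ
  have hfin : ((Set.univ : Set (Γ ⧸ N)) ×ˢ S).Finite := Set.finite_univ.prod hSfin
  refine (hfin.image (fun p : (Γ ⧸ N) × Γ₁ => p.1.out * (j p.2 * g) * (p.1.out)⁻¹)).subset ?_
  rintro _ ⟨h, rfl⟩
  obtain ⟨k, hk⟩ := QuotientGroup.mk_out_eq_mul N h
  have hkN : (k⁻¹ : Γ) ∈ N := N.inv_mem k.2
  obtain ⟨⟨X, hX⟩, ⟨Y, hY⟩⟩ := hkN
  have hY' : j Y = g * (k : Γ)⁻¹ * g⁻¹ := hY
  have hsr' : SR j g X Y := by
    change g * j X = j Y * g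
    rw [hY', hX, inv_mul_cancel_right]
  refine ⟨(QuotientGroup.mk h, X * Y⁻¹), ⟨trivial, hsr X Y hsr'⟩, ?_⟩
  simp only
  rw [hk, map_mul, map_inv, hX, hY']
  group

end

end Vale.Agent.P092.R2.H289
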