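import Vale.Agent.P092.R2.H289.Mod

/-!
If the commutant of a module over an ICC group is isomorphic to the von Neumann algebra of a group
`G`, then `G` is ICC.
-/

set_option linter.all false

open scoped InnerProductSpace
open Filter Topology ContinuousLinearMap

namespace Vale.Agent.P092.R2.H289
open Vale.Agent.P092.H160

section

variable {A G H : Type} [Group A] [Group G] [NormedAddCommGroup H] [InnerProductSpace ℂ H]
  [CompleteSpace H] {m : ℕ} {α : A →* (H →L[ℂ] H)} {σ : Fin (m + 1) → H} {L : A → (H →L[ℂ] H)}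

/-- The class sum of a finite class. -/
theorem exists_central {s : G} (hs : s ≠ 1) (hfin : {y : G | ∃ h, y = h * s * h⁻¹}.Finite) :
    ∃ z : LG G, (∀ T : LG G, z * T = T * z) ∧ ((z : Ell2 G →L[ℂ] Ell2 G) (dl 1)) s ≠ 0 := by
  classical
  set C := hfin.toFinset with hC
  have hmem : ∀ c, c ∈ C ↔ ∃ h, c = h * s * h⁻¹ := fun c => by simp [hC]
  set z : Ell2 G →L[ℂ] Ell2 G := ∑ c ∈ C, lam c with hz
  have hz1 : Cmm rhoH z := by
    intro t
    rw [hz, Finset.sum_mul, Finset.mul_sum]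
    exact Finset.sum_congr rfl fun c _ => cmm_rho_lam c t
  have hz2 : Cmm lamH z := by
    intro t
    change z * lam t = lam t * z
    rw [hz, Finset.sum_mul, Finset.mul_sum]
    refine Finset.sum_bij (fun c _ => t⁻¹ * c * t) (fun c hc => ?_) (fun c _ d _ h => ?_)
      (fun c hc => ?_) (fun c _ => ?_)
    · rw [hmem] at hc ⊢
      obtain ⟨h, rfl⟩ := hc
      exact ⟨t⁻¹ * h, by group⟩
    · simpa using h
    · rw [hmem] at hc
      obtain ⟨h, rfl⟩ := hc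
      exact ⟨t * (h * s * h⁻¹) * t⁻¹, (hmem _).mpr ⟨t * h, by group⟩, by group⟩
    · rw [← lam_mul, ← lam_mul]
      congr 1
      group
  have hc : ∀ g s : G, lamH g * rhoH s = rhoH s * lamH g := fun g s => (rho_lam s g).symm
  refine ⟨⟨z, mem_LG_of_cmm hz1⟩, fun T => ?_, ?_⟩
  · refine Subtype.ext ?_
    exact (RegRep.commute regRep_lam regRep_rho hc (cmm_rho_of_mem T.2) hz2).symm
  · change (z (dl 1)) s ≠ 0
    have h1 : z (dl 1) = ∑ c ∈ C, dl c := by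
      rw [hz, sum_apply]
      exact Finset.sum_congr rfl fun c _ => by rw [lam_dl, mul_one]
    have hs1 : s ∈ C := (hmem s).mpr ⟨1, by group⟩
    have h3 : (∑ c ∈ C, (dl c : Ell2 G)) s = 1 := by
      rw [lp.coeFn_sum, Finset.sum_apply,
        Finset.sum_eq_single s (fun c _ hne => dl_ne (Ne.symm hne)) (fun h => absurd hs1 h),
        dl_self]
    rw [h1, h3]
    exact one_ne_zero

/-- Central elements of the commutant are scalar. -/
theorem Mod.central (hA : ∀ g : A, g ≠ 1 → Set.Infinite {y : A | ∃ h, y = h * g * h⁻¹})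
    (h : Mod α σ L) {Z : H →L[ℂ] H} (hZ : CL α Z) (hc : ∀ X : H →L[ℂ] H, CL α X → Z * X = X * Z) :
    ∃ c : ℂ, Z = c • (1 : H →L[ℂ] H) := by
  set ζ : H := Z (σ 0) with hζ
  have hZL : ∀ g v, Z (L g v) = L g (Z v) := fun g v =>
    DFunLike.congr_fun (hc (L g) (h.Lc g)) v
  have h1 : L 1 ζ = ζ := by rw [hζ, ← hZL, h.L_one_zero]
  have hLζ : ∀ k, L k ζ = α k⁻¹ ζ := by
    intro k
    rw [hζ, ← hZL, h.L0, hZ]
  have hcj : ∀ k g, ⟪α (k * g * k⁻¹) (σ 0), ζ⟫_ℂ = ⟪α g (σ 0), ζ⟫_ℂ := by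
    intro k g
    have e1 : α (k * g * k⁻¹) (σ 0) = α k (α g (L k (σ 0))) := by
      rw [map_mul, map_mul, mul_ap, mul_ap, h.L0]
    have e2 : L k⁻¹ (α g (L k (σ 0))) = α g (σ 0) := by
      rw [h.L0, h.Lc k⁻¹ g, h.Lc k⁻¹ k⁻¹, h.L0, inv_inv, ← Fr.ap_mul, ← Fr.ap_mul,
        inv_mul_cancel_right]
    rw [e1, h.inner_left, ← hLζ, ← e2, ← h.Ladj, adjoint_inner_left]
  have hz : ∀ g, g ≠ 1 → ⟪α g (σ 0), ζ⟫_ℂ = 0 := by
    intro g hg
    by_contra hne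
    have h2 := (h.hs ζ ζ).summable.tendsto_cofinite_zero.norm
    rw [norm_zero] at h2
    have hpos : 0 < ‖⟪ζ, α g (σ 0)⟫_ℂ * ⟪α g (σ 0), ζ⟫_ℂ‖ := by
      rw [norm_mul, norm_inner_symm]
      positivity
    have h3 := h2.eventually (gt_mem_nhds hpos)
    rw [Filter.eventually_cofinite] at h3
    refine hA g hg (h3.subset ?_)
    rintro _ ⟨k, rfl⟩
    change ¬ (‖⟪ζ, α (k * g * k⁻¹) (σ 0)⟫_ℂ * ⟪α (k * g * k⁻¹) (σ 0), ζ⟫_ℂ‖ < _)
    rw [← inner_conj_symm ζ (α (k * g * k⁻¹) (σ 0)), hcj, inner_conj_symm]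
    exact lt_irrefl _
  have hv : ζ = ⟪σ 0, ζ⟫_ℂ • σ 0 := by
    refine ext_inner_left ℂ fun w => ?_
    have h2 := h.hs w ζ
    rw [h1] at h2
    have h3 : HasSum (fun g => ⟪w, α g (σ 0)⟫_ℂ * ⟪α g (σ 0), ζ⟫_ℂ)
        (⟪w, α 1 (σ 0)⟫_ℂ * ⟪α 1 (σ 0), ζ⟫_ℂ) := by
      refine hasSum_single 1 fun g hg => ?_
      rw [hz g hg, mul_zero]
    rw [h2.unique h3, map_one, one_apply_eq_self, inner_smul_right, mul_comm]
  refine ⟨⟪σ 0, ζ⟫_ℂ, h.ext_op fun g i => ?_⟩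
  obtain ⟨X, hX, hX0⟩ := h.cyc g i
  have h2 : Z (X (σ 0)) = X (Z (σ 0)) := DFunLike.congr_fun (hc X hX) (σ 0)
  rw [← hX0, h2, ← hζ, smul_apply, one_apply_eq_self]
  conv_lhs => rw [hv]
  rw [map_smul]

/-- If `L(G)` is isomorphic to the commutant of a module over an ICC group, then `G` is ICC. -/
theorem icc_of_iso (hA : ∀ g : A, g ≠ 1 → Set.Infinite {y : A | ∃ h, y = h * g * h⁻¹})
    (h : Mod α σ L) (θ : LG G ≃⋆ₐ[ℂ] NN α) (s : G) (hs : s ≠ 1) :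
    Set.Infinite {y : G | ∃ h, y = h * s * h⁻¹} := by
  intro hfin
  obtain ⟨z, hz, hz0⟩ := exists_central hs hfin
  obtain ⟨c, hc⟩ := Mod.central hA h ((mem_NN h.adj).mp (θ z).2) fun X hX => by
    obtain ⟨T, hT⟩ := exists_pre h θ hX
    rw [← hT, ← th_mul, ← th_mul, hz]
  have h1 : z = c • (1 : LG G) := by
    apply th_inj θ
    rw [hc, map_smul, map_one]
    rfl
  apply hz0
  rw [h1]
  change (c • (dl 1 : Ell2 G)) s = 0
  change c * (dl 1 : Ell2 G) s = 0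
  rw [dl_ne hs, mul_zero]

end

end Vale.Agent.P092.R2.H289
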