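import Vale.Agent.P092.R2.H289.Van
import Vale.Agent.P092.R2.H289.Icc

/-!
The final theorems about amplifications.
-/

set_option linter.all false

open scoped InnerProductSpace
open Filter Topology ContinuousLinearMap Matrix

namespace Vale.Agent.P092.R2.H289
open Vale.Agent.P092.H160 (Ell2 dl rei lam LG uu icc_of_fi)
open Vale.Agent.P092.H160.St (Op ip ap mul add IsAdj IsSmul InL)
open Vale.Agent.P092.R2.H289.St

theorem nil_inv {n : ℕ} (X : SpecialLinearGroup (Fin n) ℤ)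
    (h : IsNilpotent ((X : Matrix (Fin n) (Fin n) ℤ) - 1)) :
    IsNilpotent (((X⁻¹ : SpecialLinearGroup (Fin n) ℤ) : Matrix (Fin n) (Fin n) ℤ) - 1) := by
  have h1 : (X : Matrix (Fin n) (Fin n) ℤ) *
      ((X⁻¹ : SpecialLinearGroup (Fin n) ℤ) : Matrix (Fin n) (Fin n) ℤ) = 1 :=
    congrArg Subtype.val (mul_inv_cancel X)
  have h2 : ((X⁻¹ : SpecialLinearGroup (Fin n) ℤ) : Matrix (Fin n) (Fin n) ℤ) *
      (X : Matrix (Fin n) (Fin n) ℤ) = 1 :=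
    congrArg Subtype.val (inv_mul_cancel X)
  set Y := ((X⁻¹ : SpecialLinearGroup (Fin n) ℤ) : Matrix (Fin n) (Fin n) ℤ) with hY
  have h3 : Y - 1 = ((X : Matrix (Fin n) (Fin n) ℤ) - 1) * (-Y) := by
    rw [mul_neg, sub_mul, h1, one_mul]
    abel
  rw [h3]
  refine Commute.isNilpotent_mul_right ?_ h
  change ((X : Matrix (Fin n) (Fin n) ℤ) - 1) * (-Y) = (-Y) * ((X : Matrix (Fin n) (Fin n) ℤ) - 1)
  rw [mul_neg, neg_mul, sub_mul, mul_sub, h1, h2, one_mul, mul_one]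

section

variable {A : Type} [Group A] {m : ℕ} {q : Op (A × Fin (m + 1))}

theorem one_lt_dm (hq : IsProj q) (ht : trM q ≠ 1) :
    1 < Mod.dm (Cor.sg (rg q).subtypeL) := by
  have h := cor_of_proj hq
  have h1 : (Mod.dm (Cor.sg (rg q).subtypeL) : ℂ) = trM q := h.dm_eq
  have h2 : Mod.dm (Cor.sg (rg q).subtypeL) ≠ 1 := by
    intro e
    rw [e] at h1
    exact ht (by rw [← h1]; simp)
  have h3 : ‖Cor.sg (rg q).subtypeL 0‖ ^ 2 ≤ Mod.dm (Cor.sg (rg q).subtypeL) :=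
    Finset.single_le_sum (f := fun i => ‖Cor.sg (rg q).subtypeL i‖ ^ 2) (fun _ _ => by positivity)
      (Finset.mem_univ 0)
  rw [h.mod.nrm, one_pow] at h3
  exact lt_of_le_of_ne h3 (Ne.symm h2)

end

variable {n : ℕ} {Γ : Subgroup (Matrix.SpecialLinearGroup (Fin n) ℤ)} [Γ.FiniteIndex]
  {Λ : Type} [Group Λ] {m : ℕ}

/-- The case `t > 1` for all pairs of generators. -/
theorem pairs_gt {H : Type} [NormedAddCommGroup H] [InnerProductSpace ℂ H] [CompleteSpace H]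
    {α : Γ →* (H →L[ℂ] H)} {σ : Fin (m + 1) → H} {L : Γ → (H →L[ℂ] H)}
    (hm : Mod α σ L) (θ : LG Λ ≃⋆ₐ[ℂ] NN α) (hd : 1 < Mod.dm σ)
    (hn : 3 ≤ n) (hΓ : ∀ g ∈ Γ, (g : Matrix (Fin n) (Fin n) ℤ) ≠ -1)
    (hΛ : ∀ s : Λ, s ≠ 1 → Set.Infinite {y : Λ | ∃ h, y = h * s * h⁻¹}) (x : Γ) (j : ℕ)
    (hxj : x ^ j ≠ 1)
    (hnil : IsNilpotent ((((x ^ j : Γ) : SpecialLinearGroup (Fin n) ℤ) :
      Matrix (Fin n) (Fin n) ℤ) - 1)) :
    Tendsto (fun N : ℕ => (∑ k ∈ Finset.range N, ⨆ p : Λ × Fin (m + 1) × Fin (m + 1),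
      ‖⟪bt θ p.1 (σ p.2.2), α (x⁻¹ ^ (k + 1)) (σ p.2.1)⟫_ℂ‖) / N) atTop (𝓝 0) := by
  have hF := fr hΛ hm θ
  have h1 : Tendsto (fun N : ℕ => (∑ k ∈ Finset.range N,
      ⨆ s, ‖⟪bt θ s (σ 0), α (x⁻¹ ^ (k + 1)) (σ 0)⟫_ℂ‖) / N) atTop (𝓝 0) := by
    refine main_gt hm θ hd hΛ hn hΓ x⁻¹ j ?_ ?_
    · rw [inv_pow]
      exact inv_ne_one.mpr hxj
    · have h2 := nil_inv _ hnil
      rw [inv_pow]
      exact h2
  have h2 : ∀ i l : Fin (m + 1), Tendsto (fun N : ℕ => (∑ k ∈ Finset.range N,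
      ⨆ s, ‖⟪bt θ s (σ l), α (x⁻¹ ^ (k + 1)) (σ i)⟫_ℂ‖) / N) atTop (𝓝 0) := fun i l =>
    hF.van_all (fun k => x⁻¹ ^ (k + 1)) h1 _ _
  have hsum : Tendsto (fun N : ℕ => (∑ k ∈ Finset.range N, ∑ p : Fin (m + 1) × Fin (m + 1),
      ⨆ s, ‖⟪bt θ s (σ p.2), α (x⁻¹ ^ (k + 1)) (σ p.1)⟫_ℂ‖) / N) atTop (𝓝 0) := by
    have e := tendsto_finsetSum (Finset.univ : Finset (Fin (m + 1) × Fin (m + 1)))
      fun p _ => h2 p.1 p.2
    rw [Finset.sum_const_zero] at e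
    refine e.congr fun N => ?_
    rw [← Finset.sum_div, Finset.sum_comm]
  refine van_le (fun k => Real.iSup_nonneg fun s => norm_nonneg _) (fun k => ?_) hsum
  refine ciSup_le ?_
  rintro ⟨s, i, l⟩
  refine (le_ciSup (hF.bdd (x⁻¹ ^ (k + 1)) (σ l) (σ i)) s).trans ?_
  exact Finset.single_le_sum (f := fun (p : Fin (m + 1) × Fin (m + 1)) => ⨆ s,
      ‖⟪bt θ s (σ p.2), α (x⁻¹ ^ (k + 1)) (σ p.1)⟫_ℂ‖)
    (fun p _ => Real.iSup_nonneg fun s => norm_nonneg _) (Finset.mem_univ (i, l))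

theorem final_gt (hn : 3 ≤ n) (hΓ : ∀ g ∈ Γ, (g : Matrix (Fin n) (Fin n) ℤ) ≠ -1)
    {q : Op (Γ × Fin (m + 1))} (hq : IsProj q) (ht : trM q ≠ 1) (θ : AmpIso Λ Γ q) (x : Γ) (j : ℕ)
    (hxj : x ^ j ≠ 1)
    (hnil : IsNilpotent ((((x ^ j : Γ) : SpecialLinearGroup (Fin n) ℤ) :
      Matrix (Fin n) (Fin n) ℤ) - 1)) :
    Tendsto (fun N : ℕ => (∑ k ∈ Finset.range N, hgt₁ θ (x ^ (k + 1))) / N) atTop (𝓝 0) := by
  have h := cor_of_proj hq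
  have hΛ := icc_of_iso (icc_of_fi (by omega) Γ hΓ) h.mod (toAlgA h h.mod.adj θ)
  have h1 := pairs_gt h.mod (toAlgA h h.mod.adj θ) (one_lt_dm hq ht) hn hΓ hΛ x j hxj hnil
  refine h1.congr fun N => ?_
  congr 1
  refine Finset.sum_congr rfl fun k _ => ?_
  rw [hgt₁]
  congr 1
  funext p
  rw [coef_eq h h.mod.adj, ← inv_pow]
  exact norm_inner_symm (𝕜 := ℂ) (E := rg q) _ _

theorem final_lt (hn : 3 ≤ n) (hΓ : ∀ g ∈ Γ, (g : Matrix (Fin n) (Fin n) ℤ) ≠ -1)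
    {q : Op (Λ × Fin (m + 1))} (hq : IsProj q) (ht : trM q ≠ 1) (θ : AmpIso Γ Λ q) (x : Γ) (j : ℕ)
    (hxj : x ^ j ≠ 1)
    (hnil : IsNilpotent ((((x ^ j : Γ) : SpecialLinearGroup (Fin n) ℤ) :
      Matrix (Fin n) (Fin n) ℤ) - 1)) :
    Tendsto (fun N : ℕ => (∑ k ∈ Finset.range N, hgt₂ θ (x ^ (k + 1))) / N) atTop (𝓝 0) := by
  have h := cor_of_proj hq
  have h1 := main_lt (dec_Rp (H := rg q) (m := m)) h.mod h.par (toAlgA h h.mod.adj θ)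
    (one_lt_dm hq ht) hn hΓ x j hxj hnil
  refine h1.congr fun N => ?_
  congr 1
  refine Finset.sum_congr rfl fun k _ => ?_
  rw [hgt₂, ← (Equiv.prodCongr (Equiv.inv Λ) (Equiv.refl (Fin (m + 1) × Fin (m + 1)))).iSup_comp
    (g := fun p : Λ × Fin (m + 1) × Fin (m + 1) => ‖coef θ (x ^ (k + 1)) p.1 p.2.1 p.2.2‖)]
  congr 1
  funext p
  obtain ⟨s, i, l⟩ := p
  simp only [Equiv.prodCongr_apply, Prod.map_apply, Equiv.inv_apply, Equiv.refl_apply]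
  rw [coef_eq h h.mod.adj, inv_inv]

end Vale.Agent.P092.R2.H289
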