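import Vale.Agent.P092.R2.H289.CTwo
import Vale.Agent.P092.R2.H289.CSep2
import Vale.Agent.P092.R2.H289.FinalAmp

/-!
The theorems about amplifications for ICC groups commensurable with `SL_n(ℤ)`.
-/

set_option linter.all false

open scoped InnerProductSpace
open Filter Topology ContinuousLinearMap Matrix

namespace Vale.Agent.P092.R2.H289
open Vale.Agent.P092.H160
open Vale.Agent.P092.H160.St (Op ip ap mul add IsAdj IsSmul InL)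
open Vale.Agent.P092.R2.H289.St

variable {n : ℕ} {Γ₁ : Subgroup (Matrix.SpecialLinearGroup (Fin n) ℤ)} [hfi : Γ₁.FiniteIndex]
  {Γ Λ : Type} [Group Γ] [Group Λ] {j : Γ₁ →* Γ}

/-- If the averages of the heights along a unipotent do not tend to zero, then there is a cubic
intertwiner. -/
theorem Fr.T_of_heightsJ {H : Type} [NormedAddCommGroup H] [InnerProductSpace ℂ H]
    [CompleteSpace H] {α : Γ →* (H →L[ℂ] H)} {β : Λ →* (H →L[ℂ] H)} {u : H} {t : ℝ}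
    (h : Fr α β u t) (hn : 3 ≤ n) (hj : j.range.FiniteIndex) (hK : SepK j)
    (x : Γ) (m : ℕ) (y : Γ₁) (hxy : x ^ m = j y) (hy : y ≠ 1)
    (hnil : IsNilpotent (((y : SpecialLinearGroup (Fin n) ℤ) : Matrix (Fin n) (Fin n) ℤ) - 1))
    (hnot : ¬ Tendsto (fun N : ℕ => (∑ k ∈ Finset.range N,
      ⨆ s, ‖⟪β s u, α (x ^ (k + 1)) u⟫_ℂ‖) / N) atTop (𝓝 0)) :
    ∃ T : Ell2 Λ →L[ℂ] Ell2 (Λ × Λ × Λ), (∀ s v, T (rho s v) = rho (ι3 s) (T v)) ∧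
      (∀ g v, T (h.tp (α g) v) = A3c (fun g => h.tp (α g)) g (T v)) ∧
      ∃ v : H, T (h.cc v) ≠ 0 := by
  obtain ⟨ξ, hξ, ht⟩ := h.exists_tight x hnot
  have ht' : h.TH (Set.range fun k : ℤ => α (j y ^ k) ξ) := by
    refine Fr.TH.mono ht ?_
    rintro _ ⟨k, rfl⟩
    refine ⟨(m : ℤ) * k, ?_⟩
    simp only
    rw [_root_.zpow_mul, zpow_natCast, hxy]
  exact h.exists_T (h.part_twoJ hn hj hK y hy hnil ξ hξ ht')

/-- `t > 1`, abstract form. -/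
theorem main_gtJ {H : Type} [NormedAddCommGroup H] [InnerProductSpace ℂ H]
    [CompleteSpace H] {m : ℕ} {α : Γ →* (H →L[ℂ] H)} {σ : Fin (m + 1) → H} {L : Γ → (H →L[ℂ] H)}
    (h : Mod α σ L) (θ : LG Λ ≃⋆ₐ[ℂ] NN α) (hd : 1 < Mod.dm σ)
    (hΛ : ∀ s : Λ, s ≠ 1 → Set.Infinite {y : Λ | ∃ h, y = h * s * h⁻¹})
    (hn : 3 ≤ n) (hj : j.range.FiniteIndex) (hK : SepK j)
    (x : Γ) (l : ℕ) (y : Γ₁) (hxy : x ^ l = j y) (hy : y ≠ 1)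
    (hnil : IsNilpotent (((y : SpecialLinearGroup (Fin n) ℤ) : Matrix (Fin n) (Fin n) ℤ) - 1)) :
    Tendsto (fun N : ℕ => (∑ k ∈ Finset.range N,
      ⨆ s, ‖⟪bt θ s (σ 0), α (x ^ (k + 1)) (σ 0)⟫_ℂ‖) / N) atTop (𝓝 0) := by
  by_contra hnot
  obtain ⟨T, h1, h2, h3⟩ := (fr hΛ h θ).T_of_heightsJ hn hj hK x l y hxy hy hnil hnot
  have h4 := (fr hΛ h θ).le_one hΛ (trD hΛ h θ) h1 h2 h3
  linarith

/-- The case `t > 1` for all pairs of generators. -/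
theorem pairs_gtJ {m : ℕ} {H : Type} [NormedAddCommGroup H] [InnerProductSpace ℂ H]
    [CompleteSpace H] {α : Γ →* (H →L[ℂ] H)} {σ : Fin (m + 1) → H} {L : Γ → (H →L[ℂ] H)}
    (hm : Mod α σ L) (θ : LG Λ ≃⋆ₐ[ℂ] NN α) (hd : 1 < Mod.dm σ)
    (hΛ : ∀ s : Λ, s ≠ 1 → Set.Infinite {y : Λ | ∃ h, y = h * s * h⁻¹})
    (hn : 3 ≤ n) (hj : j.range.FiniteIndex) (hK : SepK j)
    (x : Γ) (l : ℕ) (y : Γ₁) (hxy : x ^ l = j y) (hy : y ≠ 1)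
    (hnil : IsNilpotent (((y : SpecialLinearGroup (Fin n) ℤ) : Matrix (Fin n) (Fin n) ℤ) - 1)) :
    Tendsto (fun N : ℕ => (∑ k ∈ Finset.range N, ⨆ p : Λ × Fin (m + 1) × Fin (m + 1),
      ‖⟪bt θ p.1 (σ p.2.2), α (x⁻¹ ^ (k + 1)) (σ p.2.1)⟫_ℂ‖) / N) atTop (𝓝 0) := by
  have hF := fr hΛ hm θ
  have h1 : Tendsto (fun N : ℕ => (∑ k ∈ Finset.range N,
      ⨆ s, ‖⟪bt θ s (σ 0), α (x⁻¹ ^ (k + 1)) (σ 0)⟫_ℂ‖) / N) atTop (𝓝 0) := by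
    refine main_gtJ hm θ hd hΛ hn hj hK x⁻¹ l y⁻¹ ?_ ?_ ?_
    · rw [inv_pow, hxy, map_inv]
    · exact inv_ne_one.mpr hy
    · exact nil_inv _ hnil
  have h2 : ∀ i l : Fin (m + 1), Tendsto (fun N : ℕ => (∑ k ∈ Finset.range N,
      ⨆ s, ‖⟪bt θ s (σ l), α (x⁻¹ ^ (k + 1)) (σ i)⟫_ℂ‖) / N) atTop (𝓝 0) := fun i l =>
    hF.van_all (fun k => x⁻¹ ^ (k + 1)) h1 _ _
  have hsum : Tendsto (fun N : ℕ => (∑ k ∈ Finset.range N, ∑ p : Fin (m + 1) × Fin (m + 1),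
      ⨆ s, ‖⟪bt θ s (σ p.2), α (x⁻¹ ^ (k + 1)) (σ p.1)⟫_ℂ‖) / N) atTop (𝓝 0) := by
    have e := tendsto_finsetSum (Finset.univ : Finset (Fin (m + 1) × Fin (m + 1)))
      fun p _ => h2 p.1 p.2
    rw [Finset.sum_const_zero] at e
    refine e.congr fun N => ?_
    rw [← Finset.sum_div, Finset.sum_comm]
  refine van_le (fun k => Real.iSup_nonneg fun s => norm_nonneg _) (fun k => ?_) hsum
  refine ciSup_le ?_
  rintro ⟨s, i, l⟩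
  refine (le_ciSup (hF.bdd (x⁻¹ ^ (k + 1)) (σ l) (σ i)) s).trans ?_
  exact Finset.single_le_sum (f := fun (p : Fin (m + 1) × Fin (m + 1)) => ⨆ s,
      ‖⟪bt θ s (σ p.2), α (x⁻¹ ^ (k + 1)) (σ p.1)⟫_ℂ‖)
    (fun p _ => Real.iSup_nonneg fun s => norm_nonneg _) (Finset.mem_univ (i, l))

/-- `t < 1`, abstract form. -/
theorem main_ltJ {H H' : Type} [NormedAddCommGroup H] [InnerProductSpace ℂ H] [CompleteSpace H]
    [NormedAddCommGroup H'] [InnerProductSpace ℂ H'] [CompleteSpace H']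
    {m : ℕ} {α : Λ →* (H →L[ℂ] H)} {σ : Fin (m + 1) → H} {L : Λ → (H →L[ℂ] H)}
    {R : Fin (m + 1) → (H →L[ℂ] H')} (hd : Dec R)
    (h : Mod α σ L) (hp : Par α σ) (θ : LG Γ ≃⋆ₐ[ℂ] NN α) (hdm : 1 < Mod.dm σ)
    (hicc : ∀ g : Γ, g ≠ 1 → Set.Infinite {y : Γ | ∃ h, y = h * g * h⁻¹})
    (hn : 3 ≤ n) (hj : j.range.FiniteIndex) (hK : SepK j)
    (x : Γ) (l : ℕ) (y : Γ₁) (hxy : x ^ l = j y) (hy : y ≠ 1)
    (hnil : IsNilpotent (((y : SpecialLinearGroup (Fin n) ℤ) : Matrix (Fin n) (Fin n) ℤ) - 1)) :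
    Tendsto (fun N : ℕ => (∑ k ∈ Finset.range N,
      ⨆ p : Λ × Fin (m + 1) × Fin (m + 1), ‖⟪α p.1 (σ p.2.1), bt θ (x ^ (k + 1)) (σ p.2.2)⟫_ℂ‖)
        / N) atTop (𝓝 0) := by
  set F1 := fr hicc h θ
  set F2 := frAmp hicc h θ hp hd
  have main : Tendsto (fun N : ℕ => (∑ k ∈ Finset.range N,
      ⨆ p, ‖⟪hd.be' α p (uu' R σ), hd.al' (bt θ) (x ^ (k + 1)) (uu' R σ)⟫_ℂ‖) / N)
        atTop (𝓝 0) := by
    by_contra hnot
    obtain ⟨T, h1, h2, h3⟩ := F2.T_of_heightsJ hn hj hK x l y hxy hy hnil hnot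
    obtain ⟨l, i, j, k, hne⟩ := exists_SS_ne hd F1 F2 h2 h3
    have h4 := F1.le_one' hicc (trD hicc h θ) hne (SS_beta hd F1 F2 h2 l i j k)
      (SS_alpha hd F1 F2 h1 l i j k)
    linarith
  have h1 := main.const_mul (Mod.dm σ)
  rw [mul_zero] at h1
  refine squeeze_zero (fun N => ?_) (fun N => ?_) h1
  · refine div_nonneg (Finset.sum_nonneg fun k _ => ?_) (Nat.cast_nonneg _)
    exact Real.iSup_nonneg fun s => norm_nonneg _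
  · rw [← mul_div_assoc, Finset.mul_sum]
    gcongr with k _
    exact height_le hd h θ F2 (x ^ (k + 1))

/-- Amplifications of `L(Γ)`. -/
theorem final_gtJ {m : ℕ} (hn : 3 ≤ n) (hj : Function.Injective j) (hj' : j.range.FiniteIndex)
    (hΓ : ∀ g : Γ, g ≠ 1 → Set.Infinite {y : Γ | ∃ h, y = h * g * h⁻¹})
    {q : Op (Γ × Fin (m + 1))} (hq : IsProj q) (ht : trM q ≠ 1) (θ : AmpIso Λ Γ q)
    (x : Γ) (l : ℕ) (y : Γ₁) (hxy : x ^ l = j y) (hy : y ≠ 1)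
    (hnil : IsNilpotent (((y : SpecialLinearGroup (Fin n) ℤ) : Matrix (Fin n) (Fin n) ℤ) - 1)) :
    Tendsto (fun N : ℕ => (∑ k ∈ Finset.range N, hgt₁ θ (x ^ (k + 1))) / N) atTop (𝓝 0) := by
  have h := cor_of_proj hq
  have hΛ := icc_of_iso hΓ h.mod (toAlgA h h.mod.adj θ)
  have h1 := pairs_gtJ h.mod (toAlgA h h.mod.adj θ) (one_lt_dm hq ht) hΛ hn hj'
    (sepK hn hj hj' hΓ) x l y hxy hy hnil
  refine h1.congr fun N => ?_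
  congr 1
  refine Finset.sum_congr rfl fun k _ => ?_
  rw [hgt₁]
  congr 1
  funext p
  rw [coef_eq h h.mod.adj, ← inv_pow]
  exact norm_inner_symm (𝕜 := ℂ) (E := rg q) _ _

/-- Amplifications of `L(Λ)`. -/
theorem final_ltJ {m : ℕ} (hn : 3 ≤ n) (hj : Function.Injective j) (hj' : j.range.FiniteIndex)
    (hΓ : ∀ g : Γ, g ≠ 1 → Set.Infinite {y : Γ | ∃ h, y = h * g * h⁻¹})
    {q : Op (Λ × Fin (m + 1))} (hq : IsProj q) (ht : trM q ≠ 1) (θ : AmpIso Γ Λ q)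
    (x : Γ) (l : ℕ) (y : Γ₁) (hxy : x ^ l = j y) (hy : y ≠ 1)
    (hnil : IsNilpotent (((y : SpecialLinearGroup (Fin n) ℤ) : Matrix (Fin n) (Fin n) ℤ) - 1)) :
    Tendsto (fun N : ℕ => (∑ k ∈ Finset.range N, hgt₂ θ (x ^ (k + 1))) / N) atTop (𝓝 0) := by
  have h := cor_of_proj hq
  have h1 := main_ltJ (dec_Rp (H := rg q) (m := m)) h.mod h.par (toAlgA h h.mod.adj θ)
    (one_lt_dm hq ht) hΓ hn hj' (sepK hn hj hj' hΓ) x l y hxy hy hnil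
  refine h1.congr fun N => ?_
  congr 1
  refine Finset.sum_congr rfl fun k _ => ?_
  rw [hgt₂, ← (Equiv.prodCongr (Equiv.inv Λ) (Equiv.refl (Fin (m + 1) × Fin (m + 1)))).iSup_comp
    (g := fun p : Λ × Fin (m + 1) × Fin (m + 1) => ‖coef θ (x ^ (k + 1)) p.1 p.2.1 p.2.2‖)]
  congr 1
  funext p
  obtain ⟨s, i, l⟩ := p
  simp only [Equiv.prodCongr_apply, Prod.map_apply, Equiv.inv_apply, Equiv.refl_apply]
  rw [coef_eq h h.mod.adj, inv_inv]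

end Vale.Agent.P092.R2.H289
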