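import Vale.Agent.P092.R3.H423.Part3
import Vale.Agent.P092.R2.H289.CMain

/-!
ICC groups commensurable with `SL_N(ℤ)`, `N ≥ 3`: an isomorphism onto a corner of matrices over
`L(Λ)` is canonical, or the heights vanish on average along every element with a nontrivial
unipotent power.
-/

set_option linter.all false

open scoped InnerProductSpace
open Filter Topology ContinuousLinearMap Matrix

namespace Vale.Agent.P092.R2.H289

open Vale.Agent.P092.H160 Vale.Agent.P092.H367 Vale.Agent.P092.H423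

section main

variable {n : ℕ} {Γ₁ : Subgroup (Matrix.SpecialLinearGroup (Fin n) ℤ)} [hfi : Γ₁.FiniteIndex]
  {Γ Λ : Type} [Group Γ] [Group Λ] {j : Γ₁ →* Γ} {m : ℕ}
  {p : Ell2 (Fin (m + 1) × Λ) →L[ℂ] Ell2 (Fin (m + 1) × Λ)}
  {α : Γ → (Ell2 (Fin (m + 1) × Λ) →L[ℂ] Ell2 (Fin (m + 1) × Λ))}

/-- Non-vanishing heights along a unipotent give a lower bound for the fourth power sums,
abstract form. -/
theorem lower_of_heightsJ' {H H' : Type} [NormedAddCommGroup H] [InnerProductSpace ℂ H]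
    [CompleteSpace H] [NormedAddCommGroup H'] [InnerProductSpace ℂ H'] [CompleteSpace H']
    {i : H →L[ℂ] Ell2 (Fin (m + 1) × Λ)} {R : Fin (m + 1) → (H →L[ℂ] H')}
    (hi : Inc p i) (hd : Dec R) (ha : AFrame p α) (hn : 3 ≤ n) (hj : j.range.FiniteIndex)
    (hK : SepK j) (x : Γ) (k : ℕ) (y : Γ₁) (hxy : x ^ k = j y) (hy : y ≠ 1)
    (hnil : IsNilpotent (((y : SpecialLinearGroup (Fin n) ℤ) : Matrix (Fin n) (Fin n) ℤ) - 1))
    (hnot : ¬ Tendsto (fun N : ℕ => (∑ i ∈ Finset.range N, hgA (α (x ^ (i + 1)))) / N)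
      atTop (𝓝 0)) : ∃ c : ℝ, 0 < c ∧ ∀ g, c ≤ f4 (α g) := by
  have hF := frA hi ha hd
  have hdm := hi.dm_pos ha
  have hnot' : ¬ Tendsto (fun N : ℕ => (∑ l ∈ Finset.range N,
      ⨆ q, ‖⟪hd.be' (hi.be ha) q (uu' R (Inc.sg i)),
        hd.al' (hi.al ha) (x ^ (l + 1)) (uu' R (Inc.sg i))⟫_ℂ‖) / N)
      atTop (𝓝 0) := by
    intro h
    apply hnot
    have h1 := h.const_mul (Mod.dm (Inc.sg i))
    rw [mul_zero] at h1
    refine squeeze_zero (fun N => ?_) (fun N => ?_) h1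
    · refine div_nonneg (Finset.sum_nonneg fun l _ => ?_) (Nat.cast_nonneg _)
      exact Real.iSup_nonneg fun s => norm_nonneg _
    · rw [← mul_div_assoc, Finset.mul_sum]
      gcongr with l _
      exact height_leA hi ha hd (x ^ (l + 1))
  obtain ⟨ξ, hξ, ht⟩ := hF.exists_tight x hnot'
  have ht' : hF.TH (Set.range fun l : ℤ => hd.al' (hi.al ha) (j y ^ l) ξ) := by
    refine Fr.TH.mono ht ?_
    rintro _ ⟨l, rfl⟩
    refine ⟨(k : ℤ) * l, ?_⟩
    simp only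
    rw [_root_.zpow_mul, zpow_natCast, hxy]
  have hT := hF.part_twoJ hn hj hK y hy hnil ξ hξ ht'
  obtain ⟨c, hc, hp⟩ := hF.p4c_of_tight hT
  obtain ⟨C, hC, hle⟩ := p4c_leA hi ha hd
  refine ⟨c / C, div_pos hc hC, fun g => ?_⟩
  rw [div_le_iff₀ hC, mul_comm]
  exact (hp g).trans (hle g)

/-- **Heights.** For an ICC group commensurable with `SL_n(ℤ)` and any amplified frame: either
there is a nonzero cubic intertwiner, or the heights vanish on average along every element with a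
nontrivial unipotent power. -/
theorem itw_or_heightsJ (ha : AFrame p α) (hn : 3 ≤ n) (hj : j.range.FiniteIndex)
    (hK : SepK j) :
    (∃ T, Itw3 α T ∧ T ≠ 0) ∨ ∀ (x : Γ) (k : ℕ) (y : Γ₁), x ^ k = j y → y ≠ 1 →
      IsNilpotent (((y : SpecialLinearGroup (Fin n) ℤ) : Matrix (Fin n) (Fin n) ℤ) - 1) →
      Tendsto (fun N : ℕ => (∑ i ∈ Finset.range N, hgA (α (x ^ (i + 1)))) / N)
        atTop (𝓝 0) := by
  by_contra hcon
  push Not at hcon
  obtain ⟨h1, x, k, y, hxy, hy, hnil, hnot⟩ := hcon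
  obtain ⟨c, hc, h2⟩ := lower_of_heightsJ' (inc_rgp ha.p_adj ha.p_idem)
    (dec_Rp (H := rgp p) (m := m)) ha hn hj hK x k y hxy hy hnil hnot
  obtain ⟨T, hT, hT0⟩ := itw_of_lower ha hc h2
  exact hT0 (h1 T hT)

end main

/-- The dichotomy for corners of matrices over `L(Λ)`. -/
theorem canon_or_heightsJ {N : ℕ} (hN : 3 ≤ N)
    (Γ₁ : Subgroup (Matrix.SpecialLinearGroup (Fin N) ℤ)) [Γ₁.FiniteIndex]
    {Γ : Type} [Group Γ] (hG : Mt.ICC Γ) (j : Γ₁ →* Γ) (hj : Function.Injective j)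
    (hj' : j.range.FiniteIndex) {Λ : Type} [Group Λ] (hL : Mt.ICC Λ)
    {n : ℕ} {p : Mt.Mat n Λ} (hp : Mt.IsProj p) (θ : Mt.AmpIso Γ Λ n p) :
    (Mt.Canon θ ∧ Mt.trM p = 1) ∨ ∀ (x : Γ) (k : ℕ) (y : Γ₁), x ^ k = j y → y ≠ 1 →
      IsNilpotent (((y : SpecialLinearGroup (Fin N) ℤ) : Matrix (Fin N) (Fin N) ℤ) - 1) →
      Mt.HV θ x := by
  have ha := aframe_of hG (isProj_opM hp) (ofMt θ)
  rcases itw_or_heightsJ ha hN hj' (sepK hN hj hj' hG) with ⟨T, hT, hT0⟩ | h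
  · left
    have hc := canonAmp_of_canW (ofMt θ) (canW_of_itw ha hG hL hT hT0)
    have ht := trM_of_canonAmp (ofMt θ) hc
    rw [trM_opM] at ht
    exact ⟨(canon_iff θ).mpr hc, ht⟩
  · right
    intro x k y hxy hy hnil
    refine (h x k y hxy hy hnil).congr fun M => ?_
    congr 1
    refine Finset.sum_congr rfl fun i _ => ?_
    rw [ofMt_apply]
    exact hgA_opM (θ.map_mem _ ((inL_iff _).mpr (lam_mem_LG _))).1

end Vale.Agent.P092.R2.H289
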