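import Vale.Agent.P092.R2.H289.AFSub

/-!
Tight subspaces for a group `Γ` with a homomorphism `j : Γ₁ → Γ` from a finite index subgroup `Γ₁`
of a group `G₀`.
-/

set_option linter.all false

open scoped InnerProductSpace
open Filter Topology ContinuousLinearMap Matrix

namespace Vale.Agent.P092.R2.H289
open Vale.Agent.P092.H160
open Vale.Agent.P092
open Vale.Agent.P092.H350 (Heis root root_mul root_zpow root_coe sl_ext)

section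

variable {G₀ : Type} [Group G₀] {Γ₁ : Subgroup G₀} {Γ : Type} [Group Γ] {j : Γ₁ →* Γ}

/-- Homomorphic image of a Heisenberg relation. -/
theorem heis_map {A B : Type} [Group A] [Group B] (j : A →* B) {x y r : A} (h : Heis x y r) :
    Heis (j x) (j y) (j r) where
  eq := by
    have := congrArg j h.eq
    simpa only [map_mul] using this
  cx := h.cx.map j
  cy := h.cy.map j

/-- A nonzero power of `Z` lies in `Γ₁` and its image commutes with `g`. -/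
def VC (j : Γ₁ →* Γ) (g : Γ) (Z : G₀) : Prop :=
  ∃ (m : ℤ) (hm : Z ^ m ∈ Γ₁), m ≠ 0 ∧ Commute (j ⟨Z ^ m, hm⟩) g

theorem VC.pow {g : Γ} {Z : G₀} {m : ℤ} (hm : Z ^ m ∈ Γ₁) (h : Commute (j ⟨Z ^ m, hm⟩) g) (k : ℤ) :
    ∃ h' : Z ^ (m * k) ∈ Γ₁, Commute (j ⟨Z ^ (m * k), h'⟩) g := by
  have h1 : Z ^ (m * k) ∈ Γ₁ := by
    rw [_root_.zpow_mul]
    exact Γ₁.zpow_mem hm k
  refine ⟨h1, ?_⟩
  have e : (⟨Z ^ (m * k), h1⟩ : Γ₁) = ⟨Z ^ m, hm⟩ ^ k := by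
    apply Subtype.ext
    push_cast
    exact _root_.zpow_mul Z m k
  rw [e, map_zpow]
  exact h.zpow_left k

/-- Conjugation. -/
theorem VC.conj {g : Γ} {Z : G₀} (y : Γ₁) (h : VC j ((j y)⁻¹ * g * j y) Z) :
    VC j g ((y : G₀) * Z * (y : G₀)⁻¹) := by
  obtain ⟨m, hm, hm0, hc⟩ := h
  have e : ((y : G₀) * Z * (y : G₀)⁻¹) ^ m = y * Z ^ m * (y : G₀)⁻¹ := conj_zpow
  have hmem : ((y : G₀) * Z * (y : G₀)⁻¹) ^ m ∈ Γ₁ := by
    rw [e]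
    exact Γ₁.mul_mem (Γ₁.mul_mem y.2 hm) (Γ₁.inv_mem y.2)
  refine ⟨m, hmem, hm0, ?_⟩
  have e2 : (⟨((y : G₀) * Z * (y : G₀)⁻¹) ^ m, hmem⟩ : Γ₁) = y * ⟨Z ^ m, hm⟩ * y⁻¹ :=
    Subtype.ext e
  rw [e2, map_mul, map_mul, map_inv]
  have h1 := hc.eq
  change j y * j ⟨Z ^ m, hm⟩ * (j y)⁻¹ * g = g * (j y * j ⟨Z ^ m, hm⟩ * (j y)⁻¹)
  calc j y * j ⟨Z ^ m, hm⟩ * (j y)⁻¹ * g
      = j y * (j ⟨Z ^ m, hm⟩ * ((j y)⁻¹ * g * j y)) * (j y)⁻¹ := by group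
    _ = j y * (((j y)⁻¹ * g * j y) * j ⟨Z ^ m, hm⟩) * (j y)⁻¹ := by rw [h1]
    _ = g * (j y * j ⟨Z ^ m, hm⟩ * (j y)⁻¹) := by group

end

section

variable {G₀ : Type} [Group G₀] {Γ₁ : Subgroup G₀} [hfi : Γ₁.FiniteIndex]
  {Γ Λ H : Type} [Group Γ] [Group Λ] [NormedAddCommGroup H] [InnerProductSpace ℂ H]
  [CompleteSpace H] {j : Γ₁ →* Γ}
  {α : Γ →* (H →L[ℂ] H)} {β : Λ →* (H →L[ℂ] H)} {u : H} {t : ℝ}

namespace Fr

/-- The tight subspace of `X ∈ G₀`. -/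
noncomputable def JT (hα : Fr α β u t) (j : Γ₁ →* Γ) (X : G₀) : Submodule ℂ H :=
  hα.Ht (j ⟨X ^ (H350.exists_pow_mem Γ₁ X).choose, (H350.exists_pow_mem Γ₁ X).choose_spec.2⟩)

theorem JT_eq (hα : Fr α β u t) {X : G₀} {x : Γ₁} {m l : ℤ} (hm : m ≠ 0) (hl : l ≠ 0)
    (h : (x : G₀) ^ m = X ^ l) : hα.Ht (j x) = hα.JT j X := by
  obtain ⟨he, hmem⟩ := (H350.exists_pow_mem Γ₁ X).choose_spec
  rw [JT]
  set e := (H350.exists_pow_mem Γ₁ X).choose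
  rw [← hα.Ht_pow (j x) (mul_ne_zero hm he), ← hα.Ht_pow (j ⟨X ^ e, hmem⟩) hl, ← map_zpow,
    ← map_zpow]
  congr 2
  ext
  push_cast
  rw [_root_.zpow_mul, h, ← _root_.zpow_mul, ← _root_.zpow_mul, mul_comm]

theorem JT_coe (hα : Fr α β u t) (x : Γ₁) : hα.JT j (x : G₀) = hα.Ht (j x) :=
  (hα.JT_eq (m := 1) (l := 1) one_ne_zero one_ne_zero rfl).symm

theorem JT_zpow (hα : Fr α β u t) (X : G₀) {m : ℤ} (hm : m ≠ 0) :
    hα.JT j (X ^ m) = hα.JT j X := by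
  obtain ⟨a, ha, hX⟩ := H350.exists_pow_mem Γ₁ X
  have h1 : hα.Ht (j ⟨X ^ a, hX⟩) = hα.JT j X :=
    hα.JT_eq (m := 1) (l := a) one_ne_zero ha (by simp)
  have h2 : hα.Ht (j ⟨X ^ a, hX⟩) = hα.JT j (X ^ m) := hα.JT_eq hm ha (by
    simp only
    rw [← _root_.zpow_mul, ← _root_.zpow_mul, mul_comm])
  rw [← h1, ← h2]

theorem JT_ne_bot (hα : Fr α β u t) {X Y R : G₀} (h : Heis X Y R) (hX : hα.JT j X ≠ ⊥) :
    hα.JT j R ≠ ⊥ := by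
  obtain ⟨a, b, x, y, r, ha, hb, ex, ey, er, hH⟩ := H350.GoodRep.heis_lift (Γ := Γ₁) h
  have h1 : hα.Ht (j x) = hα.JT j X := hα.JT_eq (m := 1) one_ne_zero ha (by rw [zpow_one, ex])
  have h2 : hα.Ht (j r) = hα.JT j R := hα.JT_eq (m := 1) one_ne_zero (mul_ne_zero ha hb)
    (by rw [zpow_one, er])
  rw [← h1] at hX
  rw [← h2]
  exact hα.step_ne_bot (heis_map j hH) hX

theorem JT_top (hα : Fr α β u t) {X Y R : G₀} (h : Heis X Y R) (hX : hα.JT j X = ⊤) :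
    hα.JT j R = ⊤ := by
  obtain ⟨a, b, x, y, r, ha, hb, ex, ey, er, hH⟩ := H350.GoodRep.heis_lift (Γ := Γ₁) h
  have h1 : hα.Ht (j x) = hα.JT j X := hα.JT_eq (m := 1) one_ne_zero ha (by rw [zpow_one, ex])
  have h2 : hα.Ht (j r) = hα.JT j R := hα.JT_eq (m := 1) one_ne_zero (mul_ne_zero ha hb)
    (by rw [zpow_one, er])
  rw [← h1] at hX
  rw [← h2]
  exact hα.step_top (heis_map j hH) hX

/-- If `c (j x) g ≠ 0` and `Z ∈ G₀` commutes with `x`, then `Z` virtually commutes with `g`. -/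
theorem vc_of_c (hα : Fr α β u t) {x : Γ₁} {g : Γ} {Z : G₀} (hc : Commute Z (x : G₀))
    (hg : hα.c (j x) g ≠ 0) : VC j g Z := by
  obtain ⟨a, ha, hH⟩ := H350.exists_pow_mem Γ₁ Z
  have hc1 : Commute (⟨Z ^ a, hH⟩ : Γ₁) x := Subtype.ext (hc.zpow_left a).eq
  obtain ⟨m, hm, h1⟩ := hα.exists_pow_comm (hc1.map j) hg
  rw [← map_pow] at h1
  have hmem : Z ^ (a * m) ∈ Γ₁ := by
    rw [_root_.zpow_mul]
    exact Γ₁.zpow_mem hH _
  refine ⟨a * m, hmem, mul_ne_zero ha (by exact_mod_cast hm), ?_⟩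
  have e : (⟨Z ^ (a * m), hmem⟩ : Γ₁) = ⟨Z ^ a, hH⟩ ^ m := by
    apply Subtype.ext
    push_cast
    rw [_root_.zpow_mul, zpow_natCast]
  rw [e]
  exact h1

end Fr

end

/-! ### Root elements -/

section

variable {n : ℕ} {Γ₁ : Subgroup (SpecialLinearGroup (Fin n) ℤ)} {Γ : Type} [Group Γ]

/-- `g` commutes virtually with the root elements with functional `φ`. -/
def KG (j : Γ₁ →* Γ) (g : Γ) (φ : Fin n → ℤ) : Prop :=
  ∀ w (h : φ ⬝ᵥ w = 0), VC j g (root w φ h)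

/-- Elements which commute virtually with two large root subgroups are trivial. -/
def SepK (j : Γ₁ →* Γ) : Prop :=
  ∀ (g : Γ) (a b : Fin n → ℤ), H350.LI a b → KG j g a → KG j g b → g = 1

variable {j : Γ₁ →* Γ}

theorem root_conj (y y' : Matrix.SpecialLinearGroup (Fin n) ℤ) (hy : y * y' = 1)
    (w φ : Fin n → ℤ) (h : (φ ᵥ* (y' : Matrix (Fin n) (Fin n) ℤ)) ⬝ᵥ w = 0)
    (h' : φ ⬝ᵥ ((y' : Matrix (Fin n) (Fin n) ℤ) *ᵥ w) = 0) :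
    root w (φ ᵥ* (y' : Matrix (Fin n) (Fin n) ℤ)) h =
      y * root ((y' : Matrix (Fin n) (Fin n) ℤ) *ᵥ w) φ h' * y' := by
  have h1 : (y : Matrix (Fin n) (Fin n) ℤ) * (y' : Matrix (Fin n) (Fin n) ℤ) = 1 :=
    congrArg Subtype.val hy
  apply sl_ext
  simp only [Matrix.SpecialLinearGroup.coe_mul, root_coe]
  rw [mul_add, mul_one, add_mul, h1, mul_vecMulVec, mulVec_mulVec, h1, one_mulVec, vecMulVec_mul]

theorem KG.conj {g : Γ} {φ : Fin n → ℤ} (y : Γ₁) (h : KG j ((j y)⁻¹ * g * j y) φ) :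
    KG j g (φ ᵥ* (((y⁻¹ : Γ₁) : Matrix.SpecialLinearGroup (Fin n) ℤ) :
      Matrix (Fin n) (Fin n) ℤ)) := by
  intro w hw
  have hw' : φ ⬝ᵥ ((((y⁻¹ : Γ₁) : Matrix.SpecialLinearGroup (Fin n) ℤ) :
      Matrix (Fin n) (Fin n) ℤ) *ᵥ w) = 0 := by
    rw [dotProduct_mulVec]
    exact hw
  have hy : (y : Matrix.SpecialLinearGroup (Fin n) ℤ) *
      ((y⁻¹ : Γ₁) : Matrix.SpecialLinearGroup (Fin n) ℤ) = 1 := by
    rw [← Subgroup.coe_mul, mul_inv_cancel, Subgroup.coe_one]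
  rw [root_conj _ _ hy w φ hw hw']
  exact (h _ hw').conj y

end

end Vale.Agent.P092.R2.H289
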