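import Vale.Agent.P092.R2.H289.AFRoots

/-!
Linear algebra for `CSep`: a matrix which is compatible with two families of root elements.
-/

set_option linter.all false

namespace Vale.Agent.P092.R2.H289
open Matrix Vale.Agent.P092.H350

variable {n : ℕ}

/-- Integral matrices of determinant one which are rational scalars. -/
theorem pm_one_of_smul (hn : n ≠ 0) {g : Matrix (Fin n) (Fin n) ℤ} (hg : g.det = 1) {B B' : ℤ}
    (hB : B ≠ 0) (hmat : B • g = B' • (1 : Matrix (Fin n) (Fin n) ℤ)) : g = 1 ∨ g = -1 := by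
  have hdet : B ^ n = B' ^ n := by
    have := congrArg Matrix.det hmat
    rw [det_smul, det_smul, hg, det_one, Fintype.card_fin] at this
    linarith
  have habs : |B| = |B'| := by
    have h3 : |B| ^ n = |B'| ^ n := by rw [← abs_pow, ← abs_pow, hdet]
    exact (pow_left_inj₀ (abs_nonneg _) (abs_nonneg _) hn).mp h3
  rcases abs_eq_abs.mp habs with h | h
  · left
    ext i l
    have := congrFun (congrFun hmat i) l
    rw [← h] at this
    simp only [Matrix.smul_apply, smul_eq_mul] at this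
    exact mul_left_cancel₀ hB this
  · right
    ext i l
    have := congrFun (congrFun hmat i) l
    have h' : B' = -B := by linarith
    rw [h'] at this
    simp only [Matrix.smul_apply, smul_eq_mul] at this
    apply mul_left_cancel₀ hB
    rw [this, Matrix.neg_apply]; ring

/-- The key computation. -/
theorem key_lin (hn : n ≠ 0) {Y Yi D D' : Matrix (Fin n) (Fin n) ℤ} {v w z φ ψ χ : Fin n → ℤ}
    {k m N : ℤ} (hY1 : Y * Yi = 1) (hY2 : Yi * Y = 1)
    (hYD : Y = (1 + vecMulVec (k • v) χ) * D) (hKD : K D ψ) (hdet : D.det = 1)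
    (hcom : Y * (1 + vecMulVec (m • w) φ) * Yi * (1 - vecMulVec (m • w) φ) =
      (1 + vecMulVec (N • w) χ) * D') (hKD' : K D' φ)
    (hχv : χ ⬝ᵥ v = 0) (hψv : ψ ⬝ᵥ v = 0) (hv : v ≠ 0) (hφw : φ ⬝ᵥ w = 0) (hχw : χ ⬝ᵥ w = 0)
    (hψw : ψ ⬝ᵥ w ≠ 0) (hφz : φ ⬝ᵥ z = 0) (hχz : χ ⬝ᵥ z ≠ 0) (hm : m ≠ 0) (hN : N ≠ 0)
    (hφ0 : φ ≠ 0) : D = 1 ∨ D = -1 := by
  have hψ0 : ψ ≠ 0 := by
    rintro rfl
    exact hψw (zero_dotProduct _)
  have hw0 : w ≠ 0 := by
    rintro rfl
    exact hψw (dotProduct_zero _)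
  obtain ⟨i, hi⟩ := Function.ne_iff.mp hψ0
  obtain ⟨i', hi'⟩ := Function.ne_iff.mp hφ0
  simp only [Pi.zero_apply] at hi hi'
  set q := ψ i with hq
  set c := (ψ ᵥ* D) i with hc
  set p := φ i' with hp
  set d := (φ ᵥ* D') i' with hd
  have hE : ∀ x, ψ ⬝ᵥ x = 0 → q • (D *ᵥ x) = c • x := fun x hx => eig_of_comm i (hKD x hx)
  have hE' : ∀ x, φ ⬝ᵥ x = 0 → p • (D' *ᵥ x) = d • x := fun x hx => eig_of_comm i' (hKD' x hx)
  -- the functional
  have hψD : q • (ψ ᵥ* D) = c • ψ := by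
    obtain ⟨l, hl⟩ := Function.ne_iff.mp hv
    simp only [Pi.zero_apply] at hl
    have h1 := hKD v hψv
    rw [mul_vecMulVec, vecMulVec_mul] at h1
    have h2 := congrFun (hE v hψv) l
    simp only [Pi.smul_apply, smul_eq_mul] at h2
    ext r
    have h3 := congrFun (congrFun h1 l) r
    rw [vecMulVec_apply, vecMulVec_apply] at h3
    simp only [Pi.smul_apply, smul_eq_mul]
    apply mul_left_cancel₀ hl
    linear_combination (-q) * h3 + ψ r * h2
  have hc0 : c ≠ 0 := by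
    intro h0
    rw [h0, zero_smul, smul_eq_zero] at hψD
    have h1 := hψD.resolve_left hi
    exact hψ0 (eq_zero_of_vecMul_eq_zero (by rw [hdet]; exact one_ne_zero) h1)
  -- a and b
  set a : Fin n → ℤ := Y *ᵥ w with ha
  set b : Fin n → ℤ := φ ᵥ* Yi with hb
  have hψR : ψ ᵥ* (1 + vecMulVec (k • v) χ) = ψ := by
    rw [vecMul_add, vecMul_one, vecMul_vecMulVec, dotProduct_smul, hψv, smul_zero, zero_smul,
      add_zero]
  have hψa : q * (ψ ⬝ᵥ a) = c * (ψ ⬝ᵥ w) := by
    have h1 : ψ ⬝ᵥ a = (ψ ᵥ* D) ⬝ᵥ w := by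
      rw [ha, hYD, dotProduct_mulVec, ← vecMul_vecMul, hψR]
    rw [h1, ← smul_eq_mul, ← smul_dotProduct, hψD, smul_dotProduct, smul_eq_mul]
  have hba : b ⬝ᵥ a = 0 := by
    rw [hb, ha, ← dotProduct_mulVec, mulVec_mulVec, hY2, one_mulVec, hφw]
  -- the relation on the kernel of φ
  have star : ∀ x, φ ⬝ᵥ x = 0 →
      p • (x + (m * (b ⬝ᵥ x)) • a) = d • (x + (N * (χ ⬝ᵥ x)) • w) := by
    intro x hx
    have h1 := congrArg (fun M : Matrix (Fin n) (Fin n) ℤ => M *ᵥ x) hcom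
    have e1 : (1 - vecMulVec (m • w) φ) *ᵥ x = x := by
      rw [sub_mulVec, one_mulVec, vecMulVec_mulVec, hx]
      simp
    have e2 : (1 + vecMulVec (m • w) φ) *ᵥ (Yi *ᵥ x) = Yi *ᵥ x + (m * (b ⬝ᵥ x)) • w := by
      rw [add_mulVec, one_mulVec, vecMulVec_mulVec, dotProduct_mulVec, ← hb]
      ext l
      simp
      ring
    have e3 : (Y * (1 + vecMulVec (m • w) φ) * Yi * (1 - vecMulVec (m • w) φ)) *ᵥ x =
        x + (m * (b ⬝ᵥ x)) • a := by
      rw [← mulVec_mulVec, e1, ← mulVec_mulVec, ← mulVec_mulVec, e2, mulVec_add, mulVec_mulVec,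
        hY1, one_mulVec, mulVec_smul]
    rw [e3] at h1
    rw [h1, ← mulVec_mulVec, ← mulVec_smul, hE' x hx, mulVec_smul, add_mulVec, one_mulVec,
      vecMulVec_mulVec]
    congr 2
    ext l
    simp
    ring
  -- at w
  have s1 := star w hφw
  rw [hχw, mul_zero, zero_smul, add_zero] at s1
  have hbw : b ⬝ᵥ w = 0 := by
    by_contra hne
    have t1 := congrArg (fun y : Fin n → ℤ => b ⬝ᵥ y) s1
    simp only [dotProduct_smul, dotProduct_add, hba, smul_eq_mul, mul_zero, add_zero] at t1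
    have hpd : p = d := mul_right_cancel₀ hne t1
    have t2 := congrArg (fun y : Fin n → ℤ => ψ ⬝ᵥ y) s1
    simp only [dotProduct_smul, dotProduct_add, smul_eq_mul] at t2
    rw [← hpd] at t2
    have t3 : p * (m * (b ⬝ᵥ w)) * (c * (ψ ⬝ᵥ w)) = 0 := by
      linear_combination q * t2 - p * (m * (b ⬝ᵥ w)) * hψa
    exact (mul_ne_zero (mul_ne_zero hi' (mul_ne_zero hm hne)) (mul_ne_zero hc0 hψw)) t3
  have hpd : p = d := by
    rw [hbw, mul_zero, zero_smul, add_zero] at s1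
    obtain ⟨l, hl⟩ := Function.ne_iff.mp hw0
    simp only [Pi.zero_apply] at hl
    have := congrFun s1 l
    simp only [Pi.smul_apply, smul_eq_mul] at this
    exact mul_right_cancel₀ hl this
  -- at z
  have s2 := star z hφz
  rw [← hpd] at s2
  have s3 : (m * (b ⬝ᵥ z)) • a = (N * (χ ⬝ᵥ z)) • w := by
    have := smul_right_injective (Fin n → ℤ) hi' s2
    exact add_left_cancel this
  have hr : N * (χ ⬝ᵥ z) ≠ 0 := mul_ne_zero hN hχz
  have hs : (m * (b ⬝ᵥ z)) * c = q * (N * (χ ⬝ᵥ z)) := by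
    have t2 := congrArg (fun y : Fin n → ℤ => ψ ⬝ᵥ y) s3
    simp only [dotProduct_smul, smul_eq_mul] at t2
    apply mul_right_cancel₀ hψw
    linear_combination q * t2 - (m * (b ⬝ᵥ z)) * hψa
  have hs0 : m * (b ⬝ᵥ z) ≠ 0 := by
    intro h0
    rw [h0, zero_mul] at hs
    exact mul_ne_zero hi hr hs.symm
  have hqa : q • a = c • w := by
    ext l
    have t := congrFun s3 l
    simp only [Pi.smul_apply, smul_eq_mul] at t ⊢
    apply mul_left_cancel₀ hs0
    linear_combination q * t - w l * hs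
  -- D on w
  have hDa : D *ᵥ w = (1 - vecMulVec (k • v) χ) *ᵥ a := by
    rw [ha, hYD, mulVec_mulVec, ← Matrix.mul_assoc]
    have e : (1 - vecMulVec (k • v) χ) * (1 + vecMulVec (k • v) χ) = 1 := by
      rw [sub_mul, mul_add, mul_add, vecMulVec_mul_vecMulVec, dotProduct_smul, hχv]
      simp
    rw [e, Matrix.one_mul]
  have hDw : q • (D *ᵥ w) = c • w := by
    rw [hDa, ← mulVec_smul, hqa, mulVec_smul, sub_mulVec, one_mulVec, vecMulVec_mulVec, hχw]
    simp
  have hall : ∀ x, q • (D *ᵥ x) = c • x := by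
    intro x
    have h1 : ψ ⬝ᵥ ((ψ ⬝ᵥ w) • x - (ψ ⬝ᵥ x) • w) = 0 := by
      rw [dotProduct_sub, dotProduct_smul, dotProduct_smul, smul_eq_mul, smul_eq_mul]
      ring
    have h2 := hE _ h1
    ext l
    have h3 := congrFun h2 l
    have h4 := congrFun hDw l
    simp only [mulVec_sub, mulVec_smul, Pi.smul_apply, Pi.sub_apply, smul_eq_mul] at h3 h4 ⊢
    apply mul_left_cancel₀ hψw
    linear_combination h3 + (ψ ⬝ᵥ x) * h4
  refine pm_one_of_smul hn hdet hi (B' := c) ?_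
  ext r l
  have := congrFun (hall (Pi.single l 1)) r
  simp only [mulVec_single, Pi.smul_apply, smul_eq_mul, col_apply, MulOpposite.op_one,
    one_smul] at this
  simp only [Matrix.smul_apply, smul_eq_mul, Matrix.one_apply]
  rw [this, Pi.single_apply]

end Vale.Agent.P092.R2.H289
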