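import Vale.Agent.P092.R2.H289.CRoots
import Vale.Agent.P092.R2.H289.AFTwo

/-!
Part (II) for groups commensurable with `SL_n(ℤ)`.
-/

set_option linter.all false

open scoped InnerProductSpace
open Filter Topology ContinuousLinearMap

namespace Vale.Agent.P092.R2.H289
open Matrix Vale.Agent.P092.H160
open Vale.Agent.P092
open Vale.Agent.P092.H350

variable {n : ℕ}

section

variable {Γ₁ : Subgroup (Matrix.SpecialLinearGroup (Fin n) ℤ)} [hfi : Γ₁.FiniteIndex]
  {Γ Λ H : Type} [Group Γ] [Group Λ] [NormedAddCommGroup H] [InnerProductSpace ℂ H]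
  [CompleteSpace H] {j : Γ₁ →* Γ}
  {α : Γ →* (H →L[ℂ] H)} {β : Λ →* (H →L[ℂ] H)} {u : H} {t : ℝ}

namespace Fr

/-- From a nontrivial unipotent element to a root element. -/
theorem exists_rootJ (hα : Fr α β u t) {x : Matrix.SpecialLinearGroup (Fin n) ℤ}
    (hx1 : (x : Matrix (Fin n) (Fin n) ℤ) ≠ 1)
    (hu : IsNilpotent ((x : Matrix (Fin n) (Fin n) ℤ) - 1)) (hHT : hα.JT j x ≠ ⊥) :
    ∃ (v φ : Fin n → ℤ) (h : φ ⬝ᵥ v = 0), v ≠ 0 ∧ φ ≠ 0 ∧ hα.JT j (root v φ h) ≠ ⊥ := by
  set N : Matrix (Fin n) (Fin n) ℤ := (x : Matrix (Fin n) (Fin n) ℤ) - 1 with hN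
  have hxN : (x : Matrix (Fin n) (Fin n) ℤ) = 1 + N := by rw [hN]; abel
  have hN0 : N ≠ 0 := by
    intro h
    rw [h, add_zero] at hxN
    exact hx1 hxN
  -- the general step
  have key : ∀ (v φ : Fin n → ℤ), φ ᵥ* N = 0 → φ ⬝ᵥ v = 0 → N *ᵥ (N *ᵥ v) = 0 → N *ᵥ v ≠ 0 →
      φ ≠ 0 → ∃ (v φ : Fin n → ℤ) (h : φ ⬝ᵥ v = 0), v ≠ 0 ∧ φ ≠ 0 ∧ hα.JT j (root v φ h) ≠ ⊥ := by
    intro v φ h1 h2 h3 h4 h5
    have e1 : (x : Matrix (Fin n) (Fin n) ℤ) *ᵥ v - v = N *ᵥ v := by
      rw [hxN, add_mulVec, one_mulVec]; abel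
    have hH := heis_left x v φ (by rw [hxN, vecMul_add, vecMul_one, h1, add_zero]) h2
      (by rw [e1, hxN, add_mulVec, one_mulVec, h3, add_zero])
    refine ⟨_, φ, _, ?_, h5, hα.JT_ne_bot hH hHT⟩
    rw [e1]; exact h4
  by_cases hNN : N * N = 0
  · -- square zero
    by_cases hLI : ∃ i k, LI (N i) (N k)
    · obtain ⟨i, k, hLI⟩ := hLI
      obtain ⟨v, hv1, hv2⟩ := exists_sep hLI
      refine key v (N i) ?_ hv1 ?_ ?_ (root_ne_smul hLI)
      · ext j
        have := congrFun (congrFun hNN i) j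
        rw [Matrix.mul_apply] at this
        simpa [vecMul, dotProduct] using this
      · rw [mulVec_mulVec, hNN, zero_mulVec]
      · intro h
        exact hv2 (congrFun h k)
    · push Not at hLI
      obtain ⟨i, j, hij⟩ : ∃ i j, N i j ≠ 0 := by
        by_contra hcon
        push Not at hcon
        exact hN0 (by ext i j; exact hcon i j)
      have hrank : N i j • N = vecMulVec (fun k => N k j) (N i) := by
        ext k l
        have := hLI k i
        simp only [LI, not_exists, not_not] at this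
        have h1 := this l j
        rw [vecMulVec_apply, Matrix.smul_apply, smul_eq_mul]
        linear_combination h1
      have hdot : N i ⬝ᵥ (fun k => N k j) = 0 := by
        have := congrFun (congrFun hNN i) j
        rw [Matrix.mul_apply] at this
        exact this
      refine ⟨fun k => N k j, N i, hdot, ?_, ?_, ?_⟩
      · intro h; exact hij (congrFun h i)
      · intro h; exact hij (congrFun h j)
      · have e : x ^ (N i j) = root (fun k => N k j) (N i) hdot := by
          apply sl_ext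
          rw [zpow_sq_zero hxN hNN, hrank, root_coe]
        rw [← e, hα.JT_zpow x hij]
        exact hHT
  · -- nilpotency class at least three
    have : Nontrivial (Matrix (Fin n) (Fin n) ℤ) := ⟨⟨N, 0, hN0⟩⟩
    have hd0 := pow_nilpotencyClass hu
    have hd1 := pow_pred_nilpotencyClass hu
    set d := nilpotencyClass N with hd
    have hd3 : 3 ≤ d := by
      by_contra hlt
      apply hNN
      rw [← pow_two]
      exact pow_eq_zero_of_le (by omega) hd0
    obtain ⟨i, j, hij⟩ : ∃ i j, (N ^ (d - 1)) i j ≠ 0 := by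
      by_contra hcon
      push Not at hcon
      exact hd1 (by ext i j; exact hcon i j)
    have e2 : N * N ^ (d - 2) = N ^ (d - 1) := by
      rw [← pow_succ']; congr 1; omega
    have e3 : N * N ^ (d - 1) = 0 := by
      rw [← pow_succ', Nat.sub_add_cancel (by omega), hd0]
    have e3' : N ^ (d - 1) * N = 0 := by
      rw [← pow_succ, Nat.sub_add_cancel (by omega), hd0]
    have e4 : N ^ (d - 1) * N ^ (d - 2) = 0 := by
      rw [← pow_add]
      exact pow_eq_zero_of_le (by omega) hd0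
    have hcol : N *ᵥ (fun k => (N ^ (d - 2)) k j) = fun k => (N ^ (d - 1)) k j := by
      rw [← e2]; ext k; rw [Matrix.mul_apply]; rfl
    refine key (fun k => (N ^ (d - 2)) k j) ((N ^ (d - 1)) i) ?_ ?_ ?_ ?_ ?_
    · ext l
      have := congrFun (congrFun e3' i) l
      rw [Matrix.mul_apply] at this
      exact this
    · have := congrFun (congrFun e4 i) j
      rw [Matrix.mul_apply] at this
      exact this
    · rw [hcol]
      ext k
      have := congrFun (congrFun e3 k) j
      rw [Matrix.mul_apply] at this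
      exact this
    · rw [hcol]
      intro h; exact hij (congrFun h i)
    · intro h; exact hij (congrFun h j)

/-- The finite index step: bounded products of transvections are products of a tight family and of
a finite set. -/
theorem tight_productsJ (hα : Fr α β u t) (hn : 3 ≤ n)
    (htop : ∀ (v φ : Fin n → ℤ) (h : φ ⬝ᵥ v = 0), v ≠ 0 → φ ≠ 0 → hα.JT j (root v φ h) = ⊤)
    {m : ℕ} (hm0 : 0 < m) (hm : ∀ X : Matrix.SpecialLinearGroup (Fin n) ℤ, X ^ m ∈ Γ₁) (L : ℕ) :
    ∃ (T : Set Γ₁) (F : Set (Matrix.SpecialLinearGroup (Fin n) ℤ)), F.Finite ∧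
      hα.TH ((fun g : Γ₁ => α (j g) u) '' T) ∧ 1 ∈ T ∧ 1 ∈ F ∧
      ∀ l : List (TransvectionStruct (Fin n) ℤ), l.length ≤ L →
        ∃ t ∈ T, ∃ f ∈ F, (l.map H350.GoodRep.tv).prod = (t : Matrix.SpecialLinearGroup (Fin n) ℤ) * f := by
  induction L with
  | zero =>
    refine ⟨{1}, {1}, Set.finite_singleton _, ?_, rfl, rfl, ?_⟩
    · rw [Set.image_singleton]; exact hα.th_singleton _
    · intro l hl
      have : l = [] := List.length_eq_zero_iff.mp (by omega)
      subst this
      exact ⟨1, rfl, 1, rfl, by simp⟩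
  | succ L ih =>
    obtain ⟨T, F, hF, hT, h1T, h1F, hTF⟩ := ih
    -- the elementary elements
    let E : Fin n → Fin n → Matrix.SpecialLinearGroup (Fin n) ℤ := fun i k =>
      if h : i = k then 1 else root (Pi.single i 1) (Pi.single k 1) (by
        rw [single_dotProduct, Pi.single_eq_of_ne (Ne.symm h)]; simp)
    let I := F × Fin n × Fin n
    have : Finite F := hF
    let r : I → Γ₁ := fun p =>
      ⟨(p.1 : Matrix.SpecialLinearGroup (Fin n) ℤ) * E p.2.1 p.2.2 ^ m *
        (p.1 : Matrix.SpecialLinearGroup (Fin n) ℤ)⁻¹, by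
        rw [← conj_pow]; exact hm _⟩
    have hr : ∀ p, hα.Ht (j (r p)) = ⊤ := by
      rintro ⟨f, i, k⟩
      by_cases hij : i = k
      · have : r (f, i, k) = 1 := by
          apply Subtype.ext
          show _ * E i k ^ m * _ = 1
          simp [E, hij]
        rw [this, map_one, eq_top_iff]
        intro ξ _
        refine (hα.th_singleton ξ).mono ?_
        rintro _ ⟨k, rfl⟩
        simp
      · have e : E i k = root (Pi.single i 1) (Pi.single k 1) (by
            rw [single_dotProduct, Pi.single_eq_of_ne (Ne.symm hij)]; simp) := by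
          simp [E, hij]
        obtain ⟨w, χ, h', hw, hχ, hc⟩ := H350.GoodRep.conj_root (f : Matrix.SpecialLinearGroup (Fin n) ℤ)
          (Pi.single i 1) (Pi.single k 1) (by
            rw [single_dotProduct, Pi.single_eq_of_ne (Ne.symm hij)]; simp)
        have hw0 : w ≠ 0 := hw (by simp)
        have hχ0 : χ ≠ 0 := hχ (by simp)
        rw [← htop w χ h' hw0 hχ0]
        refine hα.JT_eq (m := 1) (l := m) one_ne_zero (by exact_mod_cast hm0.ne') ?_
        rw [zpow_one, ← hc, zpow_natCast, conj_pow, ← e]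
    let T' : Set Γ₁ := {s | ∃ t ∈ T, ∃ p : I, ∃ q : ℤ, s = t * r p ^ q}
    let F' : Set (Matrix.SpecialLinearGroup (Fin n) ℤ) :=
      Set.range (fun p : F × Fin n × Fin n × Fin m =>
        (p.1 : Matrix.SpecialLinearGroup (Fin n) ℤ) * E p.2.1 p.2.2.1 ^ (p.2.2.2 : ℕ))
    have hn0 : 0 < n := by omega
    refine ⟨T' ∪ T, F' ∪ F, (Set.finite_range _).union hF, ?_, Or.inr h1T, Or.inr h1F, ?_⟩
    · rw [Set.image_union]
      refine TH.union ?_ hT
      refine TH.op (B := (fun g : Γ₁ => α (j g)) '' T) (C := 1) (M := 1)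
        (S := ⋃ p : I, Set.range fun q : ℤ => α (j (r p) ^ q) u) ?_ ?_ ?_ ?_ ?_ ?_
      · rintro _ ⟨t, _, rfl⟩; exact hα.rc _
      · rintro _ ⟨t, _, rfl⟩; exact hα.opNorm_le _
      · rw [Set.image_image]; exact hT
      · intro ξ hξ
        obtain ⟨p, hp⟩ := Set.mem_iUnion.mp hξ
        obtain ⟨q, rfl⟩ := hp
        simp only [hα.norm_map, hα.norm_u]
        exact le_rfl
      · refine hα.th_iUnion _ (fun p => ?_)
        have : u ∈ hα.Ht (j (r p)) := by rw [hr]; trivial
        exact this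
      · rintro _ ⟨s, ⟨t, ht, p, q, rfl⟩, rfl⟩
        refine ⟨α (j t), ⟨t, ht, rfl⟩, α (j (r p) ^ q) u, ?_, ?_⟩
        · rw [Set.mem_iUnion]; exact ⟨p, q, rfl⟩
        · simp only
          rw [map_mul j, map_zpow j]
          exact ap_mul α _ _ _
    · intro l hl
      rcases List.eq_nil_or_concat l with rfl | ⟨l', e, rfl⟩
      · exact ⟨1, Or.inr h1T, 1, Or.inr h1F, by simp⟩
      · rw [List.length_concat] at hl
        obtain ⟨t, ht, f, hf, hprod⟩ := hTF l' (by omega)
        have hE : H350.GoodRep.tv e = E e.i e.j ^ e.c := by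
          have hij : e.i ≠ e.j := e.hij
          simp only [E, hij, dif_neg, not_false_eq_true]
          rw [root_zpow]
          rfl
        refine ⟨t * r (⟨f, hf⟩, e.i, e.j) ^ (e.c / m), Or.inl ⟨t, ht, _, _, rfl⟩,
          f * E e.i e.j ^ (e.c % m).toNat, Or.inl ⟨(⟨f, hf⟩, e.i, e.j,
            ⟨(e.c % m).toNat, ?_⟩), rfl⟩, ?_⟩
        · have h1 := Int.emod_lt_of_pos e.c (show (0 : ℤ) < m by exact_mod_cast hm0)
          have h2 := Int.emod_nonneg e.c (show (m : ℤ) ≠ 0 by exact_mod_cast hm0.ne')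
          omega
        · rw [List.concat_eq_append, List.map_append, List.prod_append, hprod]
          simp only [List.map_cons, List.map_nil, List.prod_cons, List.prod_nil, mul_one]
          push_cast
          have hr' : ((r (⟨f, hf⟩, e.i, e.j) : Γ₁) : Matrix.SpecialLinearGroup (Fin n) ℤ)
              = f * E e.i e.j ^ (m : ℤ) * f⁻¹ := by
            rw [zpow_natCast]
          have h2 := Int.emod_nonneg e.c (show (m : ℤ) ≠ 0 by exact_mod_cast hm0.ne')
          rw [hE, hr', conj_zpow, ← _root_.zpow_mul, ← zpow_natCast, Int.toNat_of_nonneg h2]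
          have h3 : E e.i e.j ^ e.c = E e.i e.j ^ ((m : ℤ) * (e.c / m)) * E e.i e.j ^ (e.c % m) := by
            rw [← _root_.zpow_add, Int.mul_ediv_add_emod]
          rw [h3]
          group

/-- **Part (II)**, with all root elements tight. -/
theorem all_tightJ₁ (hα : Fr α β u t) (hn : 3 ≤ n)
    (htop : ∀ (v φ : Fin n → ℤ) (h : φ ⬝ᵥ v = 0), v ≠ 0 → φ ≠ 0 → hα.JT j (root v φ h) = ⊤) :
    hα.TH (Set.range fun g : Γ₁ => α (j g) u) := by
  obtain ⟨N, hN⟩ := bounded_generation n hn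
  have hm0 : 0 < Γ₁.normalCore.index :=
    Nat.pos_of_ne_zero (Subgroup.FiniteIndex.index_ne_zero (H := Γ₁.normalCore))
  have hm : ∀ X : Matrix.SpecialLinearGroup (Fin n) ℤ, X ^ Γ₁.normalCore.index ∈ Γ₁ := fun X =>
    Γ₁.normalCore_le (Γ₁.normalCore.pow_index_mem X)
  obtain ⟨T, F, hF, hT, -, -, hTF⟩ := hα.tight_productsJ (j := j) hn htop hm0 hm N
  have hF' : (Subtype.val ⁻¹' F : Set Γ₁).Finite := hF.preimage Subtype.val_injective.injOn
  refine TH.op (B := (fun g : Γ₁ => α (j g)) '' T) (C := 1) (M := 1)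
    (S := (fun f : Γ₁ => α (j f) u) '' (Subtype.val ⁻¹' F)) ?_ ?_ ?_ ?_ ?_ ?_
  · rintro _ ⟨t, _, rfl⟩; exact hα.rc _
  · rintro _ ⟨t, _, rfl⟩; exact hα.opNorm_le _
  · rw [Set.image_image]; exact hT
  · rintro _ ⟨f, _, rfl⟩
    simp only [hα.norm_map, hα.norm_u]
    exact le_rfl
  · exact hα.th_of_finite (hF'.image _)
  · rintro _ ⟨g, rfl⟩
    obtain ⟨l, hl, hprod⟩ := hN (g : Matrix.SpecialLinearGroup (Fin n) ℤ)
    obtain ⟨t, ht, f, hf, hg⟩ := hTF l hl
    have hgf : (g : Matrix.SpecialLinearGroup (Fin n) ℤ) =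
        (t : Matrix.SpecialLinearGroup (Fin n) ℤ) * f := by
      rw [← hg]
      apply sl_ext
      rw [H350.GoodRep.tv_prod, hprod]
    have hfΓ : f ∈ Γ₁ := by
      have : f = ((t⁻¹ * g : Γ₁) : Matrix.SpecialLinearGroup (Fin n) ℤ) := by
        push_cast; rw [hgf]; group
      rw [this]; exact (t⁻¹ * g).2
    refine ⟨α (j t), ⟨t, ht, rfl⟩, α (j ⟨f, hfΓ⟩) u, ⟨⟨f, hfΓ⟩, hf, rfl⟩, ?_⟩
    have : g = t * ⟨f, hfΓ⟩ := Subtype.ext hgf
    simp only
    rw [this, map_mul j]
    exact ap_mul α _ _ _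

/-- From the image of `j` to the whole group. -/
theorem all_tightJ (hα : Fr α β u t) (hj : j.range.FiniteIndex)
    (h1 : hα.TH (Set.range fun g : Γ₁ => α (j g) u)) :
    hα.TH (Set.range fun g : Γ => α g u) := by
  have hfin : Finite (Quotient (QuotientGroup.rightRel j.range)) := by
    have h := Subgroup.finite_quotient_of_finiteIndex (H := j.range)
    exact Finite.of_equiv _ (QuotientGroup.quotientRightRelEquivQuotientLeftRel j.range).symm
  refine TH.op (B := Set.range fun g : Γ₁ => α (j g)) (C := 1) (M := 1)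
    (S := Set.range fun q : Quotient (QuotientGroup.rightRel j.range) => α q.out u)
    ?_ ?_ ?_ ?_ ?_ ?_
  · rintro _ ⟨t, rfl⟩; exact hα.rc _
  · rintro _ ⟨t, rfl⟩; exact hα.opNorm_le _
  · rw [← Set.range_comp]; exact h1
  · rintro _ ⟨f, rfl⟩
    simp only [hα.norm_map, hα.norm_u]
    exact le_rfl
  · exact hα.th_of_finite (Set.finite_range _)
  · rintro _ ⟨g, rfl⟩
    have h2 : QuotientGroup.rightRel j.range (Quotient.mk _ g : Quotient (QuotientGroup.rightRel j.range)).out g :=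
      Quotient.mk_out g
    rw [QuotientGroup.rightRel_apply] at h2
    obtain ⟨t, ht⟩ := h2
    refine ⟨α (j t), ⟨t, rfl⟩, _, ⟨Quotient.mk _ g, rfl⟩, ?_⟩
    rw [ht, ← ap_mul, inv_mul_cancel_right]

/-- **Part (II)** for groups commensurable with `SL_n(ℤ)`. -/
theorem part_twoJ (hα : Fr α β u t) (hn : 3 ≤ n) (hj : j.range.FiniteIndex) (hK : SepK j)
    (x : Γ₁) (hx : x ≠ 1)
    (hu : IsNilpotent (((x : Matrix.SpecialLinearGroup (Fin n) ℤ) :
      Matrix (Fin n) (Fin n) ℤ) - 1))
    (ξ : H) (hξ : ξ ≠ 0) (ht : hα.TH (Set.range fun k : ℤ => α (j x ^ k) ξ)) :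
    hα.TH (Set.range fun g : Γ => α g u) := by
  have h1 : hα.JT j (x : Matrix.SpecialLinearGroup (Fin n) ℤ) ≠ ⊥ := by
    rw [hα.JT_coe]
    intro h
    have : ξ ∈ hα.Ht (j x) := ht
    rw [h] at this
    exact hξ (by simpa using this)
  have hx' : ((x : Matrix.SpecialLinearGroup (Fin n) ℤ) : Matrix (Fin n) (Fin n) ℤ) ≠ 1 := by
    intro h
    apply hx
    apply Subtype.ext
    exact sl_ext h
  obtain ⟨v, φ, h, hv, hφ, hne⟩ := hα.exists_rootJ hx' hu h1
  have htop := (hα.JT_bot_or_top hn hK hv hφ h).resolve_left hne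
  exact hα.all_tightJ hj (hα.all_tightJ₁ hn
    (fun w χ h' hw hχ => hα.JT_top_all hn hK hv hφ hw hχ h h' htop))

end Fr

end

end Vale.Agent.P092.R2.H289
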