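import Vale.Agent.P092.H160.Main
import Vale.Agent.P092.R2.H289.CTwo
import Vale.Agent.P092.R2.H289.CSep2

/-!
The dichotomy for isomorphisms `L(Γ) → L(Λ)`, `Γ` an ICC group commensurable with `SL_n(ℤ)`.
-/

set_option linter.all false

open scoped InnerProductSpace
open Filter Topology ContinuousLinearMap Matrix

namespace Vale.Agent.P092.R2.H289
open Vale.Agent.P092.H160
open Vale.Agent.P092

section

variable {Γ Λ : Type} [Group Γ] [Group Λ]

theorem cmm_of_CL {A : Ell2 Λ →L[ℂ] Ell2 Λ} (h : CL (rhoH (G := Λ)) A) : Cmm rhoH A := fun s => by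
  ext1 v
  exact h s v

/-- The frame of an isomorphism `L(Γ) → L(Λ)`. -/
theorem fr_of_frame {α : Γ →* (Ell2 Λ →L[ℂ] Ell2 Λ)} (hF : Frame α) :
    Fr α (rhoH (G := Λ)) (dl 1) 1 where
  tpos := one_pos
  adj := hF.reg.adj
  adjβ := regRep_rho.adj
  rc g s v := DFunLike.congr_fun (hF.comm g s) v
  norm_u := hF.reg.norm_one
  frame v := by
    have h1 := (regRep_rho (G := Λ)).hasSum_inner v v
    rw [inner_self_eq_norm_sq_to_K] at h1
    rw [one_mul]
    have h2 : HasSum (fun s : Λ => ((‖⟪rhoH s (dl 1), v⟫_ℂ‖ ^ 2 : ℝ) : ℂ)) ((‖v‖ ^ 2 : ℝ) : ℂ) := by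
      have e : ((‖v‖ ^ 2 : ℝ) : ℂ) = ((‖v‖ : ℝ) : ℂ) ^ 2 := by push_cast; rfl
      rw [e]
      refine h1.congr_fun fun s => ?_
      rw [← inner_conj_symm v, ← Complex.normSq_eq_conj_mul_self, Complex.normSq_eq_norm_sq]
    exact Complex.hasSum_ofReal.mp h2
  orth := hF.reg.inner_zero
  tr hA hB := regRep_rho.trace_comm (cmm_of_CL hA) (cmm_of_CL hB)
  tot := by
    intro A _
    have h1 : (Submodule.span ℂ (Set.range fun g => α g (dl 1))).topologicalClosure = ⊤ := by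
      rw [Submodule.topologicalClosure_eq_top_iff, Submodule.eq_bot_iff]
      intro v hv
      refine hF.reg.total v fun g => ?_
      rw [Submodule.mem_orthogonal] at hv
      exact hv _ (Submodule.subset_span ⟨g, rfl⟩)
    rw [h1]
    trivial

theorem fr_cc {α : Γ →* (Ell2 Λ →L[ℂ] Ell2 Λ)} (hF : Frame α) (v : Ell2 Λ) :
    (fr_of_frame hF).cc v = v := by
  ext s
  rw [(fr_of_frame hF).cc_apply]
  change ⟪rho s⁻¹ (dl 1), v⟫_ℂ = v s
  rw [rho_dl, inv_inv, one_mul, inner_dl]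

theorem th_iff {α : Γ →* (Ell2 Λ →L[ℂ] Ell2 Λ)} (hF : Frame α) (S : Set (Ell2 Λ)) :
    (fr_of_frame hF).TH S ↔ H350.Tight S := by
  rw [Fr.TH]
  have e : (fr_of_frame hF).cc '' S = S := by
    have : ((fr_of_frame hF).cc : Ell2 Λ → Ell2 Λ) = id := by
      funext v
      exact fr_cc hF v
    rw [this, Set.image_id]
  rw [e]

end

variable {n : ℕ} {Γ₁ : Subgroup (Matrix.SpecialLinearGroup (Fin n) ℤ)} [hfi : Γ₁.FiniteIndex]
  {Γ Λ : Type} [Group Γ] [Group Λ] {j : Γ₁ →* Γ}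

/-- The dichotomy for isomorphisms `L(Γ) → L(Λ)`. -/
theorem main_oneJ (hn : 3 ≤ n) (hj : Function.Injective j) (hj' : j.range.FiniteIndex)
    (hicc : ∀ g : Γ, g ≠ 1 → Set.Infinite {y : Γ | ∃ h, y = h * g * h⁻¹})
    (θ : LG Γ ≃⋆ₐ[ℂ] LG Λ) :
    Canonical θ ∨ ∀ (x : Γ) (l : ℕ) (y : Γ₁), x ^ l = j y → y ≠ 1 →
      IsNilpotent (((y : SpecialLinearGroup (Fin n) ℤ) : Matrix (Fin n) (Fin n) ℤ) - 1) →
      Tendsto (fun N : ℕ => (∑ k ∈ Finset.range N, height (θ (uu (x ^ (k + 1))))) / N)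
        atTop (𝓝 0) := by
  by_cases hall : ∀ (x : Γ) (l : ℕ) (y : Γ₁), x ^ l = j y → y ≠ 1 →
      IsNilpotent (((y : SpecialLinearGroup (Fin n) ℤ) : Matrix (Fin n) (Fin n) ℤ) - 1) →
      Tendsto (fun N : ℕ => (∑ k ∈ Finset.range N, height (θ (uu (x ^ (k + 1))))) / N)
        atTop (𝓝 0)
  · exact Or.inr hall
  · left
    push Not at hall
    obtain ⟨x, l, y, hxy, hy, hnil, hnot⟩ := hall
    have hF : Frame (alphaOf θ) := frame_of_iso hicc θ
    have h1 := H108.part_one (u := fun k : ℤ => alphaOf θ (x ^ k)) (by simp)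
      (fun m n => by rw [_root_.zpow_add, map_mul])
      (fun n => by
        rw [star_eq_adjoint, hF.reg.adj, _root_.zpow_neg])
      (fun n s => hF.comm _ s)
      (by
        intro h
        apply hnot
        refine h.congr fun N => ?_
        congr 1
        refine Finset.sum_congr rfl fun k _ => ?_
        rw [height_eq]
        have e : x ^ ((k : ℤ) + 1) = x ^ (k + 1) := by
          rw [← zpow_natCast]
          push_cast
          rfl
        rw [e]
        rfl)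
    obtain ⟨ξ, hξ, ht⟩ := h1
    have ht' : H350.Tight (Set.range fun k : ℤ => alphaOf θ (j y ^ k) ξ) := by
      intro ε hε
      obtain ⟨N, hN⟩ := ht ε hε
      refine ⟨N, ?_⟩
      rintro _ ⟨k, rfl⟩
      refine hN _ ⟨(l : ℤ) * k, ?_⟩
      simp only
      rw [_root_.zpow_mul, zpow_natCast, hxy]
    have h2 := (fr_of_frame hF).part_twoJ hn hj' (sepK hn hj hj' hicc) y hy hnil ξ hξ
      ((th_iff hF _).mpr ht')
    obtain ⟨c, hc, hp⟩ := p4_of_tight hF ((th_iff hF _).mp h2)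
    exact canonical_of_form θ (canon_of_p4 hF hicc hc hp)

end Vale.Agent.P092.R2.H289
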