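import Vale.Agent.P092.R2.H289.CHT
import Vale.Agent.P092.R2.H289.AFRoots

/-!
Tight subspaces of root elements for groups commensurable with `SL_n(ℤ)`.
-/

set_option linter.all false

open scoped InnerProductSpace
open Filter Topology ContinuousLinearMap

namespace Vale.Agent.P092.R2.H289
open Matrix Vale.Agent.P092.H160
open Vale.Agent.P092
open Vale.Agent.P092.H350

variable {n : ℕ}

section

variable {Γ₁ : Subgroup (Matrix.SpecialLinearGroup (Fin n) ℤ)} [hfi : Γ₁.FiniteIndex]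
  {Γ Λ H : Type} [Group Γ] [Group Λ] [NormedAddCommGroup H] [InnerProductSpace ℂ H]
  [CompleteSpace H] {j : Γ₁ →* Γ}
  {α : Γ →* (H →L[ℂ] H)} {β : Λ →* (H →L[ℂ] H)} {u : H} {t : ℝ}

namespace Fr

theorem JP_congr (hα : Fr α β u t) {x r : Γ} (h : hα.Ht x = hα.Ht r) : hα.P x = hα.P r := by
  ext1 ξ
  have h1 : hα.P r (hα.P x ξ) = hα.P x ξ := hα.P_eq_self (by rw [← h]; exact hα.P_mem x ξ)
  have h2 : hα.P r (ξ - hα.P x ξ) = 0 := by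
    rw [P_eq_zero_iff, ← h, ← hα.P_eq_zero_iff, map_sub, P_idem, sub_self]
  rw [map_sub, h1, sub_eq_zero] at h2
  exact h2.symm

/-- Fourier support of the projection. -/
theorem supp_KG (hα : Fr α β u t) {x : Γ₁} {g : Γ} {φ : Fin n → ℤ}
    (hx : ∀ w (h : φ ⬝ᵥ w = 0), Commute (root w φ h) (x : Matrix.SpecialLinearGroup (Fin n) ℤ))
    (hg : hα.c (j x) g ≠ 0) : KG j g φ := fun w hw => hα.vc_of_c (hx w hw) hg

/-- The tight subspace of the root (v, φ) is contained in the one of (v, ψ). -/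
theorem JT_le (hα : Fr α β u t) (hn : 3 ≤ n) (hK : SepK j) {v φ ψ : Fin n → ℤ}
    (hφ : φ ⬝ᵥ v = 0) (hψ : ψ ⬝ᵥ v = 0) (hLI : LI φ ψ) :
    hα.JT j (root v φ hφ) ≤ hα.JT j (root v ψ hψ) := by
  obtain ⟨w, hw1, hw2⟩ := exists_sep hLI.symm
  have hXw : ((root v φ hφ : Matrix.SpecialLinearGroup (Fin n) ℤ) :
      Matrix (Fin n) (Fin n) ℤ) *ᵥ w - w = (φ ⬝ᵥ w) • v := by
    rw [root_coe, add_mulVec, one_mulVec, vecMulVec_mulVec]
    simp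
  have hXv : ((root v φ hφ : Matrix.SpecialLinearGroup (Fin n) ℤ) :
      Matrix (Fin n) (Fin n) ℤ) *ᵥ v = v := by
    rw [root_coe, add_mulVec, one_mulVec, vecMulVec_mulVec, hφ]
    simp
  have hψX : ψ ᵥ* ((root v φ hφ : Matrix.SpecialLinearGroup (Fin n) ℤ) :
      Matrix (Fin n) (Fin n) ℤ) = ψ := by
    rw [root_coe, vecMul_add, vecMul_one, vecMul_vecMulVec, hψ]
    simp
  have hH := heis_left (root v φ hφ) w ψ hψX hw1 (by rw [hXw, mulVec_smul, hXv])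
  obtain ⟨a, b, x, y, r, ha, hb, ex, ey, er, hH'⟩ := H350.GoodRep.heis_lift (Γ := Γ₁) hH
  have h1 : hα.Ht (j x) = hα.JT j (root v φ hφ) :=
    hα.JT_eq (m := 1) one_ne_zero ha (by rw [zpow_one, ex])
  have h2 : hα.Ht (j r) = hα.JT j (root v ψ hψ) := by
    refine hα.JT_eq (m := 1) (l := (φ ⬝ᵥ w) * (a * b)) one_ne_zero
      (mul_ne_zero hw2 (mul_ne_zero ha hb)) ?_
    have e : root (((root v φ hφ : Matrix.SpecialLinearGroup (Fin n) ℤ) :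
        Matrix (Fin n) (Fin n) ℤ) *ᵥ w - w) ψ (by rw [hXw, dotProduct_smul, hψ, smul_zero])
        = root v ψ hψ ^ (φ ⬝ᵥ w) := by
      rw [root_zpow]
      simp only [hXw]
    rw [zpow_one, er, e, ← _root_.zpow_mul]
  rw [← h1, ← h2]
  apply hα.step_le (heis_map j hH')
  intro g hg
  -- the support of the conjugates
  have hsupp : ∀ m : ℕ, hα.c (j y ^ m * j x * (j y ^ m)⁻¹) g ≠ 0 →
      KG j g (φ - (b * m * (φ ⬝ᵥ w)) • ψ) := by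
    intro m hm
    have e1 : hα.c (j y ^ m * j x * (j y ^ m)⁻¹) g =
        hα.c (j x) ((j (y ^ m))⁻¹ * g * j (y ^ m)) := by
      rw [map_pow, ← hα.c_conj (j x) _ (j y ^ m)]
      congr 1
      group
    rw [e1] at hm
    have h3 := hα.supp_KG (φ := φ) (fun u hu => by
      rw [ex]; exact H350.GoodRep.comm_root_zpow v u φ hφ hu a) hm
    have ey2 : (((y ^ m)⁻¹ : Γ₁) : Matrix.SpecialLinearGroup (Fin n) ℤ)
        = root ((-(b * m)) • w) ψ (by rw [dotProduct_smul, hw1, smul_zero]) := by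
      push_cast
      rw [ey, ← zpow_natCast, ← _root_.zpow_mul, ← _root_.zpow_neg, root_zpow]
    have h4 := KG.conj (y ^ m) h3
    rw [ey2, root_coe, vecMul_add, vecMul_one, vecMul_vecMulVec] at h4
    have e3 : φ + (φ ⬝ᵥ (-(b * m)) • w) • ψ = φ - (b * m * (φ ⬝ᵥ w)) • ψ := by
      rw [dotProduct_smul, smul_eq_mul, sub_eq_add_neg, ← neg_smul]
      congr 2
      ring
    have e4 : φ + (φ ⬝ᵥ (-(b * ↑m)) • w) • ψ = φ - (b * m * (φ ⬝ᵥ w)) • ψ := e3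
    rw [e4] at h4
    exact h4
  by_contra hcon
  push Not at hcon
  obtain ⟨m₁, _, hm₁⟩ := hcon 0
  obtain ⟨m₂, hlt, hm₂⟩ := hcon (m₁ + 1)
  apply hg
  refine hK g _ _ ?_ (hsupp m₁ hm₁) (hsupp m₂ hm₂)
  obtain ⟨p, q, hpq⟩ := hLI
  refine ⟨p, q, ?_⟩
  simp only [Pi.sub_apply, Pi.smul_apply, smul_eq_mul]
  have e : (φ p - b * m₁ * (φ ⬝ᵥ w) * ψ p) * (φ q - b * m₂ * (φ ⬝ᵥ w) * ψ q) -
      (φ q - b * m₁ * (φ ⬝ᵥ w) * ψ q) * (φ p - b * m₂ * (φ ⬝ᵥ w) * ψ p)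
      = (b * (φ ⬝ᵥ w) * (m₁ - m₂)) * (φ p * ψ q - φ q * ψ p) := by ring
  rw [e]
  have hne : ((m₁ : ℤ) - m₂) ≠ 0 := by omega
  exact mul_ne_zero (mul_ne_zero (mul_ne_zero hb hw2) hne) hpq

theorem JT_eq_of_LI (hα : Fr α β u t) (hn : 3 ≤ n) (hK : SepK j) {v φ ψ : Fin n → ℤ}
    (hφ : φ ⬝ᵥ v = 0) (hψ : ψ ⬝ᵥ v = 0) (hLI : LI φ ψ) :
    hα.JT j (root v φ hφ) = hα.JT j (root v ψ hψ) :=
  le_antisymm (hα.JT_le hn hK hφ hψ hLI) (hα.JT_le hn hK hψ hφ hLI.symm)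

/-- The tight subspace of a root element is trivial. -/
theorem JT_bot_or_top (hα : Fr α β u t) (hn : 3 ≤ n) (hK : SepK j) {v φ : Fin n → ℤ}
    (hv : v ≠ 0) (hφ0 : φ ≠ 0) (hφ : φ ⬝ᵥ v = 0) :
    hα.JT j (root v φ hφ) = ⊥ ∨ hα.JT j (root v φ hφ) = ⊤ := by
  obtain ⟨ψ, hψ, hLI⟩ := exists_LI hn hv hφ0
  have heq := hα.JT_eq_of_LI hn hK hφ hψ hLI
  obtain ⟨a, ha, hX⟩ := H350.exists_pow_mem Γ₁ (root v φ hφ)
  obtain ⟨b, hb, hR⟩ := H350.exists_pow_mem Γ₁ (root v ψ hψ)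
  have h1 : hα.Ht (j ⟨_, hX⟩) = hα.JT j (root v φ hφ) :=
    hα.JT_eq (m := 1) one_ne_zero ha (by rw [zpow_one])
  have h2 : hα.Ht (j ⟨_, hR⟩) = hα.JT j (root v ψ hψ) :=
    hα.JT_eq (m := 1) one_ne_zero hb (by rw [zpow_one])
  have hP := hα.JP_congr (h1.trans (heq.trans h2.symm))
  rw [← h1]
  apply hα.Ht_bot_or_top
  intro g hg
  by_contra hc
  have hc2 : hα.c (j ⟨_, hR⟩) g ≠ 0 := by
    rw [c, ← hP]; exact hc
  apply hg
  refine hK g _ _ hLI (hα.supp_KG (fun u hu => ?_) hc) (hα.supp_KG (fun u hu => ?_) hc2)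
  · exact H350.GoodRep.comm_root_zpow v u φ hφ hu a
  · exact H350.GoodRep.comm_root_zpow v u ψ hψ hu b

/-- Changing the functional. -/
theorem JT_top_left (hα : Fr α β u t) (hn : 3 ≤ n) (hK : SepK j) {v φ ψ : Fin n → ℤ}
    (hv : v ≠ 0) (hφ0 : φ ≠ 0) (hψ0 : ψ ≠ 0) (hφ : φ ⬝ᵥ v = 0) (hψ : ψ ⬝ᵥ v = 0)
    (h : hα.JT j (root v φ hφ) = ⊤) : hα.JT j (root v ψ hψ) = ⊤ := by
  by_cases hLI : LI φ ψ
  · rw [← hα.JT_eq_of_LI hn hK hφ hψ hLI, h]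
  · obtain ⟨ρ, hρ, hLI'⟩ := exists_LI hn hv hφ0
    have h2 := LI_of_not hLI hψ0 hLI'
    rw [hα.JT_eq_of_LI hn hK hψ hρ h2, ← hα.JT_eq_of_LI hn hK hφ hρ hLI', h]

theorem JT_top_right' (hα : Fr α β u t) {v w φ : Fin n → ℤ} (hLI : LI v w)
    (hv : φ ⬝ᵥ v = 0) (hw : φ ⬝ᵥ w = 0)
    (h : hα.JT j (root v φ hv) = ⊤) : hα.JT j (root w φ hw) = ⊤ := by
  obtain ⟨χ, h1, h2⟩ := exists_sep hLI.symm
  rw [dotProduct_comm] at h1 h2
  have hH := heis_right v φ w χ hv hw h1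
  have h3 := hα.JT_top (j := j) hH h
  rw [← hα.JT_zpow (root w φ hw) (neg_ne_zero.mpr h2), root_zpow]
  exact h3

theorem JT_top_right (hα : Fr α β u t) (hn : 3 ≤ n) {v w φ : Fin n → ℤ}
    (hv0 : v ≠ 0) (hw0 : w ≠ 0) (hφ0 : φ ≠ 0) (hv : φ ⬝ᵥ v = 0) (hw : φ ⬝ᵥ w = 0)
    (h : hα.JT j (root v φ hv) = ⊤) : hα.JT j (root w φ hw) = ⊤ := by
  by_cases hLI : LI v w
  · exact hα.JT_top_right' hLI hv hw h
  · obtain ⟨u, hu, hLI'⟩ := exists_LI hn hφ0 hv0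
    rw [dotProduct_comm] at hu
    have h2 := LI_of_not hLI hw0 hLI'
    exact hα.JT_top_right' h2.symm hu hw (hα.JT_top_right' hLI' hv hu h)

/-- If one root element is tight then all are. -/
theorem JT_top_all (hα : Fr α β u t) (hn : 3 ≤ n) (hK : SepK j) {v φ w χ : Fin n → ℤ}
    (hv0 : v ≠ 0) (hφ0 : φ ≠ 0) (hw0 : w ≠ 0) (hχ0 : χ ≠ 0)
    (hφ : φ ⬝ᵥ v = 0) (hχ : χ ⬝ᵥ w = 0)
    (h : hα.JT j (root v φ hφ) = ⊤) : hα.JT j (root w χ hχ) = ⊤ := by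
  obtain ⟨ψ, hψ0, hψv, hψw⟩ : ∃ ψ : Fin n → ℤ, ψ ≠ 0 ∧ ψ ⬝ᵥ v = 0 ∧ ψ ⬝ᵥ w = 0 := by
    by_cases hLI : LI v w
    · obtain ⟨u, h1, h2, h3⟩ := exists_common_kernel hn hLI
      exact ⟨u, h1, by rw [dotProduct_comm]; exact h2, by rw [dotProduct_comm]; exact h3⟩
    · obtain ⟨ψ, h1, h2⟩ := exists_LI hn hv0 hφ0
      refine ⟨ψ, root_ne_smul h2.symm, h1, ?_⟩
      simp only [LI, not_exists, not_not] at hLI
      obtain ⟨q, hq⟩ := Function.ne_iff.mp hv0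
      simp only [Pi.zero_apply] at hq
      have : v q * (ψ ⬝ᵥ w) = w q * (ψ ⬝ᵥ v) := by
        simp only [dotProduct, Finset.mul_sum]
        refine Finset.sum_congr rfl (fun p _ => ?_)
        linear_combination (-ψ p) * hLI p q
      rw [h1, mul_zero] at this
      rcases mul_eq_zero.mp this with h | h
      · exact absurd h hq
      · exact h
  exact hα.JT_top_left hn hK hw0 hψ0 hχ0 hψw hχ
    (hα.JT_top_right hn hv0 hw0 hψ0 hψv hψw (hα.JT_top_left hn hK hv0 hφ0 hψ0 hφ hψv h))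

end Fr

end

end Vale.Agent.P092.R2.H289
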