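import Vale.Agent.P092.R2.H289.CLin
import Vale.Agent.P092.R2.H289.CHT

/-!
In an ICC group commensurable with `SL_n(ℤ)` an element which commutes virtually with two large
root subgroups is trivial.
-/

set_option linter.all false

namespace Vale.Agent.P092.R2.H289
open Matrix Vale.Agent.P092.H350

section

variable {G₀ : Type} [Group G₀] {Γ₁ : Subgroup G₀} {Γ : Type} [Group Γ]

/-- Conjugation by `g` sends `j X` to `j Y`. -/
def SR (j : Γ₁ →* Γ) (g : Γ) (X Y : Γ₁) : Prop := g * j X = j Y * g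

variable {j : Γ₁ →* Γ} {g : Γ}

theorem SR.mul {X Y X' Y' : Γ₁} (h : SR j g X Y) (h' : SR j g X' Y') :
    SR j g (X * X') (Y * Y') := by
  unfold SR at *
  rw [map_mul, map_mul, ← mul_assoc, h, mul_assoc, h', mul_assoc]

theorem SR.inv {X Y : Γ₁} (h : SR j g X Y) : SR j g X⁻¹ Y⁻¹ := by
  unfold SR at *
  rw [map_inv, map_inv, mul_inv_eq_iff_eq_mul, mul_assoc, h, inv_mul_cancel_left]

theorem SR.uniq (hj : Function.Injective j) {X Y Y' : Γ₁} (h : SR j g X Y) (h' : SR j g X Y') :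
    Y = Y' := by
  unfold SR at *
  exact hj (mul_right_cancel (h.symm.trans h'))

theorem vc_iff {Z : G₀} : VC j g Z ↔ ∃ (m : ℤ) (hm : Z ^ m ∈ Γ₁), m ≠ 0 ∧
    SR j g ⟨Z ^ m, hm⟩ ⟨Z ^ m, hm⟩ := by
  constructor
  · rintro ⟨m, hm, h0, hc⟩
    exact ⟨m, hm, h0, hc.eq.symm⟩
  · rintro ⟨m, hm, h0, hc⟩
    exact ⟨m, hm, h0, Eq.symm hc⟩

theorem SR.zpow {X Y : Γ₁} (h : SR j g X Y) (k : ℤ) : SR j g (X ^ k) (Y ^ k) := by
  have h1 : g * j X * g⁻¹ = j Y := by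
    rw [show g * j X = j Y * g from h, mul_inv_cancel_right]
  change g * j (X ^ k) = j (Y ^ k) * g
  rw [map_zpow, map_zpow, ← h1, conj_zpow, inv_mul_cancel_right]

/-- Common powers. -/
theorem VC.common {Z Z' : G₀} (h : VC j g Z) (h' : VC j g Z') :
    ∃ (M : ℤ) (h1 : Z ^ M ∈ Γ₁) (h2 : Z' ^ M ∈ Γ₁), M ≠ 0 ∧
      SR j g ⟨Z ^ M, h1⟩ ⟨Z ^ M, h1⟩ ∧ SR j g ⟨Z' ^ M, h2⟩ ⟨Z' ^ M, h2⟩ := by
  obtain ⟨m, hm, hm0, hc⟩ := h
  obtain ⟨m', hm', hm0', hc'⟩ := h'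
  obtain ⟨h1, hc1⟩ := VC.pow hm hc m'
  obtain ⟨h2, hc2⟩ := VC.pow hm' hc' m
  have e : m' * m = m * m' := mul_comm _ _
  refine ⟨m * m', h1, by rw [← e]; exact h2, mul_ne_zero hm0 hm0', hc1.eq.symm, ?_⟩
  have e2 : (⟨Z' ^ (m * m'), by rw [← e]; exact h2⟩ : Γ₁) = ⟨Z' ^ (m' * m), h2⟩ := by
    apply Subtype.ext
    simp only [e]
  rw [e2]
  exact hc2.eq.symm

theorem VC.one : VC j g (1 : G₀) := by
  refine ⟨1, by rw [zpow_one]; exact Γ₁.one_mem, one_ne_zero, ?_⟩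
  have e : (⟨(1 : G₀) ^ (1 : ℤ), by rw [zpow_one]; exact Γ₁.one_mem⟩ : Γ₁) = 1 := by
    apply Subtype.ext
    simp
  rw [e, map_one]
  exact Commute.one_left g

/-- Products of commuting elements. -/
theorem VC.mul {Z Z' : G₀} (h : VC j g Z) (h' : VC j g Z') (hc : Commute Z Z') :
    VC j g (Z * Z') := by
  obtain ⟨M, h1, h2, hM, s1, s2⟩ := h.common h'
  have e : (Z * Z') ^ M = Z ^ M * Z' ^ M := hc.mul_zpow M
  have h3 : (Z * Z') ^ M ∈ Γ₁ := by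
    rw [e]
    exact Γ₁.mul_mem h1 h2
  refine vc_iff.mpr ⟨M, h3, hM, ?_⟩
  have e2 : (⟨(Z * Z') ^ M, h3⟩ : Γ₁) = ⟨Z ^ M, h1⟩ * ⟨Z' ^ M, h2⟩ := Subtype.ext e
  rw [e2]
  exact s1.mul s2

theorem VC.of_zpow {Z : G₀} {k : ℤ} (hk : k ≠ 0) (h : VC j g (Z ^ k)) : VC j g Z := by
  obtain ⟨m, hm, hm0, hc⟩ := h
  have e : (Z ^ k) ^ m = Z ^ (k * m) := (_root_.zpow_mul Z k m).symm
  have h3 : Z ^ (k * m) ∈ Γ₁ := by
    rw [← e]
    exact hm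
  refine ⟨k * m, h3, mul_ne_zero hk hm0, ?_⟩
  have e2 : (⟨Z ^ (k * m), h3⟩ : Γ₁) = ⟨(Z ^ k) ^ m, hm⟩ := Subtype.ext e.symm
  rw [e2]
  exact hc

theorem fi_comap {A B : Type} [Group A] [Group B] (f : A →* B) (K : Subgroup B) [K.FiniteIndex] :
    (K.comap f).FiniteIndex :=
  ⟨by
    rw [Subgroup.index_comap]
    exact (Subgroup.instFiniteIndex_subgroupOf K f.range).index_ne_zero⟩

/-- The subgroup of the elements of `Γ₁` which are sent into the image of `j`. -/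
theorem exists_SR (hj : j.range.FiniteIndex) (g : Γ) (X : Γ₁) :
    ∃ m : ℤ, m ≠ 0 ∧ ∃ Y : Γ₁, SR j g (X ^ m) Y := by
  have h1 : (j.range.comap ((MulAut.conj g).toMonoidHom.comp j)).FiniteIndex := fi_comap _ _
  obtain ⟨m, hm, _, hX⟩ := Subgroup.exists_pow_mem_of_index_ne_zero h1.index_ne_zero X
  obtain ⟨Y, hY⟩ := hX
  refine ⟨m, by exact_mod_cast hm.ne', Y, ?_⟩
  change g * j (X ^ (m : ℤ)) = j Y * g
  have h2 : j Y = g * j (X ^ m) * g⁻¹ := hY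
  rw [h2, inv_mul_cancel_right, zpow_natCast]

end

section

variable {n : ℕ} {Γ₁ : Subgroup (Matrix.SpecialLinearGroup (Fin n) ℤ)} {Γ : Type} [Group Γ]
  {j : Γ₁ →* Γ} {g : Γ}

/-- Commutation with a power of a root element. -/
theorem comm_root {D : Matrix.SpecialLinearGroup (Fin n) ℤ} {w φ : Fin n → ℤ} (h : φ ⬝ᵥ w = 0)
    {M : ℤ} (hM : M ≠ 0) (hc : Commute D (root w φ h ^ M)) :
    (D : Matrix (Fin n) (Fin n) ℤ) * vecMulVec w φ = vecMulVec w φ * D := by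
  rw [root_zpow] at hc
  have h1 := congrArg (Subtype.val :
    Matrix.SpecialLinearGroup (Fin n) ℤ → Matrix (Fin n) (Fin n) ℤ) hc.eq
  rw [Matrix.SpecialLinearGroup.coe_mul, Matrix.SpecialLinearGroup.coe_mul, root_coe, add_mul,
    mul_add, one_mul, mul_one, add_right_inj, smul_vecMulVec, smul_mul_assoc, mul_smul_comm] at h1
  exact smul_right_injective _ hM h1

/-- Compatibility with a family of root elements. -/
theorem K_of_SR (hj : Function.Injective j) {X Y : Γ₁} (h : SR j g X Y) {φ : Fin n → ℤ}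
    (h1 : KG j g φ)
    (h2 : KG j g (φ ᵥ* (((X⁻¹ : Γ₁) : Matrix.SpecialLinearGroup (Fin n) ℤ) :
      Matrix (Fin n) (Fin n) ℤ))) :
    K (((X⁻¹ * Y : Γ₁) : Matrix.SpecialLinearGroup (Fin n) ℤ) : Matrix (Fin n) (Fin n) ℤ) φ := by
  intro w hw
  have hX : (X : Matrix.SpecialLinearGroup (Fin n) ℤ) *
      ((X⁻¹ : Γ₁) : Matrix.SpecialLinearGroup (Fin n) ℤ) = 1 := by
    rw [← Subgroup.coe_mul, mul_inv_cancel, Subgroup.coe_one]
  have hXm : (((X⁻¹ : Γ₁) : Matrix.SpecialLinearGroup (Fin n) ℤ) : Matrix (Fin n) (Fin n) ℤ) *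
      ((X : Matrix.SpecialLinearGroup (Fin n) ℤ) : Matrix (Fin n) (Fin n) ℤ) = 1 := by
    have : ((X⁻¹ : Γ₁) : Matrix.SpecialLinearGroup (Fin n) ℤ) *
        (X : Matrix.SpecialLinearGroup (Fin n) ℤ) = 1 := by
      rw [← Subgroup.coe_mul, inv_mul_cancel, Subgroup.coe_one]
    exact congrArg Subtype.val this
  set w' : Fin n → ℤ := ((X : Matrix.SpecialLinearGroup (Fin n) ℤ) :
    Matrix (Fin n) (Fin n) ℤ) *ᵥ w with hw'
  have e1 : (((X⁻¹ : Γ₁) : Matrix.SpecialLinearGroup (Fin n) ℤ) : Matrix (Fin n) (Fin n) ℤ) *ᵥ w'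
      = w := by rw [hw', mulVec_mulVec, hXm, one_mulVec]
  have hw2 : φ ⬝ᵥ ((((X⁻¹ : Γ₁) : Matrix.SpecialLinearGroup (Fin n) ℤ) :
      Matrix (Fin n) (Fin n) ℤ) *ᵥ w') = 0 := by rw [e1, hw]
  have hw3 : (φ ᵥ* (((X⁻¹ : Γ₁) : Matrix.SpecialLinearGroup (Fin n) ℤ) :
      Matrix (Fin n) (Fin n) ℤ)) ⬝ᵥ w' = 0 := by rw [← dotProduct_mulVec, hw2]
  have hrc := root_conj _ _ hX w' φ hw3 hw2
  have hre : root ((((X⁻¹ : Γ₁) : Matrix.SpecialLinearGroup (Fin n) ℤ) :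
      Matrix (Fin n) (Fin n) ℤ) *ᵥ w') φ hw2 = root w φ hw := by
    apply sl_ext
    rw [root_coe, root_coe, e1]
  rw [hre] at hrc
  obtain ⟨M, hA, hA', hM, s1, s2⟩ := (h1 w hw).common (h2 w' hw3)
  have hinv : ((X⁻¹ : Γ₁) : Matrix.SpecialLinearGroup (Fin n) ℤ) =
      (X : Matrix.SpecialLinearGroup (Fin n) ℤ)⁻¹ := rfl
  have hAA : (⟨_, hA'⟩ : Γ₁) = X * ⟨_, hA⟩ * X⁻¹ := by
    apply Subtype.ext
    change root w' _ hw3 ^ M = (X : Matrix.SpecialLinearGroup (Fin n) ℤ) * root w φ hw ^ M *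
      ((X⁻¹ : Γ₁) : Matrix.SpecialLinearGroup (Fin n) ℤ)
    rw [hrc, hinv, conj_zpow]
  have s3 : SR j g (X * ⟨_, hA⟩ * X⁻¹) (Y * ⟨_, hA⟩ * Y⁻¹) := (h.mul s1).mul h.inv
  rw [← hAA] at s3
  have s4 := SR.uniq hj s2 s3
  rw [hAA] at s4
  have hc : Commute (X⁻¹ * Y) (⟨_, hA⟩ : Γ₁) := by
    change X⁻¹ * Y * ⟨_, hA⟩ = ⟨_, hA⟩ * (X⁻¹ * Y)
    have s5 : X * ⟨_, hA⟩ * X⁻¹ * Y = Y * ⟨_, hA⟩ := by rw [s4, inv_mul_cancel_right]
    calc X⁻¹ * Y * ⟨_, hA⟩ = X⁻¹ * (Y * ⟨_, hA⟩) := by rw [mul_assoc]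
      _ = X⁻¹ * (X * ⟨_, hA⟩ * X⁻¹ * Y) := by rw [s5]
      _ = ⟨_, hA⟩ * (X⁻¹ * Y) := by group
  have hc2 : Commute ((X⁻¹ * Y : Γ₁) : Matrix.SpecialLinearGroup (Fin n) ℤ) (root w φ hw ^ M) := by
    have := congrArg (Subtype.val : Γ₁ → Matrix.SpecialLinearGroup (Fin n) ℤ) hc.eq
    exact this
  exact comm_root hw hM hc2

theorem vecMul_root (v χ ψ : Fin n → ℤ) (h : χ ⬝ᵥ v = 0) (hψ : ψ ⬝ᵥ v = 0) :
    ψ ᵥ* ((root v χ h : Matrix.SpecialLinearGroup (Fin n) ℤ) : Matrix (Fin n) (Fin n) ℤ) = ψ := by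
  rw [root_coe, vecMul_add, vecMul_one, vecMul_vecMulVec, hψ]
  simp

theorem root_inv (v χ : Fin n → ℤ) (h : χ ⬝ᵥ v = 0) :
    (root v χ h)⁻¹ = root (-v) χ (by rw [dotProduct_neg, h, neg_zero]) := by
  have := root_zpow v χ h (-1)
  simpa using this

theorem VC.of_SR {G₀ : Type} [Group G₀] {Γ₁ : Subgroup G₀} {Γ : Type} [Group Γ] {j : Γ₁ →* Γ}
    {g : Γ} {Z : G₀} {X : Γ₁} {k : ℤ} (hk : k ≠ 0) (hX : (X : G₀) = Z ^ k) (h : SR j g X X) :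
    VC j g Z := by
  have hm : Z ^ k ∈ Γ₁ := by rw [← hX]; exact X.2
  have e : (⟨Z ^ k, hm⟩ : Γ₁) = X := Subtype.ext hX.symm
  exact vc_iff.mpr ⟨k, hm, hk, by rw [e]; exact h⟩

theorem coe_inv_mul (X Y : Γ₁) : ((X : Matrix.SpecialLinearGroup (Fin n) ℤ) :
    Matrix (Fin n) (Fin n) ℤ) * (((X⁻¹ * Y : Γ₁) : Matrix.SpecialLinearGroup (Fin n) ℤ) :
    Matrix (Fin n) (Fin n) ℤ) = ((Y : Matrix.SpecialLinearGroup (Fin n) ℤ) :
    Matrix (Fin n) (Fin n) ℤ) := by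
  have h : (X : Matrix.SpecialLinearGroup (Fin n) ℤ) *
      ((X⁻¹ * Y : Γ₁) : Matrix.SpecialLinearGroup (Fin n) ℤ) = Y := by
    rw [← Subgroup.coe_mul, mul_inv_cancel_left]
  exact congrArg Subtype.val h

/-- The key step. -/
theorem vc_step [hfi : Γ₁.FiniteIndex] (hn : 3 ≤ n) (hj : Function.Injective j)
    (hj' : j.range.FiniteIndex) {φ ψ χ v w z : Fin n → ℤ} (hφ : KG j g φ) (hψ : KG j g ψ)
    (hχv : χ ⬝ᵥ v = 0) (hψv : ψ ⬝ᵥ v = 0) (hφv : φ ⬝ᵥ v ≠ 0) (hφw : φ ⬝ᵥ w = 0)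
    (hχw : χ ⬝ᵥ w = 0) (hψw : ψ ⬝ᵥ w ≠ 0) (hφz : φ ⬝ᵥ z = 0) (hχz : χ ⬝ᵥ z ≠ 0) :
    VC j g (root v χ hχv) := by
  have hφ0 : φ ≠ 0 := by
    rintro rfl
    exact hφv (zero_dotProduct _)
  have hv0 : v ≠ 0 := by
    rintro rfl
    exact hφv (dotProduct_zero _)
  obtain ⟨a₀, ha₀, hR⟩ := H350.exists_pow_mem Γ₁ (root v χ hχv)
  obtain ⟨m₀, hm₀, Y, hSR⟩ := exists_SR hj' g ⟨_, hR⟩
  obtain ⟨k, hk⟩ : ∃ k, k = a₀ * m₀ := ⟨_, rfl⟩
  have hk0 : k ≠ 0 := by rw [hk]; exact mul_ne_zero ha₀ hm₀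
  obtain ⟨X, hXdef⟩ : ∃ X : Γ₁, X = ⟨root v χ hχv ^ a₀, hR⟩ ^ m₀ := ⟨_, rfl⟩
  rw [← hXdef] at hSR
  have hXp : (X : Matrix.SpecialLinearGroup (Fin n) ℤ) = root v χ hχv ^ k := by
    rw [hXdef, hk, _root_.zpow_mul]
    rfl
  have hkv : χ ⬝ᵥ (k • v) = 0 := by rw [dotProduct_smul, hχv, smul_zero]
  have hX : (X : Matrix.SpecialLinearGroup (Fin n) ℤ) = root (k • v) χ hkv := by
    rw [hXp, root_zpow]
  have hXi : ((X⁻¹ : Γ₁) : Matrix.SpecialLinearGroup (Fin n) ℤ) =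
      root (-(k • v)) χ (by rw [dotProduct_neg, hkv, neg_zero]) := by
    rw [← root_inv _ _ hkv, ← hX]
    rfl
  have hψX : ψ ᵥ* (((X⁻¹ : Γ₁) : Matrix.SpecialLinearGroup (Fin n) ℤ) :
      Matrix (Fin n) (Fin n) ℤ) = ψ := by
    rw [hXi]
    exact vecMul_root _ _ _ _ (by rw [dotProduct_neg, dotProduct_smul, hψv, smul_zero, neg_zero])
  have K1 := K_of_SR hj hSR hψ (by rw [hψX]; exact hψ)
  obtain ⟨m, hm, hm0, hc⟩ := hφ w hφw
  obtain ⟨B, hBdef⟩ : ∃ B : Γ₁, B = ⟨root w φ hφw ^ m, hm⟩ := ⟨_, rfl⟩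
  rw [← hBdef] at hc
  have hmw : φ ⬝ᵥ (m • w) = 0 := by rw [dotProduct_smul, hφw, smul_zero]
  have hB : (B : Matrix.SpecialLinearGroup (Fin n) ℤ) = root (m • w) φ hmw := by
    rw [hBdef]
    change root w φ hφw ^ m = _
    rw [root_zpow]
  have hBi : ((B⁻¹ : Γ₁) : Matrix.SpecialLinearGroup (Fin n) ℤ) =
      root (-(m • w)) φ (by rw [dotProduct_neg, hmw, neg_zero]) := by
    rw [← root_inv _ _ hmw, ← hB]
    rfl
  have sB : SR j g B B := hc.eq.symm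
  obtain ⟨E, hEdef⟩ : ∃ E : Γ₁, E = X * B * X⁻¹ * B⁻¹ := ⟨_, rfl⟩
  have sE : SR j g E (Y * B * Y⁻¹ * B⁻¹) := by
    rw [hEdef]
    exact ((hSR.mul sB).mul hSR.inv).mul sB.inv
  obtain ⟨N, hN⟩ : ∃ N : ℤ, N = -(φ ⬝ᵥ (k • v)) * m := ⟨_, rfl⟩
  have hN0 : N ≠ 0 := by
    rw [hN, dotProduct_smul, smul_eq_mul]
    exact mul_ne_zero (neg_ne_zero.mpr (mul_ne_zero hk0 hφv)) hm0
  have hNw : χ ⬝ᵥ (N • w) = 0 := by rw [dotProduct_smul, hχw, smul_zero]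
  have hE : (E : Matrix.SpecialLinearGroup (Fin n) ℤ) = root (N • w) χ hNw := by
    have hH := heis_right (k • v) χ (m • w) φ hkv (by rw [dotProduct_smul, hχw, smul_zero]) hmw
    have h1 := hH.eq
    have e0 : (-(φ ⬝ᵥ (k • v))) • (m • w) = N • w := by rw [smul_smul, hN]
    have e1 : root ((-(φ ⬝ᵥ (k • v))) • (m • w)) χ (by rw [e0]; exact hNw) = root (N • w) χ hNw := by
      apply sl_ext
      rw [root_coe, root_coe, e0]
    rw [e1, ← hX, ← hB] at h1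
    rw [hEdef]
    change (X : Matrix.SpecialLinearGroup (Fin n) ℤ) * B * (X : Matrix.SpecialLinearGroup (Fin n) ℤ)⁻¹
      * (B : Matrix.SpecialLinearGroup (Fin n) ℤ)⁻¹ = _
    rw [h1]
    group
  have hEi : ((E⁻¹ : Γ₁) : Matrix.SpecialLinearGroup (Fin n) ℤ) =
      root (-(N • w)) χ (by rw [dotProduct_neg, hNw, neg_zero]) := by
    rw [← root_inv _ _ hNw, ← hE]
    rfl
  have hφE : φ ᵥ* (((E⁻¹ : Γ₁) : Matrix.SpecialLinearGroup (Fin n) ℤ) :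
      Matrix (Fin n) (Fin n) ℤ) = φ := by
    rw [hEi]
    exact vecMul_root _ _ _ _ (by rw [dotProduct_neg, dotProduct_smul, hφw, smul_zero, neg_zero])
  have K2 := K_of_SR hj sE hφ (by rw [hφE]; exact hφ)
  have hD : (((X⁻¹ * Y : Γ₁) : Matrix.SpecialLinearGroup (Fin n) ℤ) : Matrix (Fin n) (Fin n) ℤ) = 1 ∨
      (((X⁻¹ * Y : Γ₁) : Matrix.SpecialLinearGroup (Fin n) ℤ) : Matrix (Fin n) (Fin n) ℤ) = -1 := by
    refine key_lin (by omega) (Y := ((Y : Matrix.SpecialLinearGroup (Fin n) ℤ) :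
      Matrix (Fin n) (Fin n) ℤ)) (Yi := (((Y⁻¹ : Γ₁) : Matrix.SpecialLinearGroup (Fin n) ℤ) :
      Matrix (Fin n) (Fin n) ℤ)) (v := v) (w := w) (z := z) (φ := φ) (ψ := ψ) (χ := χ) (k := k)
      (m := m) (N := N) (D' := (((E⁻¹ * (Y * B * Y⁻¹ * B⁻¹) : Γ₁) :
        Matrix.SpecialLinearGroup (Fin n) ℤ) : Matrix (Fin n) (Fin n) ℤ)) ?_ ?_ ?_ K1
      (Matrix.SpecialLinearGroup.det_coe _) ?_ K2 hχv hψv hv0 hφw hχw hψw hφz hχz hm0 hN0 hφ0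
    · have h : (Y : Matrix.SpecialLinearGroup (Fin n) ℤ) *
          ((Y⁻¹ : Γ₁) : Matrix.SpecialLinearGroup (Fin n) ℤ) = 1 := by
        rw [← Subgroup.coe_mul, mul_inv_cancel, Subgroup.coe_one]
      exact congrArg Subtype.val h
    · have h : ((Y⁻¹ : Γ₁) : Matrix.SpecialLinearGroup (Fin n) ℤ) *
          (Y : Matrix.SpecialLinearGroup (Fin n) ℤ) = 1 := by
        rw [← Subgroup.coe_mul, inv_mul_cancel, Subgroup.coe_one]
      exact congrArg Subtype.val h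
    · have h := coe_inv_mul X Y
      rw [hX, root_coe] at h
      exact h.symm
    · have h := coe_inv_mul E (Y * B * Y⁻¹ * B⁻¹)
      have hb : ((B : Matrix.SpecialLinearGroup (Fin n) ℤ) : Matrix (Fin n) (Fin n) ℤ) =
          1 + vecMulVec (m • w) φ := by rw [hB, root_coe]
      have hbi : (((B⁻¹ : Γ₁) : Matrix.SpecialLinearGroup (Fin n) ℤ) :
          Matrix (Fin n) (Fin n) ℤ) = 1 - vecMulVec (m • w) φ := by
        rw [hBi, root_coe, neg_vecMulVec, sub_eq_add_neg]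
      have he : ((E : Matrix.SpecialLinearGroup (Fin n) ℤ) : Matrix (Fin n) (Fin n) ℤ) =
          1 + vecMulVec (N • w) χ := by rw [hE, root_coe]
      rw [he] at h
      rw [h, ← hb, ← hbi]
      rfl
  have sYY : SR j g (X * X) (Y * Y) := hSR.mul hSR
  have hYY : Y * Y = X * X := by
    have h := coe_inv_mul X Y
    apply Subtype.ext
    apply sl_ext
    change ((Y : Matrix.SpecialLinearGroup (Fin n) ℤ) : Matrix (Fin n) (Fin n) ℤ) *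
      ((Y : Matrix.SpecialLinearGroup (Fin n) ℤ) : Matrix (Fin n) (Fin n) ℤ) =
      ((X : Matrix.SpecialLinearGroup (Fin n) ℤ) : Matrix (Fin n) (Fin n) ℤ) *
      ((X : Matrix.SpecialLinearGroup (Fin n) ℤ) : Matrix (Fin n) (Fin n) ℤ)
    rcases hD with hD | hD
    · rw [hD, Matrix.mul_one] at h
      rw [h]
    · rw [hD, Matrix.mul_neg, Matrix.mul_one] at h
      rw [← h, Matrix.neg_mul, Matrix.mul_neg, neg_neg]
  rw [hYY] at sYY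
  refine VC.of_SR (k := k * 2) (mul_ne_zero hk0 two_ne_zero) ?_ sYY
  rw [_root_.zpow_mul, ← hXp]
  exact (zpow_two _).symm

end

end Vale.Agent.P092.R2.H289
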