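import Vale.Agent.P092.R2.H289.AmpMain
import Vale.Agent.P092.R2.H289.AmpDefs

/-!
The concrete spaces: the range of the projection, the amplified space, Parseval identity.
-/

set_option linter.all false

open scoped InnerProductSpace
open Filter Topology ContinuousLinearMap

namespace Vale.Agent.P092.R2.H289
open Vale.Agent.P092.H160

section dec

variable {H : Type} [NormedAddCommGroup H] [InnerProductSpace ℂ H] [CompleteSpace H] {m : ℕ}

/-- The orthogonal sum of `m + 1` copies of `H`. -/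
abbrev Hp (H : Type) [NormedAddCommGroup H] (m : ℕ) : Type := PiLp 2 (fun _ : Fin (m + 1) => H)

/-- coordinate inclusions -/
noncomputable def Rp (H : Type) [NormedAddCommGroup H] [InnerProductSpace ℂ H] [CompleteSpace H]
    (m : ℕ) (k : Fin (m + 1)) : H →L[ℂ] Hp H m :=
  adjoint (PiLp.proj (𝕜 := ℂ) 2 (fun _ : Fin (m + 1) => H) k)

theorem Rp_adj (k : Fin (m + 1)) (w : Hp H m) : adjoint (Rp H m k) w = w k := by
  rw [Rp, adjoint_adjoint]
  rfl

theorem Rp_apply (k : Fin (m + 1)) (v : H) :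
    Rp H m k v = WithLp.toLp 2 (Pi.single k v : Fin (m + 1) → H) := by
  classical
  refine ext_inner_right ℂ fun w => ?_
  rw [Rp, adjoint_inner_left, PiLp.inner_apply, Finset.sum_eq_single_of_mem k (Finset.mem_univ k)]
  · simp
  · intro i _ hi
    simp [Pi.single_eq_of_ne hi]

theorem dec_Rp : Dec (Rp H m) where
  same k v := by
    rw [Rp_adj, Rp_apply]
    simp
  ne k l v hkl := by
    rw [Rp_adj, Rp_apply]
    simp [Pi.single_eq_of_ne hkl]
  sum w := by
    simp only [Rp_adj, Rp_apply]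
    ext i
    rw [WithLp.ofLp_sum, Finset.sum_apply, Finset.sum_eq_single_of_mem i (Finset.mem_univ i)]
    · simp
    · intro k _ hk
      simp [Pi.single_eq_of_ne (Ne.symm hk)]

end dec

section cor

variable {A : Type} [Group A] {m : ℕ} {H : Type} [NormedAddCommGroup H] [InnerProductSpace ℂ H]
  [CompleteSpace H] {q : Ell2 (A × Fin (m + 1)) →L[ℂ] Ell2 (A × Fin (m + 1))}
  {j : H →L[ℂ] Ell2 (A × Fin (m + 1))}

theorem Cor.par (h : Cor q j) : Par h.al (Cor.sg j) := by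
  intro v
  have h1 : ‖j v‖ ^ 2 = ‖v‖ ^ 2 := by
    have h2 : ⟪j v, j v⟫_ℂ = ⟪v, v⟫_ℂ := by
      rw [← adjoint_inner_left, h.jj]
    rw [inner_self_eq_norm_sq_to_K, inner_self_eq_norm_sq_to_K] at h2
    exact_mod_cast h2
  have h2 : HasSum (fun p : A × Fin (m + 1) => ‖(j v) p‖ ^ 2) (‖v‖ ^ 2) := by
    rw [← h1, norm_sq]
    exact (summable_sq _).hasSum
  have h3 := (Equiv.prodCongr (Equiv.inv A) (Equiv.refl (Fin (m + 1)))).hasSum_iff.mpr h2
  have e : (fun p : A × Fin (m + 1) => ‖⟪h.al p.1 (Cor.sg j p.2), v⟫_ℂ‖ ^ 2) =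
      (fun p : A × Fin (m + 1) => ‖(j v) p‖ ^ 2) ∘
        (Equiv.prodCongr (Equiv.inv A) (Equiv.refl (Fin (m + 1)))) := by
    funext p
    obtain ⟨s, i⟩ := p
    simp only [Function.comp_apply]
    rw [h.al_sg, adjoint_inner_left, inner_dl]
    rfl
  rw [e]
  exact h3

theorem Cor.dm_eq (h : Cor q j) : (Mod.dm (Cor.sg j) : ℂ) =
    ∑ i, ⟪(dl (1, i) : Ell2 (A × Fin (m + 1))), q (dl (1, i))⟫_ℂ := by
  rw [Mod.dm, Complex.ofReal_sum]
  refine Finset.sum_congr rfl fun i _ => ?_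
  rw [Cor.sg, ← h.jq, ← adjoint_inner_left, inner_self_eq_norm_sq_to_K]
  push_cast
  rfl

/-- The range of the projection. -/
noncomputable def rg (q : Ell2 (A × Fin (m + 1)) →L[ℂ] Ell2 (A × Fin (m + 1))) :
    Submodule ℂ (Ell2 (A × Fin (m + 1))) :=
  LinearMap.ker ((1 - q : Ell2 (A × Fin (m + 1)) →L[ℂ] Ell2 (A × Fin (m + 1))) :
    Ell2 (A × Fin (m + 1)) →ₗ[ℂ] Ell2 (A × Fin (m + 1)))

theorem mem_rg {v : Ell2 (A × Fin (m + 1))} : v ∈ rg q ↔ q v = v := by
  rw [rg, LinearMap.mem_ker]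
  change v - q v = 0 ↔ _
  rw [sub_eq_zero, eq_comm]

instance : CompleteSpace (rg q) := by
  have h1 : IsClosed (rg q : Set (Ell2 (A × Fin (m + 1)))) :=
    (1 - q : Ell2 (A × Fin (m + 1)) →L[ℂ] Ell2 (A × Fin (m + 1))).isClosed_ker
  exact h1.completeSpace_coe

/-- the corner of a projection -/
theorem cor_rg (h1 : adjoint q = q) (h2 : ∀ v, q (q v) = q v) (h3 : CL (rr m) q)
    (h4 : q (dl (1, 0)) = dl (1, 0)) : Cor q (rg q).subtypeL := by
  have hq : ∀ v : rg q, q ((rg q).subtypeL v) = (rg q).subtypeL v := fun v => mem_rg.mp v.2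
  have key : ∀ w, adjoint (rg q).subtypeL w = ⟨q w, mem_rg.mpr (h2 w)⟩ := by
    intro w
    refine ext_inner_left ℂ fun v => ?_
    rw [adjoint_inner_right, ← hq v]
    rw [← adjoint_inner_right, h1]
    rfl
  refine ⟨fun v => ?_, fun w => ?_, h3, h4⟩
  · rw [key]
    apply Subtype.ext
    exact hq v
  · rw [key]
    rfl

end cor

end Vale.Agent.P092.R2.H289
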