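import Vale.Agent.P092.R2.H289.AFMain

/-!
Amplifications `H ⊗ ℂ^(m+1)`, signed cyclic shifts.
-/

set_option linter.all false

open scoped InnerProductSpace
open Filter Topology ContinuousLinearMap

namespace Vale.Agent.P092.R2.H289
open Vale.Agent.P092.H160

/-! ### Signed cyclic shifts -/

/-- Signed cyclic shifts of `Fin (m+1)`. -/
@[ext] structure SG (m : ℕ) where
  /-- the signs -/
  e : Fin (m + 1) → ℤˣ
  /-- the shift -/
  c : Fin (m + 1)

namespace SG

variable {m : ℕ}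

instance : Mul (SG m) := ⟨fun a b => ⟨fun k => a.e k * b.e (k - a.c), a.c + b.c⟩⟩
instance : One (SG m) := ⟨⟨fun _ => 1, 0⟩⟩
instance : Inv (SG m) := ⟨fun a => ⟨fun k => (a.e (k + a.c))⁻¹, -a.c⟩⟩

theorem mul_e (a b : SG m) (k : Fin (m + 1)) : (a * b).e k = a.e k * b.e (k - a.c) := rfl
theorem mul_c (a b : SG m) : (a * b).c = a.c + b.c := rfl
theorem one_e (k : Fin (m + 1)) : (1 : SG m).e k = 1 := rfl
theorem one_c : (1 : SG m).c = 0 := rfl
theorem inv_e (a : SG m) (k : Fin (m + 1)) : (a⁻¹).e k = (a.e (k + a.c))⁻¹ := rfl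
theorem inv_c (a : SG m) : (a⁻¹).c = -a.c := rfl

instance : Group (SG m) where
  mul_assoc a b c := by
    ext k
    · rw [mul_e, mul_e, mul_e, mul_e, mul_c, mul_assoc, sub_sub]
    · rw [mul_c, mul_c, mul_c, mul_c, add_assoc]
  one_mul a := by
    ext k
    · rw [mul_e, one_e, one_mul, one_c, sub_zero]
    · rw [mul_c, one_c, zero_add]
  mul_one a := by
    ext k
    · rw [mul_e, one_e, mul_one]
    · rw [mul_c, one_c, add_zero]
  inv_mul_cancel a := by
    ext k
    · rw [mul_e, inv_e, inv_c, sub_neg_eq_add, inv_mul_cancel, one_e]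
    · rw [mul_c, inv_c, one_c, neg_add_cancel]

/-- The underlying set. -/
def eqv (m : ℕ) : SG m ≃ Fin (m + 1) × (Fin (m + 1) → ℤˣ) where
  toFun a := (a.c, a.e)
  invFun p := ⟨p.2, p.1⟩
  left_inv _ := rfl
  right_inv _ := rfl

instance : Fintype (SG m) := Fintype.ofEquiv _ (eqv m).symm

theorem sum_eq (f : SG m → ℝ) : ∑ w, f w = ∑ c, ∑ e, f ⟨e, c⟩ := by
  rw [← Fintype.sum_prod_type' (f := fun c e => f ⟨e, c⟩), ← (eqv m).symm.sum_comp]
  rfl

end SG

/-- the sign as a complex number -/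
def sgc (z : ℤˣ) : ℂ := ((z : ℤ) : ℂ)

theorem sgc_mul (z w : ℤˣ) : sgc (z * w) = sgc z * sgc w := by
  simp [sgc]

theorem sgc_one : sgc 1 = 1 := by simp [sgc]

theorem sgc_neg (z : ℤˣ) : sgc (-z) = -sgc z := by simp [sgc]

theorem sgc_inv (z : ℤˣ) : sgc z⁻¹ = sgc z := by
  rw [Int.units_inv_eq_self]

theorem sgc_conj (z : ℤˣ) : (starRingEnd ℂ) (sgc z) = sgc z := by
  simp [sgc]

theorem sgc_sq (z : ℤˣ) : sgc z * sgc z = 1 := by
  rw [← sgc_mul, Int.units_mul_self, sgc_one]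

/-- The average over the signs. -/
theorem sum_signs {M : ℕ} (z : Fin M → ℂ) :
    ∑ e : Fin M → ℤˣ, ‖∑ k, sgc (e k) * z k‖ ^ 2 = 2 ^ M * ∑ k, ‖z k‖ ^ 2 := by
  classical
  have h1 : ∀ e : Fin M → ℤˣ, ((‖∑ k, sgc (e k) * z k‖ ^ 2 : ℝ) : ℂ) =
      ∑ k, ∑ l, (sgc (e k) * sgc (e l)) * (z k * (starRingEnd ℂ) (z l)) := by
    intro e
    rw [← Complex.normSq_eq_norm_sq, Complex.normSq_eq_conj_mul_self, mul_comm, map_sum,
      Finset.sum_mul_sum]
    refine Finset.sum_congr rfl fun k _ => Finset.sum_congr rfl fun l _ => ?_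
    rw [map_mul, sgc_conj]
    ring
  have h2 : ∀ k l : Fin M, ∑ e : Fin M → ℤˣ, sgc (e k) * sgc (e l) =
      if k = l then (2 : ℂ) ^ M else 0 := by
    intro k l
    split_ifs with h
    · subst h
      simp only [sgc_sq]
      simp
    · have h3 : ∑ e : Fin M → ℤˣ, sgc (e k) * sgc (e l) =
          -∑ e : Fin M → ℤˣ, sgc (e k) * sgc (e l) := by
        conv_lhs => rw [← Equiv.sum_comp (Equiv.mulRight (Pi.mulSingle k (-1) : Fin M → ℤˣ))
          (fun e => sgc (e k) * sgc (e l))]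
        rw [← Finset.sum_neg_distrib]
        refine Finset.sum_congr rfl fun e _ => ?_
        simp only [Equiv.coe_mulRight, Pi.mul_apply]
        rw [Pi.mulSingle_eq_same, Pi.mulSingle_eq_of_ne (Ne.symm h), mul_one, mul_neg, mul_one,
          sgc_neg]
        ring
      exact self_eq_neg.mp h3
  have h3 : ((∑ e : Fin M → ℤˣ, ‖∑ k, sgc (e k) * z k‖ ^ 2 : ℝ) : ℂ) =
      ((2 ^ M * ∑ k, ‖z k‖ ^ 2 : ℝ) : ℂ) := by
    rw [Complex.ofReal_sum]
    simp only [h1]
    rw [Finset.sum_comm]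
    have h4 : ∀ k : Fin M, ∑ e : Fin M → ℤˣ,
        ∑ l, (sgc (e k) * sgc (e l)) * (z k * (starRingEnd ℂ) (z l)) =
        (2 : ℂ) ^ M * ((‖z k‖ ^ 2 : ℝ) : ℂ) := by
      intro k
      rw [Finset.sum_comm]
      simp only [← Finset.sum_mul, h2]
      rw [Finset.sum_eq_single_of_mem k (Finset.mem_univ k)]
      · rw [if_pos rfl, Complex.mul_conj, Complex.normSq_eq_norm_sq]
      · intro l _ hl
        rw [if_neg (Ne.symm hl), zero_mul]
    simp only [h4]
    rw [← Finset.mul_sum]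
    push_cast
    rfl
  exact_mod_cast h3

/-! ### Decompositions -/

section dec

variable {H H' : Type} [NormedAddCommGroup H] [InnerProductSpace ℂ H] [CompleteSpace H]
  [NormedAddCommGroup H'] [InnerProductSpace ℂ H'] [CompleteSpace H'] {m : ℕ}

/-- `H'` is the orthogonal sum of copies of `H`. -/
structure Dec (R : Fin (m + 1) → (H →L[ℂ] H')) : Prop where
  same : ∀ k v, adjoint (R k) (R k v) = v
  ne : ∀ k l v, k ≠ l → adjoint (R k) (R l v) = 0
  sum : ∀ w, ∑ k, R k (adjoint (R k) w) = w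

variable {R : Fin (m + 1) → (H →L[ℂ] H')}

theorem Dec.ext (h : Dec R) {v w : H'} (he : ∀ k, adjoint (R k) v = adjoint (R k) w) : v = w := by
  rw [← h.sum v, ← h.sum w]
  exact Finset.sum_congr rfl fun k _ => by rw [he]

theorem Dec.comp_sum (h : Dec R) (f : Fin (m + 1) → H) (l : Fin (m + 1)) :
    adjoint (R l) (∑ k, R k (f k)) = f l := by
  rw [map_sum, Finset.sum_eq_single_of_mem l (Finset.mem_univ l), h.same]
  intro k _ hk
  exact h.ne l k _ (Ne.symm hk)

theorem Dec.inner (h : Dec R) (v w : H') :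
    ⟪v, w⟫_ℂ = ∑ k, ⟪adjoint (R k) v, adjoint (R k) w⟫_ℂ := by
  conv_lhs => rw [← h.sum w]
  rw [inner_sum]
  exact Finset.sum_congr rfl fun k _ => by rw [adjoint_inner_left]

theorem Dec.norm_sq (h : Dec R) (v : H') : ‖v‖ ^ 2 = ∑ k, ‖adjoint (R k) v‖ ^ 2 := by
  have h1 := h.inner v v
  simp only [inner_self_eq_norm_sq_to_K] at h1
  have h2 : ((‖v‖ ^ 2 : ℝ) : ℂ) = ((∑ k, ‖adjoint (R k) v‖ ^ 2 : ℝ) : ℂ) := by
    push_cast
    exact h1
  exact_mod_cast h2

/-- `A ⊗ 1` -/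
noncomputable def amp (R : Fin (m + 1) → (H →L[ℂ] H')) (A : H →L[ℂ] H) : H' →L[ℂ] H' :=
  ∑ k, R k ∘L A ∘L adjoint (R k)

theorem Dec.amp_c (h : Dec R) (A : H →L[ℂ] H) (v : H') (l : Fin (m + 1)) :
    adjoint (R l) (amp R A v) = A (adjoint (R l) v) := by
  rw [amp, sum_apply]
  exact h.comp_sum (fun k => A (adjoint (R k) v)) l

/-- the signed shifts -/
noncomputable def ws (R : Fin (m + 1) → (H →L[ℂ] H')) (w : SG m) : H' →L[ℂ] H' :=
  ∑ k, R k ∘L (sgc (w.e k) • adjoint (R (k - w.c)))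

theorem Dec.ws_c (h : Dec R) (w : SG m) (v : H') (l : Fin (m + 1)) :
    adjoint (R l) (ws R w v) = sgc (w.e l) • adjoint (R (l - w.c)) v := by
  rw [ws, sum_apply]
  exact h.comp_sum (fun k => sgc (w.e k) • adjoint (R (k - w.c)) v) l

theorem Dec.amp_adj (h : Dec R) (A : H →L[ℂ] H) : adjoint (amp R A) = amp R (adjoint A) := by
  rw [eq_comm, ContinuousLinearMap.eq_adjoint_iff]
  intro x y
  rw [h.inner, h.inner]
  refine Finset.sum_congr rfl fun k _ => ?_
  rw [h.amp_c, h.amp_c, adjoint_inner_left]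

theorem Dec.ws_adj (h : Dec R) (w : SG m) : adjoint (ws R w) = ws R w⁻¹ := by
  rw [eq_comm, ContinuousLinearMap.eq_adjoint_iff]
  intro x y
  rw [h.inner, h.inner, ← Equiv.sum_comp (Equiv.addRight w.c)
    (fun k => ⟪adjoint (R k) x, adjoint (R k) (ws R w y)⟫_ℂ)]
  refine Finset.sum_congr rfl fun k _ => ?_
  rw [Equiv.coe_addRight, h.ws_c, h.ws_c, add_sub_cancel_right, SG.inv_e, SG.inv_c,
    sub_neg_eq_add, inner_smul_left, inner_smul_right, sgc_conj, sgc_inv]

theorem Dec.amp_mul (h : Dec R) (A B : H →L[ℂ] H) : amp R (A * B) = amp R A * amp R B := by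
  ext1 v
  refine h.ext fun k => ?_
  rw [h.amp_c, mul_ap, mul_ap, h.amp_c, h.amp_c]

theorem Dec.amp_one (h : Dec R) : amp R (1 : H →L[ℂ] H) = 1 := by
  ext1 v
  refine h.ext fun k => ?_
  rw [h.amp_c]
  rfl

theorem Dec.ws_mul (h : Dec R) (w w' : SG m) : ws R (w * w') = ws R w * ws R w' := by
  ext1 v
  refine h.ext fun k => ?_
  rw [h.ws_c, mul_ap, h.ws_c, h.ws_c, smul_smul, SG.mul_e, SG.mul_c, sgc_mul, sub_sub]

theorem Dec.ws_one (h : Dec R) : ws R (1 : SG m) = 1 := by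
  ext1 v
  refine h.ext fun k => ?_
  rw [h.ws_c, SG.one_e, SG.one_c, sgc_one, one_smul, sub_zero]
  rfl

theorem Dec.amp_ws (h : Dec R) (A : H →L[ℂ] H) (w : SG m) :
    amp R A * ws R w = ws R w * amp R A := by
  ext1 v
  refine h.ext fun k => ?_
  rw [mul_ap, mul_ap, h.amp_c, h.ws_c, h.ws_c, h.amp_c, map_smul]

/-- the amplified representation -/
noncomputable def Dec.al' {G : Type} [Group G] (h : Dec R) (a : G →* (H →L[ℂ] H)) :
    G →* (H' →L[ℂ] H') where
  toFun g := amp R (a g)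
  map_one' := by rw [map_one, h.amp_one]
  map_mul' g g' := by rw [map_mul, h.amp_mul]

/-- the amplified representation times the signed shifts -/
noncomputable def Dec.be' {G : Type} [Group G] (h : Dec R) (b : G →* (H →L[ℂ] H)) :
    G × SG m →* (H' →L[ℂ] H') where
  toFun p := amp R (b p.1) * ws R p.2
  map_one' := by
    change amp R (b 1) * ws R 1 = 1
    rw [map_one, h.amp_one, h.ws_one, one_mul]
  map_mul' p q := by
    change amp R (b (p.1 * q.1)) * ws R (p.2 * q.2) =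
      (amp R (b p.1) * ws R p.2) * (amp R (b q.1) * ws R q.2)
    rw [map_mul, h.amp_mul, h.ws_mul, mul_assoc (amp R (b p.1)) (ws R p.2), ← mul_assoc (ws R p.2),
      ← h.amp_ws]
    noncomm_ring

theorem Dec.al'_c {G : Type} [Group G] (h : Dec R) (a : G →* (H →L[ℂ] H)) (g : G) (v : H')
    (l : Fin (m + 1)) : adjoint (R l) (h.al' a g v) = a g (adjoint (R l) v) := h.amp_c _ _ _

theorem Dec.be'_c {G : Type} [Group G] (h : Dec R) (b : G →* (H →L[ℂ] H)) (s : G) (w : SG m)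
    (v : H') (l : Fin (m + 1)) :
    adjoint (R l) (h.be' b (s, w) v) = sgc (w.e l) • b s (adjoint (R (l - w.c)) v) := by
  change adjoint (R l) (amp R (b s) (ws R w v)) = _
  rw [h.amp_c, h.ws_c, map_smul]

/-- Operators commuting with the signed shifts are of the form `A ⊗ 1`. -/
theorem Dec.eq_amp (h : Dec R) {X : H' →L[ℂ] H'} (hX : ∀ w v, X (ws R w v) = ws R w (X v)) :
    X = amp R (adjoint (R 0) ∘L X ∘L R 0) := by
  classical
  have h1 : ∀ k l v, k ≠ l → adjoint (R k) (X (R l v)) = 0 := by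
    intro k l v hkl
    set w : SG m := ⟨Pi.mulSingle l (-1), 0⟩ with hw
    have h2 : ws R w (R l v) = -R l v := by
      refine h.ext fun i => ?_
      rw [h.ws_c, map_neg]
      change sgc ((Pi.mulSingle l (-1) : Fin (m + 1) → ℤˣ) i) • adjoint (R (i - 0)) (R l v) = _
      rw [sub_zero]
      by_cases hi : i = l
      · subst hi
        rw [Pi.mulSingle_eq_same, sgc_neg, sgc_one, neg_one_smul]
      · rw [h.ne i l v hi, smul_zero, neg_zero]
    have h3 := hX w (R l v)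
    rw [h2, map_neg] at h3
    have h4 := congrArg (adjoint (R k)) h3
    rw [h.ws_c, map_neg] at h4
    change -adjoint (R k) (X (R l v)) = sgc ((Pi.mulSingle l (-1) : Fin (m + 1) → ℤˣ) k) •
      adjoint (R (k - 0)) (X (R l v)) at h4
    rw [sub_zero, Pi.mulSingle_eq_of_ne hkl, sgc_one, one_smul] at h4
    have h5 : (2 : ℂ) • adjoint (R k) (X (R l v)) = 0 := by
      rw [two_smul]
      nth_rewrite 1 [← h4]
      exact neg_add_cancel _
    exact (smul_eq_zero.mp h5).resolve_left two_ne_zero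
  have h2 : ∀ k v, adjoint (R k) (X (R k v)) = adjoint (R 0) (X (R 0 v)) := by
    intro k v
    set w : SG m := ⟨fun _ => 1, k⟩ with hw
    have h3 : ws R w (R 0 v) = R k v := by
      refine h.ext fun i => ?_
      rw [h.ws_c]
      change sgc 1 • adjoint (R (i - k)) (R 0 v) = _
      rw [sgc_one, one_smul]
      by_cases hi : i = k
      · subst hi
        rw [sub_self, h.same, h.same]
      · rw [h.ne i k v hi, h.ne _ _ _ (sub_ne_zero.mpr hi)]
    rw [← h3, hX, h.ws_c]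
    change sgc 1 • adjoint (R (k - k)) (X (R 0 v)) = _
    rw [sgc_one, one_smul, sub_self]
  ext1 v
  refine h.ext fun k => ?_
  rw [h.amp_c]
  conv_lhs => rw [← h.sum v]
  rw [map_sum, map_sum, Finset.sum_eq_single_of_mem k (Finset.mem_univ k)]
  · exact h2 k _
  · intro l _ hl
    exact h1 k l _ (Ne.symm hl)

end dec

end Vale.Agent.P092.R2.H289
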