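import Vale.Agent.P092.H160.Cube

/-!
The index inequality: an intertwiner from a bimodule to its cubic tensor power, for an ICC group
and a trace on the commutant of the other side, forces the frame constant to be at most one.
-/

set_option linter.all false

open scoped InnerProductSpace
open Filter Topology ContinuousLinearMap

namespace Vale.Agent.P092.R2.H289
open Vale.Agent.P092.H160

section

variable {G H : Type} [Group G] [NormedAddCommGroup H] [InnerProductSpace ℂ H] [CompleteSpace H]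

/-- The functional `B ↦ ∑ i, ⟪σ i, B (σ i)⟫`. -/
noncomputable def phi {m : ℕ} (σ : Fin m → H) (B : H →L[ℂ] H) : ℂ := ∑ i, ⟪σ i, B (σ i)⟫_ℂ

/-- Trace data. -/
structure TrD {m : ℕ} (π : G →* (H →L[ℂ] H)) (P : (H →L[ℂ] H) → Prop) (σ : Fin m → H) :
    Prop where
  one : P 1
  sub : ∀ {A B : H →L[ℂ] H}, P A → P B → P (A - B)
  smul : ∀ (c : ℂ) {A : H →L[ℂ] H}, P A → P (c • A)
  conj : ∀ (g : G) {A : H →L[ℂ] H}, P A → phi σ (π g * A * π g⁻¹) = phi σ A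
  zero : ∀ g : G, g ≠ 1 → phi σ (π g) = 0
  ne : phi σ 1 ≠ 0
  sep : ∀ {A : H →L[ℂ] H}, P A → (∀ g : G, phi σ (π g * A) = 0) → A = 0

theorem phi_sub {m : ℕ} (σ : Fin m → H) (A B : H →L[ℂ] H) :
    phi σ (A - B) = phi σ A - phi σ B := by
  simp only [phi, sub_apply, inner_sub_right, Finset.sum_sub_distrib]

theorem phi_smul {m : ℕ} (σ : Fin m → H) (c : ℂ) (A : H →L[ℂ] H) :
    phi σ (c • A) = c * phi σ A := by
  simp only [phi, smul_apply, inner_smul_right, Finset.mul_sum]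

variable {m : ℕ} {π : G →* (H →L[ℂ] H)} {P : (H →L[ℂ] H) → Prop} {σ : Fin m → H}
  {S : H →L[ℂ] Ell2 (G × G × G)}

theorem adjS_rho (hadj : ∀ g, adjoint (π g) = π g⁻¹)
    (hSπ : ∀ g v, S (π g v) = rho (ι3 g) (S v)) (g : G) (w : Ell2 (G × G × G)) :
    adjoint S (rho (ι3 g) w) = π g (adjoint S w) := by
  refine ext_inner_left ℂ fun v => ?_
  have h1 : ⟪v, π g (adjoint S w)⟫_ℂ = ⟪π g⁻¹ v, adjoint S w⟫_ℂ := by
    rw [← hadj g, adjoint_inner_left]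
  rw [h1, adjoint_inner_right, adjoint_inner_right, hSπ, ← adjoint_inner_left, adjoint_rho,
    map_inv]

theorem BS_left (hadj : ∀ g, adjoint (π g) = π g⁻¹)
    (hSπ : ∀ g v, S (π g v) = rho (ι3 g) (S v)) (g : G) (x : G × G × G) :
    adjoint S ∘L rho (ι3 g * x) ∘L S = π g * (adjoint S ∘L rho x ∘L S) := by
  ext1 v
  change adjoint S (rho (ι3 g * x) (S v)) = π g (adjoint S (rho x (S v)))
  rw [← adjS_rho hadj hSπ, rho_mul]
  rfl

theorem BS_conj (hadj : ∀ g, adjoint (π g) = π g⁻¹)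
    (hSπ : ∀ g v, S (π g v) = rho (ι3 g) (S v)) (g : G) (x : G × G × G) :
    adjoint S ∘L rho (ι3 g * x * (ι3 g)⁻¹) ∘L S =
      π g * (adjoint S ∘L rho x ∘L S) * π g⁻¹ := by
  ext1 v
  change adjoint S (rho (ι3 g * x * (ι3 g)⁻¹) (S v)) = π g (adjoint S (rho x (S (π g⁻¹ v))))
  rw [← adjS_rho hadj hSπ, hSπ, rho_mul, rho_mul, map_inv]
  rfl

theorem phi_BS (x : G × G × G) :
    phi σ (adjoint S ∘L rho x ∘L S) = ∑ i, ⟪S (σ i), rho x (S (σ i))⟫_ℂ := by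
  rw [phi]
  refine Finset.sum_congr rfl fun i _ => ?_
  change ⟪σ i, adjoint S (rho x (S (σ i)))⟫_ℂ = _
  rw [adjoint_inner_right]

theorem phi_BS_tendsto :
    Tendsto (fun x => phi σ (adjoint S ∘L rho x ∘L S)) cofinite (𝓝 0) := by
  simp only [phi_BS]
  have : Tendsto (fun x : G × G × G => ∑ i, ⟪S (σ i), rho x (S (σ i))⟫_ℂ) cofinite
      (𝓝 (∑ i : Fin m, (0 : ℂ))) :=
    tendsto_finsetSum _ fun i _ => coeff_tendsto _ _
  simpa using this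

theorem phi_BS_zero (hG : ∀ s : G, s ≠ 1 → Set.Infinite {y : G | ∃ h, y = h * s * h⁻¹})
    (hT : TrD π P σ) (hadj : ∀ g, adjoint (π g) = π g⁻¹)
    (hSπ : ∀ g v, S (π g v) = rho (ι3 g) (S v)) (hSP : ∀ x, P (adjoint S ∘L rho x ∘L S))
    (x : G × G × G) (hx : x ≠ 1) : phi σ (adjoint S ∘L rho x ∘L S) = 0 := by
  by_contra hn
  have h3 := (phi_BS_tendsto (σ := σ) (S := S)).norm
  rw [norm_zero] at h3
  have hpos : 0 < ‖phi σ (adjoint S ∘L rho x ∘L S)‖ := norm_pos_iff.mpr hn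
  have h4 := h3.eventually (gt_mem_nhds hpos)
  rw [Filter.eventually_cofinite] at h4
  refine ι3_icc hG x hx (h4.subset ?_)
  rintro y ⟨s, rfl⟩
  change ¬ (‖phi σ (adjoint S ∘L rho (ι3 s * x * (ι3 s)⁻¹) ∘L S)‖ < _)
  rw [BS_conj hadj hSπ, hT.conj s (hSP x)]
  exact lt_irrefl _

theorem BS_zero (hG : ∀ s : G, s ≠ 1 → Set.Infinite {y : G | ∃ h, y = h * s * h⁻¹})
    (hT : TrD π P σ) (hadj : ∀ g, adjoint (π g) = π g⁻¹)
    (hSπ : ∀ g v, S (π g v) = rho (ι3 g) (S v)) (hSP : ∀ x, P (adjoint S ∘L rho x ∘L S))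
    (x : G × G × G) (hx : ∀ g, x ≠ ι3 g) : adjoint S ∘L rho x ∘L S = 0 := by
  refine hT.sep (hSP x) fun g => ?_
  rw [← BS_left hadj hSπ]
  refine phi_BS_zero hG hT hadj hSπ hSP _ fun h => ?_
  apply hx g⁻¹
  rw [map_inv]
  exact eq_inv_of_mul_eq_one_right h

theorem BS_one (hG : ∀ s : G, s ≠ 1 → Set.Infinite {y : G | ∃ h, y = h * s * h⁻¹})
    (hT : TrD π P σ) (hadj : ∀ g, adjoint (π g) = π g⁻¹)
    (hSπ : ∀ g v, S (π g v) = rho (ι3 g) (S v)) (hSP : ∀ x, P (adjoint S ∘L rho x ∘L S)) :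
    ∃ z : ℂ, adjoint S ∘L S = z • (1 : H →L[ℂ] H) := by
  have h1 : adjoint S ∘L rho (1 : G × G × G) ∘L S = adjoint S ∘L S := by
    rw [rho_one]
    rfl
  have hP := hSP 1
  rw [h1] at hP
  refine ⟨phi σ (adjoint S ∘L S) / phi σ 1, ?_⟩
  rw [← sub_eq_zero]
  refine hT.sep (hT.sub hP (hT.smul _ hT.one)) fun g => ?_
  rw [mul_sub, phi_sub, mul_smul_comm, mul_one, phi_smul]
  by_cases hg : g = 1
  · subst hg
    rw [map_one, one_mul, div_mul_cancel₀ _ hT.ne, sub_self]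
  · rw [hT.zero g hg, mul_zero, sub_zero, ← h1, ← BS_left hadj hSπ, mul_one]
    refine phi_BS_zero hG hT hadj hSπ hSP _ fun h => hg ?_
    exact congrArg Prod.fst h

theorem norm_S_sq {z : ℂ} (hz : adjoint S ∘L S = z • (1 : H →L[ℂ] H)) {u : H} (hu : ‖u‖ = 1)
    (v : H) : ‖S v‖ ^ 2 = ‖S u‖ ^ 2 * ‖v‖ ^ 2 := by
  have key : ∀ v, ((‖S v‖ ^ 2 : ℝ) : ℂ) = z * ((‖v‖ ^ 2 : ℝ) : ℂ) := by
    intro v
    have h1 : ⟪v, (adjoint S ∘L S) v⟫_ℂ = ⟪S v, S v⟫_ℂ := by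
      rw [comp_apply, adjoint_inner_right]
    rw [hz, smul_apply, inner_smul_right, one_apply_eq_self, inner_self_eq_norm_sq_to_K,
      inner_self_eq_norm_sq_to_K] at h1
    push_cast
    exact h1.symm
  have h2 := key u
  rw [hu] at h2
  have h3 := key v
  have h4 : z = ((‖S u‖ ^ 2 : ℝ) : ℂ) := by
    rw [h2]
    simp
  rw [h4] at h3
  exact_mod_cast h3

/-- Orthogonality of the translates. -/
theorem sum_adjS_le {y : G × G → G × G × G} (hy : ∀ p q, p ≠ q → ∀ g, y p * (y q)⁻¹ ≠ ι3 g)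
    (h0 : ∀ x, (∀ g, x ≠ ι3 g) → adjoint S ∘L rho x ∘L S = 0) {κ : ℝ}
    (hκ : ∀ v, ‖S v‖ ^ 2 = κ * ‖v‖ ^ 2) (hκ0 : 0 ≤ κ) (e : Ell2 (G × G × G))
    (F : Finset (G × G)) : ∑ p ∈ F, ‖adjoint S (rho (y p) e)‖ ^ 2 ≤ κ * ‖e‖ ^ 2 := by
  classical
  set r : G × G → H := fun p => adjoint S (rho (y p) e) with hr
  set a : Ell2 (G × G × G) := ∑ p ∈ F, rho (y p)⁻¹ (S (r p)) with ha
  have hi : ∀ x : G × G × G, ∀ v w : Ell2 (G × G × G), ⟪rho x⁻¹ v, w⟫_ℂ = ⟪v, rho x w⟫_ℂ := by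
    intro x v w
    rw [← adjoint_rho, adjoint_inner_left]
  have h1 : ⟪a, e⟫_ℂ = ((∑ p ∈ F, ‖r p‖ ^ 2 : ℝ) : ℂ) := by
    rw [ha, sum_inner, Complex.ofReal_sum]
    refine Finset.sum_congr rfl fun p _ => ?_
    rw [hi, ← adjoint_inner_right, inner_self_eq_norm_sq_to_K]
    push_cast
    rfl
  have h2 : ⟪a, a⟫_ℂ = ((∑ p ∈ F, κ * ‖r p‖ ^ 2 : ℝ) : ℂ) := by
    rw [ha, sum_inner, Complex.ofReal_sum]
    refine Finset.sum_congr rfl fun p hp => ?_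
    rw [inner_sum, Finset.sum_eq_single_of_mem p hp]
    · rw [hi, ← mul_ap, ← rho_mul, mul_inv_cancel, rho_one, one_apply_eq_self,
        inner_self_eq_norm_sq_to_K, ← hκ]
      push_cast
      rfl
    · intro q _ hqp
      rw [hi, ← mul_ap, ← rho_mul, ← adjoint_inner_right]
      have h3 := h0 _ (hy p q (Ne.symm hqp))
      have h4 : (adjoint S) ((rho (y p * (y q)⁻¹)) (S (r q))) = 0 :=
        congrArg (fun L : H →L[ℂ] H => L (r q)) h3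
      rw [h4, inner_zero_right]
  have h3 : ‖a‖ ^ 2 = κ * ∑ p ∈ F, ‖r p‖ ^ 2 := by
    rw [Finset.mul_sum]
    refine Complex.ofReal_injective ?_
    rw [← h2, inner_self_eq_norm_sq_to_K]
    push_cast
    rfl
  set Q : ℝ := ∑ p ∈ F, ‖r p‖ ^ 2 with hQ
  have hQ0 : 0 ≤ Q := Finset.sum_nonneg fun _ _ => by positivity
  have h4 : Q ≤ ‖a‖ * ‖e‖ := by
    have h5 := norm_inner_le_norm (𝕜 := ℂ) a e
    rw [h1, Complex.norm_real, Real.norm_of_nonneg hQ0] at h5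
    exact h5
  have h5 : Q ^ 2 ≤ κ * Q * ‖e‖ ^ 2 := by
    calc Q ^ 2 ≤ (‖a‖ * ‖e‖) ^ 2 := by gcongr
      _ = κ * Q * ‖e‖ ^ 2 := by rw [mul_pow, h3]
  by_cases hQz : Q = 0
  · rw [hQz]; positivity
  · have hQp : 0 < Q := lt_of_le_of_ne hQ0 (Ne.symm hQz)
    have h6 : Q * Q ≤ Q * (κ * ‖e‖ ^ 2) := by nlinarith
    exact le_of_mul_le_mul_left h6 hQp

/-- Coset representatives. -/
def cosE : (G × G) × G ≃ G × G × G where
  toFun q := (q.1.1⁻¹ * q.2⁻¹, q.1.2⁻¹ * q.2⁻¹, q.2⁻¹)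
  invFun x := ((x.2.2 * x.1⁻¹, x.2.2 * x.2.1⁻¹), x.2.2⁻¹)
  left_inv q := by
    obtain ⟨⟨a, b⟩, g⟩ := q
    simp
  right_inv x := by
    obtain ⟨a, b, c⟩ := x
    simp

theorem cosE_apply (a b g : G) : cosE ((a, b), g) = (ι3 g * (a, b, 1))⁻¹ := by
  simp [cosE, ι3_apply]

/-- The index inequality. -/
theorem index_le (hG : ∀ s : G, s ≠ 1 → Set.Infinite {y : G | ∃ h, y = h * s * h⁻¹})
    (hT : TrD π P σ) (hadj : ∀ g, adjoint (π g) = π g⁻¹)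
    {u : H} (hu : ‖u‖ = 1) {t : ℝ} (ht : 0 < t)
    (hfr : ∀ v, HasSum (fun g => ‖⟪π g u, v⟫_ℂ‖ ^ 2) (t * ‖v‖ ^ 2))
    {p : Ell2 G →L[ℂ] Ell2 G} (hpa : adjoint p = p)
    (hpr : ∀ g, p * rho g = rho g * p) (hpn : ‖p (dl 1)‖ ^ 2 = t⁻¹)
    (hS0 : S ≠ 0) (hSπ : ∀ g v, S (π g v) = rho (ι3 g) (S v))
    (hSp : ∀ v, tens p (tens (bar p) p) (S v) = S v)
    (hSP : ∀ x, P (adjoint S ∘L rho x ∘L S)) : t ≤ 1 := by
  obtain ⟨z, hz⟩ := BS_one hG hT hadj hSπ hSP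
  have hκ := norm_S_sq hz hu
  set κ : ℝ := ‖S u‖ ^ 2 with hκd
  have hκ0 : 0 < κ := by
    by_contra hn
    have h0 : κ = 0 := le_antisymm (not_lt.mp hn) (by positivity)
    apply hS0
    ext1 v
    have h1 := hκ v
    rw [h0, zero_mul] at h1
    rw [zero_apply, ← norm_eq_zero]
    exact pow_eq_zero_iff two_ne_zero |>.mp h1
  set p3 : Ell2 (G × G × G) →L[ℂ] Ell2 (G × G × G) := tens p (tens (bar p) p) with hp3
  have hp3a : adjoint p3 = p3 := by rw [hp3, adjoint_tens, adjoint_tens, adjoint_bar, hpa]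
  have hbr : ∀ g : G, bar p * rho g = rho g * bar p := by
    intro g
    rw [← bar_rho g, ← bar_mul, ← bar_mul, hpr]
  have hp3r : ∀ x : G × G × G, p3 * rho x = rho x * p3 := by
    rintro ⟨a, b, c⟩
    rw [hp3, ← tens_rho, ← tens_rho, ← tens_mul, ← tens_mul, ← tens_mul, ← tens_mul, hpr, hpr,
      hbr]
  set e : Ell2 (G × G × G) := p3 (dl (1, 1, 1)) with he
  have hen : ‖e‖ ^ 2 = (t⁻¹) ^ 3 := by
    rw [he, hp3, tens_dl, tens_dl, norm_tv, norm_tv, bar_dl, norm_cj, ← hpn]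
    ring
  have hg : ∀ x : G × G × G, ⟪rho x e, S u⟫_ℂ = (S u) x⁻¹ := by
    intro x
    have h1 : rho x e = p3 (rho x (dl (1, 1, 1))) := by
      rw [he, ← mul_ap, ← hp3r]
      rfl
    have h2 : ((1, 1, 1) : G × G × G) * x⁻¹ = x⁻¹ := one_mul x⁻¹
    rw [h1, ← adjoint_inner_right, hp3a, hSp, rho_dl, inner_dl, h2]
  have hsum1 : HasSum (fun x => ‖(S u) x‖ ^ 2) κ := by
    rw [hκd, norm_sq]
    exact (summable_sq _).hasSum
  have hsum2 := (cosE (G := G)).hasSum_iff.mpr hsum1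
  set y : G × G → G × G × G := fun q => (q.1, q.2, 1) with hy
  have hfib : ∀ q : G × G, HasSum (fun g => ((fun x => ‖(S u) x‖ ^ 2) ∘ (cosE (G := G))) (q, g))
      (t * ‖adjoint S (rho (y q) e)‖ ^ 2) := by
    intro q
    have h1 := hfr (adjoint S (rho (y q) e))
    have h2 := (Equiv.inv G).hasSum_iff.mpr h1
    refine h2.congr_fun ?_ |> fun h => h
    intro g
    obtain ⟨a, b⟩ := q
    change ‖(S u) (cosE ((a, b), g))‖ ^ 2 = ‖⟪π g⁻¹ u, adjoint S (rho (y (a, b)) e)⟫_ℂ‖ ^ 2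
    rw [cosE_apply, ← hg, adjoint_inner_right, hSπ, map_inv, ← adjoint_rho, adjoint_inner_left,
      rho_mul, norm_inner_symm]
    rfl
  have hsum3 := hsum2.prod_fiberwise hfib
  have hyne : ∀ p q, p ≠ q → ∀ g, y p * (y q)⁻¹ ≠ ι3 g := by
    rintro ⟨a, b⟩ ⟨a', b'⟩ hne g h
    rw [hy, ι3_apply] at h
    simp only [Prod.inv_mk, Prod.mk_mul_mk, inv_one, mul_one, Prod.mk.injEq] at h
    obtain ⟨h1, h2, h3⟩ := h
    rw [← h3] at h1 h2
    exact hne (by rw [mul_inv_eq_one.mp h1, mul_inv_eq_one.mp h2])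
  have h0 : ∀ x, (∀ g, x ≠ ι3 g) → adjoint S ∘L rho x ∘L S = 0 := fun x hx =>
    BS_zero hG hT hadj hSπ hSP x hx
  have hle : κ ≤ t * (κ * ‖e‖ ^ 2) := by
    refine hasSum_le_of_sum_le hsum3 fun F => ?_
    rw [← Finset.mul_sum]
    have := sum_adjS_le hyne h0 hκ hκ0.le e F
    gcongr
  rw [hen] at hle
  have h5 : 1 ≤ t * (t⁻¹) ^ 3 := by
    have : κ * 1 ≤ κ * (t * (t⁻¹) ^ 3) := by linarith
    exact le_of_mul_le_mul_left this hκ0
  have h6 : t * (t⁻¹) ^ 3 = (t ^ 2)⁻¹ := by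
    field_simp
  rw [h6, one_le_inv₀ (by positivity)] at h5
  nlinarith

end

end Vale.Agent.P092.R2.H289
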