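import Vale.Agent.P092.H108.Iso
import Vale.Agent.P092.R2.H289.Ineq

/-!
Traces given by finitely many vectors are preserved by `*`-isomorphisms (port of
`H108.trace_aux` from one vector to finitely many vectors).
-/

set_option linter.all false

namespace Vale.Agent.P092.R2.H289
open Vale.Agent.P092.H160
open Vale.Agent.P092.H108 (DC normal_key star_apply_inner cjR evalR exists_fixed_hull exists_small
  exists_min_fixed)
open Filter Topology ContinuousLinearMap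
open scoped InnerProductSpace ComplexOrder

section general

variable {H : Type*} [NormedAddCommGroup H] [InnerProductSpace ℂ H] [CompleteSpace H]

theorem phi_add {K : Type} [NormedAddCommGroup K] [InnerProductSpace ℂ K] {m : ℕ} (σ : Fin m → K)
    (A B : K →L[ℂ] K) : phi σ (A + B) = phi σ A + phi σ B := by
  simp only [phi, add_apply, inner_add_right, Finset.sum_add_distrib]

theorem trace_auxS {K : Type} [NormedAddCommGroup K] [InnerProductSpace ℂ K] [CompleteSpace K]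
    {M : StarSubalgebra ℂ (H →L[ℂ] H)} {N : StarSubalgebra ℂ (K →L[ℂ] K)}
    (hM : DC M) (hN : DC N) (θ : M ≃⋆ₐ[ℂ] N) (e : H)
    (he : ∀ T ∈ M, T e = 0 → T = 0) {m : ℕ} (f : Fin m → K)
    {G : Type*} [Group G] (U : G → M) (hU : ∀ g, star (U g) * U g = 1)
    (hUU : ∀ g h, U (g * h) = U g * U h)
    (W : G → H → H) (hWc : ∀ g, Continuous (W g)) (hWn : ∀ g x, ‖W g x‖ ≤ ‖x‖)
    (hWE : ∀ g, ∀ y : M, W g ((y : H →L[ℂ] H) e) = ((U g * y * star (U g) : M) : H →L[ℂ] H) e)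
    (hW0 : ∀ ζ, (∀ g, W g ζ = ζ) → inner ℂ e ζ = 0 → ζ = 0)
    (htr : ∀ x y : N, phi f ((x * y : N) : K →L[ℂ] K) = phi f ((y * x : N) : K →L[ℂ] K))
    (T : M) (hT1 : ‖(T : H →L[ℂ] H)‖ ≤ 1)
    (hT0 : ∀ g, inner ℂ e (((U g * T * star (U g) : M) : H →L[ℂ] H) e) = 0) :
    phi f (θ T : K →L[ℂ] K) = 0 := by
  by_contra hne
  obtain ⟨cj, hcj⟩ : ∃ cj : G → (H →L[ℂ] H) →ₗ[ℝ] (H →L[ℂ] H),
      cj = fun g => cjR (U g : H →L[ℂ] H) (star (U g : H →L[ℂ] H)) := ⟨_, rfl⟩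
  have hcje : ∀ g (y : M), cj g (y : H →L[ℂ] H) = ((U g * y * star (U g) : M) : H →L[ℂ] H) := by
    intro g y
    rw [hcj]
    rfl
  have hcc : ∀ g h x, cj g (cj h x) = cj (g * h) x := by
    intro g h x
    rw [hcj]
    change (U g : H →L[ℂ] H) * ((U h : H →L[ℂ] H) * x * star (U h : H →L[ℂ] H)) *
      star (U g : H →L[ℂ] H) = (U (g * h) : H →L[ℂ] H) * x * star (U (g * h) : H →L[ℂ] H)
    rw [hUU]
    change _ = ((U g : H →L[ℂ] H) * (U h : H →L[ℂ] H)) * x *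
      star ((U g : H →L[ℂ] H) * (U h : H →L[ℂ] H))
    rw [star_mul]
    simp only [mul_assoc]
  obtain ⟨C, hC⟩ : ∃ C : Set (H →L[ℂ] H),
    C = convexHull ℝ (Set.range fun g => cj g (T : H →L[ℂ] H)) := ⟨_, rfl⟩
  have hUn : ∀ g, ‖(U g : H →L[ℂ] H)‖ ≤ 1 := by
    intro g
    have h1 : star (U g : H →L[ℂ] H) * (U g : H →L[ℂ] H) = 1 := congrArg Subtype.val (hU g)
    have h2 : ‖(U g : H →L[ℂ] H)‖ * ‖(U g : H →L[ℂ] H)‖ ≤ 1 := by
      rw [← CStarRing.norm_star_mul_self, h1]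
      exact ContinuousLinearMap.norm_id_le
    nlinarith [norm_nonneg (U g : H →L[ℂ] H)]
  -- properties of the elements of the hull
  have hP : ∀ y ∈ C, ∃ hy : y ∈ M, ‖y‖ ≤ 1 ∧ phi f (θ ⟨y, hy⟩ : K →L[ℂ] K) =
      phi f (θ T : K →L[ℂ] K) ∧ inner ℂ e (y e) = 0 := by
    have hconv : Convex ℝ {y : H →L[ℂ] H | ∃ hy : y ∈ M, ‖y‖ ≤ 1 ∧
        phi f (θ ⟨y, hy⟩ : K →L[ℂ] K) =
      phi f (θ T : K →L[ℂ] K) ∧ inner ℂ e (y e) = 0} := by
      rintro x ⟨hx, hx1, hx2, hx3⟩ y ⟨hy, hy1, hy2, hy3⟩ a b ha hb hab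
      have h3 : a • x + b • y = (a : ℂ) • x + (b : ℂ) • y := by
        simp only [Complex.coe_smul]
      have hmem : a • x + b • y ∈ M := by
        rw [h3]
        exact add_mem (M.smul_mem hx _) (M.smul_mem hy _)
      have hel : (⟨a • x + b • y, hmem⟩ : M) = (a : ℂ) • ⟨x, hx⟩ + (b : ℂ) • ⟨y, hy⟩ := by
        ext1
        exact h3
      refine ⟨hmem, ?_, ?_, ?_⟩
      · calc ‖a • x + b • y‖ ≤ ‖a • x‖ + ‖b • y‖ := norm_add_le _ _
          _ = a * ‖x‖ + b * ‖y‖ := by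
              rw [norm_smul, norm_smul, Real.norm_of_nonneg ha, Real.norm_of_nonneg hb]
          _ ≤ a * 1 + b * 1 := by gcongr
          _ = 1 := by rw [← add_mul, hab, one_mul]
      · rw [hel, map_add, map_smul, map_smul]
        change phi f ((a : ℂ) • (θ ⟨x, hx⟩ : K →L[ℂ] K) + (b : ℂ) • (θ ⟨y, hy⟩ : K →L[ℂ] K)) = _
        rw [phi_add, phi_smul, phi_smul, hx2, hy2, ← add_mul,
          ← Complex.ofReal_add, hab, Complex.ofReal_one, one_mul]
      · rw [h3]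
        change inner ℂ e ((a : ℂ) • (x e) + (b : ℂ) • (y e)) = _
        rw [inner_add_right, inner_smul_right, inner_smul_right, hx3, hy3, mul_zero, mul_zero,
          add_zero]
    intro y hy
    rw [hC] at hy
    refine convexHull_min ?_ hconv hy
    rintro _ ⟨g, rfl⟩
    have hmem : cj g (T : H →L[ℂ] H) ∈ M := by rw [hcje]; exact SetLike.coe_mem _
    have hel : (⟨cj g (T : H →L[ℂ] H), hmem⟩ : M) = U g * T * star (U g) :=
      Subtype.ext (hcje g T)
    refine ⟨hmem, ?_, ?_, ?_⟩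
    · rw [hcj]
      change ‖(U g : H →L[ℂ] H) * (T : H →L[ℂ] H) * star (U g : H →L[ℂ] H)‖ ≤ 1
      calc _ ≤ ‖(U g : H →L[ℂ] H) * (T : H →L[ℂ] H)‖ * ‖star (U g : H →L[ℂ] H)‖ := norm_mul_le _ _
        _ ≤ (‖(U g : H →L[ℂ] H)‖ * ‖(T : H →L[ℂ] H)‖) * ‖star (U g : H →L[ℂ] H)‖ := by
            gcongr
            exact norm_mul_le _ _
        _ ≤ (1 * 1) * 1 := by
            rw [norm_star]
            gcongr
            · exact hUn g
            · exact hUn g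
        _ = 1 := by norm_num
    · rw [hel, map_mul, htr, map_mul, ← mul_assoc, ← map_mul, hU, map_one, one_mul]
    · have h5 := hT0 g
      rw [← hcje] at h5
      exact h5
  have hWE' : ∀ g, ∀ y ∈ C, W g (evalR e y) = evalR e (cj g y) := by
    intro g y hy
    obtain ⟨hy, -⟩ := hP y hy
    have h1 := hWE g ⟨y, hy⟩
    have h2 := hcje g ⟨y, hy⟩
    change W g (y e) = (cj g y) e
    rw [h1]
    exact (DFunLike.congr_fun h2 e).symm
  rw [hC] at hWE'
  obtain ⟨ζ, hζ, hfix⟩ := exists_fixed_hull (evalR e) cj (T : H →L[ℂ] H) hcc W hWc hWn hWE'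
  rw [← hC] at hζ
  have hζ0 : ζ = 0 := by
    refine hW0 ζ hfix ?_
    have hcl : IsClosed {ξ : H | inner ℂ e ξ = 0} := isClosed_eq (by fun_prop) continuous_const
    refine closure_minimal ?_ hcl hζ
    rintro _ ⟨y, hy, rfl⟩
    exact (hP y hy).choose_spec.2.2
  rw [hζ0] at hζ
  have hy : ∀ n : ℕ, ∃ y : M, (y : H →L[ℂ] H) ∈ C ∧
      ‖(y : H →L[ℂ] H) e‖ ^ 2 ≤ (1 / 4) ^ n := by
    intro n
    obtain ⟨y, hy, hyn⟩ := exists_small (evalR e) hζ n
    exact ⟨⟨y, (hP y hy).choose⟩, hy, hyn⟩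
  choose y hyC hyn using hy
  have hpos : 0 < ‖phi f (θ T : K →L[ℂ] K)‖ := norm_pos_iff.2 hne
  set c : ℝ := ‖phi f (θ T : K →L[ℂ] K)‖ with hc
  -- the constants
  set A : ℝ := ∑ i, ‖f i‖ + 1 with hA
  have hA0 : 0 < A := by
    have : 0 ≤ ∑ i, ‖f i‖ := Finset.sum_nonneg fun _ _ => norm_nonneg _
    positivity
  have hex : ∀ n, ∃ i : Fin m, c / A ≤ ‖(θ (y n) : K →L[ℂ] K) (f i)‖ := by
    intro n
    by_contra hcon
    push Not at hcon
    obtain ⟨hy1, -, hy2, -⟩ := hP _ (hyC n)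
    have h1 : c ≤ ∑ i, ‖f i‖ * ‖(θ (y n) : K →L[ℂ] K) (f i)‖ := by
      rw [hc, ← hy2]
      refine (norm_sum_le _ _).trans (Finset.sum_le_sum fun i _ => norm_inner_le_norm _ _)
    have h2 : ∑ i, ‖f i‖ * ‖(θ (y n) : K →L[ℂ] K) (f i)‖ ≤ ∑ i, ‖f i‖ * (c / A) :=
      Finset.sum_le_sum fun i _ => by
        have := (hcon i).le
        gcongr
    rw [← Finset.sum_mul] at h2
    have h3 : (∑ i, ‖f i‖) * (c / A) < c := by
      have h4 : (∑ i, ‖f i‖) * (c / A) = c - c / A := by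
        have : ∑ i, ‖f i‖ = A - 1 := by rw [hA]; ring
        rw [this]
        field_simp
      rw [h4]
      have : 0 < c / A := by positivity
      linarith
    linarith
  choose ix hix using hex
  obtain ⟨i, hi⟩ : ∃ i : Fin m, (ix ⁻¹' {i}).Infinite := by
    by_contra hcon
    push Not at hcon
    have h1 : (⋃ i : Fin m, ix ⁻¹' {i}).Finite := Set.finite_iUnion fun i => hcon i
    have h2 : (⋃ i : Fin m, ix ⁻¹' {i}) = Set.univ := by
      ext n
      simp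
    rw [h2] at h1
    exact Set.infinite_univ h1
  set ψ : ℕ → ℕ := Nat.nth (fun n => ix n = i) with hψ
  have hi' : (setOf fun n => ix n = i).Infinite := hi
  have hψm : StrictMono ψ := Nat.nth_strictMono hi'
  have hψi : ∀ n, ix (ψ n) = i := fun n => Nat.nth_mem_of_infinite hi' n
  refine normal_key hM hN θ e he (f i) (fun n => y (ψ n))
    (fun n => (hP _ (hyC _)).choose_spec.1) (fun n => (hyn _).trans ?_) ((c / A) ^ 2)
    (by positivity) fun n => ?_
  · exact pow_le_pow_of_le_one (by norm_num) (by norm_num) (hψm.id_le n)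
  have h3 : inner ℂ (f i) ((θ (star (y (ψ n)) * y (ψ n)) : K →L[ℂ] K) (f i)) =
      ((‖(θ (y (ψ n)) : K →L[ℂ] K) (f i)‖ ^ 2 : ℝ) : ℂ) := by
    rw [map_mul, map_star]
    change inner ℂ (f i) ((star (θ (y (ψ n)) : K →L[ℂ] K)) ((θ (y (ψ n)) : K →L[ℂ] K) (f i))) = _
    rw [← star_apply_inner, star_star, inner_self_eq_norm_sq_to_K]
    norm_cast
  rw [h3, Complex.ofReal_re]
  have h4 := hix (ψ n)
  rw [hψi] at h4
  gcongr

end general

end Vale.Agent.P092.R2.H289
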