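import Vale.Agent.P092.R2.H289.AF
import Vale.Agent.P092.R2.H289.Trace
import Vale.Agent.P092.H160.TightP4

/-!
Abstract modules over the regular representation of a group `A`, and the frame of the image of a
second group under an isomorphism onto the commutant.
-/

set_option linter.all false

open scoped InnerProductSpace
open Filter Topology ContinuousLinearMap

namespace Vale.Agent.P092.R2.H289
open Vale.Agent.P092.H160
open Vale.Agent.P092.H108 (DC)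

section

variable {A G H : Type} [Group A] [Group G] [NormedAddCommGroup H] [InnerProductSpace ℂ H]
  [CompleteSpace H]

/-- The data of the module `q ℓ²(A × Fin (m+1))`, `q ≥ e₀₀`: right translations `α`, generators
`σ i = q δ_(1,i)`, and the operators `L g = λ(g) ⊗ e₀₀` of the commutant. -/
structure Mod {m : ℕ} (α : A →* (H →L[ℂ] H)) (σ : Fin (m + 1) → H) (L : A → (H →L[ℂ] H)) :
    Prop where
  adj : ∀ g, adjoint (α g) = α g⁻¹
  tot : ∀ v, (∀ g i, ⟪α g (σ i), v⟫_ℂ = 0) → v = 0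
  cyc : ∀ g i, ∃ X : H →L[ℂ] H, CL α X ∧ X (σ 0) = α g (σ i)
  tr : ∀ {X Y : H →L[ℂ] H}, CL α X → CL α Y → phi σ (X * Y) = phi σ (Y * X)
  nrm : ‖σ 0‖ = 1
  Lc : ∀ g, CL α (L g)
  Ladj : ∀ g, adjoint (L g) = L g⁻¹
  L0 : ∀ g, L g (σ 0) = α g⁻¹ (σ 0)
  Li : ∀ g i, i ≠ 0 → L g (σ i) = 0
  hs : ∀ x y, HasSum (fun g => ⟪x, α g (σ 0)⟫_ℂ * ⟪α g (σ 0), y⟫_ℂ) ⟪x, L 1 y⟫_ℂ
  orth : ∀ g, g ≠ 1 → ⟪σ 0, α g (σ 0)⟫_ℂ = 0

/-- The commutant of a representation. -/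
noncomputable def NN (α : A →* (H →L[ℂ] H)) : StarSubalgebra ℂ (H →L[ℂ] H) :=
  StarSubalgebra.centralizer ℂ (Set.range α)

theorem mem_NN {α : A →* (H →L[ℂ] H)} (hadj : ∀ g, adjoint (α g) = α g⁻¹) {T : H →L[ℂ] H} :
    T ∈ NN α ↔ CL α T := by
  rw [NN, StarSubalgebra.mem_centralizer_iff]
  constructor
  · intro h g v
    have h1 := (h (α g) ⟨g, rfl⟩).1
    exact (congrArg (fun L : H →L[ℂ] H => L v) h1).symm
  · rintro h _ ⟨g, rfl⟩
    constructor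
    · ext1 v
      exact (h g v).symm
    · rw [star_eq_adjoint, hadj]
      ext1 v
      exact (h g⁻¹ v).symm

theorem dc_NN {α : A →* (H →L[ℂ] H)} : DC (NN α) := by
  refine ⟨(NN α : Set (H →L[ℂ] H)), ?_⟩
  apply le_antisymm
  · intro T hT
    rw [StarSubalgebra.mem_centralizer_iff]
    intro y hy
    have hy' : y ∈ StarSubalgebra.centralizer ℂ (NN α : Set (H →L[ℂ] H)) := hy
    rw [StarSubalgebra.mem_centralizer_iff] at hy'
    have h1 := hy' T hT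
    have h2 := hy' (star T) (star_mem hT)
    refine ⟨h1.1.symm, ?_⟩
    have h3 := congrArg star h2.1
    rw [star_mul, star_mul, star_star] at h3
    exact h3
  · intro T hT
    rw [StarSubalgebra.mem_centralizer_iff] at hT
    rw [NN, StarSubalgebra.mem_centralizer_iff]
    intro y hy
    refine hT y ?_
    change y ∈ StarSubalgebra.centralizer ℂ (NN α : Set (H →L[ℂ] H))
    rw [StarSubalgebra.mem_centralizer_iff]
    intro z hz
    have hz' : z ∈ StarSubalgebra.centralizer ℂ (Set.range α) := hz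
    rw [StarSubalgebra.mem_centralizer_iff] at hz'
    have h1 := hz' y hy
    refine ⟨h1.1.symm, ?_⟩
    have h3 := congrArg star h1.2
    rw [star_mul, star_mul, star_star] at h3
    exact h3

namespace Mod

variable {m : ℕ} {α : A →* (H →L[ℂ] H)} {σ : Fin (m + 1) → H} {L : A → (H →L[ℂ] H)}

/-- The dimension. -/
noncomputable def dm (σ : Fin (m + 1) → H) : ℝ := ∑ i, ‖σ i‖ ^ 2

theorem phi_one : phi σ (1 : H →L[ℂ] H) = (dm σ : ℂ) := by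
  rw [phi, dm, Complex.ofReal_sum]
  refine Finset.sum_congr rfl fun i _ => ?_
  rw [one_apply_eq_self, inner_self_eq_norm_sq_to_K]
  push_cast
  rfl

theorem dm_pos (h : Mod α σ L) : 0 < dm σ := by
  have h1 : ‖σ 0‖ ^ 2 ≤ dm σ :=
    Finset.single_le_sum (f := fun i => ‖σ i‖ ^ 2) (fun _ _ => by positivity) (Finset.mem_univ 0)
  rw [h.nrm] at h1
  linarith

theorem dm_ne (h : Mod α σ L) : (dm σ : ℂ) ≠ 0 := by exact_mod_cast h.dm_pos.ne'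

theorem ext_op (h : Mod α σ L) {X Y : H →L[ℂ] H} (he : ∀ g i, X (α g (σ i)) = Y (α g (σ i))) :
    X = Y := by
  have h2 : adjoint (X - Y) = 0 := by
    ext1 v
    refine h.tot _ fun g i => ?_
    rw [adjoint_inner_right, sub_apply, he, sub_self, inner_zero_left]
  have h3 : X - Y = 0 := by
    rw [← adjoint_adjoint (X - Y), h2, map_zero]
  exact sub_eq_zero.mp h3

theorem ext_cl (h : Mod α σ L) {X Y : H →L[ℂ] H} (hX : CL α X) (hY : CL α Y)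
    (he : ∀ i, X (σ i) = Y (σ i)) : X = Y :=
  h.ext_op fun g i => by rw [hX, hY, he]

theorem L_one_mul (h : Mod α σ L) : L 1 * L 1 = L 1 := by
  refine h.ext_cl ((h.Lc 1).mul (h.Lc 1)) (h.Lc 1) fun i => ?_
  change L 1 (L 1 (σ i)) = L 1 (σ i)
  by_cases hi : i = 0
  · subst hi
    rw [h.L0, inv_one, map_one, one_apply_eq_self, h.L0, inv_one, map_one, one_apply_eq_self]
  · rw [h.Li 1 i hi, map_zero]

theorem L_one_zero (h : Mod α σ L) : L 1 (σ 0) = σ 0 := by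
  rw [h.L0, inv_one, map_one, one_apply_eq_self]

theorem L_one_adj (h : Mod α σ L) : adjoint (L 1) = L 1 := by rw [h.Ladj, inv_one]

theorem inner_left (h : Mod α σ L) (g : A) (v w : H) : ⟪α g v, w⟫_ℂ = ⟪v, α g⁻¹ w⟫_ℂ := by
  rw [← h.adj, adjoint_inner_right]

theorem norm_map (h : Mod α σ L) (g : A) (v : H) : ‖α g v‖ = ‖v‖ := by
  have h1 : ⟪α g v, α g v⟫_ℂ = ⟪v, v⟫_ℂ := by
    rw [h.inner_left, ← Fr.ap_mul, inv_mul_cancel, Fr.ap_one]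
  rw [inner_self_eq_norm_sq_to_K, inner_self_eq_norm_sq_to_K] at h1
  have h2 : ‖α g v‖ ^ 2 = ‖v‖ ^ 2 := by exact_mod_cast h1
  exact (pow_left_inj₀ (norm_nonneg _) (norm_nonneg _) two_ne_zero).mp h2

/-- `φ` on operators of the form `B e`. -/
theorem phi_mul_e (h : Mod α σ L) (B : H →L[ℂ] H) : phi σ (B * L 1) = ⟪σ 0, B (σ 0)⟫_ℂ := by
  rw [phi, Finset.sum_eq_single_of_mem 0 (Finset.mem_univ _)]
  · rw [mul_ap, h.L_one_zero]
  · intro i _ hi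
    rw [mul_ap, h.Li 1 i hi, map_zero, inner_zero_right]

/-- The cyclic subspace of the commutant is dense. -/
theorem dense (h : Mod α σ L) {S : Set H} (hS : IsClosed S) (hB : ∀ B, CL α B → B (σ 0) ∈ S)
    (v : H) : v ∈ S := by
  set V : Submodule ℂ H :=
    { carrier := {v | ∃ B, CL α B ∧ B (σ 0) = v}
      add_mem' := by
        rintro _ _ ⟨B, hB, rfl⟩ ⟨C, hC, rfl⟩
        refine ⟨B + C, fun s v => ?_, rfl⟩
        rw [add_apply, add_apply, hB, hC, map_add]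
      zero_mem' := ⟨0, CL.zero, rfl⟩
      smul_mem' := by
        rintro c _ ⟨B, hB, rfl⟩
        exact ⟨c • B, hB.smul c, rfl⟩ } with hV
  have h1 : V.topologicalClosure = ⊤ := by
    rw [Submodule.topologicalClosure_eq_top_iff, Submodule.eq_bot_iff]
    intro w hw
    refine h.tot w fun g i => ?_
    rw [Submodule.mem_orthogonal] at hw
    obtain ⟨X, hX, hX0⟩ := h.cyc g i
    exact hw _ ⟨X, hX, hX0⟩
  have h2 : v ∈ V.topologicalClosure := by rw [h1]; trivial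
  have h3 : v ∈ closure (V : Set H) := by
    rw [← Submodule.topologicalClosure_coe]
    exact h2
  refine closure_minimal ?_ hS h3
  rintro _ ⟨B, hB', rfl⟩
  exact hB B hB'

end Mod

/-! ### The isomorphism -/

section iso

variable {m : ℕ} {α : A →* (H →L[ℂ] H)} {σ : Fin (m + 1) → H} {L : A → (H →L[ℂ] H)}

theorem phi_theta_aux (hG : ∀ g : G, g ≠ 1 → Set.Infinite {y : G | ∃ h, y = h * g * h⁻¹})
    (h : Mod α σ L) (θ : LG G ≃⋆ₐ[ℂ] NN α) (T : LG G)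
    (h1 : ‖(T : Ell2 G →L[ℂ] Ell2 G)‖ ≤ 1) (h0 : tr T = 0) : phi σ (θ T : H →L[ℂ] H) = 0 := by
  refine trace_auxS H108.dc_LG dc_NN θ (dl 1) (fun T hT h => H108.eq_zero_of_dl hT h) σ
    (G := G) uu H108.star_uu_mul (fun g h => ?_) (fun g x => lam g (rho g x))
    (fun g => (lam g).continuous.comp (rho g).continuous)
    (fun g x => le_of_eq ((norm_rei _ _).trans (norm_rei _ _))) (fun g y => ?_)
    (fun ζ hζ hζ1 => H108.fixed_eq_zero hG hζ ((inner_dl 1 ζ).symm.trans hζ1))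
    (fun x y => h.tr ((mem_NN h.adj).mp x.2) ((mem_NN h.adj).mp y.2)) T h1 (fun g => ?_)
  · ext1
    exact lam_mul g h
  · change lam g (rho g ((y : Ell2 G →L[ℂ] Ell2 G) (dl 1))) =
      lam g ((y : Ell2 G →L[ℂ] Ell2 G) ((star (lam g) : Ell2 G →L[ℂ] Ell2 G) (dl 1)))
    have h3 : (y : Ell2 G →L[ℂ] Ell2 G) (rho g (dl 1)) =
      rho g ((y : Ell2 G →L[ℂ] Ell2 G) (dl 1)) := DFunLike.congr_fun (LG_comm_rho y.2 g) _
    rw [star_lam, ← h3, rho_dl, lam_dl, one_mul, mul_one]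
  · change tr (uu g * T * star (uu g)) = 0
    rw [H108.tr_comm, ← mul_assoc, H108.star_uu_mul, one_mul, h0]

/-- The isomorphism preserves the trace up to the factor `dm σ`. -/
theorem phi_theta (hG : ∀ g : G, g ≠ 1 → Set.Infinite {y : G | ∃ h, y = h * g * h⁻¹})
    (h : Mod α σ L) (θ : LG G ≃⋆ₐ[ℂ] NN α) (T : LG G) :
    phi σ (θ T : H →L[ℂ] H) = (Mod.dm σ : ℂ) * tr T := by
  obtain ⟨S, hS⟩ : ∃ S : LG G, S = T - tr T • 1 := ⟨_, rfl⟩
  have hS0 : tr S = 0 := by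
    rw [hS, sub_eq_add_neg, ← neg_one_smul ℂ (tr T • (1 : LG G)), H108.tr_add, H108.tr_smul,
      H108.tr_smul, H108.tr_one]
    ring
  obtain ⟨c, hc⟩ : ∃ c : ℝ, c = (‖(S : Ell2 G →L[ℂ] Ell2 G)‖ + 1)⁻¹ := ⟨_, rfl⟩
  have hn : 0 < ‖(S : Ell2 G →L[ℂ] Ell2 G)‖ + 1 := by positivity
  have hc0 : 0 < c := by rw [hc]; positivity
  have h1 := phi_theta_aux hG h θ ((c : ℂ) • S) (by
    change ‖(c : ℂ) • (S : Ell2 G →L[ℂ] Ell2 G)‖ ≤ 1
    rw [norm_smul, Complex.norm_real, Real.norm_of_nonneg hc0.le, hc, inv_mul_le_iff₀ hn]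
    linarith) (by rw [H108.tr_smul, hS0, mul_zero])
  have e1 : ((θ ((c : ℂ) • S) : NN α) : H →L[ℂ] H) = (c : ℂ) • (θ S : H →L[ℂ] H) := by
    rw [map_smul]
    rfl
  rw [e1, phi_smul, mul_eq_zero] at h1
  have h2 : phi σ (θ S : H →L[ℂ] H) = 0 := by
    rcases h1 with h1 | h1
    · exact absurd (Complex.ofReal_eq_zero.1 h1) hc0.ne'
    · exact h1
  have h3 : T = S + tr T • 1 := by rw [hS]; abel
  have e2 : ((θ T : NN α) : H →L[ℂ] H) = (θ S : H →L[ℂ] H) + tr T • (1 : H →L[ℂ] H) := by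
    conv_lhs => rw [h3]
    rw [map_add, map_smul, map_one]
    rfl
  rw [e2, phi_add, phi_smul, h2, Mod.phi_one]
  ring

/-- The images of the canonical unitaries. -/
noncomputable def bt (θ : LG G ≃⋆ₐ[ℂ] NN α) : G →* (H →L[ℂ] H) where
  toFun g := (θ (uu g) : H →L[ℂ] H)
  map_one' := by rw [uu_one, map_one]; rfl
  map_mul' g h := by rw [uu_mul, map_mul]; rfl

theorem bt_apply (θ : LG G ≃⋆ₐ[ℂ] NN α) (g : G) : bt θ g = (θ (uu g) : H →L[ℂ] H) := rfl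

theorem th_star (θ : LG G ≃⋆ₐ[ℂ] NN α) (T : LG G) :
    (θ (star T) : H →L[ℂ] H) = adjoint (θ T : H →L[ℂ] H) := by
  have h1 : θ (star T) = star (θ T) := θ.map_star' T
  rw [h1]
  rfl

theorem th_mul (θ : LG G ≃⋆ₐ[ℂ] NN α) (S T : LG G) :
    (θ (S * T) : H →L[ℂ] H) = (θ S : H →L[ℂ] H) * θ T := by
  rw [map_mul]
  rfl

theorem th_sub (θ : LG G ≃⋆ₐ[ℂ] NN α) (S T : LG G) :
    (θ (S - T) : H →L[ℂ] H) = (θ S : H →L[ℂ] H) - θ T := by
  rw [map_sub]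
  rfl

theorem th_inj (θ : LG G ≃⋆ₐ[ℂ] NN α) {S T : LG G}
    (h : (θ S : H →L[ℂ] H) = (θ T : H →L[ℂ] H)) : S = T :=
  EquivLike.injective θ (Subtype.ext h)

theorem bt_adj (θ : LG G ≃⋆ₐ[ℂ] NN α) (g : G) : adjoint (bt θ g) = bt θ g⁻¹ := by
  rw [bt_apply, bt_apply, ← star_uu, th_star]

theorem bt_cl (h : Mod α σ L) (θ : LG G ≃⋆ₐ[ℂ] NN α) (g : G) : CL α (bt θ g) :=
  (mem_NN h.adj).mp (θ (uu g)).2

theorem exists_pre (h : Mod α σ L) (θ : LG G ≃⋆ₐ[ℂ] NN α) {B : H →L[ℂ] H} (hB : CL α B) :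
    ∃ a : LG G, (θ a : H →L[ℂ] H) = B :=
  ⟨θ.symm ⟨B, (mem_NN h.adj).mpr hB⟩, by rw [StarAlgEquiv.apply_symm_apply]⟩

theorem tr_uu_mul (g : G) (a : LG G) :
    tr (uu g * a) = ((a : Ell2 G →L[ℂ] Ell2 G) (dl 1)) g⁻¹ := by
  rw [tr_eq]
  change ⟪(dl 1 : Ell2 G), lam g ((a : Ell2 G →L[ℂ] Ell2 G) (dl 1))⟫_ℂ = _
  rw [inner_dl, lam_apply, mul_one]

theorem trD (hG : ∀ g : G, g ≠ 1 → Set.Infinite {y : G | ∃ h, y = h * g * h⁻¹})
    (h : Mod α σ L) (θ : LG G ≃⋆ₐ[ℂ] NN α) : TrD (bt θ) (CL α) σ where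
  one := CL.one
  sub hA hB := hA.sub hB
  smul c X hX := CL.smul hX c
  conj g X hX := by
    rw [h.tr ((bt_cl h θ g).mul hX) (bt_cl h θ g⁻¹), ← mul_assoc, ← map_mul, inv_mul_cancel,
      map_one, one_mul]
  zero g hg := by
    rw [bt_apply, phi_theta hG h, tr_eq]
    change _ * ⟪(dl 1 : Ell2 G), lam g (dl 1)⟫_ℂ = 0
    rw [lam_dl, mul_one, inner_dl, dl_ne (Ne.symm hg), mul_zero]
  ne := by
    rw [Mod.phi_one]
    exact h.dm_ne
  sep hX h0 := by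
    obtain ⟨a, ha⟩ := exists_pre h θ hX
    have h1 : (a : Ell2 G →L[ℂ] Ell2 G) (dl 1) = 0 := by
      refine eq_zero_of_inner_dl fun g => ?_
      have h2 := h0 g⁻¹
      rw [← ha, bt_apply, ← th_mul, phi_theta hG h, tr_uu_mul, inv_inv] at h2
      exact (mul_eq_zero.mp h2).resolve_left h.dm_ne
    have h3 : a = 0 := Subtype.ext (H108.eq_zero_of_dl a.2 h1)
    rw [← ha, h3, map_zero]
    rfl

theorem frame_aux (hG : ∀ g : G, g ≠ 1 → Set.Infinite {y : G | ∃ h, y = h * g * h⁻¹})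
    (h : Mod α σ L) (θ : LG G ≃⋆ₐ[ℂ] NN α) {B : H →L[ℂ] H} (hB : CL α B) :
    HasSum (fun s => ‖⟪bt θ s (σ 0), B (σ 0)⟫_ℂ‖ ^ 2) (Mod.dm σ * ‖B (σ 0)‖ ^ 2) := by
  obtain ⟨a, ha⟩ := exists_pre h θ hB
  obtain ⟨f, hf⟩ := exists_pre h θ (h.Lc 1)
  have hff : f * f = f := by
    apply th_inj θ
    rw [th_mul, hf, h.L_one_mul]
  have hfs : star f = f := by
    apply th_inj θ
    rw [th_star, hf, h.L_one_adj]
  have key : ∀ b : LG G, ⟪σ 0, (θ b : H →L[ℂ] H) (σ 0)⟫_ℂ = (Mod.dm σ : ℂ) * tr (b * f) := by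
    intro b
    rw [← h.phi_mul_e, ← hf, ← th_mul, phi_theta hG h]
  have h1 : ∀ s, ⟪bt θ s (σ 0), B (σ 0)⟫_ℂ =
      (Mod.dm σ : ℂ) * ((((a * f : LG G) : Ell2 G →L[ℂ] Ell2 G) (dl 1)) s) := by
    intro s
    have h2 : ⟪bt θ s (σ 0), B (σ 0)⟫_ℂ = ⟪σ 0, (θ (uu s⁻¹ * a) : H →L[ℂ] H) (σ 0)⟫_ℂ := by
      rw [th_mul, mul_ap, ← bt_apply, ← bt_adj, adjoint_inner_right, ha]
    rw [h2, key, mul_assoc, tr_uu_mul, inv_inv]
  have h2 : ‖B (σ 0)‖ ^ 2 = Mod.dm σ * ‖((a * f : LG G) : Ell2 G →L[ℂ] Ell2 G) (dl 1)‖ ^ 2 := by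
    have h3 : ((‖B (σ 0)‖ ^ 2 : ℝ) : ℂ) = ⟪σ 0, (θ (star a * a) : H →L[ℂ] H) (σ 0)⟫_ℂ := by
      rw [th_mul, mul_ap, th_star, adjoint_inner_right, ha, inner_self_eq_norm_sq_to_K]
      push_cast
      rfl
    have h4 : tr (star a * a * f) = tr (star (a * f) * (a * f)) := by
      rw [star_mul, hfs, mul_assoc f, H108.tr_comm f, ← mul_assoc (star a), mul_assoc (star a * a),
        hff]
    rw [key, h4, ← norm_sq_eq_tr] at h3
    exact_mod_cast h3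
  have h5 := ((summable_sq (((a * f : LG G) : Ell2 G →L[ℂ] Ell2 G) (dl 1))).hasSum).mul_left
    (Mod.dm σ ^ 2)
  rw [← norm_sq] at h5
  have h6 : Mod.dm σ * ‖B (σ 0)‖ ^ 2 = Mod.dm σ ^ 2 *
      ‖((a * f : LG G) : Ell2 G →L[ℂ] Ell2 G) (dl 1)‖ ^ 2 := by
    rw [h2]; ring
  rw [h6]
  have e : (fun s => ‖⟪bt θ s (σ 0), B (σ 0)⟫_ℂ‖ ^ 2) = fun s => Mod.dm σ ^ 2 *
      ‖(((a * f : LG G) : Ell2 G →L[ℂ] Ell2 G) (dl 1)) s‖ ^ 2 := by
    funext s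
    rw [h1, norm_mul, mul_pow, Complex.norm_real, Real.norm_of_nonneg h.dm_pos.le]
  rw [e]
  exact h5

theorem bes_bt (hG : ∀ g : G, g ≠ 1 → Set.Infinite {y : G | ∃ h, y = h * g * h⁻¹})
    (h : Mod α σ L) (θ : LG G ≃⋆ₐ[ℂ] NN α) :
    Bes (Real.sqrt (Mod.dm σ)) (fun s => bt θ s (σ 0)) := by
  intro F v
  rw [Real.sq_sqrt h.dm_pos.le]
  refine h.dense (S := {v | ∑ s ∈ F, ‖⟪bt θ s (σ 0), v⟫_ℂ‖ ^ 2 ≤ Mod.dm σ * ‖v‖ ^ 2})
    (isClosed_le (by fun_prop) (by fun_prop)) (fun B hB => ?_) v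
  exact sum_le_hasSum F (fun _ _ => by positivity) (frame_aux hG h θ hB)

/-- The frame identity. -/
theorem frame_bt (hG : ∀ g : G, g ≠ 1 → Set.Infinite {y : G | ∃ h, y = h * g * h⁻¹})
    (h : Mod α σ L) (θ : LG G ≃⋆ₐ[ℂ] NN α) (v : H) :
    HasSum (fun s => ‖⟪bt θ s (σ 0), v⟫_ℂ‖ ^ 2) (Mod.dm σ * ‖v‖ ^ 2) := by
  set C := anOp (bes_bt hG h θ) with hC
  have h1 : ‖C v‖ ^ 2 = Mod.dm σ * ‖v‖ ^ 2 := by
    refine h.dense (S := {v | ‖C v‖ ^ 2 = Mod.dm σ * ‖v‖ ^ 2})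
      (isClosed_eq (by fun_prop) (by fun_prop)) (fun B hB => ?_) v
    change ‖C (B (σ 0))‖ ^ 2 = _
    rw [norm_sq]
    exact (frame_aux hG h θ hB).tsum_eq
  rw [← h1, norm_sq]
  exact (summable_sq (C v)).hasSum

/-- Finite Fourier sums. -/
theorem norm_theta_le (hG : ∀ g : G, g ≠ 1 → Set.Infinite {y : G | ∃ h, y = h * g * h⁻¹})
    (h : Mod α σ L) (θ : LG G ≃⋆ₐ[ℂ] NN α) (b : LG G) (i : Fin (m + 1)) :
    ‖(θ b : H →L[ℂ] H) (σ i)‖ ^ 2 ≤ Mod.dm σ * ‖(b : Ell2 G →L[ℂ] Ell2 G) (dl 1)‖ ^ 2 := by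
  have h1 : phi σ (θ (star b * b) : H →L[ℂ] H) =
      ((∑ i, ‖(θ b : H →L[ℂ] H) (σ i)‖ ^ 2 : ℝ) : ℂ) := by
    rw [th_mul, th_star, phi, Complex.ofReal_sum]
    refine Finset.sum_congr rfl fun i _ => ?_
    rw [mul_ap, adjoint_inner_right, inner_self_eq_norm_sq_to_K]
    push_cast
    rfl
  rw [phi_theta hG h, ← norm_sq_eq_tr] at h1
  have h2 : Mod.dm σ * ‖(b : Ell2 G →L[ℂ] Ell2 G) (dl 1)‖ ^ 2 =
      ∑ i, ‖(θ b : H →L[ℂ] H) (σ i)‖ ^ 2 := by exact_mod_cast h1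
  rw [h2]
  exact Finset.single_le_sum (f := fun i => ‖(θ b : H →L[ℂ] H) (σ i)‖ ^ 2)
    (fun _ _ => by positivity) (Finset.mem_univ i)

theorem norm_star_dl (b : LG G) : ‖((star b : LG G) : Ell2 G →L[ℂ] Ell2 G) (dl 1)‖ =
    ‖(b : Ell2 G →L[ℂ] Ell2 G) (dl 1)‖ := by
  have h1 := norm_sq_eq_tr (star b)
  rw [star_star, H108.tr_comm, ← norm_sq_eq_tr] at h1
  have h2 : ‖((star b : LG G) : Ell2 G →L[ℂ] Ell2 G) (dl 1)‖ ^ 2 =
    ‖(b : Ell2 G →L[ℂ] Ell2 G) (dl 1)‖ ^ 2 := by exact_mod_cast h1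
  exact (pow_left_inj₀ (norm_nonneg _) (norm_nonneg _) two_ne_zero).mp h2

theorem cl_fc (h : Mod α σ L) (θ : LG G ≃⋆ₐ[ℂ] NN α) {X : H →L[ℂ] H} (hX : CL (bt θ) X)
    (s : Finset G) (c : G → ℂ) (v : H) :
    X ((θ (fc s c) : H →L[ℂ] H) v) = (θ (fc s c) : H →L[ℂ] H) (X v) := by
  have e : (θ (fc s c) : H →L[ℂ] H) = ∑ g ∈ s, c g • bt θ g := by
    rw [fc, map_sum]
    push_cast
    refine Finset.sum_congr rfl fun g _ => ?_
    rw [map_smul]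
    rfl
  rw [e, sum_apply, sum_apply, map_sum]
  refine Finset.sum_congr rfl fun g _ => ?_
  rw [smul_apply, smul_apply, map_smul, hX]

/-- Operators commuting with the images of the canonical unitaries commute with the whole
commutant of `α`. -/
theorem comm_of_cl (hG : ∀ g : G, g ≠ 1 → Set.Infinite {y : G | ∃ h, y = h * g * h⁻¹})
    (h : Mod α σ L) (θ : LG G ≃⋆ₐ[ℂ] NN α) {X B : H →L[ℂ] H} (hX : CL (bt θ) X) (hB : CL α B)
    (v : H) : X (B v) = B (X v) := by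
  obtain ⟨a, ha⟩ := exists_pre h θ hB
  have main : X * B = B * X := by
    refine h.ext_op fun g i => ?_
    rw [← sub_eq_zero]
    refine h.tot _ fun k l => ?_
    set ξ := α g (σ i) with hξ
    set η := α k (σ l) with hη
    rw [inner_sub_right, sub_eq_zero, mul_ap, mul_ap]
    by_contra hne
    have hpos : 0 < ‖⟪η, X (B ξ)⟫_ℂ - ⟪η, B (X ξ)⟫_ℂ‖ :=
      norm_pos_iff.mpr (sub_ne_zero.mpr hne)
    set d := ‖⟪η, X (B ξ)⟫_ℂ - ⟪η, B (X ξ)⟫_ℂ‖ with hd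
    set K : ℝ := Real.sqrt (Mod.dm σ) * (‖adjoint X η‖ + ‖X ξ‖) + 1 with hK
    have hK0 : 0 < K := by positivity
    have h5 := hasSum_dl ((a : Ell2 G →L[ℂ] Ell2 G) (dl 1))
    obtain ⟨t, ht⟩ := (h5.eventually (Metric.ball_mem_nhds _ (div_pos hpos hK0))).exists
    set c : G → ℂ := fun g => (a : Ell2 G →L[ℂ] Ell2 G) (dl 1) g with hc
    set b : LG G := a - fc t c with hb
    have hbn : ‖(b : Ell2 G →L[ℂ] Ell2 G) (dl 1)‖ < d / K := by
      have e1 : (b : Ell2 G →L[ℂ] Ell2 G) (dl 1) =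
          (a : Ell2 G →L[ℂ] Ell2 G) (dl 1) - ∑ g ∈ t, c g • dl g := by
        rw [← fc_dl]
        rfl
      rw [e1, ← dist_eq_norm, dist_comm]
      exact ht
    have hle : ∀ (b : LG G) (k : A) (l : Fin (m + 1)), ‖(θ b : H →L[ℂ] H) (α k (σ l))‖ ≤
        Real.sqrt (Mod.dm σ) * ‖(b : Ell2 G →L[ℂ] Ell2 G) (dl 1)‖ := by
      intro b k l
      have e1 : (θ b : H →L[ℂ] H) (α k (σ l)) = α k ((θ b : H →L[ℂ] H) (σ l)) :=
        (mem_NN h.adj).mp (θ b).2 k (σ l)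
      rw [e1, h.norm_map]
      have e2 := norm_theta_le hG h θ b l
      have e3 := Real.sqrt_le_sqrt e2
      rw [Real.sqrt_sq (norm_nonneg _), Real.sqrt_mul h.dm_pos.le,
        Real.sqrt_sq (norm_nonneg _)] at e3
      exact e3
    have e1 : B = (θ b : H →L[ℂ] H) + (θ (fc t c) : H →L[ℂ] H) := by
      rw [hb, th_sub, ha]; abel
    have e2 : ⟪η, X (B ξ)⟫_ℂ - ⟪η, B (X ξ)⟫_ℂ =
        ⟪adjoint X η, (θ b : H →L[ℂ] H) ξ⟫_ℂ - ⟪(θ (star b) : H →L[ℂ] H) η, X ξ⟫_ℂ := by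
      rw [th_star, adjoint_inner_left, adjoint_inner_left, e1, add_apply, add_apply, map_add,
        inner_add_right, inner_add_right, cl_fc h θ hX]
      ring
    have e3 : d ≤ Real.sqrt (Mod.dm σ) * ‖(b : Ell2 G →L[ℂ] Ell2 G) (dl 1)‖ *
        (‖adjoint X η‖ + ‖X ξ‖) := by
      rw [hd, e2]
      refine (norm_sub_le _ _).trans ?_
      have f1 := (norm_inner_le_norm (𝕜 := ℂ) (adjoint X η) ((θ b : H →L[ℂ] H) ξ))
      have f2 := (norm_inner_le_norm (𝕜 := ℂ) ((θ (star b) : H →L[ℂ] H) η) (X ξ))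
      have f3 := hle b g i
      have f4 := hle (star b) k l
      rw [norm_star_dl] at f4
      calc _ ≤ ‖adjoint X η‖ * ‖(θ b : H →L[ℂ] H) ξ‖ + ‖(θ (star b) : H →L[ℂ] H) η‖ * ‖X ξ‖ :=
            add_le_add f1 f2
        _ ≤ ‖adjoint X η‖ * (Real.sqrt (Mod.dm σ) * ‖(b : Ell2 G →L[ℂ] Ell2 G) (dl 1)‖) +
            (Real.sqrt (Mod.dm σ) * ‖(b : Ell2 G →L[ℂ] Ell2 G) (dl 1)‖) * ‖X ξ‖ := by
            gcongr
        _ = _ := by ring
    have e4 : d ≤ ‖(b : Ell2 G →L[ℂ] Ell2 G) (dl 1)‖ * K := by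
      rw [hK]
      refine e3.trans ?_
      nlinarith [norm_nonneg ((b : Ell2 G →L[ℂ] Ell2 G) (dl 1))]
    rw [lt_div_iff₀ hK0] at hbn
    linarith
  exact congrArg (fun L : H →L[ℂ] H => L v) main

/-- The abstract frame of the isomorphism. -/
theorem fr (hG : ∀ g : G, g ≠ 1 → Set.Infinite {y : G | ∃ h, y = h * g * h⁻¹})
    (h : Mod α σ L) (θ : LG G ≃⋆ₐ[ℂ] NN α) : Fr α (bt θ) (σ 0) (Mod.dm σ) where
  tpos := h.dm_pos
  adj := h.adj
  adjβ := bt_adj θ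
  rc g := fun s v => (bt_cl h θ s g v).symm
  norm_u := h.nrm
  frame := frame_bt hG h θ
  orth := h.orth
  tr := by
    have key : ∀ {X Y : H →L[ℂ] H}, CL (bt θ) X → CL (bt θ) Y →
        HasSum (fun g => ⟪α g⁻¹ (σ 0), X (σ 0)⟫_ℂ * ⟪α g (σ 0), Y (σ 0)⟫_ℂ)
          ⟪σ 0, X (Y (σ 0))⟫_ℂ := by
      intro X Y hX hY
      have h1 := h.hs (adjoint X (σ 0)) (Y (σ 0))
      have e1 : L 1 (Y (σ 0)) = Y (σ 0) := by
        rw [← comm_of_cl hG h θ hY (h.Lc 1), h.L_one_zero]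
      rw [e1, adjoint_inner_left] at h1
      have e2 : ∀ g, ⟪adjoint X (σ 0), α g (σ 0)⟫_ℂ = ⟪α g⁻¹ (σ 0), X (σ 0)⟫_ℂ := by
        intro g
        have f1 : α g (σ 0) = L g⁻¹ (σ 0) := by rw [h.L0, inv_inv]
        rw [adjoint_inner_left, f1, comm_of_cl hG h θ hX (h.Lc g⁻¹), ← h.Ladj g,
          adjoint_inner_right, h.L0]
      simp only [e2] at h1
      exact h1
    intro X Y hX hY
    have h1 := key hX hY
    have h2 := (Equiv.inv A).hasSum_iff.mpr (key hY hX)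
    refine h1.unique ?_
    have e : (fun g => ⟪α g⁻¹ (σ 0), X (σ 0)⟫_ℂ * ⟪α g (σ 0), Y (σ 0)⟫_ℂ) =
        (fun g => ⟪α g⁻¹ (σ 0), Y (σ 0)⟫_ℂ * ⟪α g (σ 0), X (σ 0)⟫_ℂ) ∘ (Equiv.inv A) := by
      funext g
      simp only [Function.comp_apply, Equiv.inv_apply, inv_inv]
      ring
    rw [e]
    exact h2
  tot := by
    intro X hX
    rw [← Submodule.orthogonal_orthogonal_eq_closure, Submodule.mem_orthogonal]
    intro w hw
    rw [Submodule.mem_orthogonal] at hw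
    have e1 : L 1 (X (σ 0)) = X (σ 0) := by
      rw [← comm_of_cl hG h θ hX (h.Lc 1), h.L_one_zero]
    have e2 : L 1 w = 0 := by
      refine h.tot _ fun g i => ?_
      rw [← h.L_one_adj, adjoint_inner_right, h.Lc 1]
      by_cases hi : i = 0
      · subst hi
        rw [h.L_one_zero]
        exact hw _ (Submodule.subset_span ⟨g, rfl⟩)
      · rw [h.Li 1 i hi, map_zero, inner_zero_left]
    rw [← e1, ← h.L_one_adj, adjoint_inner_right, e2, inner_zero_left]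

end iso

end

end Vale.Agent.P092.R2.H289
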