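import Vale.Agent.P092.R2.H289.SpQ

/-!
Subgroups of `PSp_{2N}(ℚ)`, the quotient of `Sp_{2N}(ℚ)` by its centre, commensurable with the image
of `Sp_{2N}(ℤ)`, `N ≥ 3`: an isomorphism onto a corner of matrices over `L(Λ)` is canonical, or the
heights vanish on average along every element with a nontrivial unipotent power.
-/

set_option linter.all false

open Matrix

namespace Vale.Agent.P092.R2.H289.Spn.PQ

open Vale.Agent.P092.H381.Sg Vale.Agent.P092.H367

variable {N : ℕ}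

theorem center_pm {z : symplecticGroup (Fin N) ℚ}
    (hz : z ∈ Subgroup.center (symplecticGroup (Fin N) ℚ)) :
    z = 1 ∨ (z : Matrix (Fin N ⊕ Fin N) (Fin N ⊕ Fin N) ℚ) = -1 := by
  by_contra hcon
  push Not at hcon
  refine SpArith.orbit_infinite (⊤ : Subgroup (symplecticGroup (Fin N) ℤ)) hcon.1 hcon.2 ?_
  refine (Set.finite_singleton z).subset ?_
  rintro y ⟨l, -, rfl⟩
  rw [Set.mem_singleton_iff, Subgroup.mem_center_iff.mp hz, mul_inv_cancel_right]

theorem pm_center {z : symplecticGroup (Fin N) ℚ}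
    (hz : z = 1 ∨ (z : Matrix (Fin N ⊕ Fin N) (Fin N ⊕ Fin N) ℚ) = -1) :
    z ∈ Subgroup.center (symplecticGroup (Fin N) ℚ) := by
  rcases hz with rfl | hz
  · exact Subgroup.one_mem _
  · rw [Subgroup.mem_center_iff]
    intro g
    apply Subtype.ext
    change (g : Matrix (Fin N ⊕ Fin N) (Fin N ⊕ Fin N) ℚ) * z = z * g
    rw [hz, Matrix.mul_neg, Matrix.neg_mul, Matrix.mul_one, Matrix.one_mul]

theorem center_finite :
    (Subgroup.center (symplecticGroup (Fin N) ℚ) : Set (symplecticGroup (Fin N) ℚ)).Finite := by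
  have h : ({x | x = 1 ∨ x = -1} : Set (Matrix (Fin N ⊕ Fin N) (Fin N ⊕ Fin N) ℚ)).Finite := by
    refine (Set.toFinite {1, -1}).subset ?_
    intro x hx
    exact hx
  refine (h.preimage (f := fun z : symplecticGroup (Fin N) ℚ =>
    (z : Matrix (Fin N ⊕ Fin N) (Fin N ⊕ Fin N) ℚ)) Subtype.val_injective.injOn).subset ?_
  intro z hz
  rcases center_pm hz with h | h
  · left
    change (z : Matrix (Fin N ⊕ Fin N) (Fin N ⊕ Fin N) ℚ) = 1
    rw [h]
    rfl
  · exact Or.inr h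

theorem fibre_finite {T : Set (symplecticGroup (Fin N) ℚ ⧸
      Subgroup.center (symplecticGroup (Fin N) ℚ))} (hT : T.Finite) :
    ((QuotientGroup.mk : symplecticGroup (Fin N) ℚ → symplecticGroup (Fin N) ℚ ⧸
      Subgroup.center (symplecticGroup (Fin N) ℚ)) ⁻¹' T).Finite := by
  refine Set.Finite.preimage' hT fun b _ => ?_
  obtain ⟨y, rfl⟩ := QuotientGroup.mk_surjective b
  refine (center_finite.image fun z => y * z).subset ?_
  intro w hw
  have h1 : y⁻¹ * w ∈ Subgroup.center (symplecticGroup (Fin N) ℚ) :=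
    QuotientGroup.eq.mp (Eq.symm hw)
  exact ⟨y⁻¹ * w, h1, by simp⟩

variable {Γ : Type} [Group Γ] {q : Γ →* symplecticGroup (Fin N) ℚ ⧸
  Subgroup.center (symplecticGroup (Fin N) ℚ)}

/-- The homomorphism `Sp_{2N}(ℤ) → PSp_{2N}(ℚ)`. -/
abbrev pinc (N : ℕ) : symplecticGroup (Fin N) ℤ →* symplecticGroup (Fin N) ℚ ⧸
    Subgroup.center (symplecticGroup (Fin N) ℚ) :=
  (QuotientGroup.mk' (Subgroup.center (symplecticGroup (Fin N) ℚ))).comp (SpArith.inc N)

theorem exists_jj (hq : Function.Injective q) : ∃ jj : q.range.comap (pinc N) →* Γ,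
    ∀ l, q (jj l) = pinc N l := by
  have hex : ∀ l : q.range.comap (pinc N), ∃ k : Γ, q k = pinc N l := fun l => l.2
  choose k hk using hex
  exact ⟨{ toFun := k
           map_one' := by
            apply hq
            rw [hk, map_one]
            exact map_one (pinc N)
           map_mul' := fun a b => by
            apply hq
            rw [map_mul, hk, hk, hk]
            exact map_mul (pinc N) _ _ }, hk⟩

variable {jj : q.range.comap (pinc N) →* Γ}

theorem ricc_p (hq : Function.Injective q) (hfi : (q.range.comap (pinc N)).FiniteIndex)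
    (hjj : ∀ l, q (jj l) = pinc N l) : RICC jj.range := by
  intro g hg hfin
  obtain ⟨X, hX⟩ := QuotientGroup.mk_surjective (q g)
  have hXc : X ∉ Subgroup.center (symplecticGroup (Fin N) ℚ) := by
    intro h
    apply hg
    apply hq
    rw [← hX, map_one]
    exact (QuotientGroup.eq_one_iff X).mpr h
  haveI := hfi
  refine SpArith.orbit_infinite (q.range.comap (pinc N)) (x := X)
    (fun h => hXc (pm_center (Or.inl h))) (fun h => hXc (pm_center (Or.inr h))) ?_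
  refine (fibre_finite (hfin.image q)).subset ?_
  rintro y ⟨l, hl, rfl⟩
  refine ⟨jj ⟨l, hl⟩ * g * (jj ⟨l, hl⟩)⁻¹, ⟨jj ⟨l, hl⟩, ⟨⟨l, hl⟩, rfl⟩, rfl⟩, ?_⟩
  rw [map_mul, map_mul, map_inv, hjj, ← hX]
  rfl

theorem comm_p (hq : Function.Injective q) (hfi : (q.range.comap (pinc N)).FiniteIndex)
    (hjj : ∀ l, q (jj l) = pinc N l) (g : Γ) : (conj g jj.range).relIndex jj.range ≠ 0 := by
  obtain ⟨X, hX⟩ := QuotientGroup.mk_surjective (q g)
  obtain ⟨n, hn, hc⟩ := SpArith.conj_mem X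
  haveI : NeZero n := ⟨hn.ne'⟩
  have hF : ((SpArith.cong N n).subgroupOf (q.range.comap (pinc N))).FiniteIndex :=
    Subgroup.instFiniteIndex_subgroupOf _ _
  have hle : (SpArith.cong N n).subgroupOf (q.range.comap (pinc N)) ≤
      (conj g jj.range).comap jj := by
    intro l hl
    rw [Subgroup.mem_comap]
    refine H381.mem_conj.mpr ?_
    obtain ⟨l', hl'⟩ := hc _ hl
    have h1 : q (g⁻¹ * jj l * g) = pinc N l' := by
      rw [map_mul, map_mul, map_inv, hjj, ← hX]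
      change _ = QuotientGroup.mk (SpArith.inc N l')
      rw [hl']
      rfl
    refine ⟨⟨l', ⟨_, h1⟩⟩, hq ?_⟩
    rw [hjj, h1]
  have h1 : ((conj g jj.range).comap jj).index ≠ 0 :=
    (Subgroup.finiteIndex_of_le hle).index_ne_zero
  rwa [Subgroup.index_comap] at h1

theorem sepSp_p (hq : Function.Injective q) (hjj : ∀ l, q (jj l) = pinc N l) :
    SepSp jj := by
  intro g
  obtain ⟨X, hX⟩ := QuotientGroup.mk_surjective (q g)
  obtain ⟨d, hd, A, hA⟩ := SpArith.exists_denom (X : Matrix (Fin N ⊕ Fin N) (Fin N ⊕ Fin N) ℚ)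
  have hdQ : (d : ℚ) ≠ 0 := by exact_mod_cast hd.ne'
  have hsp : (X : Matrix (Fin N ⊕ Fin N) (Fin N ⊕ Fin N) ℚ)ᵀ * J (Fin N) ℚ *
      (X : Matrix (Fin N ⊕ Fin N) (Fin N ⊕ Fin N) ℚ) = J (Fin N) ℚ :=
    SymplecticGroup.mem_iff'.mp X.2
  have hAJ : Aᵀ * J (Fin N) ℤ * A = ((d : ℤ) ^ 2) • J (Fin N) ℤ := by
    apply SpArith.map_inj
    have e1 : (Aᵀ * J (Fin N) ℤ * A).map (Int.cast : ℤ → ℚ) =
        (A.map (Int.cast : ℤ → ℚ))ᵀ * J (Fin N) ℚ * A.map (Int.cast : ℤ → ℚ) := by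
      have h1 := (RingHom.mapMatrix (m := Fin N ⊕ Fin N) (Int.castRingHom ℚ)).map_mul
        (Aᵀ * J (Fin N) ℤ) A
      have h2 := (RingHom.mapMatrix (m := Fin N ⊕ Fin N) (Int.castRingHom ℚ)).map_mul
        Aᵀ (J (Fin N) ℤ)
      rw [h2] at h1
      have h3 : (RingHom.mapMatrix (m := Fin N ⊕ Fin N) (Int.castRingHom ℚ)) (J (Fin N) ℤ) =
          J (Fin N) ℚ := SpArith.map_J (Int.castRingHom ℚ)
      rw [h3] at h1
      exact h1
    have e2 : (((d : ℤ) ^ 2) • J (Fin N) ℤ).map (Int.cast : ℤ → ℚ) =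
        ((d : ℚ) ^ 2) • J (Fin N) ℚ := by
      rw [← SpArith.map_J (Int.castRingHom ℚ)]
      ext i j
      rw [Matrix.map_apply, Matrix.smul_apply, Matrix.smul_apply, Matrix.map_apply, smul_eq_mul,
        smul_eq_mul]
      push_cast
      rfl
    rw [e1, e2, hA, transpose_smul, Matrix.smul_mul, Matrix.smul_mul, Matrix.mul_smul, hsp,
      smul_smul, sq]
  refine ⟨A, (d : ℤ) ^ 2, pow_ne_zero 2 (by exact_mod_cast hd.ne'), ?_, ?_, ?_⟩
  · intro x y
    unfold om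
    rw [← vecMul_transpose, vecMul_vecMul, dotProduct_mulVec, vecMul_vecMul, hAJ, vecMul_smul,
      smul_dotProduct, smul_eq_mul]
  · rintro Z ⟨m, hm, hm0, hc⟩
    refine ⟨m * 2, mul_ne_zero hm0 two_ne_zero, ?_⟩
    obtain ⟨W, hW⟩ : ∃ W : symplecticGroup (Fin N) ℤ, W = Z ^ m := ⟨_, rfl⟩
    have hWW : Z ^ (m * 2) = W * W := by
      rw [_root_.zpow_mul, ← hW]
      exact zpow_two W
    have h1 := congrArg q hc.eq
    rw [map_mul, map_mul, hjj, ← hX] at h1
    have h2 : (QuotientGroup.mk (SpArith.inc N W * X) : symplecticGroup (Fin N) ℚ ⧸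
        Subgroup.center (symplecticGroup (Fin N) ℚ)) =
        QuotientGroup.mk (X * SpArith.inc N W) := by
      rw [hW]
      exact h1
    have h3 := center_pm (QuotientGroup.eq.mp h2)
    have h4 : SpArith.inc N (W * W) * X = X * SpArith.inc N (W * W) := by
      obtain ⟨z, hz⟩ : ∃ z, z = (SpArith.inc N W * X)⁻¹ * (X * SpArith.inc N W) := ⟨_, rfl⟩
      have hzc : z ∈ Subgroup.center (symplecticGroup (Fin N) ℚ) := by
        rw [hz]
        exact QuotientGroup.eq.mp h2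
      have hzz : z * z = 1 := by
        rcases center_pm hzc with h | h
        · rw [h, mul_one]
        · apply Subtype.ext
          change (z : Matrix (Fin N ⊕ Fin N) (Fin N ⊕ Fin N) ℚ) * z = 1
          rw [h, Matrix.neg_mul, Matrix.mul_neg, neg_neg, Matrix.one_mul]
      have h5 : X * SpArith.inc N W = SpArith.inc N W * X * z := by
        rw [hz]
        group
      have h6 := Subgroup.mem_center_iff.mp hzc
      rw [map_mul]
      calc SpArith.inc N W * SpArith.inc N W * X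
          = SpArith.inc N W * SpArith.inc N W * X * (z * z) := by rw [hzz, mul_one]
        _ = SpArith.inc N W * (SpArith.inc N W * X * z) * z := by group
        _ = SpArith.inc N W * (X * SpArith.inc N W) * z := by rw [← h5]
        _ = (SpArith.inc N W * X) * (SpArith.inc N W * z) := by group
        _ = (SpArith.inc N W * X) * (z * SpArith.inc N W) := by rw [h6]
        _ = (SpArith.inc N W * X * z) * SpArith.inc N W := by group
        _ = (X * SpArith.inc N W) * SpArith.inc N W := by rw [← h5]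
        _ = X * (SpArith.inc N W * SpArith.inc N W) := by group
    rw [← hWW] at h4
    have h5 : (((Z ^ (m * 2) : symplecticGroup (Fin N) ℤ) :
        Matrix (Fin N ⊕ Fin N) (Fin N ⊕ Fin N) ℤ).map (Int.cast : ℤ → ℚ)) *
        (X : Matrix (Fin N ⊕ Fin N) (Fin N ⊕ Fin N) ℚ) =
        (X : Matrix (Fin N ⊕ Fin N) (Fin N ⊕ Fin N) ℚ) *
        (((Z ^ (m * 2) : symplecticGroup (Fin N) ℤ) :
        Matrix (Fin N ⊕ Fin N) (Fin N ⊕ Fin N) ℤ).map (Int.cast : ℤ → ℚ)) :=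
      congrArg (fun y : symplecticGroup (Fin N) ℚ =>
        (y : Matrix (Fin N ⊕ Fin N) (Fin N ⊕ Fin N) ℚ)) h4
    apply SpArith.map_inj
    have h7 := (RingHom.mapMatrix (m := Fin N ⊕ Fin N) (Int.castRingHom ℚ)).map_mul
      ((Z ^ (m * 2) : symplecticGroup (Fin N) ℤ) : Matrix (Fin N ⊕ Fin N) (Fin N ⊕ Fin N) ℤ) A
    have h8 := (RingHom.mapMatrix (m := Fin N ⊕ Fin N) (Int.castRingHom ℚ)).map_mul
      A ((Z ^ (m * 2) : symplecticGroup (Fin N) ℤ) : Matrix (Fin N ⊕ Fin N) (Fin N ⊕ Fin N) ℤ)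
    change (RingHom.mapMatrix (m := Fin N ⊕ Fin N) (Int.castRingHom ℚ)) _ =
      (RingHom.mapMatrix (m := Fin N ⊕ Fin N) (Int.castRingHom ℚ)) _
    rw [h7, h8]
    change (((Z ^ (m * 2) : symplecticGroup (Fin N) ℤ) :
        Matrix (Fin N ⊕ Fin N) (Fin N ⊕ Fin N) ℤ).map (Int.cast : ℤ → ℚ)) *
        A.map (Int.cast : ℤ → ℚ) = A.map (Int.cast : ℤ → ℚ) *
        (((Z ^ (m * 2) : symplecticGroup (Fin N) ℤ) :
        Matrix (Fin N ⊕ Fin N) (Fin N ⊕ Fin N) ℤ).map (Int.cast : ℤ → ℚ))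
    rw [hA, Matrix.mul_smul, Matrix.smul_mul, h5]
  · intro c hc
    have h1 : (d : ℚ) • (X : Matrix (Fin N ⊕ Fin N) (Fin N ⊕ Fin N) ℚ) =
        (c : ℚ) • (1 : Matrix (Fin N ⊕ Fin N) (Fin N ⊕ Fin N) ℚ) := by
      rw [← hA, hc]
      ext i j
      rw [Matrix.map_apply, Matrix.smul_apply, Matrix.smul_apply, smul_eq_mul, smul_eq_mul]
      by_cases hij : i = j
      · subst hij; simp
      · simp [Matrix.one_apply_ne hij]
    have h2 : (X : Matrix (Fin N ⊕ Fin N) (Fin N ⊕ Fin N) ℚ) =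
        ((c : ℚ) / d) • (1 : Matrix (Fin N ⊕ Fin N) (Fin N ⊕ Fin N) ℚ) := by
      rw [div_eq_inv_mul, ← smul_smul, ← h1, smul_smul, inv_mul_cancel₀ hdQ, one_smul]
    obtain ⟨r, hr⟩ : ∃ r : ℚ, r = (c : ℚ) / d := ⟨_, rfl⟩
    rw [← hr] at h2
    have hXc : X ∈ Subgroup.center (symplecticGroup (Fin N) ℚ) := by
      rw [Subgroup.mem_center_iff]
      intro y
      apply Subtype.ext
      change (y : Matrix (Fin N ⊕ Fin N) (Fin N ⊕ Fin N) ℚ) * X = X * y
      rw [h2, Matrix.mul_smul, Matrix.smul_mul, Matrix.mul_one, Matrix.one_mul]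
    apply hq
    rw [← hX, map_one]
    exact (QuotientGroup.eq_one_iff X).mpr hXc

/-- A nontrivial unipotent matrix in `Sp_{2N}(ℚ)` has a nontrivial integral unipotent power. -/
theorem int_pow {Y : symplecticGroup (Fin N) ℚ} (hY : Y ≠ 1)
    (hnil : IsNilpotent ((Y : Matrix (Fin N ⊕ Fin N) (Fin N ⊕ Fin N) ℚ) - 1)) :
    ∃ (m : ℕ) (b : symplecticGroup (Fin N) ℤ), SpArith.inc N b = Y ^ m ∧ b ≠ 1 ∧
      IsNilpotent ((b : Matrix (Fin N ⊕ Fin N) (Fin N ⊕ Fin N) ℤ) - 1) := by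
  obtain ⟨M, hM⟩ : ∃ M : Matrix (Fin N ⊕ Fin N) (Fin N ⊕ Fin N) ℚ,
    M = (Y : Matrix (Fin N ⊕ Fin N) (Fin N ⊕ Fin N) ℚ) - 1 := ⟨_, rfl⟩
  rw [← hM] at hnil
  have hxM : (Y : Matrix (Fin N ⊕ Fin N) (Fin N ⊕ Fin N) ℚ) = 1 + M := by rw [hM]; abel
  obtain ⟨m, hm, B, hB⟩ := SpArith.exists_int_pow hnil
  have hM0 : M ≠ 0 := by
    intro h0
    apply hY
    apply Subtype.ext
    rw [hxM, h0, add_zero]
    rfl
  have hpow : ((Y ^ m : symplecticGroup (Fin N) ℚ) : Matrix (Fin N ⊕ Fin N) (Fin N ⊕ Fin N) ℚ) =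
      B.map (Int.cast : ℤ → ℚ) := by
    rw [hB, ← hxM]
    rfl
  have hBsp : B ∈ symplecticGroup (Fin N) ℤ := by
    rw [SymplecticGroup.mem_iff]
    apply SpArith.map_inj
    have h2 := SymplecticGroup.mem_iff.mp (Y ^ m).2
    rw [hpow, ← SpArith.map_J (Int.castRingHom ℚ)] at h2
    have h3 : (B * J (Fin N) ℤ * Bᵀ).map (Int.castRingHom ℚ) =
        (J (Fin N) ℤ).map (Int.castRingHom ℚ) := by
      rw [Matrix.map_mul, Matrix.map_mul, Matrix.transpose_map]
      exact h2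
    exact h3
  obtain ⟨b, hb⟩ : ∃ b : symplecticGroup (Fin N) ℤ,
      (b : Matrix (Fin N ⊕ Fin N) (Fin N ⊕ Fin N) ℤ) = B := ⟨⟨B, hBsp⟩, rfl⟩
  have hinc : SpArith.inc N b = Y ^ m := by
    apply Subtype.ext
    change (b : Matrix (Fin N ⊕ Fin N) (Fin N ⊕ Fin N) ℤ).map (Int.cast : ℤ → ℚ) = _
    rw [hb]
    exact hpow.symm
  refine ⟨m, b, hinc, ?_, ?_⟩
  · intro h2
    rw [h2, map_one] at hinc
    apply SpArith.pow_ne_one hnil hM0 hm
    rw [← hxM]
    exact congrArg (fun y : symplecticGroup (Fin N) ℚ =>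
      (y : Matrix (Fin N ⊕ Fin N) (Fin N ⊕ Fin N) ℚ)) hinc.symm
  · have h1 : IsNilpotent (((1 : Matrix (Fin N ⊕ Fin N) (Fin N ⊕ Fin N) ℚ) + M) ^ m - 1) := by
      have hcomm : Commute M (∑ i ∈ Finset.range m, (1 + M) ^ i) := by
        refine Commute.sum_right _ _ _ fun i _ => ?_
        exact ((Commute.one_right M).add_right (Commute.refl M)).pow_right i
      have h2 := mul_geom_sum (1 + M) m
      rw [add_sub_cancel_left] at h2
      rw [← h2]
      exact hcomm.isNilpotent_mul_right hnil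
    obtain ⟨r, hr⟩ := h1
    refine ⟨r, ?_⟩
    apply SpArith.map_inj
    have h3 : ((B - 1) ^ r).map (Int.cast : ℤ → ℚ) = (B.map (Int.cast : ℤ → ℚ) - 1) ^ r := by
      have h4 := map_pow (RingHom.mapMatrix (m := Fin N ⊕ Fin N) (Int.castRingHom ℚ)) (B - 1) r
      rw [map_sub, map_one] at h4
      exact h4
    change (((b : Matrix (Fin N ⊕ Fin N) (Fin N ⊕ Fin N) ℤ) - 1) ^ r).map (Int.cast : ℤ → ℚ) =
      (0 : Matrix (Fin N ⊕ Fin N) (Fin N ⊕ Fin N) ℤ).map Int.cast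
    rw [hb, h3, hB, hr]
    ext a b
    simp

end Vale.Agent.P092.R2.H289.Spn.PQ

namespace Vale.Agent.P092.R2.H289.Spn

open Vale.Agent.P092.H381.Sg Vale.Agent.P092.H367

/-- The dichotomy for corners of matrices over `L(Λ)`, for subgroups of `PSp_{2N}(ℚ)`. -/
theorem canon_or_heights_psp {N : ℕ} {Γ : Type} [Group Γ] (hN : 3 ≤ N)
    (q : Γ →* symplecticGroup (Fin N) ℚ ⧸ Subgroup.center (symplecticGroup (Fin N) ℚ))
    (hq : Function.Injective q)
    (hfi : (q.range.comap ((QuotientGroup.mk' (Subgroup.center (symplecticGroup (Fin N) ℚ))).comp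
      (SpArith.inc N))).FiniteIndex)
    {Λ : Type} [Group Λ] (hL : Mt.ICC Λ)
    {n : ℕ} {p : Mt.Mat n Λ} (hp : Mt.IsProj p) (θ : Mt.AmpIso Γ Λ n p) :
    (Mt.Canon θ ∧ Mt.trM p = 1) ∨
      ∀ (x : Γ) (k : ℕ) (Y : symplecticGroup (Fin N) ℚ), q (x ^ k) = QuotientGroup.mk Y → Y ≠ 1 →
      IsNilpotent ((Y : Matrix (Fin N ⊕ Fin N) (Fin N ⊕ Fin N) ℚ) - 1) → Mt.HV θ x := by
  obtain ⟨jj, hjj⟩ := PQ.exists_jj hq
  haveI := hfi
  rcases canon_or_heights_spc hN (q.range.comap (PQ.pinc N)) jj (PQ.sepSp_p hq hjj)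
    (PQ.ricc_p hq hfi hjj) (PQ.comm_p hq hfi hjj) hL hp θ with h | h
  · exact Or.inl h
  right
  intro x k Y hxY hY hnil
  obtain ⟨m, b, hb, hb1, hbn⟩ := PQ.int_pow hY hnil
  have h1 : q (x ^ (k * m)) = PQ.pinc N b := by
    rw [pow_mul, map_pow, hxY]
    change _ = QuotientGroup.mk (SpArith.inc N b)
    rw [hb]
    rfl
  have hmem : b ∈ q.range.comap (PQ.pinc N) := ⟨x ^ (k * m), h1⟩
  refine h x (k * m) ⟨b, hmem⟩ (hq ?_) (fun h2 => hb1 (congrArg Subtype.val h2)) hbn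
  rw [hjj, h1]

/-- Subgroups of `PSp_{2N}(ℚ)` commensurable with the image of `Sp_{2N}(ℤ)` are ICC. -/
theorem icc_psp {N : ℕ} {Γ : Type} [Group Γ]
    (q : Γ →* symplecticGroup (Fin N) ℚ ⧸ Subgroup.center (symplecticGroup (Fin N) ℚ))
    (hq : Function.Injective q)
    (hfi : (q.range.comap ((QuotientGroup.mk' (Subgroup.center (symplecticGroup (Fin N) ℚ))).comp
      (SpArith.inc N))).FiniteIndex) : Mt.ICC Γ := by
  obtain ⟨jj, hjj⟩ := PQ.exists_jj hq
  exact H381.ricc_icc (PQ.ricc_p hq hfi hjj)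

end Vale.Agent.P092.R2.H289.Spn
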