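import Vale.Agent.P092.R3.H381.SpT
import Vale.Agent.P092.R2.H381.Bg4
import Vale.Agent.P092.H350.BG

/-!
Bounded generation of `Sp_{2n}(ℤ)`, `n ≥ 3`, by the powers of finitely many transvections.
-/

set_option linter.all false

namespace Vale.Agent.P092.R2.H289.Spn.BGn

open Matrix Vale.Agent.P092 Vale.Agent.P092.H350 Vale.Agent.P092.H367.SpT

variable {n : ℕ}

/-- the vectors `e_a` and `e_a + e_b` -/
def wv (q : (Fin n ⊕ Fin n) × (Fin n ⊕ Fin n)) : Fin n ⊕ Fin n → ℤ :=
  if q.1 = q.2 then Pi.single q.1 1 else Pi.single q.1 1 + Pi.single q.2 1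

theorem wv_ne (q : (Fin n ⊕ Fin n) × (Fin n ⊕ Fin n)) : wv q ≠ 0 := by
  intro h
  have h1 := congrFun h q.1
  unfold wv at h1
  split_ifs at h1 with h2
  · simp at h1
  · simp [Pi.single_eq_of_ne h2] at h1

/-- `M` is a product of at most `N` powers of the transvections of the vectors `wv` -/
def Tb (N : ℕ) (M : Matrix (Fin n ⊕ Fin n) (Fin n ⊕ Fin n) ℤ) : Prop :=
  ∃ l : List (((Fin n ⊕ Fin n) × (Fin n ⊕ Fin n)) × ℤ), l.length ≤ N ∧
    (l.map fun q => tm (wv q.1) q.2).prod = M

theorem Tb.one (N : ℕ) : Tb N (1 : Matrix (Fin n ⊕ Fin n) (Fin n ⊕ Fin n) ℤ) := ⟨[], by simp, by simp⟩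

theorem Tb.mono {N K : ℕ} {M : Matrix (Fin n ⊕ Fin n) (Fin n ⊕ Fin n) ℤ} (h : Tb N M)
    (hNK : N ≤ K) : Tb K M := by
  obtain ⟨l, h1, h2⟩ := h
  exact ⟨l, h1.trans hNK, h2⟩

theorem Tb.mul {N K : ℕ} {M M' : Matrix (Fin n ⊕ Fin n) (Fin n ⊕ Fin n) ℤ} (h : Tb N M)
    (h' : Tb K M') : Tb (N + K) (M * M') := by
  obtain ⟨l, h1, h2⟩ := h
  obtain ⟨l', h3, h4⟩ := h'
  exact ⟨l ++ l', by rw [List.length_append]; omega, by rw [List.map_append, List.prod_append, h2, h4]⟩

theorem Tb.of_tm (a : (Fin n ⊕ Fin n) × (Fin n ⊕ Fin n)) (c : ℤ) : Tb 1 (tm (wv a) c) :=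
  ⟨[(a, c)], by simp, by simp⟩

theorem Tb.sum {ι : Type} (U : Matrix (Fin n) (Fin n) ℤ → Matrix (Fin n ⊕ Fin n) (Fin n ⊕ Fin n) ℤ)
    (h0 : U 0 = 1) (hadd : ∀ A B, U (A + B) = U A * U B) (m : ℕ) (Z : ι → Matrix (Fin n) (Fin n) ℤ)
    (s : Finset ι) (h : ∀ i ∈ s, Tb m (U (Z i))) : Tb (s.card * m) (U (∑ i ∈ s, Z i)) := by
  classical
  induction s using Finset.induction_on with
  | empty =>
    rw [Finset.sum_empty, h0]
    exact Tb.one _
  | insert a s ha ih =>
    rw [Finset.sum_insert ha, hadd, Finset.card_insert_of_notMem ha]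
    exact ((h a (Finset.mem_insert_self _ _)).mul
      (ih fun i hi => h i (Finset.mem_insert_of_mem hi))).mono (le_of_eq (by ring))

theorem vs1 (a b : Fin n) : vecMulVec (Pi.single a 1) (Pi.single b 1) =
    (single a b 1 : Matrix (Fin n) (Fin n) ℤ) := by
  rw [single_eq_single_vecMulVec_single]

theorem sneg (a b : Fin n) (c : ℤ) : (single a b (-c) : Matrix (Fin n) (Fin n) ℤ) =
    -single a b c := by
  ext x y
  rw [Matrix.neg_apply, Matrix.single_apply, Matrix.single_apply]
  split_ifs <;> simp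

/-- a symmetric matrix as a sum of elementary symmetric ones -/
theorem sym_sum {Y : Matrix (Fin n) (Fin n) ℤ} (hY : Yᵀ = Y) :
    Y = ∑ i, ∑ j, (if i < j then single i j (Y i j) + single j i (Y i j) else
      if i = j then single i i (Y i i) else 0) := by
  have hs : ∀ i j, Y j i = Y i j := fun i j => congrFun (congrFun hY i) j
  have e1 : ∑ i, ∑ j, single i j (Y i j) =
      (∑ i, ∑ j, ((if i < j then single i j (Y i j) else 0) +
        (if i = j then single i i (Y i i) else 0))) +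
      ∑ i, ∑ j, (if j < i then single i j (Y i j) else 0) := by
    rw [← Finset.sum_add_distrib]
    refine Finset.sum_congr rfl fun i _ => ?_
    rw [← Finset.sum_add_distrib]
    refine Finset.sum_congr rfl fun j _ => ?_
    rcases lt_trichotomy i j with h | h | h
    · rw [if_pos h, if_neg h.ne, if_neg (not_lt.mpr h.le), add_zero, add_zero]
    · subst h
      rw [if_neg (lt_irrefl _), if_pos rfl, zero_add, add_zero]
    · rw [if_neg (not_lt.mpr h.le), if_neg h.ne', if_pos h, add_zero, zero_add]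
  have e2 : ∑ i, ∑ j, (if j < i then single i j (Y i j) else 0) =
      ∑ i, ∑ j, (if i < j then single j i (Y i j) else 0) := by
    rw [Finset.sum_comm]
    refine Finset.sum_congr rfl fun i _ => Finset.sum_congr rfl fun j _ => ?_
    rw [hs]
  conv_lhs => rw [matrix_eq_sum_single Y, e1, e2, ← Finset.sum_add_distrib]
  refine Finset.sum_congr rfl fun i _ => ?_
  rw [← Finset.sum_add_distrib]
  refine Finset.sum_congr rfl fun j _ => ?_
  rcases lt_trichotomy i j with h | h | h
  · rw [if_pos h, if_neg h.ne, if_pos h, if_pos h, add_zero]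
  · subst h
    rw [if_neg (lt_irrefl _), if_pos rfl, if_neg (lt_irrefl _), zero_add, add_zero]
  · rw [if_neg (not_lt.mpr h.le), if_neg h.ne', if_neg (not_lt.mpr h.le),
      if_neg (not_lt.mpr h.le), add_zero, add_zero]

/-- symmetric blocks, abstract form -/
theorem Tb.sym (U : Matrix (Fin n) (Fin n) ℤ → Matrix (Fin n ⊕ Fin n) (Fin n ⊕ Fin n) ℤ)
    (h0 : U 0 = 1) (hadd : ∀ A B, U (A + B) = U A * U B)
    (h1 : ∀ p c, Tb 1 (U (single p p c)))
    (h2 : ∀ (p q : Fin n) (c : ℤ), p ≠ q → Tb 1 (U (c • vecMulVec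
      (Pi.single p 1 + Pi.single q 1 : Fin n → ℤ) (Pi.single p 1 + Pi.single q 1 : Fin n → ℤ))))
    {Y : Matrix (Fin n) (Fin n) ℤ} (hY : Yᵀ = Y) : Tb (n * (n * 3)) (U Y) := by
  rw [sym_sum hY]
  have key : ∀ i j : Fin n, Tb 3 (U (if i < j then single i j (Y i j) + single j i (Y i j) else
      if i = j then single i i (Y i i) else 0)) := by
    intro i j
    split_ifs with h h'
    · have e : (single i j (Y i j) + single j i (Y i j) : Matrix (Fin n) (Fin n) ℤ) =
          (Y i j) • vecMulVec (Pi.single i 1 + Pi.single j 1) (Pi.single i 1 + Pi.single j 1) +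
            (single i i (-(Y i j)) + single j j (-(Y i j))) := by
        rw [add_vecMulVec, vecMulVec_add, vecMulVec_add, vs1, vs1, vs1, vs1, smul_add, smul_add,
          smul_add, smul_single, smul_single, smul_single, smul_single, smul_eq_mul, mul_one,
          sneg, sneg]
        abel
      rw [e, hadd, hadd]
      exact (h2 i j _ h.ne).mul ((h1 i _).mul (h1 j _))
    · exact (h1 i _).mono (by norm_num)
    · rw [h0]
      exact Tb.one _
  have hi : ∀ i ∈ (Finset.univ : Finset (Fin n)), Tb (n * 3) (U (∑ j, (if i < j then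
      single i j (Y i j) + single j i (Y i j) else if i = j then single i i (Y i i) else 0))) := by
    intro i _
    have := Tb.sum U h0 hadd 3 (fun j => (if i < j then
      single i j (Y i j) + single j i (Y i j) else if i = j then single i i (Y i i) else 0))
      Finset.univ (fun j _ => key i j)
    rwa [Finset.card_univ, Fintype.card_fin] at this
  have := Tb.sum U h0 hadd (n * 3) _ Finset.univ hi
  rwa [Finset.card_univ, Fintype.card_fin] at this

theorem tm_elim (a b : Fin n → ℤ) (k : ℤ) : tm (Sum.elim a b) k =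
    fromBlocks (1 + k • vecMulVec a b) (-(k • vecMulVec a a)) (k • vecMulVec b b)
      (1 - k • vecMulVec b a) := by
  have h1 : (Sum.elim a b) ᵥ* J (Fin n) ℤ = Sum.elim b (-a) := by
    rw [J, vecMul_fromBlocks]
    simp [vecMul_neg]
  rw [tm, h1]
  have h2 : vecMulVec (Sum.elim a b) (Sum.elim b (-a)) =
      fromBlocks (vecMulVec a b) (-(vecMulVec a a)) (vecMulVec b b) (-(vecMulVec b a)) := by
    ext i j
    rcases i with i | i <;> rcases j with j | j <;> simp [vecMulVec_apply]
  rw [h2, ← fromBlocks_one, fromBlocks_smul, fromBlocks_add, smul_neg, smul_neg, zero_add,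
    zero_add, sub_eq_add_neg]

theorem wv_ll (p q : Fin n) (h : p ≠ q) : wv (Sum.inl p, Sum.inl q) =
    Sum.elim (Pi.single p 1 + Pi.single q 1) (0 : Fin n → ℤ) := by
  unfold wv
  rw [if_neg (by simpa using h)]
  rw [← Sum.elim_single_zero, ← Sum.elim_single_zero]
  ext i
  rcases i with i | i <;> rfl

theorem wv_l (p : Fin n) : wv (Sum.inl p, Sum.inl p) =
    Sum.elim (Pi.single p 1) (0 : Fin n → ℤ) := by
  unfold wv
  rw [if_pos rfl, Sum.elim_single_zero]

theorem wv_rr (p q : Fin n) (h : p ≠ q) : wv (Sum.inr p, Sum.inr q) =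
    Sum.elim (0 : Fin n → ℤ) (Pi.single p 1 + Pi.single q 1) := by
  unfold wv
  rw [if_neg (by simpa using h)]
  rw [← Sum.elim_zero_single, ← Sum.elim_zero_single]
  ext i
  rcases i with i | i <;> rfl

theorem wv_r (p : Fin n) : wv (Sum.inr p, Sum.inr p) =
    Sum.elim (0 : Fin n → ℤ) (Pi.single p 1) := by
  unfold wv
  rw [if_pos rfl, Sum.elim_zero_single]

theorem wv_lr (p q : Fin n) : wv (Sum.inl p, Sum.inr q) =
    Sum.elim (Pi.single p 1) (Pi.single q 1 : Fin n → ℤ) := by
  unfold wv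
  rw [if_neg (by simp)]
  rw [← Sum.elim_single_zero, ← Sum.elim_zero_single]
  ext i
  rcases i with i | i
  · exact add_zero _
  · exact zero_add _

/-- upper blocks -/
theorem Tb.upper {Y : Matrix (Fin n) (Fin n) ℤ} (hY : Yᵀ = Y) :
    Tb (n * (n * 3)) (fromBlocks 1 Y 0 1) := by
  refine Tb.sym (fun Y => fromBlocks 1 Y 0 1) fromBlocks_one ?_ ?_ ?_ hY
  · intro A B
    rw [fromBlocks_multiply]
    simp [add_comm]
  · intro p c
    have h := Tb.of_tm (n := n) (Sum.inl p, Sum.inl p) (-c)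
    rw [wv_l, tm_elim, vs1] at h
    simpa only [vecMulVec_zero, zero_vecMulVec, smul_zero, add_zero, sub_zero, neg_smul,
      neg_neg, smul_single, smul_eq_mul, mul_one] using h
  · intro p q c hpq
    have h := Tb.of_tm (n := n) (Sum.inl p, Sum.inl q) (-c)
    rw [wv_ll p q hpq, tm_elim] at h
    simpa only [vecMulVec_zero, zero_vecMulVec, smul_zero, add_zero, sub_zero, neg_smul,
      neg_neg] using h

/-- lower blocks -/
theorem Tb.lower {X : Matrix (Fin n) (Fin n) ℤ} (hX : Xᵀ = X) :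
    Tb (n * (n * 3)) (fromBlocks 1 0 X 1) := by
  refine Tb.sym (fun Y => fromBlocks 1 0 Y 1) fromBlocks_one ?_ ?_ ?_ hX
  · intro A B
    rw [fromBlocks_multiply]
    simp [add_comm]
  · intro p c
    have h := Tb.of_tm (n := n) (Sum.inr p, Sum.inr p) c
    rw [wv_r, tm_elim, vs1] at h
    simpa only [vecMulVec_zero, zero_vecMulVec, smul_zero, add_zero, sub_zero, neg_zero,
      smul_single, smul_eq_mul, mul_one] using h
  · intro p q c hpq
    have h := Tb.of_tm (n := n) (Sum.inr p, Sum.inr q) c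
    rw [wv_rr p q hpq, tm_elim] at h
    simpa only [vecMulVec_zero, zero_vecMulVec, smul_zero, add_zero, sub_zero, neg_zero] using h

/-- elementary Levi matrices -/
theorem Tb.levi {p q : Fin n} (h : p ≠ q) (c : ℤ) :
    Tb 3 (fromBlocks (transvection p q c) 0 0 (transvection q p (-c))) := by
  have h1 := Tb.of_tm (n := n) (Sum.inl p, Sum.inr q) c
  have h2 := Tb.of_tm (n := n) (Sum.inl p, Sum.inl p) (-c)
  have h3 := Tb.of_tm (n := n) (Sum.inr q, Sum.inr q) (-c)
  have h4 := (h1.mul h2).mul h3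
  rw [wv_lr, wv_l, wv_r, tm_elim, tm_elim, tm_elim, vs1, vs1, vs1, vs1] at h4
  simp only [vecMulVec_zero, zero_vecMulVec, smul_zero, add_zero, sub_zero, neg_zero,
    fromBlocks_multiply, Matrix.mul_zero, Matrix.zero_mul, zero_add, smul_single, smul_eq_mul,
    mul_one, Matrix.mul_one, Matrix.one_mul] at h4
  rw [transvection, transvection]
  have a1 : single p q c * single p p c = 0 := by
    rw [single_mul_single_of_ne _ _ _ _ h.symm]
  have a2 : single p p c * single q q c = 0 := by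
    rw [single_mul_single_of_ne _ _ _ _ h]
  have a3 : single q q c * single p p c = 0 := by
    rw [single_mul_single_of_ne _ _ _ _ h.symm]
  have a4 : single q p c * single q q c = 0 := by
    rw [single_mul_single_of_ne _ _ _ _ h]
  simp only [sneg, neg_neg, mul_neg, neg_mul, add_mul, sub_mul, a1, a2, a3, a4, one_mul, zero_mul,
    add_zero, zero_add, neg_zero, sub_zero, add_neg_cancel, ← sub_eq_add_neg, sub_self] at h4 ⊢
  exact h4

/-- Levi blocks -/
theorem Tb.levi_list (l : List (TransvectionStruct (Fin n) ℤ)) :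
    ∃ B : Matrix (Fin n) (Fin n) ℤ, (l.map TransvectionStruct.toMatrix).prod * Bᵀ = 1 ∧
      Tb (3 * l.length) (fromBlocks (l.map TransvectionStruct.toMatrix).prod 0 0 B) := by
  induction l with
  | nil => exact ⟨1, by simp, by simpa using Tb.one _⟩
  | cons t l ih =>
    obtain ⟨B, h1, h2⟩ := ih
    refine ⟨transvection t.j t.i (-t.c) * B, ?_, ?_⟩
    · rw [List.map_cons, List.prod_cons, transpose_mul, Matrix.mul_assoc, ← Matrix.mul_assoc _ Bᵀ,
        h1, Matrix.one_mul, TransvectionStruct.toMatrix]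
      have h5 : (transvection t.j t.i (-t.c))ᵀ = transvection t.i t.j (-t.c) := by
        rw [transvection, transvection, transpose_add, transpose_one, transpose_single]
      rw [h5, transvection_mul_transvection_same _ _ t.hij, add_neg_cancel, transvection_zero]
    · have h3 := (Tb.levi t.hij t.c).mul h2
      rw [fromBlocks_multiply] at h3
      simp only [Matrix.mul_zero, Matrix.zero_mul, add_zero, zero_add] at h3
      rw [List.map_cons, List.prod_cons, List.length_cons]
      exact h3.mono (le_of_eq (by ring))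

theorem Tb.levi_block {N : ℕ} (hN : ∀ g : Matrix.SpecialLinearGroup (Fin n) ℤ,
      ∃ l : List (Matrix.TransvectionStruct (Fin n) ℤ), l.length ≤ N ∧
        (l.map Matrix.TransvectionStruct.toMatrix).prod = (g : Matrix (Fin n) (Fin n) ℤ))
    {A B : Matrix (Fin n) (Fin n) ℤ} (hA : A.det = 1) (hB : A * Bᵀ = 1) :
    Tb (3 * N) (fromBlocks A 0 0 B) := by
  obtain ⟨l, hl, h1⟩ := hN ⟨A, hA⟩
  obtain ⟨B', h2, h3⟩ := Tb.levi_list l
  have h1' : (l.map TransvectionStruct.toMatrix).prod = A := h1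
  rw [h1'] at h2 h3
  have h4 : B' = B := by
    have h5 : Bᵀ * A = 1 := mul_eq_one_comm.mp hB
    have h6 : B'ᵀ = Bᵀ := by
      calc B'ᵀ = Bᵀ * A * B'ᵀ := by rw [h5, Matrix.one_mul]
        _ = Bᵀ := by rw [Matrix.mul_assoc, h2, Matrix.mul_one]
    rw [← transpose_transpose B', h6, transpose_transpose]
  rw [← h4]
  exact h3.mono (by omega)

theorem Tb.blk {N : ℕ} (hN : ∀ g : Matrix.SpecialLinearGroup (Fin n) ℤ,
      ∃ l : List (Matrix.TransvectionStruct (Fin n) ℤ), l.length ≤ N ∧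
        (l.map Matrix.TransvectionStruct.toMatrix).prod = (g : Matrix (Fin n) (Fin n) ℤ))
    {M : Matrix (Fin n ⊕ Fin n) (Fin n ⊕ Fin n) ℤ} (h : H381.Blk M) :
    Tb (3 * N + n * (n * 3)) M := by
  rcases h with ⟨A, B, hA, hB, rfl⟩ | ⟨Y, hY, rfl⟩ | ⟨X, hX, rfl⟩
  · exact (Tb.levi_block hN hA hB).mono (by omega)
  · exact (Tb.upper hY).mono (by omega)
  · exact (Tb.lower hX).mono (by omega)

theorem ts_zpow (v : Fin n ⊕ Fin n → ℤ) (k : ℤ) : ts v 1 ^ k = ts v k := by
  rcases k with k | k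
  · rw [Int.ofNat_eq_natCast, zpow_natCast]
    exact ts_pow v k
  · rw [zpow_negSucc, ts_pow, inv_eq_iff_mul_eq_one]
    apply Subtype.ext
    change tm v _ * tm v _ = 1
    rw [tm_mul]
    have : ((k + 1 : ℕ) : ℤ) + Int.negSucc k = 0 := by
      rw [Int.negSucc_eq]; push_cast; ring
    rw [this, tm, zero_smul, add_zero]

end Vale.Agent.P092.R2.H289.Spn.BGn

namespace Vale.Agent.P092.R2.H289.Spn

open Matrix Vale.Agent.P092 Vale.Agent.P092.H350 Vale.Agent.P092.H367.SpT BGn

/-- Task B: bounded generation by powers of finitely many transvections. -/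
theorem bg_transv {n : ℕ} (hn : 3 ≤ n) : ∃ (k : ℕ) (w : Fin k → (Fin n ⊕ Fin n → ℤ)) (N : ℕ),
    (∀ i, w i ≠ 0) ∧ ∀ g : symplecticGroup (Fin n) ℤ, ∃ l : List (Fin k × ℤ),
      l.length ≤ N ∧ (l.map fun q => ts (w q.1) 1 ^ q.2).prod = g := by
  obtain ⟨N₀, hN₀⟩ := H350.bounded_generation n hn
  obtain ⟨N, hN⟩ := H381.bounded_generation H381.long_root (n := n) (by omega)
  have key : ∀ l : List (symplecticGroup (Fin n) ℤ),
      (∀ x ∈ l, H381.Blk (x : Matrix (Fin n ⊕ Fin n) (Fin n ⊕ Fin n) ℤ)) →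
      Tb (l.length * (3 * N₀ + n * (n * 3)))
        ((l.prod : symplecticGroup (Fin n) ℤ) : Matrix (Fin n ⊕ Fin n) (Fin n ⊕ Fin n) ℤ) := by
    intro l
    induction l with
    | nil => intro _; exact Tb.one _
    | cons a l ih =>
      intro hl
      have h1 := (Tb.blk hN₀ (hl a (by simp))).mul (ih fun x hx => hl x (by simp [hx]))
      rw [List.prod_cons, List.length_cons]
      exact h1.mono (le_of_eq (by ring))
  let e := Fintype.equivFin ((Fin n ⊕ Fin n) × (Fin n ⊕ Fin n))
  refine ⟨_, fun i => wv (e.symm i), N * (3 * N₀ + n * (n * 3)), fun i => wv_ne _, fun g => ?_⟩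
  obtain ⟨l, hl, hb, rfl⟩ := hN g
  obtain ⟨l', h1, h2⟩ := (key l hb).mono (Nat.mul_le_mul_right _ hl)
  refine ⟨l'.map fun q => (e q.1, q.2), by rw [List.length_map]; exact h1, ?_⟩
  rw [List.map_map]
  apply Subtype.ext
  rw [← h2]
  clear h1 h2
  induction l' with
  | nil => rfl
  | cons a l' ih =>
    rw [List.map_cons, List.prod_cons, List.map_cons, List.prod_cons, ← ih]
    change ((ts (wv (e.symm (e a.1))) 1 ^ a.2 : symplecticGroup (Fin n) ℤ) :
      Matrix (Fin n ⊕ Fin n) (Fin n ⊕ Fin n) ℤ) * _ = _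
    rw [Equiv.symm_apply_apply, ts_zpow]
    rfl

end Vale.Agent.P092.R2.H289.Spn
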