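import Vale.Agent.P092.R2.H289.SpSt

/-!
Elementary computations in the symplectic group.
-/

set_option linter.all false

namespace Vale.Agent.P092.R2.H289.Spn

open Matrix Vale.Agent.P092 Vale.Agent.P092.H350 Vale.Agent.P092.H367.SpT

variable {n : ℕ}

/-- The matrix of `ζ ↦ om v ζ • v`. -/
def tt (v : Fin n ⊕ Fin n → ℤ) : Matrix (Fin n ⊕ Fin n) (Fin n ⊕ Fin n) ℤ := vecMulVec v (v ᵥ* J (Fin n) ℤ)

theorem ts_coe (v : Fin n ⊕ Fin n → ℤ) (k : ℤ) : ((ts v k : symplecticGroup (Fin n) ℤ) : Matrix (Fin n ⊕ Fin n) (Fin n ⊕ Fin n) ℤ) = 1 + k • tt v :=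
  rfl

theorem vJ_inl (v : Fin n ⊕ Fin n → ℤ) (i : Fin n) : (v ᵥ* J (Fin n) ℤ) (Sum.inl i) = v (Sum.inr i) := by
  simp [J, vecMul, dotProduct, Matrix.one_apply]

theorem vJ_inr (v : Fin n ⊕ Fin n → ℤ) (i : Fin n) : (v ᵥ* J (Fin n) ℤ) (Sum.inr i) = -v (Sum.inl i) := by
  simp [J, vecMul, dotProduct, Matrix.one_apply]

theorem om_self (v : Fin n ⊕ Fin n → ℤ) : om v v = 0 := quad v

theorem om_swap (v w : Fin n ⊕ Fin n → ℤ) : om w v = -om v w := by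
  have h1 : (v ᵥ* J (Fin n) ℤ) ⬝ᵥ w = v ⬝ᵥ (J (Fin n) ℤ *ᵥ w) := (dotProduct_mulVec _ _ _).symm
  have h2 : J (Fin n) ℤ *ᵥ w = -(w ᵥ* J (Fin n) ℤ) := by
    have h3 : w ᵥ* (J (Fin n) ℤ)ᵀ = J (Fin n) ℤ *ᵥ w := vecMul_transpose _ _
    rw [J_transpose, vecMul_neg] at h3
    exact h3.symm
  unfold om
  rw [h1, h2, dotProduct_neg, neg_neg, dotProduct_comm]

theorem om_add_left (a b c : Fin n ⊕ Fin n → ℤ) : om (a + b) c = om a c + om b c := by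
  unfold om
  rw [add_vecMul, add_dotProduct]

theorem om_add_right (a b c : Fin n ⊕ Fin n → ℤ) : om a (b + c) = om a b + om a c := by
  unfold om
  rw [dotProduct_add]

theorem om_smul_left (k : ℤ) (a b : Fin n ⊕ Fin n → ℤ) : om (k • a) b = k * om a b := by
  unfold om
  rw [smul_vecMul, smul_dotProduct, smul_eq_mul]

theorem om_smul_right (k : ℤ) (a b : Fin n ⊕ Fin n → ℤ) : om a (k • b) = k * om a b := by
  unfold om
  rw [dotProduct_smul, smul_eq_mul]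

theorem tt_mulVec (v x : Fin n ⊕ Fin n → ℤ) : tt v *ᵥ x = om v x • v := by
  unfold tt om
  rw [vecMulVec_mulVec]
  ext i
  simp [mul_comm]

theorem qq_mulVec (v w x : Fin n ⊕ Fin n → ℤ) : qq v w *ᵥ x = om w x • v + om v x • w := by
  unfold qq om
  rw [add_mulVec, vecMulVec_mulVec, vecMulVec_mulVec]
  ext i
  simp [mul_comm]

theorem tt_add (v w : Fin n ⊕ Fin n → ℤ) : tt (v + w) = tt v + qq v w + tt w := by
  unfold tt qq
  rw [add_vecMul, add_vecMulVec, vecMulVec_add, vecMulVec_add]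
  abel

theorem tt_smul (k : ℤ) (v : Fin n ⊕ Fin n → ℤ) : tt (k • v) = (k * k) • tt v := by
  unfold tt
  rw [smul_vecMul, smul_vecMulVec, vecMulVec_smul, smul_smul]

theorem qq_smul_right (k : ℤ) (v w : Fin n ⊕ Fin n → ℤ) : qq v (k • w) = k • qq v w := by
  unfold qq
  rw [smul_vecMul, smul_vecMulVec, vecMulVec_smul, smul_add]

theorem qq_add_right (v w z : Fin n ⊕ Fin n → ℤ) : qq v (w + z) = qq v w + qq v z := by
  unfold qq
  rw [add_vecMul, add_vecMulVec, vecMulVec_add]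
  abel

theorem qq_self (v : Fin n ⊕ Fin n → ℤ) : qq v v = (2 : ℤ) • tt v := by
  unfold qq tt
  rw [two_smul]

theorem qq_comm (v w : Fin n ⊕ Fin n → ℤ) : qq v w = qq w v := by
  unfold qq
  rw [add_comm]

theorem vm_mul (a b c d : Fin n ⊕ Fin n → ℤ) :
    vecMulVec a (b ᵥ* J (Fin n) ℤ) * vecMulVec c (d ᵥ* J (Fin n) ℤ) =
      om b c • vecMulVec a (d ᵥ* J (Fin n) ℤ) := by
  rw [vecMulVec_mul_vecMulVec, vecMulVec_smul]
  rfl

theorem tt_mul_tt {v w : Fin n ⊕ Fin n → ℤ} (h : om v w = 0) : tt v * tt w = 0 := by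
  unfold tt
  rw [vm_mul, h, zero_smul]

theorem tt_mul_self (v : Fin n ⊕ Fin n → ℤ) : tt v * tt v = 0 := tt_mul_tt (om_self v)

theorem tt_mul_qq {v w z : Fin n ⊕ Fin n → ℤ} (h : om z v = 0) (h' : om z w = 0) : tt z * qq v w = 0 := by
  unfold tt qq
  rw [mul_add, vm_mul, vm_mul, h, h', zero_smul, zero_smul, add_zero]

theorem qq_mul_tt {v w z : Fin n ⊕ Fin n → ℤ} (h : om v z = 0) (h' : om w z = 0) : qq v w * tt z = 0 := by
  unfold tt qq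
  rw [add_mul, vm_mul, vm_mul, h, h', zero_smul, zero_smul, add_zero]

theorem qq_mul_qq {v w a b : Fin n ⊕ Fin n → ℤ} (h1 : om v a = 0) (h2 : om v b = 0) (h3 : om w a = 0)
    (h4 : om w b = 0) : qq v w * qq a b = 0 := by
  unfold qq
  rw [add_mul, mul_add, mul_add, vm_mul, vm_mul, vm_mul, vm_mul, h1, h2, h3, h4]
  simp

/-! ### The group -/

theorem coe_mul (g h : symplecticGroup (Fin n) ℤ) : ((g * h : symplecticGroup (Fin n) ℤ) : Matrix (Fin n ⊕ Fin n) (Fin n ⊕ Fin n) ℤ) =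
    (g : Matrix (Fin n ⊕ Fin n) (Fin n ⊕ Fin n) ℤ) * (h : Matrix (Fin n ⊕ Fin n) (Fin n ⊕ Fin n) ℤ) := rfl

theorem coe_mul_inv (g : symplecticGroup (Fin n) ℤ) :
    (g : Matrix (Fin n ⊕ Fin n) (Fin n ⊕ Fin n) ℤ) * ((g⁻¹ : symplecticGroup (Fin n) ℤ) : Matrix (Fin n ⊕ Fin n) (Fin n ⊕ Fin n) ℤ) = 1 := by
  have : g * g⁻¹ = 1 := mul_inv_cancel g
  exact congrArg Subtype.val this

theorem coe_inv_mul (g : symplecticGroup (Fin n) ℤ) :
    ((g⁻¹ : symplecticGroup (Fin n) ℤ) : Matrix (Fin n ⊕ Fin n) (Fin n ⊕ Fin n) ℤ) * (g : Matrix (Fin n ⊕ Fin n) (Fin n ⊕ Fin n) ℤ) = 1 := by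
  have : g⁻¹ * g = 1 := inv_mul_cancel g
  exact congrArg Subtype.val this

theorem vecMul_J_inv (g : symplecticGroup (Fin n) ℤ) (w : Fin n ⊕ Fin n → ℤ) :
    (w ᵥ* J (Fin n) ℤ) ᵥ* ((g⁻¹ : symplecticGroup (Fin n) ℤ) : Matrix (Fin n ⊕ Fin n) (Fin n ⊕ Fin n) ℤ) =
      ((g : Matrix (Fin n ⊕ Fin n) (Fin n ⊕ Fin n) ℤ) *ᵥ w) ᵥ* J (Fin n) ℤ := by
  have h1 : (g : Matrix (Fin n ⊕ Fin n) (Fin n ⊕ Fin n) ℤ)ᵀ * J (Fin n) ℤ * (g : Matrix (Fin n ⊕ Fin n) (Fin n ⊕ Fin n) ℤ) = J (Fin n) ℤ := SymplecticGroup.mem_iff'.mp g.2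
  have h2 : J (Fin n) ℤ * ((g⁻¹ : symplecticGroup (Fin n) ℤ) : Matrix (Fin n ⊕ Fin n) (Fin n ⊕ Fin n) ℤ) = (g : Matrix (Fin n ⊕ Fin n) (Fin n ⊕ Fin n) ℤ)ᵀ * J (Fin n) ℤ := by
    calc J (Fin n) ℤ * ((g⁻¹ : symplecticGroup (Fin n) ℤ) : Matrix (Fin n ⊕ Fin n) (Fin n ⊕ Fin n) ℤ)
        = (g : Matrix (Fin n ⊕ Fin n) (Fin n ⊕ Fin n) ℤ)ᵀ * J (Fin n) ℤ * (g : Matrix (Fin n ⊕ Fin n) (Fin n ⊕ Fin n) ℤ) * ((g⁻¹ : symplecticGroup (Fin n) ℤ) : Matrix (Fin n ⊕ Fin n) (Fin n ⊕ Fin n) ℤ) := by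
          rw [h1]
      _ = _ := by rw [Matrix.mul_assoc, coe_mul_inv, Matrix.mul_one]
  rw [vecMul_vecMul, h2, ← vecMul_vecMul, vecMul_transpose]

theorem om_map (g : symplecticGroup (Fin n) ℤ) (v w : Fin n ⊕ Fin n → ℤ) :
    om ((g : Matrix (Fin n ⊕ Fin n) (Fin n ⊕ Fin n) ℤ) *ᵥ v) ((g : Matrix (Fin n ⊕ Fin n) (Fin n ⊕ Fin n) ℤ) *ᵥ w) = om v w := by
  unfold om
  rw [← vecMul_J_inv, dotProduct_mulVec, vecMul_vecMul, coe_inv_mul, vecMul_one]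

theorem conj_vm (g : symplecticGroup (Fin n) ℤ) (v w : Fin n ⊕ Fin n → ℤ) :
    (g : Matrix (Fin n ⊕ Fin n) (Fin n ⊕ Fin n) ℤ) * vecMulVec v (w ᵥ* J (Fin n) ℤ) * ((g⁻¹ : symplecticGroup (Fin n) ℤ) : Matrix (Fin n ⊕ Fin n) (Fin n ⊕ Fin n) ℤ) =
      vecMulVec ((g : Matrix (Fin n ⊕ Fin n) (Fin n ⊕ Fin n) ℤ) *ᵥ v) (((g : Matrix (Fin n ⊕ Fin n) (Fin n ⊕ Fin n) ℤ) *ᵥ w) ᵥ* J (Fin n) ℤ) := by
  rw [mul_vecMulVec, vecMulVec_mul, vecMul_J_inv]

theorem conj_tt (g : symplecticGroup (Fin n) ℤ) (v : Fin n ⊕ Fin n → ℤ) :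
    (g : Matrix (Fin n ⊕ Fin n) (Fin n ⊕ Fin n) ℤ) * tt v * ((g⁻¹ : symplecticGroup (Fin n) ℤ) : Matrix (Fin n ⊕ Fin n) (Fin n ⊕ Fin n) ℤ) = tt ((g : Matrix (Fin n ⊕ Fin n) (Fin n ⊕ Fin n) ℤ) *ᵥ v) :=
  conj_vm g v v

theorem conj_qq (g : symplecticGroup (Fin n) ℤ) (v w : Fin n ⊕ Fin n → ℤ) :
    (g : Matrix (Fin n ⊕ Fin n) (Fin n ⊕ Fin n) ℤ) * qq v w * ((g⁻¹ : symplecticGroup (Fin n) ℤ) : Matrix (Fin n ⊕ Fin n) (Fin n ⊕ Fin n) ℤ) =
      qq ((g : Matrix (Fin n ⊕ Fin n) (Fin n ⊕ Fin n) ℤ) *ᵥ v) ((g : Matrix (Fin n ⊕ Fin n) (Fin n ⊕ Fin n) ℤ) *ᵥ w) := by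
  unfold qq
  rw [mul_add, add_mul, conj_vm, conj_vm]

theorem conj_ts (g : symplecticGroup (Fin n) ℤ) (v : Fin n ⊕ Fin n → ℤ) (k : ℤ) :
    g * ts v k * g⁻¹ = ts ((g : Matrix (Fin n ⊕ Fin n) (Fin n ⊕ Fin n) ℤ) *ᵥ v) k := by
  apply Subtype.ext
  change (g : Matrix (Fin n ⊕ Fin n) (Fin n ⊕ Fin n) ℤ) * (1 + k • tt v) * ((g⁻¹ : symplecticGroup (Fin n) ℤ) : Matrix (Fin n ⊕ Fin n) (Fin n ⊕ Fin n) ℤ) =
    1 + k • tt ((g : Matrix (Fin n ⊕ Fin n) (Fin n ⊕ Fin n) ℤ) *ᵥ v)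
  rw [mul_add, add_mul, Matrix.mul_one, coe_mul_inv, Matrix.mul_smul, Matrix.smul_mul, conj_tt]

/-- Powers of elements with square zero logarithm. -/
theorem zpow_sq {X : symplecticGroup (Fin n) ℤ} {N : Matrix (Fin n ⊕ Fin n) (Fin n ⊕ Fin n) ℤ} (hX : (X : Matrix (Fin n ⊕ Fin n) (Fin n ⊕ Fin n) ℤ) = 1 + N)
    (hN : N * N = 0) (m : ℤ) : ((X ^ m : symplecticGroup (Fin n) ℤ) : Matrix (Fin n ⊕ Fin n) (Fin n ⊕ Fin n) ℤ) = 1 + m • N := by
  have hXi : ((X⁻¹ : symplecticGroup (Fin n) ℤ) : Matrix (Fin n ⊕ Fin n) (Fin n ⊕ Fin n) ℤ) = 1 - N := by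
    have h1 : (1 - N) * (X : Matrix (Fin n ⊕ Fin n) (Fin n ⊕ Fin n) ℤ) = 1 := by
      rw [hX]
      simp only [sub_mul, mul_add, one_mul, mul_one, hN]
      abel
    calc ((X⁻¹ : symplecticGroup (Fin n) ℤ) : Matrix (Fin n ⊕ Fin n) (Fin n ⊕ Fin n) ℤ)
        = ((1 - N) * (X : Matrix (Fin n ⊕ Fin n) (Fin n ⊕ Fin n) ℤ)) * ((X⁻¹ : symplecticGroup (Fin n) ℤ) : Matrix (Fin n ⊕ Fin n) (Fin n ⊕ Fin n) ℤ) := by
          rw [h1, Matrix.one_mul]
      _ = 1 - N := by rw [Matrix.mul_assoc, coe_mul_inv, Matrix.mul_one]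
  induction m using Int.induction_on with
  | zero =>
    rw [zpow_zero, zero_smul, add_zero]
    rfl
  | succ k ih =>
    rw [_root_.zpow_add_one, coe_mul, ih, hX]
    simp only [mul_add, add_mul, one_mul, mul_one, Matrix.smul_mul, hN, smul_zero, add_smul,
      one_smul]
    abel
  | pred k ih =>
    rw [_root_.zpow_sub_one, coe_mul, ih, hXi]
    simp only [mul_sub, add_mul, one_mul, mul_one, Matrix.smul_mul, hN, smul_zero, sub_smul,
      one_smul]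
    abel

theorem ts_zpow (v : Fin n ⊕ Fin n → ℤ) (k : ℤ) : ts v 1 ^ k = ts v k := by
  apply Subtype.ext
  rw [zpow_sq (N := tt v) (by rw [ts_coe, one_smul]) (tt_mul_self v), ts_coe]

theorem ts_comm {v w : Fin n ⊕ Fin n → ℤ} (h : om v w = 0) (k l : ℤ) : Commute (ts v k) (ts w l) := by
  apply Subtype.ext
  change (1 + k • tt v) * (1 + l • tt w) = (1 + l • tt w) * (1 + k • tt v)
  have h' : om w v = 0 := by rw [om_swap, h, neg_zero]
  simp only [mul_add, add_mul, mul_one, one_mul, Matrix.mul_smul, Matrix.smul_mul, tt_mul_tt h,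
    tt_mul_tt h', smul_zero, add_zero]
  abel

theorem ts_mul_ts {v w : Fin n ⊕ Fin n → ℤ} (h : om v w = 0) (k l : ℤ) :
    ((ts v k * ts w l : symplecticGroup (Fin n) ℤ) : Matrix (Fin n ⊕ Fin n) (Fin n ⊕ Fin n) ℤ) = 1 + k • tt v + l • tt w := by
  rw [coe_mul, ts_coe, ts_coe, mul_add, Matrix.mul_one, Matrix.mul_smul, add_mul, Matrix.one_mul,
    Matrix.smul_mul, tt_mul_tt h, smul_zero, add_zero]

theorem ts_mul3 {a b c : Fin n ⊕ Fin n → ℤ} (hab : om a b = 0) (hac : om a c = 0) (hbc : om b c = 0)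
    (k l m : ℤ) : ((ts a k * ts b l * ts c m : symplecticGroup (Fin n) ℤ) : Matrix (Fin n ⊕ Fin n) (Fin n ⊕ Fin n) ℤ) =
      1 + k • tt a + l • tt b + m • tt c := by
  rw [coe_mul, ts_mul_ts hab, ts_coe, mul_add, Matrix.mul_one, Matrix.mul_smul, add_mul, add_mul,
    Matrix.one_mul, Matrix.smul_mul, Matrix.smul_mul, tt_mul_tt hac, tt_mul_tt hbc, smul_zero,
    smul_zero, add_zero, add_zero]

/-- The element `1 + k q(v, w)` for orthogonal `v`, `w`. -/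
theorem exists_sh {v w : Fin n ⊕ Fin n → ℤ} (h : om v w = 0) (k : ℤ) :
    ∃ Z : symplecticGroup (Fin n) ℤ, (Z : Matrix (Fin n ⊕ Fin n) (Fin n ⊕ Fin n) ℤ) = 1 + k • qq v w := by
  refine ⟨ts (v + w) k * ts v (-k) * ts w (-k), ?_⟩
  rw [ts_mul3 (by rw [om_add_left, om_self, om_swap, h, neg_zero, add_zero])
    (by rw [om_add_left, om_self, h, add_zero]) h, tt_add]
  simp only [smul_add, neg_smul]
  abel

/-! ### Linear algebra -/

theorem LI2.symm {v w : Fin n ⊕ Fin n → ℤ} (h : LI2 v w) : LI2 w v := by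
  obtain ⟨i, k, h⟩ := h
  exact ⟨k, i, by intro e; apply h; linear_combination e⟩

theorem LI2.left_ne {v w : Fin n ⊕ Fin n → ℤ} (h : LI2 v w) : v ≠ 0 := by
  rintro rfl
  obtain ⟨i, k, h⟩ := h
  simp at h

/-- Linear independence of the functionals. -/
theorem LI2.dual {v w : Fin n ⊕ Fin n → ℤ} (h : LI2 v w) :
    LI2 (v ᵥ* J (Fin n) ℤ) (w ᵥ* J (Fin n) ℤ) := by
  obtain ⟨i, k, h⟩ := h
  refine ⟨Sum.swap i, Sum.swap k, ?_⟩
  rcases i with i | i <;> rcases k with k | k <;>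
    simp only [Sum.swap_inl, Sum.swap_inr, vJ_inl, vJ_inr] <;> intro e <;> apply h <;>
    first | linear_combination e | linear_combination -e

/-- A vector orthogonal to `w` and not to `v`. -/
theorem exists_dual {v w : Fin n ⊕ Fin n → ℤ} (h : LI2 v w) : ∃ q, om w q = 0 ∧ om v q ≠ 0 := by
  obtain ⟨i, k, hik⟩ := h.dual
  refine ⟨(w ᵥ* J (Fin n) ℤ) k • Pi.single i 1 - (w ᵥ* J (Fin n) ℤ) i • Pi.single k 1, ?_, ?_⟩
  · unfold om
    rw [dotProduct_sub, dotProduct_smul, dotProduct_smul, dotProduct_single, dotProduct_single,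
      mul_one, mul_one, smul_eq_mul, smul_eq_mul]
    ring
  · unfold om
    rw [dotProduct_sub, dotProduct_smul, dotProduct_smul, dotProduct_single, dotProduct_single,
      mul_one, mul_one, smul_eq_mul, smul_eq_mul]
    intro e
    apply hik
    linear_combination e

/-- A third index. -/
theorem exists_idx (hn : 2 ≤ n) (p q : Fin n ⊕ Fin n) : ∃ r : Fin n ⊕ Fin n, r ≠ p ∧ r ≠ q := by
  classical
  have hcard : ({p, q} : Finset (Fin n ⊕ Fin n)).card < Fintype.card (Fin n ⊕ Fin n) := by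
    refine lt_of_le_of_lt Finset.card_le_two ?_
    rw [Fintype.card_sum, Fintype.card_fin]
    omega
  obtain ⟨r, hr⟩ := Finset.exists_mem_notMem_of_card_lt_card
    (s := ({p, q} : Finset (Fin n ⊕ Fin n))) (t := Finset.univ)
    (by rw [Finset.card_univ]; exact hcard)
  refine ⟨r, ?_, ?_⟩
  · intro h; apply hr.2; simp [h]
  · intro h; apply hr.2; simp [h]

/-- A common orthogonal vector of two independent vectors. -/
theorem exists_common (hn : 2 ≤ n) {v w : Fin n ⊕ Fin n → ℤ} (h : LI2 v w) :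
    ∃ z, z ≠ 0 ∧ om v z = 0 ∧ om w z = 0 := by
  obtain ⟨p, q, hpq⟩ := h.dual
  obtain ⟨r, hrp, hrq⟩ := exists_idx hn p q
  set a := v ᵥ* J (Fin n) ℤ with ha
  set b := w ᵥ* J (Fin n) ℤ with hb
  refine ⟨(a q * b r - a r * b q) • Pi.single p 1 + (a r * b p - a p * b r) • Pi.single q 1 +
    (a p * b q - a q * b p) • Pi.single r 1, ?_, ?_, ?_⟩
  · intro e
    have e1 := congrFun e r
    simp only [Pi.add_apply, Pi.smul_apply, Pi.single_eq_same, Pi.single_eq_of_ne hrp,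
      Pi.single_eq_of_ne hrq, smul_eq_mul, mul_zero, mul_one, zero_add, Pi.zero_apply] at e1
    exact hpq e1
  · unfold om
    rw [← ha, dotProduct_add, dotProduct_add, dotProduct_smul, dotProduct_smul, dotProduct_smul,
      dotProduct_single, dotProduct_single, dotProduct_single, mul_one, mul_one, mul_one,
      smul_eq_mul, smul_eq_mul, smul_eq_mul]
    ring
  · unfold om
    rw [← hb, dotProduct_add, dotProduct_add, dotProduct_smul, dotProduct_smul, dotProduct_smul,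
      dotProduct_single, dotProduct_single, dotProduct_single, mul_one, mul_one, mul_one,
      smul_eq_mul, smul_eq_mul, smul_eq_mul]
    ring

/-- A vector orthogonal to and independent of `v`. -/
theorem exists_adj (hn : 2 ≤ n) {v : Fin n ⊕ Fin n → ℤ} (hv : v ≠ 0) : ∃ z, om v z = 0 ∧ LI2 v z := by
  obtain ⟨i, hi⟩ := Function.ne_iff.mp hv
  rw [Pi.zero_apply] at hi
  obtain ⟨k, hki, -⟩ := exists_idx hn i i
  obtain ⟨l, hli, hlk⟩ := exists_idx hn i k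
  set a := v ᵥ* J (Fin n) ℤ with ha
  by_cases h0 : a k = 0
  · refine ⟨Pi.single k 1, ?_, i, k, ?_⟩
    · unfold om
      rw [← ha, dotProduct_single, h0, zero_mul]
    · rw [Pi.single_eq_same, Pi.single_eq_of_ne (Ne.symm hki), mul_one, mul_zero, sub_zero]
      exact hi
  · refine ⟨a l • Pi.single k 1 - a k • Pi.single l 1, ?_, i, l, ?_⟩
    · unfold om
      rw [← ha, dotProduct_sub, dotProduct_smul, dotProduct_smul, dotProduct_single,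
        dotProduct_single, mul_one, mul_one, smul_eq_mul, smul_eq_mul]
      ring
    · simp only [Pi.sub_apply, Pi.smul_apply, Pi.single_eq_same, Pi.single_eq_of_ne hlk,
        Pi.single_eq_of_ne (Ne.symm hki), Pi.single_eq_of_ne (Ne.symm hli), smul_eq_mul, mul_zero,
        mul_one, sub_zero, zero_sub, mul_neg]
      exact neg_ne_zero.mpr (mul_ne_zero hi h0)

end Vale.Agent.P092.R2.H289.Spn
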