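import Vale.Agent.P092.R2.H289.CHT

/-!
Abstract frames: commuting conjugates and vectors which are tight along a normalised set.
-/

set_option linter.all false

open scoped InnerProductSpace
open Filter Topology ContinuousLinearMap

namespace Vale.Agent.P092.R2.H289
open Vale.Agent.P092.H160
open Vale.Agent.P092

section

variable {Γ Λ H : Type} [Group Γ] [Group Λ] [NormedAddCommGroup H] [InnerProductSpace ℂ H]
  [CompleteSpace H]

namespace Fr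

variable {α : Γ →* (H →L[ℂ] H)} {β : Λ →* (H →L[ℂ] H)} {u : H} {t : ℝ}

/-- The projections of commuting elements commute. -/
theorem P_P_comm (hα : Fr α β u t) {x y : Γ} (h : Commute x y) (ξ : H) :
    hα.P x (hα.P y ξ) = hα.P y (hα.P x ξ) := by
  have key : ∀ ζ ∈ hα.Ht y, hα.P x ζ ∈ hα.Ht y := fun ζ hζ =>
    hα.map_mem_Ht (hα.P_rc x) (fun η => (hα.P_comm h.symm η).symm) hζ
  refine hα.P_comm_of (x := y) (T := hα.P x) key (fun ζ hζ => ?_) ξ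
  rw [hα.P_adjoint]
  exact key ζ hζ

theorem P_mem_of_comm (hα : Fr α β u t) {x y : Γ} (h : Commute x y) {ξ : H} (hξ : ξ ∈ hα.Ht y) :
    hα.P x ξ ∈ hα.Ht y := by
  have h1 := hα.P_P_comm h ξ
  rw [hα.P_eq_self hξ] at h1
  rw [h1]
  exact hα.P_mem y _

/-- Products of commuting elements. -/
theorem Ht_mul (hα : Fr α β u t) {x y : Γ} (h : Commute x y) {ξ : H} (hx : ξ ∈ hα.Ht x)
    (hy : ξ ∈ hα.Ht y) : ξ ∈ hα.Ht (x * y) := by
  refine TH.op (h := hα) (B := Set.range fun k : ℤ => α (x ^ k) * hα.P x) (C := 1) (M := ‖ξ‖)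
    (S := Set.range fun k : ℤ => α (y ^ k) ξ) ?_ ?_ ?_ ?_ hy ?_
  · rintro _ ⟨k, rfl⟩
    exact (hα.rc _).mul (hα.P_rc x)
  · rintro _ ⟨k, rfl⟩
    refine ContinuousLinearMap.opNorm_le_bound _ zero_le_one (fun ζ => ?_)
    show ‖α (x ^ k) (hα.P x ζ)‖ ≤ _
    rw [hα.norm_map, one_mul]
    exact hα.P_norm x ζ
  · rw [← Set.range_comp]
    exact hα.P_mem x u
  · rintro _ ⟨k, rfl⟩
    simp only [hα.norm_map]
    exact le_rfl
  · rintro _ ⟨k, rfl⟩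
    refine ⟨_, ⟨k, rfl⟩, _, ⟨k, rfl⟩, ?_⟩
    show α ((x * y) ^ k) ξ = α (x ^ k) (hα.P x (α (y ^ k) ξ))
    rw [← hα.P_comm (h.symm.zpow_left k), hα.P_eq_self hx, ← ap_mul, h.mul_zpow]

theorem Ht_inv (hα : Fr α β u t) {x : Γ} {ξ : H} (hx : ξ ∈ hα.Ht x) : ξ ∈ hα.Ht x⁻¹ := by
  have := pow_mem_Ht hx (-1)
  rwa [zpow_neg_one] at this

/-- From a nonzero tight subspace for `x` to one for a commutator `x⁻¹ yᵐ x y⁻ᵐ`. -/
theorem pig (hα : Fr α β u t) {x y : Γ} (hc : ∀ m : ℤ, Commute x (y ^ m * x * (y ^ m)⁻¹))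
    (hx : hα.Ht x ≠ ⊥) : ∃ m : ℤ, m ≠ 0 ∧ hα.Ht (x⁻¹ * (y ^ m * x * (y ^ m)⁻¹)) ≠ ⊥ := by
  by_contra hcon
  push Not at hcon
  apply hx
  apply hα.Ht_eq_bot_of
  by_contra hne
  set w : ℤ → H := fun m => hα.P (y ^ m * x * (y ^ m)⁻¹) u with hw
  have hnorm : ∀ m, ‖w m‖ = ‖hα.P x u‖ := fun m => hα.norm_P_conj _ _
  have horth : ∀ m : ℤ, m ≠ 0 → ∀ ξ ∈ hα.Ht (y ^ m * x * (y ^ m)⁻¹), hα.P x ξ = 0 := by
    intro m hm ξ hξ
    have h1 := hα.Ht_mul (hc m).inv_left (hα.Ht_inv (hα.P_mem x ξ)) (hα.P_mem_of_comm (hc m) hξ)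
    rw [hcon m hm] at h1
    simpa using h1
  have horth2 : ∀ m l : ℤ, m ≠ l → ⟪w m, w l⟫_ℂ = 0 := by
    intro m l hml
    have e1 : w m = α (y ^ m) (hα.P x (α (y ^ m)⁻¹ u)) := hα.P_conj _ _ _
    have h3 : α (y ^ m)⁻¹ (w l) ∈ hα.Ht (y ^ (l - m) * x * (y ^ (l - m))⁻¹) := by
      have := hα.conj_mem_Ht (y ^ m)⁻¹ _ (hα.P_mem (y ^ l * x * (y ^ l)⁻¹) u)
      have e : (y ^ m)⁻¹ * (y ^ l * x * (y ^ l)⁻¹) * (y ^ m)⁻¹⁻¹
          = y ^ (l - m) * x * (y ^ (l - m))⁻¹ := by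
        rw [zpow_sub]; group
      rwa [e] at this
    rw [e1, hα.inner_left, P_inner, horth (l - m) (sub_ne_zero.mpr (Ne.symm hml)) _ h3,
      inner_zero_right]
  have hbessel : ∀ N : ℕ, (N : ℝ) * ‖hα.P x u‖ ^ 2 ≤ 1 := by
    intro N
    set s : H := ∑ m ∈ Finset.range N, w m with hs
    have h1 : ⟪s, s⟫_ℂ = ((N * ‖hα.P x u‖ ^ 2 : ℝ) : ℂ) := by
      rw [hs, sum_inner]
      have : ∀ m ∈ Finset.range N, ⟪w m, ∑ l ∈ Finset.range N, w l⟫_ℂ
          = ((‖hα.P x u‖ ^ 2 : ℝ) : ℂ) := by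
        intro m hm
        rw [inner_sum, Finset.sum_eq_single_of_mem m hm]
        · rw [inner_self', hnorm]
        · intro l _ hl
          exact horth2 _ _ (by exact_mod_cast Ne.symm hl)
      rw [Finset.sum_congr rfl this, Finset.sum_const, Finset.card_range, nsmul_eq_mul]
      push_cast; ring
    have h2 : ⟪u, s⟫_ℂ = ((N * ‖hα.P x u‖ ^ 2 : ℝ) : ℂ) := by
      rw [hs, inner_sum]
      have : ∀ m ∈ Finset.range N, ⟪u, w m⟫_ℂ
          = ((‖hα.P x u‖ ^ 2 : ℝ) : ℂ) := by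
        intro m _
        rw [hw]
        simp only
        rw [trace_eq_norm, norm_P_conj]
      rw [Finset.sum_congr rfl this, Finset.sum_const, Finset.card_range, nsmul_eq_mul]
      push_cast; ring
    have h3 : ‖s‖ ^ 2 = N * ‖hα.P x u‖ ^ 2 := by
      rw [inner_self'] at h1
      exact_mod_cast h1
    have h4 : N * ‖hα.P x u‖ ^ 2 ≤ ‖s‖ := by
      have h5 := norm_inner_le_norm (𝕜 := ℂ) u s
      rw [h2, hα.norm_u, one_mul, Complex.norm_real, Real.norm_of_nonneg (by positivity)] at h5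
      exact h5
    rw [← h3] at h4 ⊢
    nlinarith [norm_nonneg s, sq_nonneg ‖s‖]
  have hpos : 0 < ‖hα.P x u‖ ^ 2 := by
    have : 0 < ‖hα.P x u‖ := norm_pos_iff.mpr hne
    positivity
  obtain ⟨N, hN⟩ := exists_nat_gt (1 / ‖hα.P x u‖ ^ 2)
  have := hbessel N
  rw [div_lt_iff₀ hpos] at hN
  linarith

/-- If the conjugates of the projection under the powers of `y` converge weakly to a scalar then
they are not annihilated by a nonzero operator in the commutant of `β`. -/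
theorem exists_mul_ne (hα : Fr α β u t) {x y : Γ}
    (hfin : ∀ g, g ≠ 1 → ∃ M : ℕ, ∀ m : ℕ, M ≤ m → hα.c (y ^ m * x * (y ^ m)⁻¹) g = 0)
    (hx : hα.P x u ≠ 0) {A : H →L[ℂ] H} (hA : CL β A) (hA0 : A u ≠ 0) (M₀ : ℕ) :
    ∃ m, M₀ ≤ m ∧ A (hα.P (y ^ m * x * (y ^ m)⁻¹) u) ≠ 0 := by
  set τ : ℝ := ‖hα.P x u‖ ^ 2 with ht
  have ht0 : 0 < τ := by
    have : 0 < ‖hα.P x u‖ := norm_pos_iff.mpr hx
    positivity
  set w : ℕ → H := fun m => hα.P (y ^ m * x * (y ^ m)⁻¹) u with hw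
  have hw1 : ∀ m, ‖w m‖ ≤ 1 := fun m => by
    have := hα.P_norm (y ^ m * x * (y ^ m)⁻¹) u
    rwa [hα.norm_u] at this
  have hspan : ∀ ζ ∈ Submodule.span ℂ (Set.range fun g => α g u),
      ∃ M : ℕ, ∀ m : ℕ, M ≤ m → ⟪ζ, w m⟫_ℂ = (τ : ℂ) * ⟪ζ, u⟫_ℂ := by
    intro ζ hζ
    refine Submodule.span_induction ?_ ?_ ?_ ?_ hζ
    · rintro _ ⟨g, rfl⟩
      by_cases hg : g = 1
      · subst hg
        refine ⟨0, fun m _ => ?_⟩
        simp only [ap_one]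
        rw [hw]
        simp only
        rw [trace_eq_norm, norm_P_conj, inner_self', hα.norm_u]
        simp [ht]
      · obtain ⟨M, hM⟩ := hfin g hg
        refine ⟨M, fun m hm => ?_⟩
        have := hM m hm
        rw [c] at this
        simp only
        rw [hα.inner_left g u u, hα.orth _ (inv_ne_one.mpr hg), mul_zero]
        exact this
    · exact ⟨0, fun m _ => by simp⟩
    · rintro a b _ _ ⟨M, hM⟩ ⟨N, hN⟩
      refine ⟨max M N, fun m hm => ?_⟩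
      rw [inner_add_left, inner_add_left, hM m (le_trans (le_max_left _ _) hm),
        hN m (le_trans (le_max_right _ _) hm), mul_add]
    · rintro a b _ ⟨M, hM⟩
      refine ⟨M, fun m hm => ?_⟩
      rw [inner_smul_left, inner_smul_left, hM m hm]; ring
  by_contra hcon
  push Not at hcon
  set ζ : H := adjoint A (A u) with hζdef
  have hζ : ∀ m, M₀ ≤ m → ⟪ζ, w m⟫_ℂ = 0 := fun m hm => by
    rw [hζdef, ContinuousLinearMap.adjoint_inner_left, hcon m hm, inner_zero_right]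
  have hmem' : ζ ∈ (Submodule.span ℂ (Set.range fun g => α g u)).topologicalClosure :=
    hα.tot ((CL.adjoint hα.adjβ hA).mul hA)
  have hmem : ζ ∈ closure (Submodule.span ℂ (Set.range fun g => α g u) : Set H) := by
    rw [← Submodule.topologicalClosure_coe]; exact hmem'
  have hne : ⟪ζ, u⟫_ℂ ≠ 0 := by
    rw [hζdef, ContinuousLinearMap.adjoint_inner_left]
    intro h
    exact hA0 (inner_self_eq_zero.mp h)
  have hpos : 0 < ‖⟪ζ, u⟫_ℂ‖ := norm_pos_iff.mpr hne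
  set d : ℝ := ‖⟪ζ, u⟫_ℂ‖ with hd
  obtain ⟨ζ', hζ', hdist⟩ := Metric.mem_closure_iff.mp hmem (τ * d / (1 + τ))
    (by positivity)
  rw [dist_eq_norm] at hdist
  obtain ⟨M, hM⟩ := hspan ζ' hζ'
  have e1 := hM (M + M₀) (by omega)
  have e2 : ((τ : ℂ) * ⟪ζ, u⟫_ℂ) =
      (τ : ℂ) * ⟪ζ - ζ', u⟫_ℂ - ⟪ζ - ζ', w (M + M₀)⟫_ℂ := by
    rw [inner_sub_left, inner_sub_left, hζ (M + M₀) (by omega), e1]; ring
  have e3 : τ * d ≤ τ * ‖ζ - ζ'‖ + ‖ζ - ζ'‖ := by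
    calc τ * d = ‖(τ : ℂ) * ⟪ζ, u⟫_ℂ‖ := by
          rw [norm_mul, Complex.norm_real, Real.norm_of_nonneg ht0.le]
      _ ≤ ‖(τ : ℂ) * ⟪ζ - ζ', u⟫_ℂ‖ + ‖⟪ζ - ζ', w (M + M₀)⟫_ℂ‖ := by
          rw [e2]; exact norm_sub_le _ _
      _ ≤ τ * ‖ζ - ζ'‖ + ‖ζ - ζ'‖ := by
          refine add_le_add ?_ ?_
          · rw [norm_mul, Complex.norm_real, Real.norm_of_nonneg ht0.le]
            refine mul_le_mul_of_nonneg_left ?_ ht0.le
            refine (norm_inner_le_norm _ _).trans ?_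
            rw [hα.norm_u, mul_one]
          · refine (norm_inner_le_norm _ _).trans ?_
            calc ‖ζ - ζ'‖ * ‖w (M + M₀)‖ ≤ ‖ζ - ζ'‖ * 1 := by
                  gcongr; exact hw1 _
              _ = ‖ζ - ζ'‖ := mul_one _
  rw [lt_div_iff₀ (by positivity)] at hdist
  nlinarith

/-- Coefficients of an operator commuting with `α h`. -/
theorem exists_pow_comm' (hα : Fr α β u t) {Q : H →L[ℂ] H} (hQ : CL β Q) {g h : Γ}
    (hc : ∀ ξ, α h (Q ξ) = Q (α h ξ)) (hg : ⟪α g u, Q u⟫_ℂ ≠ 0) :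
    ∃ m : ℕ, m ≠ 0 ∧ Commute (h ^ m) g := by
  have hcm : ∀ m : ℕ, ∀ ξ, α (h ^ m) (Q ξ) = Q (α (h ^ m) ξ) := by
    intro m
    induction m with
    | zero => intro ξ; rw [pow_zero, ap_one, ap_one]
    | succ m ih => intro ξ; rw [pow_succ, ap_mul, ap_mul, hc, ih]
  have hconj : ∀ (m : ℕ) (g : Γ), ⟪α (h ^ m * g * (h ^ m)⁻¹) u, Q u⟫_ℂ = ⟪α g u, Q u⟫_ℂ := by
    intro m g
    rw [hα.inner_left, hα.inner_left]
    have h1 := hα.tr (hα.rc (h ^ m)) ((hα.rc (g⁻¹ * (h ^ m)⁻¹)).mul hQ)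
    have h2 : ⟪u, α (h ^ m) (α (g⁻¹ * (h ^ m)⁻¹) (Q u))⟫_ℂ =
        ⟪u, α (g⁻¹ * (h ^ m)⁻¹) (Q (α (h ^ m) u))⟫_ℂ := h1
    rw [← hcm, ← ap_mul, ← ap_mul] at h2
    have e1 : h ^ m * (g⁻¹ * (h ^ m)⁻¹) = (h ^ m * g * (h ^ m)⁻¹)⁻¹ := by group
    have e2 : g⁻¹ * (h ^ m)⁻¹ * h ^ m = g⁻¹ := by group
    rw [e1, e2] at h2
    exact h2
  by_contra hcon
  push Not at hcon
  have hinj : Function.Injective (fun m : ℕ => h ^ m * g * (h ^ m)⁻¹) := by
    have key : ∀ m l : ℕ, m < l → h ^ m * g * (h ^ m)⁻¹ ≠ h ^ l * g * (h ^ l)⁻¹ := by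
      intro m l hml e
      obtain ⟨d, rfl⟩ := Nat.exists_eq_add_of_lt hml
      apply hcon (d + 1) (by omega)
      have e2 : h ^ (m + d + 1) = h ^ m * h ^ (d + 1) := by rw [← pow_add]; rfl
      rw [e2] at e
      have e3 : g = h ^ (d + 1) * g * (h ^ (d + 1))⁻¹ := by
        have := congrArg (fun z => (h ^ m)⁻¹ * z * h ^ m) e
        simp only [mul_inv_rev] at this
        calc g = (h ^ m)⁻¹ * (h ^ m * g * (h ^ m)⁻¹) * h ^ m := by group
          _ = (h ^ m)⁻¹ * (h ^ m * h ^ (d + 1) * g * ((h ^ (d + 1))⁻¹ * (h ^ m)⁻¹)) * h ^ m := this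
          _ = h ^ (d + 1) * g * (h ^ (d + 1))⁻¹ := by group
      show h ^ (d + 1) * g = g * h ^ (d + 1)
      conv_rhs => rw [e3]
      group
    intro m l e
    rcases lt_trichotomy m l with h1 | h1 | h1
    · exact absurd e (key _ _ h1)
    · exact h1
    · exact absurd e.symm (key _ _ h1)
  have hsum := (hα.orthonormal.inner_products_summable (x := Q u)).comp_injective hinj
  have hconst : ((fun i : Γ => ‖⟪α i u, Q u⟫_ℂ‖ ^ 2) ∘
      fun m : ℕ => h ^ m * g * (h ^ m)⁻¹) = fun _ => ‖⟪α g u, Q u⟫_ℂ‖ ^ 2 := by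
    funext m
    show ‖⟪α (h ^ m * g * (h ^ m)⁻¹) u, Q u⟫_ℂ‖ ^ 2 = _
    rw [hconj]
  rw [hconst] at hsum
  have := (summable_const_iff _).mp hsum
  exact hg (by simpa using this)

/-- An idempotent of the commutant of `β` whose coefficients off `1` vanish is `0` or `1`. -/
theorem zero_or_one (hα : Fr α β u t) {Q : H →L[ℂ] H} (hQ : CL β Q)
    (hQ2 : ∀ ξ, Q (Q ξ) = Q ξ) (h : ∀ g, g ≠ 1 → ⟪α g u, Q u⟫_ℂ = 0) : Q = 0 ∨ Q = 1 := by
  set z : ℂ := ⟪α 1 u, Q u⟫_ℂ with hz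
  have h2 : Q = z • (1 : H →L[ℂ] H) := by
    rw [← sub_eq_zero]
    refine hα.eq_zero_of_coeff (hQ.sub (CL.one.smul z)) fun g => ?_
    change ⟪α g u, Q u - z • u⟫_ℂ = 0
    rw [inner_sub_right, inner_smul_right]
    by_cases hg : g = 1
    · subst hg
      rw [← hz, ap_one, inner_self_eq_norm_sq_to_K, hα.norm_u]
      simp
    · rw [h g hg, hα.inner_left, hα.orth _ (inv_ne_one.mpr hg)]
      simp
  have h3 : z • (z • u) = z • u := by
    have := hQ2 u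
    rw [h2] at this
    simpa using this
  have h4 : z * z = z := by
    rw [smul_smul] at h3
    exact smul_left_injective ℂ hα.u_ne h3
  rcases (IsIdempotentElem.iff_eq_zero_or_one.mp h4) with h5 | h5
  · left
    rw [h2, h5, zero_smul]
  · right
    rw [h2, h5, one_smul]

end Fr

end

end Vale.Agent.P092.R2.H289
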