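import Vale.Agent.P092.R2.H289.SpSt

/-!
Separation for the symplectic group: integral matrices which commute virtually with sufficiently
many elements of `Sp_{2n}(ℤ)` are scalar.
-/

set_option linter.all false

namespace Vale.Agent.P092.R2.H289.Spn

open Matrix Vale.Agent.P092 Vale.Agent.P092.H350 Vale.Agent.P092.H367.SpT

variable {n : ℕ}

namespace Sep

theorem om_add (v x y : Fin n ⊕ Fin n → ℤ) : om v (x + y) = om v x + om v y := by
  simp only [om, dotProduct_add]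

theorem om_sub (v x y : Fin n ⊕ Fin n → ℤ) : om v (x - y) = om v x - om v y := by
  simp only [om, dotProduct_sub]

theorem om_smul (v x : Fin n ⊕ Fin n → ℤ) (c : ℤ) : om v (c • x) = c * om v x := by
  simp only [om, dotProduct_smul, smul_eq_mul]

theorem om_zero (v : Fin n ⊕ Fin n → ℤ) : om v 0 = 0 := by
  simp only [om, dotProduct_zero]

theorem add_om (v w x : Fin n ⊕ Fin n → ℤ) : om (v + w) x = om v x + om w x := by
  simp only [om, add_vecMul, add_dotProduct]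

theorem smul_om (v x : Fin n ⊕ Fin n → ℤ) (c : ℤ) : om (c • v) x = c * om v x := by
  simp only [om, smul_vecMul, smul_dotProduct, smul_eq_mul]

theorem om_self (v : Fin n ⊕ Fin n → ℤ) : om v v = 0 := quad v

theorem om_swap (v w : Fin n ⊕ Fin n → ℤ) : om w v = -om v w := by
  have h := om_self (v + w)
  rw [om_add, add_om, add_om, om_self, om_self] at h
  linarith

theorem om_J (v y : Fin n ⊕ Fin n → ℤ) : om v (J (Fin n) ℤ *ᵥ y) = -(v ⬝ᵥ y) := by
  rw [om, dotProduct_mulVec, aJ, neg_dotProduct]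

theorem LI2_symm {v w : Fin n ⊕ Fin n → ℤ} (h : LI2 v w) : LI2 w v := by
  obtain ⟨i, k, h⟩ := h
  exact ⟨k, i, fun h' => h (by linarith)⟩

theorem LI2_left {v w : Fin n ⊕ Fin n → ℤ} (h : LI2 v w) : v ≠ 0 := by
  obtain ⟨i, k, h⟩ := h
  rintro rfl
  exact h (by simp)

/-- A vector orthogonal to `w` but not to `v`. -/
theorem exists_q {v w : Fin n ⊕ Fin n → ℤ} (h : LI2 v w) : ∃ q, om w q = 0 ∧ om v q ≠ 0 := by
  obtain ⟨i, k, hik⟩ := h
  refine ⟨J (Fin n) ℤ *ᵥ (w k • Pi.single i 1 - w i • Pi.single k 1), ?_, ?_⟩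
  · rw [om_J, dotProduct_sub, dotProduct_smul, dotProduct_smul, dotProduct_single,
      dotProduct_single, smul_eq_mul, smul_eq_mul]
    ring
  · rw [om_J, dotProduct_sub, dotProduct_smul, dotProduct_smul, dotProduct_single,
      dotProduct_single, smul_eq_mul, smul_eq_mul]
    intro h0
    exact hik (by linarith)

/-- A nonzero vector orthogonal to `a` and `b`. -/
theorem exists_perp (hn : 2 ≤ n) {a b : Fin n ⊕ Fin n → ℤ} (h : LI2 a b) :
    ∃ z : Fin n ⊕ Fin n → ℤ, z ≠ 0 ∧ om a z = 0 ∧ om b z = 0 := by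
  classical
  obtain ⟨i, k, hik⟩ := h
  obtain ⟨l, -, hl⟩ := Finset.exists_mem_notMem_of_card_lt_card
    (s := ({i, k} : Finset (Fin n ⊕ Fin n))) (t := Finset.univ) (by
      refine lt_of_le_of_lt Finset.card_le_two ?_
      rw [Finset.card_univ, Fintype.card_sum, Fintype.card_fin]
      omega)
  rw [Finset.mem_insert, Finset.mem_singleton, not_or] at hl
  set y : Fin n ⊕ Fin n → ℤ := (a k * b l - a l * b k) • Pi.single i 1 +
    (a l * b i - a i * b l) • Pi.single k 1 + (a i * b k - a k * b i) • Pi.single l 1 with hy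
  have hyl : y l = a i * b k - a k * b i := by
    rw [hy]
    simp only [Pi.add_apply, Pi.smul_apply, smul_eq_mul, Pi.single_eq_same,
      Pi.single_eq_of_ne hl.1, Pi.single_eq_of_ne hl.2]
    ring
  refine ⟨J (Fin n) ℤ *ᵥ y, ?_, ?_, ?_⟩
  · intro h0
    have h1 := om_J (Pi.single l 1) y
    rw [h0, om_zero, single_dotProduct, one_mul, hyl] at h1
    exact hik (by linarith)
  · rw [om_J, hy]
    simp only [dotProduct_add, dotProduct_smul, dotProduct_single, smul_eq_mul, mul_one]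
    ring
  · rw [om_J, hy]
    simp only [dotProduct_add, dotProduct_smul, dotProduct_single, smul_eq_mul, mul_one]
    ring

theorem ts_zpow (v : Fin n ⊕ Fin n → ℤ) (k : ℤ) : ts v 1 ^ k = ts v k := by
  obtain ⟨m, rfl | rfl⟩ := k.eq_nat_or_neg
  · rw [zpow_natCast, ts_pow]
  · rw [_root_.zpow_neg, zpow_natCast, ts_pow]
    apply inv_eq_of_mul_eq_one_right
    apply Subtype.ext
    change tm v m * tm v (-m) = 1
    rw [tm_mul, add_neg_cancel, tm, zero_smul, add_zero]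

/-- `M z` is parallel to `z`. -/
theorem pc_par {z : Fin n ⊕ Fin n → ℤ} {M : Matrix (Fin n ⊕ Fin n) (Fin n ⊕ Fin n) ℤ}
    (h : PC (ts z 1) M) (i i' : Fin n ⊕ Fin n) : z i' * (M *ᵥ z) i = z i * (M *ᵥ z) i' := by
  by_cases hz : z = 0
  · subst hz
    simp
  obtain ⟨k, hk, h⟩ := h
  rw [ts_zpow] at h
  exact par_of_comm hz hk h.symm i i'

/-- Parallel for `z₀`, `z` and `z₀ + z` gives the same scalar. -/
theorem same_scalar {M : Matrix (Fin n ⊕ Fin n) (Fin n ⊕ Fin n) ℤ} {z₀ z : Fin n ⊕ Fin n → ℤ}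
    (h0 : ∀ i i', z₀ i' * (M *ᵥ z₀) i = z₀ i * (M *ᵥ z₀) i')
    (h1 : ∀ i i', z i' * (M *ᵥ z) i = z i * (M *ᵥ z) i')
    (h2 : ∀ i i', (z₀ + z) i' * (M *ᵥ (z₀ + z)) i = (z₀ + z) i * (M *ᵥ (z₀ + z)) i')
    {q : Fin n ⊕ Fin n} (hq : z₀ q ≠ 0) : z₀ q • (M *ᵥ z) = (M *ᵥ z₀) q • z := by
  by_cases hpar : ∀ i, z₀ q * z i = z q * z₀ i
  · -- dependent
    have e : z₀ q • z = z q • z₀ := by
      ext i
      exact hpar i
    have e2 := congrArg (fun x => M *ᵥ x) e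
    simp only [mulVec_smul] at e2
    rw [e2]
    ext i
    have a1 := h0 i q
    have a2 := hpar i
    simp only [Pi.smul_apply, smul_eq_mul]
    apply mul_left_cancel₀ hq
    linear_combination (z q) * a1 - (M *ᵥ z₀) q * a2
  · push Not at hpar
    obtain ⟨r, hr⟩ := hpar
    have hD : z₀ q * z r - z q * z₀ r ≠ 0 := sub_ne_zero.mpr hr
    ext i
    simp only [Pi.smul_apply, smul_eq_mul]
    set A := M *ᵥ z₀ with hA
    set B := M *ᵥ z with hB
    have b1 : (z₀ r + z r) * (A q + B q) = (z₀ q + z q) * (A r + B r) := by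
      have := h2 q r
      simpa only [mulVec_add, Pi.add_apply] using this
    have b2 := h1 q r
    have b3 := h0 q r
    have c0 : (z₀ q * z r - z q * z₀ r) * A q = z₀ q * (z₀ q * B r - z₀ r * B q) := by
      linear_combination z₀ q * b1 - z₀ q * b2 - (z₀ q + z q) * b3
    have c1 : z₀ q * B r = A q * z r := by
      apply mul_left_cancel₀ hD
      linear_combination (-z r) * c0 + z₀ q * z₀ r * b2
    have c2 : z₀ q * B q = A q * z q := by
      apply mul_left_cancel₀ hD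
      linear_combination (-z q) * c0 + z₀ q * z₀ q * b2
    have d1 : z r * (z₀ q * B i - A q * z i) = 0 := by
      linear_combination z₀ q * h1 i r + z i * c1
    have d2 : z q * (z₀ q * B i - A q * z i) = 0 := by
      linear_combination z₀ q * h1 i q + z i * c2
    have d3 : (z₀ q * z r - z q * z₀ r) * (z₀ q * B i - A q * z i) = 0 := by
      linear_combination z₀ q * d1 - z₀ r * d2
    exact sub_eq_zero.mp ((mul_eq_zero.mp d3).resolve_left hD)

/-- From a scalar up to a factor to a scalar. -/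
theorem scalar_of_smul (hn : 0 < n) {M : Matrix (Fin n ⊕ Fin n) (Fin n ⊕ Fin n) ℤ} {c₁ c₂ : ℤ}
    (hc : c₁ ≠ 0) (h : ∀ x, c₁ • (M *ᵥ x) = c₂ • x) : ∃ c : ℤ, M = c • 1 := by
  refine ⟨M (Sum.inl ⟨0, hn⟩) (Sum.inl ⟨0, hn⟩), ?_⟩
  have key : ∀ i k, c₁ * M i k = c₂ * (1 : Matrix (Fin n ⊕ Fin n) (Fin n ⊕ Fin n) ℤ) i k := by
    intro i k
    have := congrFun (h (Pi.single k 1)) i
    rw [mulVec_single_one] at this
    simpa only [Pi.smul_apply, smul_eq_mul, col_apply, one_apply, Pi.single_apply] using this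
  ext i k
  rw [Matrix.smul_apply, smul_eq_mul]
  apply mul_left_cancel₀ hc
  have h1 := key (Sum.inl ⟨0, hn⟩) (Sum.inl ⟨0, hn⟩)
  rw [one_apply_eq, mul_one] at h1
  rw [key, ← mul_assoc, h1]

end Sep

/-- (D1) -/
theorem scalar_of_two {n : ℕ} (hn : 2 ≤ n) {M : Matrix (Fin n ⊕ Fin n) (Fin n ⊕ Fin n) ℤ}
    {a b : Fin n ⊕ Fin n → ℤ} (hab : LI2 a b)
    (h1 : ∀ z, om a z = 0 → PC (ts z 1) M) (h2 : ∀ z, om b z = 0 → PC (ts z 1) M) :
    ∃ c : ℤ, M = c • 1 := by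
  obtain ⟨z₀, hz0, ha0, hb0⟩ := Sep.exists_perp hn hab
  obtain ⟨q, hq⟩ := Function.ne_iff.mp hz0
  rw [Pi.zero_apply] at hq
  have e1 : ∀ z, om a z = 0 → z₀ q • (M *ᵥ z) = (M *ᵥ z₀) q • z := fun z hz =>
    Sep.same_scalar (Sep.pc_par (h1 _ ha0)) (Sep.pc_par (h1 _ hz))
      (Sep.pc_par (h1 _ (by rw [Sep.om_add, ha0, hz, add_zero]))) hq
  have e2 : ∀ z, om b z = 0 → z₀ q • (M *ᵥ z) = (M *ᵥ z₀) q • z := fun z hz =>
    Sep.same_scalar (Sep.pc_par (h2 _ hb0)) (Sep.pc_par (h2 _ hz))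
      (Sep.pc_par (h2 _ (by rw [Sep.om_add, hb0, hz, add_zero]))) hq
  obtain ⟨e, he1, he2⟩ := Sep.exists_q (Sep.LI2_symm hab)
  refine Sep.scalar_of_smul (by omega) hq (c₂ := (M *ᵥ z₀) q) fun x => ?_
  have f1 := e2 (om b e • x - om b x • e) (by
    rw [Sep.om_sub, Sep.om_smul, Sep.om_smul, mul_comm, sub_self])
  have f2 := e1 e he1
  ext i
  have g1 := congrFun f1 i
  have g2 := congrFun f2 i
  simp only [mulVec_sub, mulVec_smul, Pi.smul_apply, Pi.sub_apply, smul_eq_mul] at g1 g2 ⊢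
  apply mul_left_cancel₀ he2
  linear_combination g1 + om b x * g2

namespace Sep

/-- Integral powers of a symplectic matrix `1 + N`, `N² = 0`. -/
theorem coe_zpow {Z : symplecticGroup (Fin n) ℤ} {N : Matrix (Fin n ⊕ Fin n) (Fin n ⊕ Fin n) ℤ}
    (h : (Z : Matrix (Fin n ⊕ Fin n) (Fin n ⊕ Fin n) ℤ) = 1 + N) (h2 : N * N = 0) (k : ℤ) :
    ((Z ^ k : symplecticGroup (Fin n) ℤ) : Matrix (Fin n ⊕ Fin n) (Fin n ⊕ Fin n) ℤ) =
      1 + k • N := by
  have hnat : ∀ m : ℕ, ((Z ^ m : symplecticGroup (Fin n) ℤ) :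
      Matrix (Fin n ⊕ Fin n) (Fin n ⊕ Fin n) ℤ) = 1 + (m : ℤ) • N := by
    intro m
    induction m with
    | zero =>
      rw [pow_zero, Nat.cast_zero, zero_smul, add_zero]
      rfl
    | succ m ih =>
      rw [pow_succ]
      change ((Z ^ m : symplecticGroup (Fin n) ℤ) :
        Matrix (Fin n ⊕ Fin n) (Fin n ⊕ Fin n) ℤ) * (Z : Matrix (Fin n ⊕ Fin n) (Fin n ⊕ Fin n) ℤ) = _
      rw [ih, h, Matrix.mul_add, Matrix.mul_one, Matrix.add_mul, Matrix.one_mul, Matrix.smul_mul,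
        h2, smul_zero, add_zero, Nat.cast_add, Nat.cast_one, add_smul, one_smul]
      abel
  obtain ⟨m, rfl | rfl⟩ := k.eq_nat_or_neg
  · rw [zpow_natCast, hnat]
  · rw [_root_.zpow_neg, zpow_natCast]
    have e1 : (((Z ^ m)⁻¹ : symplecticGroup (Fin n) ℤ) :
        Matrix (Fin n ⊕ Fin n) (Fin n ⊕ Fin n) ℤ) * (1 + (m : ℤ) • N) = 1 := by
      rw [← hnat m]
      exact congrArg (fun y : symplecticGroup (Fin n) ℤ =>
        (y : Matrix (Fin n ⊕ Fin n) (Fin n ⊕ Fin n) ℤ)) (inv_mul_cancel (Z ^ m))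
    have e2 : (1 + (m : ℤ) • N) * (1 + (-(m : ℤ)) • N) = 1 := by
      rw [Matrix.mul_add, Matrix.mul_one, Matrix.add_mul, Matrix.one_mul, Matrix.smul_mul,
        Matrix.mul_smul, h2, smul_zero, smul_zero, add_zero, neg_smul]
      abel
    calc (((Z ^ m)⁻¹ : symplecticGroup (Fin n) ℤ) : Matrix (Fin n ⊕ Fin n) (Fin n ⊕ Fin n) ℤ)
        = (((Z ^ m)⁻¹ : symplecticGroup (Fin n) ℤ) :
          Matrix (Fin n ⊕ Fin n) (Fin n ⊕ Fin n) ℤ) * ((1 + (m : ℤ) • N) * (1 + (-(m : ℤ)) • N)) := by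
          rw [e2, Matrix.mul_one]
      _ = 1 + (-(m : ℤ)) • N := by rw [← Matrix.mul_assoc, e1, Matrix.one_mul]

theorem comm_of_pc {Z : symplecticGroup (Fin n) ℤ}
    {N M : Matrix (Fin n ⊕ Fin n) (Fin n ⊕ Fin n) ℤ}
    (h : (Z : Matrix (Fin n ⊕ Fin n) (Fin n ⊕ Fin n) ℤ) = 1 + N) (h2 : N * N = 0)
    (hpc : PC Z M) : N * M = M * N := by
  obtain ⟨k, hk, e⟩ := hpc
  rw [coe_zpow h h2, Matrix.mul_add, Matrix.mul_one, Matrix.add_mul, Matrix.one_mul,
    Matrix.smul_mul, Matrix.mul_smul, add_right_inj] at e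
  exact smul_right_injective _ hk e

/-- The matrix `ζ ↦ om z ζ • z`. -/
theorem ts_coe (z : Fin n ⊕ Fin n → ℤ) : ((ts z 1 : symplecticGroup (Fin n) ℤ) :
    Matrix (Fin n ⊕ Fin n) (Fin n ⊕ Fin n) ℤ) = 1 + vecMulVec z (z ᵥ* J (Fin n) ℤ) := by
  change tm z 1 = _
  rw [tm, one_smul]

theorem sq_mulVec (z x : Fin n ⊕ Fin n → ℤ) :
    vecMulVec z (z ᵥ* J (Fin n) ℤ) *ᵥ x = om z x • z := by
  rw [vecMulVec_mulVec]
  ext i
  simp [om, mul_comm]

theorem sq_sq (z : Fin n ⊕ Fin n → ℤ) :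
    vecMulVec z (z ᵥ* J (Fin n) ℤ) * vecMulVec z (z ᵥ* J (Fin n) ℤ) = 0 := by
  rw [vecMulVec_mul_vecMulVec, quad, zero_smul, vecMulVec_zero]

theorem qq_mulVec (v p x : Fin n ⊕ Fin n → ℤ) :
    qq v p *ᵥ x = om p x • v + om v x • p := by
  rw [qq, add_mulVec, vecMulVec_mulVec, vecMulVec_mulVec]
  ext i
  simp [om]

theorem qq_sq {v p : Fin n ⊕ Fin n → ℤ} (h : om v p = 0) : qq v p * qq v p = 0 := by
  have h' : om p v = 0 := by rw [om_swap v p, h, neg_zero]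
  have e1 : (v ᵥ* J (Fin n) ℤ) ⬝ᵥ p = 0 := h
  have e2 : (p ᵥ* J (Fin n) ℤ) ⬝ᵥ v = 0 := h'
  rw [qq, Matrix.mul_add, Matrix.add_mul, Matrix.add_mul]
  simp only [vecMulVec_mul_vecMulVec, quad, e1, e2, zero_smul, vecMulVec_zero, add_zero]

/-- `1 + v ∘ p` is symplectic for orthogonal `v`, `p`. -/
theorem exists_qq {v p : Fin n ⊕ Fin n → ℤ} (h : om v p = 0) :
    ∃ Z : symplecticGroup (Fin n) ℤ,
      (Z : Matrix (Fin n ⊕ Fin n) (Fin n ⊕ Fin n) ℤ) = 1 + qq v p := by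
  have h' : om p v = 0 := by rw [om_swap v p, h, neg_zero]
  refine ⟨ts (v + p) 1 * ts v (-1) * ts p (-1), ?_⟩
  change tm (v + p) 1 * tm v (-1) * tm p (-1) = _
  apply Matrix.ext_of_mulVec_single
  intro k
  set x : Fin n ⊕ Fin n → ℤ := Pi.single k 1
  have ht : ∀ (z : Fin n ⊕ Fin n → ℤ) (c : ℤ) (y), tm z c *ᵥ y = y + (c * om z y) • z := by
    intro z c y
    rw [tm, add_mulVec, one_mulVec, smul_mulVec, sq_mulVec, smul_smul]
  rw [← mulVec_mulVec, ← mulVec_mulVec, ht, ht, ht, add_mulVec, one_mulVec, qq_mulVec]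
  simp only [om_add, om_smul, add_om, om_self, h, h']
  ext i
  simp only [Pi.add_apply, Pi.smul_apply, smul_eq_mul]
  ring

end Sep

/-- (D2) A similitude which commutes virtually with the elements of `Sp_{2n}(ℤ)` acting on `v`,
`w` by elementary matrices is a scalar. -/
theorem scalar_of_stab2 {n : ℕ} (hn : 2 ≤ n) {M : Matrix (Fin n ⊕ Fin n) (Fin n ⊕ Fin n) ℤ}
    {μ : ℤ} (hμ : μ ≠ 0) (hM : ∀ x y, om (M *ᵥ x) (M *ᵥ y) = μ * om x y)
    {v w : Fin n ⊕ Fin n → ℤ} (hvw : om v w = 0) (hLI : LI2 v w)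
    (h : ∀ Z : symplecticGroup (Fin n) ℤ,
      (((Z : Matrix (Fin n ⊕ Fin n) (Fin n ⊕ Fin n) ℤ) *ᵥ v = v ∧
          ∃ e : ℤ, (Z : Matrix (Fin n ⊕ Fin n) (Fin n ⊕ Fin n) ℤ) *ᵥ w = w + e • v) ∨
        ((Z : Matrix (Fin n ⊕ Fin n) (Fin n ⊕ Fin n) ℤ) *ᵥ w = w ∧
          ∃ e : ℤ, (Z : Matrix (Fin n ⊕ Fin n) (Fin n ⊕ Fin n) ℤ) *ᵥ v = v + e • w)) → PC Z M) :
    ∃ c : ℤ, M = c • 1 := by
  have hwv : om w v = 0 := by rw [Sep.om_swap v w, hvw, neg_zero]
  have hv0 : v ≠ 0 := Sep.LI2_left hLI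
  have hw0 : w ≠ 0 := Sep.LI2_left (Sep.LI2_symm hLI)
  obtain ⟨q, hq1, hq2⟩ := Sep.exists_q hLI
  obtain ⟨p, hp1, hp2⟩ := Sep.exists_q (Sep.LI2_symm hLI)
  -- commutation with square zero elements
  have hcom : ∀ N : Matrix (Fin n ⊕ Fin n) (Fin n ⊕ Fin n) ℤ, N * N = 0 →
      (∃ Z : symplecticGroup (Fin n) ℤ,
        (Z : Matrix (Fin n ⊕ Fin n) (Fin n ⊕ Fin n) ℤ) = 1 + N) →
      ((N *ᵥ v = 0 ∧ ∃ e : ℤ, N *ᵥ w = e • v) ∨ (N *ᵥ w = 0 ∧ ∃ e : ℤ, N *ᵥ v = e • w)) →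
      ∀ x, N *ᵥ (M *ᵥ x) = M *ᵥ (N *ᵥ x) := by
    intro N h2 ⟨Z, hZ⟩ hN x
    have hpc : PC Z M := by
      refine h Z ?_
      rw [hZ]
      simp only [add_mulVec, one_mulVec]
      rcases hN with ⟨h1, e, h2⟩ | ⟨h1, e, h2⟩
      · exact Or.inl ⟨by rw [h1, add_zero], e, by rw [h2]⟩
      · exact Or.inr ⟨by rw [h1, add_zero], e, by rw [h2]⟩
    rw [mulVec_mulVec, mulVec_mulVec, Sep.comm_of_pc hZ h2 hpc]
  have hTz : ∀ z, om v z = 0 → om w z = 0 →
      (vecMulVec z (z ᵥ* J (Fin n) ℤ) *ᵥ v = 0 ∧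
        ∃ e : ℤ, vecMulVec z (z ᵥ* J (Fin n) ℤ) *ᵥ w = e • v) := by
    intro z h1 h2
    refine ⟨?_, 0, ?_⟩
    · rw [Sep.sq_mulVec, Sep.om_swap v z, h1, neg_zero, zero_smul]
    · rw [Sep.sq_mulVec, Sep.om_swap w z, h2, neg_zero, zero_smul, zero_smul]
  have hpar : ∀ z, om v z = 0 → om w z = 0 → ∀ i i', z i' * (M *ᵥ z) i = z i * (M *ᵥ z) i' := by
    intro z h1 h2
    refine Sep.pc_par (h _ (Or.inl ?_))
    obtain ⟨a1, e, a2⟩ := hTz z h1 h2
    rw [Sep.ts_coe]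
    simp only [add_mulVec, one_mulVec]
    exact ⟨by rw [a1, add_zero], e, by rw [a2]⟩
  have hT : ∀ z, om v z = 0 → om w z = 0 → ∀ x, om z (M *ᵥ x) • z = om z x • (M *ᵥ z) := by
    intro z h1 h2 x
    have := hcom _ (Sep.sq_sq z) ⟨_, Sep.ts_coe z⟩ (Or.inl (hTz z h1 h2)) x
    rw [Sep.sq_mulVec, Sep.sq_mulVec, mulVec_smul] at this
    exact this
  have hQv : ∀ x, om p (M *ᵥ x) • v + om v (M *ᵥ x) • p =
      om p x • (M *ᵥ v) + om v x • (M *ᵥ p) := by
    intro x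
    have := hcom _ (Sep.qq_sq (v := v) (p := p) hp1) (Sep.exists_qq hp1) (Or.inl ⟨by
      rw [Sep.qq_mulVec, Sep.om_swap v p, hp1, Sep.om_self, neg_zero, zero_smul, zero_smul,
        add_zero], om p w, by
      rw [Sep.qq_mulVec, hvw, zero_smul, add_zero]⟩) x
    rw [Sep.qq_mulVec, Sep.qq_mulVec, mulVec_add, mulVec_smul, mulVec_smul] at this
    exact this
  have hQw : ∀ x, om q (M *ᵥ x) • w + om w (M *ᵥ x) • q =
      om q x • (M *ᵥ w) + om w x • (M *ᵥ q) := by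
    intro x
    have := hcom _ (Sep.qq_sq (v := w) (p := q) hq1) (Sep.exists_qq hq1) (Or.inr ⟨by
      rw [Sep.qq_mulVec, Sep.om_swap w q, hq1, Sep.om_self, neg_zero, zero_smul, zero_smul,
        add_zero], om q v, by
      rw [Sep.qq_mulVec, hwv, zero_smul, add_zero]⟩) x
    rw [Sep.qq_mulVec, Sep.qq_mulVec, mulVec_add, mulVec_smul, mulVec_smul] at this
    exact this
  obtain ⟨r, hr⟩ := Function.ne_iff.mp hv0
  rw [Pi.zero_apply] at hr
  set c₁ := v r with hc1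
  set c₂ := (M *ᵥ v) r with hc2
  have hE : ∀ z, om v z = 0 → om w z = 0 → c₁ • (M *ᵥ z) = c₂ • z := fun z h1 h2 =>
    Sep.same_scalar (hpar v (Sep.om_self v) hwv) (hpar z h1 h2)
      (hpar _ (by rw [Sep.om_add, Sep.om_self, h1, add_zero])
        (by rw [Sep.om_add, hwv, h2, add_zero])) hr
  have hEv := hE v (Sep.om_self v) hwv
  have hEw := hE w hvw (Sep.om_self w)
  have hF : ∀ z, om v z = 0 → om w z = 0 → z ≠ 0 → ∀ x, c₁ * om z (M *ᵥ x) = c₂ * om z x := by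
    intro z h1 h2 hz x
    obtain ⟨l, hl⟩ := Function.ne_iff.mp hz
    rw [Pi.zero_apply] at hl
    have e1 := congrFun (hT z h1 h2 x) l
    have e2 := congrFun (hE z h1 h2) l
    simp only [Pi.smul_apply, smul_eq_mul] at e1 e2
    apply mul_right_cancel₀ hl
    linear_combination c₁ * e1 + om z x * e2
  have hFv := hF v (Sep.om_self v) hwv hv0
  have hFw := hF w hvw (Sep.om_self w) hw0
  set s := om v q with hs
  set t := om w p with ht
  set P : Fin n ⊕ Fin n → ℤ := c₁ • (M *ᵥ p) - c₂ • p with hP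
  set Q : Fin n ⊕ Fin n → ℤ := c₁ • (M *ᵥ q) - c₂ • q with hQ
  have eP : s • P = om p Q • v := by
    have e1 := hQv q
    have e2 := hFv q
    ext l
    have e3 := congrFun e1 l
    have e4 := congrFun hEv l
    simp only [Pi.add_apply, Pi.smul_apply, Pi.sub_apply, smul_eq_mul, hP, hQ, Sep.om_sub,
      Sep.om_smul] at e3 e4 ⊢
    linear_combination (-c₁) * e3 - om p q * e4 + p l * e2
  have eQ : t • Q = om q P • w := by
    have e1 := hQw p
    have e2 := hFw p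
    ext l
    have e3 := congrFun e1 l
    have e4 := congrFun hEw l
    simp only [Pi.add_apply, Pi.smul_apply, Pi.sub_apply, smul_eq_mul, hP, hQ, Sep.om_sub,
      Sep.om_smul] at e3 e4 ⊢
    linear_combination (-c₁) * e3 - om q p * e4 + q l * e2
  have hAB : om q P = -om p Q := by
    have e1 := congrArg (fun y => om q y) eP
    simp only [Sep.om_smul] at e1
    rw [Sep.om_swap v q, ← hs] at e1
    apply mul_left_cancel₀ hq2
    linear_combination e1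
  have hPQ : om P Q = 0 := by
    have e1 : om (s • P) (t • Q) = 0 := by
      rw [eP, eQ, Sep.smul_om, Sep.om_smul, hvw, mul_zero, mul_zero]
    rw [Sep.smul_om, Sep.om_smul] at e1
    exact (mul_eq_zero.mp ((mul_eq_zero.mp e1).resolve_left hq2)).resolve_left hp2
  have hK : c₂ * c₂ = c₁ * c₁ * μ := by
    have e1 := hM v q
    have e2 : c₁ * om (M *ᵥ v) (M *ᵥ q) = c₂ * om v (M *ᵥ q) := by
      rw [← Sep.smul_om, hEv, Sep.smul_om]
    have e3 := hFv q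
    apply mul_right_cancel₀ hq2
    linear_combination (-c₁) * e2 - c₂ * e3 + c₁ * c₁ * e1
  have hc20 : c₂ ≠ 0 := by
    intro h0
    rw [h0, mul_zero] at hK
    exact mul_ne_zero (mul_ne_zero hr hr) hμ hK.symm
  have hA : om p Q = 0 := by
    have e1 := hM p q
    have e2 : c₁ * c₁ * om (M *ᵥ p) (M *ᵥ q) = om (c₂ • p + P) (c₂ • q + Q) := by
      have a1 : c₂ • p + P = c₁ • (M *ᵥ p) := by rw [hP]; abel
      have a2 : c₂ • q + Q = c₁ • (M *ᵥ q) := by rw [hQ]; abel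
      rw [a1, a2, Sep.smul_om, Sep.om_smul]
      ring
    rw [Sep.om_add, Sep.add_om, Sep.add_om, Sep.om_smul, Sep.om_smul, Sep.smul_om, Sep.smul_om,
      hPQ, Sep.om_swap q P, hAB] at e2
    have e3 : c₂ * om p Q * 2 = 0 := by
      linear_combination (-1 : ℤ) * e2 + c₁ * c₁ * e1 - om p q * hK
    rcases mul_eq_zero.mp e3 with h1 | h1
    · exact (mul_eq_zero.mp h1).resolve_left hc20
    · exact absurd h1 (by norm_num)
  have hP0 : P = 0 := by
    rw [hA, zero_smul] at eP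
    exact (smul_eq_zero.mp eP).resolve_left hq2
  have hQ0 : Q = 0 := by
    rw [hAB, hA, neg_zero, zero_smul] at eQ
    exact (smul_eq_zero.mp eQ).resolve_left hp2
  refine Sep.scalar_of_smul (by omega) hr (c₂ := c₂) fun x => ?_
  have f1 := hE ((s * t) • x - (s * om w x) • p - (t * om v x) • q)
    (by
      simp only [Sep.om_sub, Sep.om_smul, hp1]
      rw [← hs]
      ring)
    (by
      simp only [Sep.om_sub, Sep.om_smul, hq1]
      rw [← ht]
      ring)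
  ext l
  have g1 := congrFun f1 l
  have g2 := congrFun hP0 l
  have g3 := congrFun hQ0 l
  simp only [hP, hQ, mulVec_sub, mulVec_smul, Pi.smul_apply, Pi.sub_apply, smul_eq_mul,
    Pi.zero_apply] at g1 g2 g3 ⊢
  apply mul_left_cancel₀ (mul_ne_zero hq2 hp2)
  linear_combination g1 + s * om w x * g2 + t * om v x * g3

end Vale.Agent.P092.R2.H289.Spn
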