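import Vale.Agent.P092.R2.H289.CTwo

/-!
Tightness from bounded generation by the powers of finitely many elements.
-/

set_option linter.all false

open scoped InnerProductSpace
open Filter Topology ContinuousLinearMap

namespace Vale.Agent.P092.R2.H289.Spn

open Vale.Agent.P092 Vale.Agent.P092.H160 Vale.Agent.P092.H350

section

variable {G₀ : Type} [Group G₀] {Γ₁ : Subgroup G₀} [hfi : Γ₁.FiniteIndex]
  {Γ Λ H : Type} [Group Γ] [Group Λ] [NormedAddCommGroup H] [InnerProductSpace ℂ H]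
  [CompleteSpace H] {j : Γ₁ →* Γ}
  {α : Γ →* (H →L[ℂ] H)} {β : Λ →* (H →L[ℂ] H)} {u : H} {t : ℝ}

/-- The finite index step: bounded products of powers are products of a tight family and of a
finite set. -/
theorem tight_prod (hα : Fr α β u t) {k : ℕ} (E : Fin k → G₀)
    (hE : ∀ (f : G₀) i, hα.JT j (f * E i * f⁻¹) = ⊤) {m : ℕ} (hm0 : 0 < m)
    (hm : ∀ X : G₀, X ^ m ∈ Γ₁) (L : ℕ) :
    ∃ (T : Set Γ₁) (F : Set G₀), F.Finite ∧
      hα.TH ((fun g : Γ₁ => α (j g) u) '' T) ∧ 1 ∈ T ∧ 1 ∈ F ∧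
      ∀ l : List (Fin k × ℤ), l.length ≤ L →
        ∃ t ∈ T, ∃ f ∈ F, (l.map fun q => E q.1 ^ q.2).prod = (t : G₀) * f := by
  induction L with
  | zero =>
    refine ⟨{1}, {1}, Set.finite_singleton _, ?_, rfl, rfl, ?_⟩
    · rw [Set.image_singleton]; exact hα.th_singleton _
    · intro l hl
      have : l = [] := List.length_eq_zero_iff.mp (by omega)
      subst this
      exact ⟨1, rfl, 1, rfl, by simp⟩
  | succ L ih =>
    obtain ⟨T, F, hF, hT, h1T, h1F, hTF⟩ := ih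
    let I := F × Fin k
    have : Finite F := hF
    let r : I → Γ₁ := fun p => ⟨(p.1 : G₀) * E p.2 ^ m * (p.1 : G₀)⁻¹, by
        rw [← conj_pow]; exact hm _⟩
    have hr : ∀ p, hα.Ht (j (r p)) = ⊤ := by
      rintro ⟨f, i⟩
      rw [← hE (f : G₀) i]
      refine hα.JT_eq (m := 1) (l := m) one_ne_zero (by exact_mod_cast hm0.ne') ?_
      rw [zpow_one, zpow_natCast, conj_pow]
    let T' : Set Γ₁ := {s | ∃ t ∈ T, ∃ p : I, ∃ q : ℤ, s = t * r p ^ q}
    let F' : Set G₀ :=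
      Set.range (fun p : F × Fin k × Fin m => (p.1 : G₀) * E p.2.1 ^ (p.2.2 : ℕ))
    refine ⟨T' ∪ T, F' ∪ F, (Set.finite_range _).union hF, ?_, Or.inr h1T, Or.inr h1F, ?_⟩
    · rw [Set.image_union]
      refine Fr.TH.union ?_ hT
      refine Fr.TH.op (B := (fun g : Γ₁ => α (j g)) '' T) (C := 1) (M := 1)
        (S := ⋃ p : I, Set.range fun q : ℤ => α (j (r p) ^ q) u) ?_ ?_ ?_ ?_ ?_ ?_
      · rintro _ ⟨t, _, rfl⟩; exact hα.rc _
      · rintro _ ⟨t, _, rfl⟩; exact hα.opNorm_le _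
      · rw [Set.image_image]; exact hT
      · intro ξ hξ
        obtain ⟨p, hp⟩ := Set.mem_iUnion.mp hξ
        obtain ⟨q, rfl⟩ := hp
        simp only [hα.norm_map, hα.norm_u]
        exact le_rfl
      · refine hα.th_iUnion _ (fun p => ?_)
        have : u ∈ hα.Ht (j (r p)) := by rw [hr]; trivial
        exact this
      · rintro _ ⟨s, ⟨t, ht, p, q, rfl⟩, rfl⟩
        refine ⟨α (j t), ⟨t, ht, rfl⟩, α (j (r p) ^ q) u, ?_, ?_⟩
        · rw [Set.mem_iUnion]; exact ⟨p, q, rfl⟩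
        · simp only
          rw [map_mul j, map_zpow j]
          exact Fr.ap_mul α _ _ _
    · intro l hl
      rcases List.eq_nil_or_concat l with rfl | ⟨l', e, rfl⟩
      · exact ⟨1, Or.inr h1T, 1, Or.inr h1F, by simp⟩
      · rw [List.length_concat] at hl
        obtain ⟨t, ht, f, hf, hprod⟩ := hTF l' (by omega)
        refine ⟨t * r (⟨f, hf⟩, e.1) ^ (e.2 / m), Or.inl ⟨t, ht, _, _, rfl⟩,
          f * E e.1 ^ (e.2 % m).toNat, Or.inl ⟨(⟨f, hf⟩, e.1,
            ⟨(e.2 % m).toNat, ?_⟩), rfl⟩, ?_⟩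
        · have h1 := Int.emod_lt_of_pos e.2 (show (0 : ℤ) < m by exact_mod_cast hm0)
          have h2 := Int.emod_nonneg e.2 (show (m : ℤ) ≠ 0 by exact_mod_cast hm0.ne')
          omega
        · rw [List.concat_eq_append, List.map_append, List.prod_append, hprod]
          simp only [List.map_cons, List.map_nil, List.prod_cons, List.prod_nil, mul_one]
          push_cast
          have hr' : ((r (⟨f, hf⟩, e.1) : Γ₁) : G₀) = f * E e.1 ^ (m : ℤ) * f⁻¹ := by
            rw [zpow_natCast]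
          have h2 := Int.emod_nonneg e.2 (show (m : ℤ) ≠ 0 by exact_mod_cast hm0.ne')
          rw [hr', conj_zpow, ← _root_.zpow_mul, ← zpow_natCast, Int.toNat_of_nonneg h2]
          have h3 : E e.1 ^ e.2 = E e.1 ^ ((m : ℤ) * (e.2 / m)) * E e.1 ^ (e.2 % m) := by
            rw [← _root_.zpow_add, Int.mul_ediv_add_emod]
          rw [h3]
          group

/-- (E) tightness from bounded generation (port of `CTwo.tight_productsJ`, `all_tightJ₁`) -/
theorem tight_of_bg (hα : Fr α β u t)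
    {k : ℕ} (E : Fin k → G₀) (N : ℕ) (hE : ∀ (f : G₀) i, hα.JT j (f * E i * f⁻¹) = ⊤)
    (hbg : ∀ g : Γ₁, ∃ l : List (Fin k × ℤ), l.length ≤ N ∧
      (l.map fun q => E q.1 ^ q.2).prod = (g : G₀)) :
    hα.TH (Set.range fun g : Γ₁ => α (j g) u) := by
  have hm0 : 0 < Γ₁.normalCore.index :=
    Nat.pos_of_ne_zero (Subgroup.FiniteIndex.index_ne_zero (H := Γ₁.normalCore))
  have hm : ∀ X : G₀, X ^ Γ₁.normalCore.index ∈ Γ₁ := fun X =>
    Γ₁.normalCore_le (Γ₁.normalCore.pow_index_mem X)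
  obtain ⟨T, F, hF, hT, -, -, hTF⟩ := tight_prod (j := j) hα E hE hm0 hm N
  have hF' : (Subtype.val ⁻¹' F : Set Γ₁).Finite := hF.preimage Subtype.val_injective.injOn
  refine Fr.TH.op (B := (fun g : Γ₁ => α (j g)) '' T) (C := 1) (M := 1)
    (S := (fun f : Γ₁ => α (j f) u) '' (Subtype.val ⁻¹' F)) ?_ ?_ ?_ ?_ ?_ ?_
  · rintro _ ⟨t, _, rfl⟩; exact hα.rc _
  · rintro _ ⟨t, _, rfl⟩; exact hα.opNorm_le _
  · rw [Set.image_image]; exact hT
  · rintro _ ⟨f, _, rfl⟩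
    simp only [hα.norm_map, hα.norm_u]
    exact le_rfl
  · exact hα.th_of_finite (hF'.image _)
  · rintro _ ⟨g, rfl⟩
    obtain ⟨l, hl, hprod⟩ := hbg g
    obtain ⟨t, ht, f, hf, hg⟩ := hTF l hl
    have hgf : (g : G₀) = (t : G₀) * f := by rw [← hg, hprod]
    have hfΓ : f ∈ Γ₁ := by
      have : f = ((t⁻¹ * g : Γ₁) : G₀) := by
        push_cast; rw [hgf]; group
      rw [this]; exact (t⁻¹ * g).2
    refine ⟨α (j t), ⟨t, ht, rfl⟩, α (j ⟨f, hfΓ⟩) u, ⟨⟨f, hfΓ⟩, hf, rfl⟩, ?_⟩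
    have : g = t * ⟨f, hfΓ⟩ := Subtype.ext hgf
    simp only
    rw [this, map_mul j]
    exact Fr.ap_mul α _ _ _

end

end Vale.Agent.P092.R2.H289.Spn
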