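import Vale.Agent.P092.R2.H289.SpSt

/-!
From a unipotent element of `Sp_{2n}(ℤ)` to a transvection.
-/

set_option linter.all false

namespace Vale.Agent.P092.R2.H289.Spn

open Matrix Vale.Agent.P092 Vale.Agent.P092.H350 Vale.Agent.P092.H367.SpT

namespace Uni

variable {n : ℕ}

/-! ### The form -/

theorem om_add_left (a b c : Fin n ⊕ Fin n → ℤ) : om (a + b) c = om a c + om b c := by
  rw [om, add_vecMul, add_dotProduct]
  rfl

theorem om_smul_left (k : ℤ) (a c : Fin n ⊕ Fin n → ℤ) : om (k • a) c = k * om a c := by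
  rw [om, smul_vecMul, smul_dotProduct, smul_eq_mul]
  rfl

theorem om_add_right (a b c : Fin n ⊕ Fin n → ℤ) : om a (b + c) = om a b + om a c := by
  rw [om, dotProduct_add]
  rfl

theorem om_smul_right (k : ℤ) (a c : Fin n ⊕ Fin n → ℤ) : om a (k • c) = k * om a c := by
  rw [om, dotProduct_smul, smul_eq_mul]
  rfl

theorem om_self (a : Fin n ⊕ Fin n → ℤ) : om a a = 0 := quad a

theorem om_anti (a b : Fin n ⊕ Fin n → ℤ) : om a b = -om b a := by
  have h := om_self (a + b)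
  rw [om_add_left, om_add_right, om_add_right, om_self, om_self] at h
  omega

theorem om_zero_right (a : Fin n ⊕ Fin n → ℤ) : om a 0 = 0 := by
  rw [om, dotProduct_zero]

theorem om_zero_left (a : Fin n ⊕ Fin n → ℤ) : om 0 a = 0 := by
  rw [om_anti, om_zero_right, neg_zero]

theorem om_sub_left (a b c : Fin n ⊕ Fin n → ℤ) : om (a - b) c = om a c - om b c := by
  have h := om_add_left (a - b) b c
  rw [sub_add_cancel] at h
  omega

theorem om_sub_right (a b c : Fin n ⊕ Fin n → ℤ) : om a (b - c) = om a b - om a c := by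
  have h := om_add_right a (b - c) c
  rw [sub_add_cancel] at h
  omega

theorem om_nondeg {w : Fin n ⊕ Fin n → ℤ} (h : ∀ a, om a w = 0) : w = 0 := by
  have h1 := h (-(w ᵥ* J (Fin n) ℤ))
  rw [om, neg_vecMul, aJ, neg_neg] at h1
  exact dotProduct_self_eq_zero.mp h1

theorem om_eq (a c : Fin n ⊕ Fin n → ℤ) : om a c = a ⬝ᵥ (J (Fin n) ℤ *ᵥ c) :=
  (dotProduct_mulVec _ _ _).symm

theorem om_mulVec (X : symplecticGroup (Fin n) ℤ) (a c : Fin n ⊕ Fin n → ℤ) :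
    om ((X : Matrix (Fin n ⊕ Fin n) (Fin n ⊕ Fin n) ℤ) *ᵥ a)
      ((X : Matrix (Fin n ⊕ Fin n) (Fin n ⊕ Fin n) ℤ) *ᵥ c) = om a c := by
  have h := SymplecticGroup.mem_iff'.mp X.2
  rw [om_eq, om_eq, ← vecMul_transpose, ← dotProduct_mulVec, mulVec_mulVec, mulVec_mulVec, h]

theorem om_single (i k : Fin n ⊕ Fin n) : om (Pi.single i 1) (Pi.single k 1) = J (Fin n) ℤ i k := by
  rw [om_eq, mulVec_single_one, single_one_dotProduct]
  rfl

theorem mem_of_om {A : Matrix (Fin n ⊕ Fin n) (Fin n ⊕ Fin n) ℤ}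
    (h : ∀ a c, om (A *ᵥ a) (A *ᵥ c) = om a c) : A ∈ symplecticGroup (Fin n) ℤ := by
  rw [SymplecticGroup.mem_iff']
  ext i k
  have h1 := h (Pi.single i 1) (Pi.single k 1)
  rw [om_single, om_eq, ← vecMul_transpose, ← dotProduct_mulVec, mulVec_mulVec, mulVec_mulVec,
    mulVec_single_one, single_one_dotProduct] at h1
  exact h1

theorem qq_mulVec (v w z : Fin n ⊕ Fin n → ℤ) :
    qq v w *ᵥ z = om w z • v + om v z • w := by
  rw [qq, add_mulVec, vecMulVec_mulVec, vecMulVec_mulVec]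
  simp only [op_smul_eq_smul]
  rfl

theorem tm_mulVec (v z : Fin n ⊕ Fin n → ℤ) (k : ℤ) :
    tm v k *ᵥ z = z + (k * om v z) • v := by
  rw [tm, add_mulVec, one_mulVec, smul_mulVec, vecMulVec_mulVec]
  simp only [op_smul_eq_smul, smul_smul]
  rfl

theorem mat_ext {A B : Matrix (Fin n ⊕ Fin n) (Fin n ⊕ Fin n) ℤ}
    (h : ∀ z, A *ᵥ z = B *ᵥ z) : A = B :=
  Matrix.ext_of_mulVec_single fun i => h _

/-- Elements are equal if they act in the same way. -/
theorem sp_ext {A B : symplecticGroup (Fin n) ℤ}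
    (h : ∀ z, (A : Matrix (Fin n ⊕ Fin n) (Fin n ⊕ Fin n) ℤ) *ᵥ z =
      (B : Matrix (Fin n ⊕ Fin n) (Fin n ⊕ Fin n) ℤ) *ᵥ z) : A = B :=
  Subtype.ext (mat_ext h)

theorem mul_mulVec' (A B : symplecticGroup (Fin n) ℤ) (z : Fin n ⊕ Fin n → ℤ) :
    ((A * B : symplecticGroup (Fin n) ℤ) : Matrix (Fin n ⊕ Fin n) (Fin n ⊕ Fin n) ℤ) *ᵥ z =
      (A : Matrix (Fin n ⊕ Fin n) (Fin n ⊕ Fin n) ℤ) *ᵥ
        ((B : Matrix (Fin n ⊕ Fin n) (Fin n ⊕ Fin n) ℤ) *ᵥ z) := by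
  rw [mulVec_mulVec]
  rfl

/-! ### Square zero elements -/

/-- `N` is in the symplectic Lie algebra and `N² = 0`. -/
structure Sk (N : Matrix (Fin n ⊕ Fin n) (Fin n ⊕ Fin n) ℤ) : Prop where
  sk : ∀ a c, om (N *ᵥ a) c = -om a (N *ᵥ c)
  sq : ∀ a, N *ᵥ (N *ᵥ a) = 0

theorem us_mulVec (N : Matrix (Fin n ⊕ Fin n) (Fin n ⊕ Fin n) ℤ) (m : ℤ)
    (z : Fin n ⊕ Fin n → ℤ) : (1 + m • N) *ᵥ z = z + m • (N *ᵥ z) := by
  rw [add_mulVec, one_mulVec, smul_mulVec]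

theorem us_mem {N : Matrix (Fin n ⊕ Fin n) (Fin n ⊕ Fin n) ℤ} (hN : Sk N) (m : ℤ) :
    1 + m • N ∈ symplecticGroup (Fin n) ℤ := by
  refine mem_of_om fun a c => ?_
  rw [us_mulVec, us_mulVec, om_add_left, om_add_right, om_add_right, om_smul_left, om_smul_left,
    om_smul_right, om_smul_right, hN.sk, hN.sk, hN.sq, om_zero_right]
  ring

/-- `1 + m N` -/
def us {N : Matrix (Fin n ⊕ Fin n) (Fin n ⊕ Fin n) ℤ} (hN : Sk N) (m : ℤ) :
    symplecticGroup (Fin n) ℤ := ⟨1 + m • N, us_mem hN m⟩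

theorem us_coe {N : Matrix (Fin n ⊕ Fin n) (Fin n ⊕ Fin n) ℤ} (hN : Sk N) (m : ℤ)
    (z : Fin n ⊕ Fin n → ℤ) :
    (us hN m : Matrix (Fin n ⊕ Fin n) (Fin n ⊕ Fin n) ℤ) *ᵥ z = z + m • (N *ᵥ z) :=
  us_mulVec N m z

theorem us_add {N : Matrix (Fin n ⊕ Fin n) (Fin n ⊕ Fin n) ℤ} (hN : Sk N) (a b : ℤ) :
    us hN (a + b) = us hN a * us hN b := by
  apply sp_ext
  intro z
  rw [mul_mulVec', us_coe, us_coe, us_coe, mulVec_add, mulVec_smul, hN.sq, smul_zero, add_zero,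
    add_smul, add_assoc, add_comm (b • _)]

theorem one_par {G : Type} [Group G] (f : ℤ → G) (hf : ∀ a b, f (a + b) = f a * f b) (k : ℤ) :
    f 1 ^ k = f k := by
  let F : Multiplicative ℤ →* G :=
    MonoidHom.mk' (fun x => f x.toAdd) (fun a b => hf a.toAdd b.toAdd)
  have h := map_zpow F (Multiplicative.ofAdd (1 : ℤ)) k
  rw [← ofAdd_zsmul, smul_eq_mul, mul_one] at h
  exact h.symm

theorem us_zpow {N : Matrix (Fin n ⊕ Fin n) (Fin n ⊕ Fin n) ℤ} (hN : Sk N) (k : ℤ) :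
    us hN 1 ^ k = us hN k := one_par (us hN) (us_add hN) k

theorem ts_add (v : Fin n ⊕ Fin n → ℤ) (a b : ℤ) : ts v (a + b) = ts v a * ts v b :=
  Subtype.ext (tm_mul v a b).symm

theorem ts_zpow (v : Fin n ⊕ Fin n → ℤ) (k : ℤ) : ts v 1 ^ k = ts v k :=
  one_par (ts v) (ts_add v) k

theorem ts_coe (v z : Fin n ⊕ Fin n → ℤ) (k : ℤ) :
    (ts v k : Matrix (Fin n ⊕ Fin n) (Fin n ⊕ Fin n) ℤ) *ᵥ z = z + (k * om v z) • v :=
  tm_mulVec v z k

theorem sk_qq {v w : Fin n ⊕ Fin n → ℤ} (h : om v w = 0) : Sk (qq v w) where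
  sk a c := by
    rw [qq_mulVec, qq_mulVec, om_add_left, om_add_right, om_smul_left, om_smul_left,
      om_smul_right, om_smul_right, om_anti a v, om_anti a w]
    ring
  sq a := by
    have h' : om w v = 0 := by rw [om_anti, h, neg_zero]
    rw [qq_mulVec, qq_mulVec, om_add_right, om_add_right, om_smul_right, om_smul_right,
      om_smul_right, om_smul_right, om_self, om_self, h, h']
    simp

/-! ### The Heisenberg relation -/

theorem heis_q {Z : symplecticGroup (Fin n) ℤ} {v w : Fin n ⊕ Fin n → ℤ} (h0 : om v w = 0)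
    {c : ℤ} (h1 : (Z : Matrix (Fin n ⊕ Fin n) (Fin n ⊕ Fin n) ℤ) *ᵥ v = v)
    (h2 : (Z : Matrix (Fin n ⊕ Fin n) (Fin n ⊕ Fin n) ℤ) *ᵥ w = w + c • v) :
    Heis Z (us (sk_qq h0) 1) (ts v (2 * c)) := by
  have h0' : om w v = 0 := by rw [om_anti, h0, neg_zero]
  have e1 : ∀ z, om v ((Z : Matrix (Fin n ⊕ Fin n) (Fin n ⊕ Fin n) ℤ) *ᵥ z) = om v z := by
    intro z
    have h := om_mulVec Z v z
    rw [h1] at h
    exact h
  have e2 : ∀ z, om w ((Z : Matrix (Fin n ⊕ Fin n) (Fin n ⊕ Fin n) ℤ) *ᵥ z) =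
      om w z - c * om v z := by
    intro z
    have h := om_mulVec Z w z
    rw [h2, om_add_left, om_smul_left, e1] at h
    omega
  refine ⟨?_, ?_, ?_⟩
  · apply sp_ext
    intro z
    rw [mul_mulVec', mul_mulVec', mul_mulVec', us_coe, us_coe, ts_coe, one_smul, one_smul,
      qq_mulVec, qq_mulVec, mulVec_add, mulVec_add, mulVec_smul, mulVec_smul, h1, h2, e1, e2,
      om_add_right, om_add_right, om_smul_right, om_smul_right, e1, om_self, h0]
    module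
  · apply sp_ext
    intro z
    rw [mul_mulVec', mul_mulVec', ts_coe, ts_coe, mulVec_add, mulVec_smul, h1, e1]
  · apply sp_ext
    intro z
    rw [mul_mulVec', mul_mulVec', ts_coe, ts_coe, us_coe, us_coe, one_smul, one_smul,
      qq_mulVec, qq_mulVec]
    simp only [om_add_right, om_smul_right, om_self, h0, h0']
    module

variable {B : symplecticGroup (Fin n) ℤ → Prop}

theorem transv_of_heis (hB : Prd B) {Z : symplecticGroup (Fin n) ℤ} (hZ : B Z)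
    {v w : Fin n ⊕ Fin n → ℤ} (hv : v ≠ 0) (h0 : om v w = 0)
    {c : ℤ} (hc : c ≠ 0) (h1 : (Z : Matrix (Fin n ⊕ Fin n) (Fin n ⊕ Fin n) ℤ) *ᵥ v = v)
    (h2 : (Z : Matrix (Fin n ⊕ Fin n) (Fin n ⊕ Fin n) ℤ) *ᵥ w = w + c • v) :
    ∃ w : Fin n ⊕ Fin n → ℤ, w ≠ 0 ∧ B (ts w 1) := by
  refine ⟨v, hv, ?_⟩
  have h := hB.heis _ _ _ (heis_q h0 h1 h2) hZ
  rw [← ts_zpow] at h
  exact (hB.zpow _ _ (mul_ne_zero two_ne_zero hc)).mp h

/-! ### Case 1: `N² ≠ 0` -/

theorem om_pow {X : symplecticGroup (Fin n) ℤ} {N : Matrix (Fin n ⊕ Fin n) (Fin n ⊕ Fin n) ℤ}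
    (hN : N = (X : Matrix (Fin n ⊕ Fin n) (Fin n ⊕ Fin n) ℤ) - 1) {k : ℕ} (hk : N ^ (k + 1) = 0)
    (i : ℕ) : ∀ (j : ℕ) (a c : Fin n ⊕ Fin n → ℤ), k + 1 ≤ i + j →
      om ((N ^ i) *ᵥ a) ((N ^ j) *ᵥ c) = 0 := by
  induction i with
  | zero =>
    intro j a c hj
    have h1 : N ^ j = 0 := by
      obtain ⟨l, rfl⟩ := Nat.exists_eq_add_of_le (show k + 1 ≤ j by omega)
      rw [pow_add, hk, zero_mul]
    rw [h1, zero_mulVec, om_zero_right]
  | succ i ih =>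
    intro j a c hj
    set Y : Matrix (Fin n ⊕ Fin n) (Fin n ⊕ Fin n) ℤ :=
      ((X⁻¹ : symplecticGroup (Fin n) ℤ) : Matrix (Fin n ⊕ Fin n) (Fin n ⊕ Fin n) ℤ) with hY
    have hX : (X : Matrix (Fin n ⊕ Fin n) (Fin n ⊕ Fin n) ℤ) = 1 + N := by rw [hN]; abel
    have hXY : (1 + N) * Y = 1 := by
      have h := congrArg (Subtype.val) (mul_inv_cancel X)
      rw [← hX]
      exact h
    have hYX : Y * (1 + N) = 1 := by
      have h := congrArg (Subtype.val) (inv_mul_cancel X)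
      rw [← hX]
      exact h
    have hc : N * Y = Y * N := by
      have h1 := hXY
      have h2 := hYX
      rw [Matrix.add_mul, Matrix.one_mul] at h1
      rw [Matrix.mul_add, Matrix.mul_one] at h2
      exact add_left_cancel (h1.trans h2.symm)
    have hcj : Commute Y (N ^ j) := by
      have : Commute Y N := hc.symm
      exact this.pow_right j
    -- c = X (Y c)
    have e1 : (N ^ j) *ᵥ c = (X : Matrix (Fin n ⊕ Fin n) (Fin n ⊕ Fin n) ℤ) *ᵥ
        ((N ^ j) *ᵥ (Y *ᵥ c)) := by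
      rw [mulVec_mulVec, mulVec_mulVec, hX]
      congr 1
      rw [Matrix.mul_assoc, ← hcj.eq, ← Matrix.mul_assoc, hXY, Matrix.one_mul]
    have e2 : (N ^ (i + 1)) *ᵥ a = (X : Matrix (Fin n ⊕ Fin n) (Fin n ⊕ Fin n) ℤ) *ᵥ
        ((N ^ i) *ᵥ a) - (N ^ i) *ᵥ a := by
      rw [hX, add_mulVec, one_mulVec, mulVec_mulVec, ← pow_succ']
      abel
    have e3 := ih (j + 1) a (Y *ᵥ c) (by omega)
    have e4 : (N ^ (j + 1)) *ᵥ (Y *ᵥ c) = (N ^ j) *ᵥ c - (N ^ j) *ᵥ (Y *ᵥ c) := by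
      have h5 : N *ᵥ ((N ^ j) *ᵥ (Y *ᵥ c)) = (N ^ (j + 1)) *ᵥ (Y *ᵥ c) := by
        rw [mulVec_mulVec, ← pow_succ']
      rw [e1, hX, add_mulVec, one_mulVec, h5]
      abel
    rw [e4, om_sub_right] at e3
    rw [e2, om_sub_left]
    conv_lhs => rw [e1]
    rw [om_mulVec, ← e1]
    omega

theorem case_one (hB : Prd B) {X : symplecticGroup (Fin n) ℤ} (hX : B X)
    {N : Matrix (Fin n ⊕ Fin n) (Fin n ⊕ Fin n) ℤ}
    (hN : N = (X : Matrix (Fin n ⊕ Fin n) (Fin n ⊕ Fin n) ℤ) - 1) {k : ℕ} (hk2 : 2 ≤ k)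
    (hk : N ^ (k + 1) = 0) (hk0 : N ^ k ≠ 0) :
    ∃ w : Fin n ⊕ Fin n → ℤ, w ≠ 0 ∧ B (ts w 1) := by
  obtain ⟨z, hz⟩ : ∃ z, (N ^ k) *ᵥ z ≠ 0 := by
    by_contra h
    push Not at h
    exact hk0 (mat_ext fun z => by rw [h z, zero_mulVec])
  have hX1 : (X : Matrix (Fin n ⊕ Fin n) (Fin n ⊕ Fin n) ℤ) = 1 + N := by rw [hN]; abel
  obtain ⟨l, rfl⟩ : ∃ l, k = l + 1 := ⟨k - 1, by omega⟩
  refine transv_of_heis hB hX (v := (N ^ (l + 1)) *ᵥ z) (w := (N ^ l) *ᵥ z) hz ?_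
    (c := 1) one_ne_zero ?_ ?_
  · exact om_pow hN hk (l + 1) l z z (by omega)
  · rw [hX1, add_mulVec, one_mulVec, mulVec_mulVec, ← pow_succ', hk, zero_mulVec, add_zero]
  · rw [hX1, add_mulVec, one_mulVec, mulVec_mulVec, ← pow_succ', one_smul]

/-! ### Case 2: `N² = 0` -/

theorem case_two (hB : Prd B) {N : Matrix (Fin n ⊕ Fin n) (Fin n ⊕ Fin n) ℤ} (hN : Sk N)
    (hN0 : N ≠ 0) (hX : B (us hN 1)) :
    ∃ w : Fin n ⊕ Fin n → ℤ, w ≠ 0 ∧ B (ts w 1) := by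
  -- the form b(a,c) = om a (N c)
  have hsym : ∀ a c, om a (N *ᵥ c) = om c (N *ᵥ a) := by
    intro a c
    have h := hN.sk a c
    rw [om_anti] at h
    omega
  obtain ⟨q, hq⟩ : ∃ q, om q (N *ᵥ q) ≠ 0 := by
    by_contra h
    push Not at h
    refine hN0 (mat_ext fun c => ?_)
    rw [zero_mulVec]
    refine om_nondeg fun a => ?_
    have h1 := h (a + c)
    rw [mulVec_add, om_add_left, om_add_right, om_add_right, h a, h c, hsym c a] at h1
    omega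
  set β := om q (N *ᵥ q) with hβ
  by_cases hex : ∃ a, om a (N *ᵥ q) = 0 ∧ N *ᵥ a ≠ 0
  · obtain ⟨a, haq, hp⟩ := hex
    set p := N *ᵥ a with hpd
    set r := N *ᵥ q with hrd
    have hNp : N *ᵥ p = 0 := hN.sq a
    have hNr : N *ᵥ r = 0 := hN.sq q
    have hpq : om p q = 0 := by rw [hpd, hN.sk, ← hrd, haq, neg_zero]
    have hqp : om q p = 0 := by rw [om_anti, hpq, neg_zero]
    have hpr : om p r = 0 := by rw [hpd, hN.sk, hNr, om_zero_right, neg_zero]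
    have hrp : om r p = 0 := by rw [om_anti, hpr, neg_zero]
    have hrq : om r q = -β := by rw [hβ, om_anti]
    have hqN : ∀ z, om q (N *ᵥ z) = -om r z := by
      intro z; rw [hrd, hN.sk, neg_neg]
    have hpN : ∀ z, om p (N *ᵥ z) = 0 := by
      intro z; rw [← neg_eq_zero, ← hN.sk, hNp, om_zero_left]
    have hrN : ∀ z, om r (N *ᵥ z) = 0 := by
      intro z; rw [← neg_eq_zero, ← hN.sk, hNr, om_zero_left]
    set Y := us (sk_qq hpq) 1 with hY
    have hYm : ∀ m : ℤ, Y ^ m = us (sk_qq hpq) m := us_zpow _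
    have hYi : ∀ m : ℤ, (Y ^ m)⁻¹ = us (sk_qq hpq) (-m) := by
      intro m; rw [← _root_.zpow_neg, hYm]
    -- the conjugate
    have hconj : ∀ (m : ℤ) z,
        ((Y ^ m * us hN 1 * (Y ^ m)⁻¹ : symplecticGroup (Fin n) ℤ) :
          Matrix (Fin n ⊕ Fin n) (Fin n ⊕ Fin n) ℤ) *ᵥ z =
        z + N *ᵥ z - (m * om r z) • p - (m * om p z) • r - (m ^ 2 * β * om p z) • p := by
      intro m z
      rw [hYi, hYm, mul_mulVec', mul_mulVec', us_coe, us_coe, us_coe, qq_mulVec, qq_mulVec,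
        one_smul]
      simp only [mulVec_add, mulVec_smul, om_add_right, om_smul_right, hNp, hqN, hpN, om_self,
        hpq, hqp, hpr, hrq, ← hrd, ← hβ, om_zero_right]
      module
    have hcomm : ∀ m : ℤ, Commute (us hN 1) (Y ^ m * us hN 1 * (Y ^ m)⁻¹) := by
      intro m
      apply sp_ext
      intro z
      rw [mul_mulVec' (us hN 1), mul_mulVec' (Y ^ m * us hN 1 * (Y ^ m)⁻¹) (us hN 1), hconj,
        us_coe, us_coe, hconj, one_smul, one_smul]
      simp only [mulVec_add, mulVec_sub, mulVec_smul, om_add_right, om_sub_right, om_smul_right,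
        hNp, hNr, hN.sq, hpN, hrN]
      module
    obtain ⟨m, hm, hBm⟩ := hB.pig (us hN 1) Y hcomm hX
    have hXi : (us hN 1)⁻¹ = us hN (-1) := by
      rw [← us_zpow hN (-1), _root_.zpow_neg_one]
    refine transv_of_heis hB hBm (v := p) (w := q) hp hpq (c := m * β) (mul_ne_zero hm hq) ?_ ?_
    · rw [mul_mulVec', hconj, hXi, us_coe]
      simp only [mulVec_add, mulVec_sub, mulVec_smul, hNp, hNr, om_self, hpr, hrp]
      simp
    · rw [mul_mulVec', hconj, hXi, us_coe]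
      simp only [mulVec_add, mulVec_sub, mulVec_smul, hNp, hNr, hpq, hrq, ← hrd, hN.sq]
      module
  · push Not at hex
    -- rank one
    have hr : N *ᵥ q ≠ 0 := by
      intro h
      rw [hβ, h, om_zero_right] at hq
      exact hq rfl
    have hN1 : ∀ c, β • (N *ᵥ c) = (-om (N *ᵥ q) c) • (N *ᵥ q) := by
      intro c
      have h1 := hex (β • c - om c (N *ᵥ q) • q) (by
        rw [om_sub_left, om_smul_left, om_smul_left, ← hβ]; ring)
      rw [mulVec_sub, mulVec_smul, mulVec_smul, sub_eq_zero] at h1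
      rw [h1, om_anti c]
    refine ⟨N *ᵥ q, hr, ?_⟩
    have h2 : us hN 1 ^ β = (ts (N *ᵥ q) 1) ^ (-1 : ℤ) := by
      rw [us_zpow, ts_zpow]
      apply sp_ext
      intro z
      rw [us_coe, ts_coe, hN1, neg_one_mul]
    have h3 := (hB.zpow _ β hq).mpr hX
    rw [h2] at h3
    exact (hB.zpow _ (-1) (by norm_num)).mp h3

end Uni

open Uni in
theorem exists_transv {n : ℕ} {B : symplecticGroup (Fin n) ℤ → Prop} (hB : Prd B)
    {X : symplecticGroup (Fin n) ℤ} (hX1 : X ≠ 1)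
    (hu : IsNilpotent ((X : Matrix (Fin n ⊕ Fin n) (Fin n ⊕ Fin n) ℤ) - 1)) (hX : B X) :
    ∃ w : Fin n ⊕ Fin n → ℤ, w ≠ 0 ∧ B (ts w 1) := by
  classical
  set N := (X : Matrix (Fin n ⊕ Fin n) (Fin n ⊕ Fin n) ℤ) - 1 with hN
  have hN0 : N ≠ 0 := fun h => hX1 (Subtype.ext (sub_eq_zero.mp h))
  have hd : N ^ Nat.find hu = 0 := Nat.find_spec hu
  have hmin : ∀ m, m < Nat.find hu → N ^ m ≠ 0 := fun m hm => Nat.find_min hu hm
  have h1 : 2 ≤ Nat.find hu := by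
    by_contra h
    have h2 : Nat.find hu = 0 ∨ Nat.find hu = 1 := by omega
    rcases h2 with h2 | h2
    · rw [h2, pow_zero] at hd
      exact hN0 (by rw [← mul_one N, hd, mul_zero])
    · rw [h2, pow_one] at hd
      exact hN0 hd
  obtain ⟨k, hk⟩ : ∃ k, Nat.find hu = k + 1 := ⟨Nat.find hu - 1, by omega⟩
  have hk1 : N ^ (k + 1) = 0 := by rw [← hk]; exact hd
  have hk0 : N ^ k ≠ 0 := hmin k (by omega)
  by_cases hk2 : 2 ≤ k
  · exact case_one hB hX hN hk2 hk1 hk0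
  · have hk3 : k = 1 := by omega
    subst hk3
    have hsq : ∀ a, N *ᵥ (N *ᵥ a) = 0 := by
      intro a
      rw [mulVec_mulVec, ← pow_two, hk1, zero_mulVec]
    have hsk : Sk N := by
      refine ⟨fun a c => ?_, hsq⟩
      have h3 := om_pow hN hk1 1 1 a c (by omega)
      rw [pow_one] at h3
      have h4 := om_mulVec X a c
      have hX2 : (X : Matrix (Fin n ⊕ Fin n) (Fin n ⊕ Fin n) ℤ) = 1 + N := by rw [hN]; abel
      rw [hX2, add_mulVec, add_mulVec, one_mulVec, one_mulVec, om_add_left, om_add_right,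
        om_add_right, h3] at h4
      omega
    have hX3 : X = us hsk 1 := by
      apply Subtype.ext
      change _ = 1 + (1 : ℤ) • N
      rw [one_smul, hN]
      abel
    rw [hX3] at hX
    exact case_two hB hsk hN0 hX

end Vale.Agent.P092.R2.H289.Spn
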