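import Vale.Agent.P092.R2.H289.SpTop
import Vale.Agent.P092.R2.H289.SpUni
import Vale.Agent.P092.R2.H289.SpBG
import Vale.Agent.P092.R2.H289.SpTi
import Vale.Agent.P092.R2.H289.SpSep

/-!
Part (II) for the symplectic groups.
-/

set_option linter.all false

open scoped InnerProductSpace
open Filter Topology ContinuousLinearMap

namespace Vale.Agent.P092.R2.H289.Spn
open Matrix Vale.Agent.P092.H160
open Vale.Agent.P092 Vale.Agent.P092.H350 Vale.Agent.P092.H367.SpT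

/-- **Part (II)** for the symplectic groups: a tight vector for a nontrivial unipotent element makes
the whole image of `j` tight. -/
theorem part_two_sp' {n : ℕ} (hD1 : D1 n) (hD2 : D2 n) (hn : 3 ≤ n)
    {Γ₁ : Subgroup (symplecticGroup (Fin n) ℤ)}
    [hfi : Γ₁.FiniteIndex] {Γ Λ H : Type} [Group Γ] [Group Λ] [NormedAddCommGroup H]
    [InnerProductSpace ℂ H] [CompleteSpace H] {j : Γ₁ →* Γ} (hj : SepSp j)
    {α : Γ →* (H →L[ℂ] H)} {β : Λ →* (H →L[ℂ] H)} {u : H} {t : ℝ} (hα : Fr α β u t)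
    (x : Γ₁) (hx : x ≠ 1)
    (hu : IsNilpotent (((x : symplecticGroup (Fin n) ℤ) :
      Matrix (Fin n ⊕ Fin n) (Fin n ⊕ Fin n) ℤ) - 1))
    (ξ : H) (hξ : ξ ≠ 0) (ht : hα.TH (Set.range fun k : ℤ => α (j x ^ k) ξ)) :
    hα.TH (Set.range fun g : Γ₁ => α (j g) u) := by
  have h1 : hα.JT j (x : symplecticGroup (Fin n) ℤ) ≠ ⊥ := by
    rw [hα.JT_coe]
    intro h
    have h2 : ξ ∈ hα.Ht (j x) := ht
    rw [h] at h2
    exact hξ (by simpa using h2)
  have hx' : (x : symplecticGroup (Fin n) ℤ) ≠ 1 := fun h => hx (Subtype.ext h)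
  have hB : Prd (fun X : symplecticGroup (Fin n) ℤ => hα.JT j X ≠ ⊥) :=
    { zpow := fun X m hm => by rw [hα.JT_zpow X hm]
      heis := fun X Y R h hX => hα.JT_ne_bot h hX
      pig := fun X Y hc hX => JT_pig hα hc hX }
  obtain ⟨w, hw, hne⟩ := exists_transv hB hx' hu h1
  have htop : ∀ w' : Fin n ⊕ Fin n → ℤ, w' ≠ 0 → hα.JT j (ts w' 1) = ⊤ := fun w' hw' =>
    all_top' hD1 hD2 (by omega) hj hα hw hw' hne
  obtain ⟨k, v, N, hv, hbg⟩ := bg_transv hn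
  refine tight_of_bg hα (fun i => ts (v i) 1) N (fun f i => ?_) (fun g => hbg g)
  rw [conj_ts]
  refine htop _ fun h0 => hv i ?_
  have h2 := congrArg (fun y => ((f⁻¹ : symplecticGroup (Fin n) ℤ) :
    Matrix (Fin n ⊕ Fin n) (Fin n ⊕ Fin n) ℤ) *ᵥ y) h0
  simp only [mulVec_mulVec, coe_inv_mul, one_mulVec, mulVec_zero] at h2
  exact h2

/-- **Part (II)** for the symplectic groups. -/
theorem part_two_sp {n : ℕ} (hn : 3 ≤ n) {Γ₁ : Subgroup (symplecticGroup (Fin n) ℤ)}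
    [hfi : Γ₁.FiniteIndex] {Γ Λ H : Type} [Group Γ] [Group Λ] [NormedAddCommGroup H]
    [InnerProductSpace ℂ H] [CompleteSpace H] {j : Γ₁ →* Γ} (hj : SepSp j)
    {α : Γ →* (H →L[ℂ] H)} {β : Λ →* (H →L[ℂ] H)} {u : H} {t : ℝ} (hα : Fr α β u t)
    (x : Γ₁) (hx : x ≠ 1)
    (hu : IsNilpotent (((x : symplecticGroup (Fin n) ℤ) :
      Matrix (Fin n ⊕ Fin n) (Fin n ⊕ Fin n) ℤ) - 1))
    (ξ : H) (hξ : ξ ≠ 0) (ht : hα.TH (Set.range fun k : ℤ => α (j x ^ k) ξ)) :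
    hα.TH (Set.range fun g : Γ₁ => α (j g) u) :=
  part_two_sp' (by intro M a b hab h1 h2; exact scalar_of_two (by omega) hab h1 h2)
    (by intro M μ hμ hM v w hvw hLI h; exact scalar_of_stab2 (by omega) hμ hM hvw hLI h)
    hn hj hα x hx hu ξ hξ ht

end Vale.Agent.P092.R2.H289.Spn
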