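import Vale.Agent.P092.R2.H289.SpHt0
import Vale.Agent.P092.R2.H289.SpPart

/-!
Groups `Γ` with a homomorphism `j : Γ₁ → Γ` of a finite index subgroup `Γ₁` of `Sp_{2N}(ℤ)`, `N ≥ 3`,
with commensurated and relatively ICC image: an isomorphism onto a corner of matrices over `L(Λ)`
is canonical, or the heights vanish on average along every element with a nontrivial unipotent
power.
-/

set_option linter.all false

open scoped InnerProductSpace
open Filter Topology ContinuousLinearMap Matrix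

namespace Vale.Agent.P092.R2.H289.Spn

open Vale.Agent.P092.H160 Vale.Agent.P092.H367 Vale.Agent.P092.H423

/-- The dichotomy for corners of matrices over `L(Λ)`, symplectic case. -/
theorem canon_or_heights_spc {N : ℕ} (hN : 3 ≤ N)
    (Γ₁ : Subgroup (symplecticGroup (Fin N) ℤ)) [Γ₁.FiniteIndex]
    {Γ : Type} [Group Γ] (j : Γ₁ →* Γ) (hj : SepSp j)
    (hR : H381.Sg.RICC j.range) (hc : ∀ g, (H381.Sg.conj g j.range).relIndex j.range ≠ 0)
    {Λ : Type} [Group Λ] (hL : Mt.ICC Λ)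
    {n : ℕ} {p : Mt.Mat n Λ} (hp : Mt.IsProj p) (θ : Mt.AmpIso Γ Λ n p) :
    (Mt.Canon θ ∧ Mt.trM p = 1) ∨ ∀ (x : Γ) (k : ℕ) (y : Γ₁), x ^ k = j y → y ≠ 1 →
      IsNilpotent (((y : symplecticGroup (Fin N) ℤ) :
        Matrix (Fin N ⊕ Fin N) (Fin N ⊕ Fin N) ℤ) - 1) → Mt.HV θ x := by
  rcases canon_or_heights0 j hR hc hL hp θ with h | h
  · exact Or.inl h
  · right
    intro x k y hxy hy hnil
    refine h x k ?_
    intro Λ' _ H _ _ _ α β u t hα ξ hξ ht
    rw [hxy] at ht
    exact part_two_sp hN hj hα y hy hnil ξ hξ ht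

end Vale.Agent.P092.R2.H289.Spn
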