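import Vale.Agent.P092.R3.H367.CommHt

/-!
Heights and tightness for groups `Γ` with a homomorphism `j : Γ₁ → Γ` with commensurated and
relatively ICC image, from an abstract form of part (II).
-/

set_option linter.all false

open scoped InnerProductSpace
open Filter Topology ContinuousLinearMap Matrix

namespace Vale.Agent.P092.R2.H289

open Vale.Agent.P092.H160 Vale.Agent.P092.H367 Vale.Agent.P092.H423

/-- Part (II) for the element `g`: a vector which is tight along the powers of `g` gives tightness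
along the image of `j`. -/
def PTwo {G₀ : Type} [Group G₀] {Γ₁ : Subgroup G₀} {Γ : Type} [Group Γ]
    (j : Γ₁ →* Γ) (g : Γ) : Prop :=
  ∀ (Λ : Type) [Group Λ] (H : Type) [NormedAddCommGroup H] [InnerProductSpace ℂ H]
    [CompleteSpace H] (α : Γ →* (H →L[ℂ] H)) (β : Λ →* (H →L[ℂ] H)) (u : H) (t : ℝ) (hα : Fr α β u t) (ξ : H),
    ξ ≠ 0 → hα.TH (Set.range fun k : ℤ => α (g ^ k) ξ) →
    hα.TH (Set.range fun g : Γ₁ => α (j g) u)

section main

variable {G₀ : Type} [Group G₀] {Γ₁ : Subgroup G₀} {Γ Λ : Type} [Group Γ] [Group Λ]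
  {j : Γ₁ →* Γ} {m : ℕ}
  {p : Ell2 (Fin (m + 1) × Λ) →L[ℂ] Ell2 (Fin (m + 1) × Λ)}
  {α : Γ → (Ell2 (Fin (m + 1) × Λ) →L[ℂ] Ell2 (Fin (m + 1) × Λ))}

theorem lower_of_heights0 {H H' : Type} [NormedAddCommGroup H] [InnerProductSpace ℂ H]
    [CompleteSpace H] [NormedAddCommGroup H'] [InnerProductSpace ℂ H'] [CompleteSpace H']
    {i : H →L[ℂ] Ell2 (Fin (m + 1) × Λ)} {R : Fin (m + 1) → (H →L[ℂ] H')}
    (hi : Inc p i) (hd : Dec R) (ha : AFrame p α) (x : Γ) (k : ℕ) (hP : PTwo j (x ^ k))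
    (hnot : ¬ Tendsto (fun N : ℕ => (∑ i ∈ Finset.range N, hgA (α (x ^ (i + 1)))) / N)
      atTop (𝓝 0)) : ∃ c : ℝ, 0 < c ∧ ∀ g : Γ₁, c ≤ f4 (α (j g)) := by
  have hF := frA hi ha hd
  have hdm := hi.dm_pos ha
  have hnot' : ¬ Tendsto (fun N : ℕ => (∑ l ∈ Finset.range N,
      ⨆ q, ‖⟪hd.be' (hi.be ha) q (uu' R (Inc.sg i)),
        hd.al' (hi.al ha) (x ^ (l + 1)) (uu' R (Inc.sg i))⟫_ℂ‖) / N)
      atTop (𝓝 0) := by
    intro h
    apply hnot
    have h1 := h.const_mul (Mod.dm (Inc.sg i))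
    rw [mul_zero] at h1
    refine squeeze_zero (fun N => ?_) (fun N => ?_) h1
    · refine div_nonneg (Finset.sum_nonneg fun l _ => ?_) (Nat.cast_nonneg _)
      exact Real.iSup_nonneg fun s => norm_nonneg _
    · rw [← mul_div_assoc, Finset.mul_sum]
      gcongr with l _
      exact height_leA hi ha hd (x ^ (l + 1))
  obtain ⟨ξ, hξ, ht⟩ := hF.exists_tight x hnot'
  have ht' : hF.TH (Set.range fun l : ℤ => hd.al' (hi.al ha) ((x ^ k) ^ l) ξ) := by
    refine Fr.TH.mono ht ?_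
    rintro _ ⟨l, rfl⟩
    refine ⟨(k : ℤ) * l, ?_⟩
    simp only
    rw [_root_.zpow_mul, zpow_natCast]
  have hT := hP _ H' (hd.al' (hi.al ha)) (hd.be' (hi.be ha)) _ _ hF ξ hξ ht'
  have hT' : hF.TH ((fun g : Γ => hd.al' (hi.al ha) g (uu' R (Inc.sg i))) '' (Set.range j)) := by
    rw [← Set.range_comp]
    exact hT
  obtain ⟨c, hc, hp⟩ := hF.p4c_of_tightS hT'
  obtain ⟨C, hC, hle⟩ := p4c_leA hi ha hd
  refine ⟨c / C, div_pos hc hC, fun g => ?_⟩
  rw [div_le_iff₀ hC, mul_comm]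
  exact (hp _ ⟨g, rfl⟩).trans (hle _)

end main

/-- The dichotomy for corners of matrices over `L(Λ)`. -/
theorem canon_or_heights0 {G₀ : Type} [Group G₀] {Γ₁ : Subgroup G₀}
    {Γ : Type} [Group Γ] (j : Γ₁ →* Γ)
    (hR : H381.Sg.RICC j.range) (hc : ∀ g, (H381.Sg.conj g j.range).relIndex j.range ≠ 0)
    {Λ : Type} [Group Λ] (hL : Mt.ICC Λ)
    {n : ℕ} {p : Mt.Mat n Λ} (hp : Mt.IsProj p) (θ : Mt.AmpIso Γ Λ n p) :
    (Mt.Canon θ ∧ Mt.trM p = 1) ∨ ∀ (x : Γ) (k : ℕ), PTwo j (x ^ k) → Mt.HV θ x := by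
  have hG : Mt.ICC Γ := H381.ricc_icc hR
  rcases H381.sub_all hL hp θ with h | h
  · exact Or.inl ⟨h.1, h.2.1⟩
  right
  intro x k hP
  have ha := aframe_of hG (isProj_opM hp) (ofMt θ)
  by_contra hnot
  have hnot' : ¬ Tendsto (fun M : ℕ => (∑ i ∈ Finset.range M,
      hgA ((ofMt θ).toFun (H160.St.u (x ^ (i + 1))))) / M) atTop (𝓝 0) := by
    intro h2
    apply hnot
    refine h2.congr fun M => ?_
    congr 1
    refine Finset.sum_congr rfl fun i _ => ?_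
    rw [ofMt_apply]
    exact hgA_opM (θ.map_mem _ ((inL_iff _).mpr (lam_mem_LG _))).1
  obtain ⟨c, hc0, hlow⟩ := lower_of_heights0 (inc_rgp ha.p_adj ha.p_idem)
    (dec_Rp (H := rgp (opM p)) (m := n)) ha x k hP hnot'
  have hF : ∀ g, f4 ((ofMt θ).toFun (H160.St.u g)) = Mt.four (θ.toFun (H160.St.u g)) := fun g => by
    rw [← four_eq ((Vale.Agent.P092.H367.inM_iff _).mpr (ha.eqv g)), ofMt_apply, four_opM]
  have hm : j.range.map (MonoidHom.id Γ) = j.range := Subgroup.map_id _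
  obtain ⟨g, hg, hs⟩ := (h Γ (MonoidHom.id Γ) j.range
    (by rw [hm]; exact adm_of_comm hR hc _)).2 {1} c hc0
  obtain ⟨g, rfl⟩ := hg
  have h1 := hs 1 (Finset.mem_singleton_self _) 1 (Finset.mem_singleton_self _)
  rw [one_mul, mul_one, MonoidHom.id_apply] at h1
  have h2 := hlow g
  rw [hF] at h2
  linarith

end Vale.Agent.P092.R2.H289
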