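import Vale.Agent.P092.R2.H289.CHT
import Vale.Agent.P092.R3.H381.SpT

/-!
Elementary notions for the symplectic case.
-/

set_option linter.all false

namespace Vale.Agent.P092.R2.H289.Spn

open Matrix Vale.Agent.P092 Vale.Agent.P092.H350 Vale.Agent.P092.H367.SpT

variable {n : ℕ}

/-- The symplectic form `vᵀ J w`. -/
def om (v w : Fin n ⊕ Fin n → ℤ) : ℤ := (v ᵥ* J (Fin n) ℤ) ⬝ᵥ w

/-- The symmetric product `v ∘ w`: `ζ ↦ om w ζ • v + om v ζ • w`. -/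
def qq (v w : Fin n ⊕ Fin n → ℤ) : Matrix (Fin n ⊕ Fin n) (Fin n ⊕ Fin n) ℤ :=
  vecMulVec v (w ᵥ* J (Fin n) ℤ) + vecMulVec w (v ᵥ* J (Fin n) ℤ)

/-- Linear independence of two vectors. -/
def LI2 (v w : Fin n ⊕ Fin n → ℤ) : Prop := ∃ i k, v i * w k - v k * w i ≠ 0

/-- Abstract properties of the elements with a nonzero tight subspace. -/
structure Prd (B : symplecticGroup (Fin n) ℤ → Prop) : Prop where
  zpow : ∀ X (m : ℤ), m ≠ 0 → (B (X ^ m) ↔ B X)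
  heis : ∀ X Y R, Heis X Y R → B X → B R
  pig : ∀ X Y, (∀ m : ℤ, Commute X (Y ^ m * X * (Y ^ m)⁻¹)) → B X →
    ∃ m : ℤ, m ≠ 0 ∧ B (X⁻¹ * (Y ^ m * X * (Y ^ m)⁻¹))

/-- A nonzero power of `Z` commutes with the matrix `M`. -/
def PC (Z : symplecticGroup (Fin n) ℤ) (M : Matrix (Fin n ⊕ Fin n) (Fin n ⊕ Fin n) ℤ) : Prop :=
  ∃ k : ℤ, k ≠ 0 ∧ ((Z ^ k : symplecticGroup (Fin n) ℤ) : Matrix (Fin n ⊕ Fin n) (Fin n ⊕ Fin n) ℤ)
    * M = M * ((Z ^ k : symplecticGroup (Fin n) ℤ) : Matrix (Fin n ⊕ Fin n) (Fin n ⊕ Fin n) ℤ)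

/-- The pointwise stabiliser of the orthogonal complement of `v`, `w`. -/
def UU (v w : Fin n ⊕ Fin n → ℤ) : Set (symplecticGroup (Fin n) ℤ) :=
  {X | ∀ b, om v b = 0 → om w b = 0 →
    (X : Matrix (Fin n ⊕ Fin n) (Fin n ⊕ Fin n) ℤ) *ᵥ b = b}

/-- Every element of `Γ` is represented by an integral matrix (an element of `Sp_{2n}(ℚ)` up to a
scalar): the matrix is a similitude, what commutes virtually with `g` commutes virtually with the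
matrix, and only `1` is represented by a scalar. -/
def SepSp {Γ₁ : Subgroup (symplecticGroup (Fin n) ℤ)} {Γ : Type} [Group Γ] (j : Γ₁ →* Γ) : Prop :=
  ∀ g : Γ, ∃ (M : Matrix (Fin n ⊕ Fin n) (Fin n ⊕ Fin n) ℤ) (μ : ℤ), μ ≠ 0 ∧
    (∀ x y, om (M *ᵥ x) (M *ᵥ y) = μ * om x y) ∧
    (∀ Z : symplecticGroup (Fin n) ℤ, VC j g Z → PC Z M) ∧ ∀ c : ℤ, M = c • 1 → g = 1

end Vale.Agent.P092.R2.H289.Spn
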