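import Vale.Agent.P092.R2.H289.SpFr
import Vale.Agent.P092.R2.H289.SpSt

/-!
Tight subspaces of elements of `G₀`: products, commuting conjugates, normalised sets.
-/

set_option linter.all false

open scoped InnerProductSpace
open Filter Topology ContinuousLinearMap

namespace Vale.Agent.P092.R2.H289.Spn
open Vale.Agent.P092.H160
open Vale.Agent.P092

section A

variable {G₀ : Type} [Group G₀] {Γ₁ : Subgroup G₀} [hfi : Γ₁.FiniteIndex]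
  {Γ Λ H : Type} [Group Γ] [Group Λ] [NormedAddCommGroup H] [InnerProductSpace ℂ H]
  [CompleteSpace H] {j : Γ₁ →* Γ}
  {α : Γ →* (H →L[ℂ] H)} {β : Λ →* (H →L[ℂ] H)} {u : H} {t : ℝ}

/-- (A1) products of commuting elements -/
theorem JT_mul (hα : Fr α β u t) {X Y : G₀} (h : Commute X Y) {ξ : H} (hX : ξ ∈ hα.JT j X)
    (hY : ξ ∈ hα.JT j Y) : ξ ∈ hα.JT j (X * Y) := by
  obtain ⟨a, ha, hXa⟩ := H350.exists_pow_mem Γ₁ X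
  obtain ⟨b, hb, hYb⟩ := H350.exists_pow_mem Γ₁ Y
  have hXab : X ^ (a * b) ∈ Γ₁ := by
    rw [_root_.zpow_mul]
    exact Γ₁.zpow_mem hXa b
  have hYab : Y ^ (a * b) ∈ Γ₁ := by
    rw [mul_comm, _root_.zpow_mul]
    exact Γ₁.zpow_mem hYb a
  have hab : a * b ≠ 0 := mul_ne_zero ha hb
  have h1 : hα.Ht (j ⟨_, hXab⟩) = hα.JT j X :=
    hα.JT_eq (m := 1) one_ne_zero hab (by rw [zpow_one])
  have h2 : hα.Ht (j ⟨_, hYab⟩) = hα.JT j Y :=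
    hα.JT_eq (m := 1) one_ne_zero hab (by rw [zpow_one])
  have hc : Commute (⟨_, hXab⟩ : Γ₁) ⟨_, hYab⟩ := Subtype.ext (h.zpow_zpow _ _).eq
  have h3 : hα.Ht (j (⟨_, hXab⟩ * ⟨_, hYab⟩)) = hα.JT j (X * Y) :=
    hα.JT_eq (m := 1) (l := a * b) one_ne_zero hab (by
      rw [zpow_one, h.mul_zpow]
      rfl)
  rw [← h1] at hX
  rw [← h2] at hY
  rw [← h3, map_mul]
  exact hα.Ht_mul (hc.map j) hX hY

theorem JT_inv (hα : Fr α β u t) (X : G₀) : hα.JT j X⁻¹ = hα.JT j X := by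
  have := hα.JT_zpow (j := j) X (m := -1) (by decide)
  rwa [zpow_neg_one] at this

theorem JT_conj (hα : Fr α β u t) (z : Γ₁) {X : G₀} {ξ : H} (hX : ξ ∈ hα.JT j X) :
    α (j z) ξ ∈ hα.JT j ((z : G₀) * X * (z : G₀)⁻¹) := by
  obtain ⟨a, ha, hXa⟩ := H350.exists_pow_mem Γ₁ X
  have h1 : hα.Ht (j ⟨_, hXa⟩) = hα.JT j X :=
    hα.JT_eq (m := 1) one_ne_zero ha (by rw [zpow_one])
  have h2 : hα.Ht (j (z * ⟨_, hXa⟩ * z⁻¹)) = hα.JT j ((z : G₀) * X * (z : G₀)⁻¹) :=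
    hα.JT_eq (m := 1) one_ne_zero ha (by
      rw [zpow_one, conj_zpow]
      rfl)
  rw [← h1] at hX
  rw [← h2, map_mul, map_mul, map_inv]
  exact hα.conj_mem_Ht _ _ hX

theorem conj_comm {G : Type} [Group G] {X Y : G}
    (hc : ∀ m : ℤ, Commute X (Y ^ m * X * (Y ^ m)⁻¹)) (m₁ m₂ : ℤ) :
    Commute (Y ^ m₁ * X * (Y ^ m₁)⁻¹) (Y ^ m₂ * X * (Y ^ m₂)⁻¹) := by
  have h := hc (m₂ - m₁)
  have h2 := congrArg (fun z => Y ^ m₁ * z * (Y ^ m₁)⁻¹) h.eq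
  have e : Y ^ m₂ = Y ^ m₁ * Y ^ (m₂ - m₁) := by
    rw [← _root_.zpow_add]
    congr 1
    ring
  change Y ^ m₁ * X * (Y ^ m₁)⁻¹ * (Y ^ m₂ * X * (Y ^ m₂)⁻¹) =
    Y ^ m₂ * X * (Y ^ m₂)⁻¹ * (Y ^ m₁ * X * (Y ^ m₁)⁻¹)
  rw [e]
  calc Y ^ m₁ * X * (Y ^ m₁)⁻¹ * (Y ^ m₁ * Y ^ (m₂ - m₁) * X * (Y ^ m₁ * Y ^ (m₂ - m₁))⁻¹)
      = Y ^ m₁ * (X * (Y ^ (m₂ - m₁) * X * (Y ^ (m₂ - m₁))⁻¹)) * (Y ^ m₁)⁻¹ := by group
    _ = Y ^ m₁ * ((Y ^ (m₂ - m₁) * X * (Y ^ (m₂ - m₁))⁻¹) * X) * (Y ^ m₁)⁻¹ := h2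
    _ = _ := by group

/-- (A2) weak mixing of commuting conjugates -/
theorem JT_three (hα : Fr α β u t) {X Y : G₀}
    (hc : ∀ m : ℤ, Commute X (Y ^ m * X * (Y ^ m)⁻¹))
    (hsep : ∀ g : Γ, g ≠ 1 → ∀ m₁ m₂ : ℤ, m₁ ≠ m₂ →
      (∀ Z, Commute Z (Y ^ m₁ * X * (Y ^ m₁)⁻¹) → VC j g Z) →
      (∀ Z, Commute Z (Y ^ m₂ * X * (Y ^ m₂)⁻¹) → VC j g Z) → False)
    (hX : hα.JT j X ≠ ⊥) :
    ∃ m₁ m₂ : ℤ, m₁ ≠ 0 ∧ m₂ ≠ 0 ∧ m₁ ≠ m₂ ∧ ∃ ξ : H, ξ ≠ 0 ∧ ξ ∈ hα.JT j X ∧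
      ξ ∈ hα.JT j (Y ^ m₁ * X * (Y ^ m₁)⁻¹) ∧ ξ ∈ hα.JT j (Y ^ m₂ * X * (Y ^ m₂)⁻¹) := by
  obtain ⟨a, ha, hXa⟩ := H350.exists_pow_mem Γ₁ X
  obtain ⟨b, hb, hYb⟩ := H350.exists_pow_mem Γ₁ Y
  obtain ⟨x, hx⟩ : ∃ x : Γ₁, x = ⟨_, hXa⟩ := ⟨_, rfl⟩
  obtain ⟨y, hy⟩ : ∃ y : Γ₁, y = ⟨_, hYb⟩ := ⟨_, rfl⟩
  have ex : (x : G₀) = X ^ a := by rw [hx]
  have ey : (y : G₀) = Y ^ b := by rw [hy]
  have ez : ∀ m : ℤ, ((y ^ m * x * (y ^ m)⁻¹ : Γ₁) : G₀) =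
      (Y ^ (b * m) * X * (Y ^ (b * m))⁻¹) ^ a := fun m => by
    push_cast
    rw [conj_zpow, ex, ey, ← _root_.zpow_mul]
  have hj : ∀ m : ℕ, (j y) ^ m * j x * ((j y) ^ m)⁻¹ = j (y ^ (m : ℤ) * x * (y ^ (m : ℤ))⁻¹) :=
    fun m => by
      rw [map_mul, map_mul, map_inv, map_zpow, zpow_natCast]
  have hHt : ∀ m : ℕ, hα.Ht ((j y) ^ m * j x * ((j y) ^ m)⁻¹) =
      hα.JT j (Y ^ (b * m) * X * (Y ^ (b * m))⁻¹) := fun m => by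
    rw [hj]
    exact hα.JT_eq (m := 1) one_ne_zero ha (by rw [zpow_one, ez])
  have hHx : hα.Ht (j x) = hα.JT j X := hα.JT_eq (m := 1) one_ne_zero ha (by rw [zpow_one, ex])
  have hcom : ∀ m₁ m₂ : ℕ, Commute ((j y) ^ m₁ * j x * ((j y) ^ m₁)⁻¹)
      ((j y) ^ m₂ * j x * ((j y) ^ m₂)⁻¹) := fun m₁ m₂ => by
    rw [hj, hj]
    refine Commute.map (Subtype.ext ?_) j
    change ((y ^ (m₁ : ℤ) * x * (y ^ (m₁ : ℤ))⁻¹ : Γ₁) : G₀) *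
      ((y ^ (m₂ : ℤ) * x * (y ^ (m₂ : ℤ))⁻¹ : Γ₁) : G₀) =
      ((y ^ (m₂ : ℤ) * x * (y ^ (m₂ : ℤ))⁻¹ : Γ₁) : G₀) *
      ((y ^ (m₁ : ℤ) * x * (y ^ (m₁ : ℤ))⁻¹ : Γ₁) : G₀)
    rw [ez, ez]
    exact ((conj_comm hc _ _).zpow_zpow a a).eq
  have hPx : hα.P (j x) u ≠ 0 := fun h0 => hX (by rw [← hHx]; exact hα.Ht_eq_bot_of h0)
  have hsupp : ∀ (g : Γ) (m : ℕ), hα.c ((j y) ^ m * j x * ((j y) ^ m)⁻¹) g ≠ 0 →
      ∀ Z, Commute Z (Y ^ (b * m) * X * (Y ^ (b * m))⁻¹) → VC j g Z := by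
    intro g m hg Z hZ
    rw [hj] at hg
    refine hα.vc_of_c ?_ hg
    rw [ez]
    exact hZ.zpow_right a
  have hfin : ∀ g, g ≠ 1 → ∃ M : ℕ, ∀ m : ℕ, M ≤ m →
      hα.c ((j y) ^ m * j x * ((j y) ^ m)⁻¹) g = 0 := by
    intro g hg
    by_contra hcon
    push Not at hcon
    obtain ⟨m₁, _, hm₁⟩ := hcon 0
    obtain ⟨m₂, hlt, hm₂⟩ := hcon (m₁ + 1)
    refine hsep g hg (b * m₁) (b * m₂) ?_ (hsupp g m₁ hm₁) (hsupp g m₂ hm₂)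
    intro e
    have := mul_left_cancel₀ hb e
    omega
  obtain ⟨m₁, hm₁, h1⟩ := hα.exists_mul_ne hfin hPx (hα.P_rc (j x)) hPx 1
  have hA2 : CL β (hα.P (j x) * hα.P ((j y) ^ m₁ * j x * ((j y) ^ m₁)⁻¹)) :=
    (hα.P_rc _).mul (hα.P_rc _)
  obtain ⟨m₂, hm₂, h2⟩ := hα.exists_mul_ne hfin hPx hA2 h1 (m₁ + 1)
  have e0 : (j y) ^ 0 * j x * ((j y) ^ 0)⁻¹ = j x := by simp
  have c01 := hcom 0 m₁
  have c02 := hcom 0 m₂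
  have c12 := hcom m₁ m₂
  rw [e0] at c01 c02
  refine ⟨b * m₁, b * m₂, ?_, ?_, ?_,
    hα.P (j x) (hα.P ((j y) ^ m₁ * j x * ((j y) ^ m₁)⁻¹)
      (hα.P ((j y) ^ m₂ * j x * ((j y) ^ m₂)⁻¹) u)), h2, ?_, ?_, ?_⟩
  · exact mul_ne_zero hb (by omega)
  · exact mul_ne_zero hb (by omega)
  · intro e
    have := mul_left_cancel₀ hb e
    omega
  · rw [← hHx]
    exact hα.P_mem _ _
  · rw [← hHt]
    exact hα.P_mem_of_comm c01 (hα.P_mem _ _)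
  · rw [← hHt]
    exact hα.P_mem_of_comm c02 (hα.P_mem_of_comm c12 (hα.P_mem _ _))

/-- (A3) pigeonhole for commuting conjugates -/
theorem JT_pig (hα : Fr α β u t) {X Y : G₀}
    (hc : ∀ m : ℤ, Commute X (Y ^ m * X * (Y ^ m)⁻¹)) (hX : hα.JT j X ≠ ⊥) :
    ∃ m : ℤ, m ≠ 0 ∧ hα.JT j (X⁻¹ * (Y ^ m * X * (Y ^ m)⁻¹)) ≠ ⊥ := by
  obtain ⟨a, ha, hXa⟩ := H350.exists_pow_mem Γ₁ X
  obtain ⟨b, hb, hYb⟩ := H350.exists_pow_mem Γ₁ Y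
  obtain ⟨x, hx⟩ : ∃ x : Γ₁, x = ⟨_, hXa⟩ := ⟨_, rfl⟩
  obtain ⟨y, hy⟩ : ∃ y : Γ₁, y = ⟨_, hYb⟩ := ⟨_, rfl⟩
  have ex : (x : G₀) = X ^ a := by rw [hx]
  have ey : (y : G₀) = Y ^ b := by rw [hy]
  have ez : ∀ m : ℤ, ((y ^ m * x * (y ^ m)⁻¹ : Γ₁) : G₀) =
      (Y ^ (b * m) * X * (Y ^ (b * m))⁻¹) ^ a := fun m => by
    push_cast
    rw [conj_zpow, ex, ey, ← _root_.zpow_mul]
  have hj : ∀ m : ℤ, (j y) ^ m * j x * ((j y) ^ m)⁻¹ = j (y ^ m * x * (y ^ m)⁻¹) :=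
    fun m => by rw [map_mul, map_mul, map_inv, map_zpow]
  have hHx : hα.Ht (j x) = hα.JT j X := hα.JT_eq (m := 1) one_ne_zero ha (by rw [zpow_one, ex])
  have hcom : ∀ m : ℤ, Commute (j x) ((j y) ^ m * j x * ((j y) ^ m)⁻¹) := fun m => by
    rw [hj]
    refine Commute.map (Subtype.ext ?_) j
    change (x : G₀) * ((y ^ m * x * (y ^ m)⁻¹ : Γ₁) : G₀) =
      ((y ^ m * x * (y ^ m)⁻¹ : Γ₁) : G₀) * (x : G₀)
    rw [ez, ex]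
    exact ((hc _).zpow_zpow a a).eq
  obtain ⟨m, hm, h1⟩ := hα.pig hcom (by rw [hHx]; exact hX)
  refine ⟨b * m, mul_ne_zero hb hm, ?_⟩
  have h2 : hα.Ht (j (x⁻¹ * (y ^ m * x * (y ^ m)⁻¹))) =
      hα.JT j (X⁻¹ * (Y ^ (b * m) * X * (Y ^ (b * m))⁻¹)) := by
    refine hα.JT_eq (m := 1) (l := a) one_ne_zero ha ?_
    rw [zpow_one, ((hc (b * m)).inv_left).mul_zpow, inv_zpow, ← ex, ← ez]
    rfl
  rw [← h2, map_mul, map_inv, ← hj]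
  exact h1

/-- (A4) the vectors which are tight along a normalised set -/
theorem JT_inter (hα : Fr α β u t) (S : Set G₀)
    (hS : ∀ g : Γ, g ≠ 1 → ∃ Z : G₀, (∀ X ∈ S, Z * X * Z⁻¹ ∈ S ∧ Z⁻¹ * X * Z ∈ S) ∧
      ¬ VC j g Z) :
    (∀ ξ : H, (∀ X ∈ S, ξ ∈ hα.JT j X) → ξ = 0) ∨ ∀ X ∈ S, hα.JT j X = ⊤ := by
  set K : Submodule ℂ H := ⨅ X : S, hα.JT j (X : G₀) with hK
  have hmem : ∀ ξ, ξ ∈ K ↔ ∀ X ∈ S, ξ ∈ hα.JT j X := fun ξ => by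
    rw [hK, Submodule.mem_iInf]
    exact ⟨fun h X hX => h ⟨X, hX⟩, fun h X => h X X.2⟩
  have hclosed : IsClosed (K : Set H) := by
    have e : (K : Set H) = ⋂ X : S, (hα.JT j (X : G₀) : Set H) := by
      ext ξ
      rw [SetLike.mem_coe, hmem, Set.mem_iInter]
      exact ⟨fun h X => h X X.2, fun h X hX => h ⟨X, hX⟩⟩
    rw [e]
    exact isClosed_iInter fun X => hα.isClosed_Ht _
  haveI : CompleteSpace K := hclosed.completeSpace_coe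
  set Q : H →L[ℂ] H := K.starProjection with hQ
  have Qmem : ∀ ξ, Q ξ ∈ K := fun ξ => K.starProjection_apply_mem ξ
  have Qself : ∀ {ξ}, ξ ∈ K → Q ξ = ξ := fun {ξ} h => Submodule.starProjection_eq_self_iff.mpr h
  have Qadj : adjoint Q = Q := by
    have h : IsSelfAdjoint K.starProjection := isSelfAdjoint_starProjection _
    exact h
  have Qinner : ∀ ξ η, ⟪Q ξ, η⟫_ℂ = ⟪ξ, Q η⟫_ℂ := fun ξ η => by
    conv_rhs => rw [← Qadj]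
    rw [ContinuousLinearMap.adjoint_inner_right]
  have Qidem : ∀ ξ, Q (Q ξ) = Q ξ := fun ξ => Qself (Qmem ξ)
  have Qzero : ∀ ξ, (∀ η ∈ K, ⟪η, ξ⟫_ℂ = 0) → Q ξ = 0 := fun ξ h => by
    have h1 := h _ (Qmem ξ)
    rw [Qinner, ← Qidem, ← Qinner, inner_self_eq_zero] at h1
    exact h1
  have Qcomm : ∀ (T : H →L[ℂ] H), (∀ ξ ∈ K, T ξ ∈ K) → (∀ ξ ∈ K, adjoint T ξ ∈ K) →
      ∀ ξ, T (Q ξ) = Q (T ξ) := by
    intro T h1 h2 ξ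
    have h3 : Q (T (ξ - Q ξ)) = 0 := by
      refine Qzero _ fun η hη => ?_
      rw [← ContinuousLinearMap.adjoint_inner_left, inner_sub_right, ← Qinner,
        Qself (h2 η hη), sub_self]
    rw [map_sub, map_sub, sub_eq_zero] at h3
    rw [h3, Qself (h1 _ (Qmem ξ))]
  have hQβ : CL β Q := by
    intro s ξ
    refine (Qcomm (β s) (fun ξ hξ => ?_) (fun ξ hξ => ?_) ξ).symm
    · rw [hmem] at hξ ⊢
      exact fun X hX => hα.beta_mem_Ht _ s (hξ X hX)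
    · rw [hα.adjβ]
      rw [hmem] at hξ ⊢
      exact fun X hX => hα.beta_mem_Ht _ s⁻¹ (hξ X hX)
  -- the elements normalising `S`
  have hnorm : ∀ Z : G₀, (∀ X ∈ S, Z * X * Z⁻¹ ∈ S ∧ Z⁻¹ * X * Z ∈ S) →
      ∀ z : Γ₁, (∃ a : ℤ, (z : G₀) = Z ^ a) → ∀ ξ, α (j z) (Q ξ) = Q (α (j z) ξ) := by
    intro Z hZ z hz
    have hpow : ∀ a : ℤ, ∀ X ∈ S, (Z ^ a)⁻¹ * X * Z ^ a ∈ S := by
      intro a
      induction a using Int.induction_on with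
      | zero => intro X hX; simpa using hX
      | succ k ih =>
        intro X hX
        have := (hZ _ (ih X hX)).2
        have e : (Z ^ ((k : ℤ) + 1))⁻¹ * X * Z ^ ((k : ℤ) + 1) =
            Z⁻¹ * ((Z ^ (k : ℤ))⁻¹ * X * Z ^ (k : ℤ)) * Z := by
          rw [_root_.zpow_add_one]; group
        rw [e]
        exact this
      | pred k ih =>
        intro X hX
        have := (hZ _ (ih X hX)).1
        have e : (Z ^ (-(k : ℤ) - 1))⁻¹ * X * Z ^ (-(k : ℤ) - 1) =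
            Z * ((Z ^ (-(k : ℤ)))⁻¹ * X * Z ^ (-(k : ℤ))) * Z⁻¹ := by
          rw [_root_.zpow_sub_one]; group
        rw [e]
        exact this
    have hinv : ∀ w : Γ₁, (∃ a : ℤ, (w : G₀) = Z ^ a) → ∀ ξ ∈ K, α (j w) ξ ∈ K := by
      rintro w ⟨a, ha⟩ ξ hξ
      rw [hmem] at hξ ⊢
      intro X hX
      have h1 := JT_conj hα w (hξ _ (hpow a X hX))
      rw [ha] at h1
      have e : Z ^ a * ((Z ^ a)⁻¹ * X * Z ^ a) * (Z ^ a)⁻¹ = X := by group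
      rw [e] at h1
      exact h1
    refine Qcomm (α (j z)) (hinv z hz) (fun ξ hξ => ?_)
    rw [hα.adj, ← map_inv]
    obtain ⟨a, ha⟩ := hz
    refine hinv z⁻¹ ⟨-a, ?_⟩ ξ hξ
    rw [Subgroup.coe_inv, ha, _root_.zpow_neg]
  have hcoef : ∀ g, g ≠ 1 → ⟪α g u, Q u⟫_ℂ = 0 := by
    intro g hg
    obtain ⟨Z, hZ, hvc⟩ := hS g hg
    by_contra hne
    apply hvc
    obtain ⟨a, ha, hZa⟩ := H350.exists_pow_mem Γ₁ Z
    obtain ⟨m, hm, h1⟩ := hα.exists_pow_comm' hQβ (h := j ⟨_, hZa⟩)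
      (hnorm Z hZ ⟨_, hZa⟩ ⟨a, rfl⟩) hne
    rw [← map_pow] at h1
    have hmem : Z ^ (a * m) ∈ Γ₁ := by
      rw [_root_.zpow_mul]
      exact Γ₁.zpow_mem hZa _
    refine ⟨a * m, hmem, mul_ne_zero ha (by exact_mod_cast hm), ?_⟩
    have e : (⟨Z ^ (a * m), hmem⟩ : Γ₁) = ⟨Z ^ a, hZa⟩ ^ m := by
      apply Subtype.ext
      push_cast
      rw [_root_.zpow_mul, zpow_natCast]
    rw [e]
    exact h1
  rcases hα.zero_or_one hQβ Qidem hcoef with h0 | h1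
  · left
    intro ξ hξ
    have h2 := Qself ((hmem ξ).mpr hξ)
    rw [h0] at h2
    exact h2.symm
  · right
    intro X hX
    rw [eq_top_iff]
    intro ξ _
    have h2 := Qmem ξ
    rw [h1, hmem] at h2
    exact h2 X hX

end A

end Vale.Agent.P092.R2.H289.Spn
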