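import Vale.Agent.P092.R2.H289.SpQ0
import Vale.Agent.P092.R2.H289.SpHt

/-!
Groups of rational symplectic matrices commensurable with `Sp_{2N}(ℤ)`, `N ≥ 3`: an isomorphism onto
a corner of matrices over `L(Λ)` is canonical, or the heights vanish on average along every element
with a nontrivial unipotent power.
-/

set_option linter.all false

open Matrix

namespace Vale.Agent.P092.R2.H289.Spn

open Vale.Agent.P092.H381.Sg Vale.Agent.P092.H367

variable {N : ℕ} {Γ : Type} [Group Γ]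

/-- A unipotent element of `Γ` has a power which is the image of an integral unipotent matrix. -/
theorem exists_int_powq (f : Γ →* symplecticGroup (Fin N) ℚ) (hj : Function.Injective f)
    {jj : f.range.comap (SpArith.inc N) →* Γ} (hjj : ∀ l, f (jj l) = SpArith.inc N l)
    (x : Γ) (hx : x ≠ 1)
    (hnil : IsNilpotent ((f x : Matrix (Fin N ⊕ Fin N) (Fin N ⊕ Fin N) ℚ) - 1)) :
    ∃ (m : ℕ) (y : f.range.comap (SpArith.inc N)), x ^ m = jj y ∧ y ≠ 1 ∧
      IsNilpotent (((y : symplecticGroup (Fin N) ℤ) :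
        Matrix (Fin N ⊕ Fin N) (Fin N ⊕ Fin N) ℤ) - 1) := by
  obtain ⟨M, hM⟩ : ∃ M : Matrix (Fin N ⊕ Fin N) (Fin N ⊕ Fin N) ℚ,
    M = (f x : Matrix (Fin N ⊕ Fin N) (Fin N ⊕ Fin N) ℚ) - 1 := ⟨_, rfl⟩
  rw [← hM] at hnil
  have hxM : (f x : Matrix (Fin N ⊕ Fin N) (Fin N ⊕ Fin N) ℚ) = 1 + M := by rw [hM]; abel
  obtain ⟨m, hm, B, hB⟩ := SpArith.exists_int_pow hnil
  have hM0 : M ≠ 0 := by
    intro h0
    apply hx
    apply hj
    apply Subtype.ext
    rw [hxM, h0, add_zero, map_one]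
    rfl
  have hpow : (f (x ^ m) : Matrix (Fin N ⊕ Fin N) (Fin N ⊕ Fin N) ℚ) =
      B.map (Int.cast : ℤ → ℚ) := by
    rw [map_pow, hB, ← hxM]
    rfl
  have hBsp : B ∈ symplecticGroup (Fin N) ℤ := by
    rw [SymplecticGroup.mem_iff]
    apply SpArith.map_inj
    have h2 := SymplecticGroup.mem_iff.mp (f (x ^ m)).2
    rw [hpow, ← SpArith.map_J (Int.castRingHom ℚ)] at h2
    have h3 : (B * J (Fin N) ℤ * Bᵀ).map (Int.castRingHom ℚ) =
        (J (Fin N) ℤ).map (Int.castRingHom ℚ) := by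
      rw [Matrix.map_mul, Matrix.map_mul, Matrix.transpose_map]
      exact h2
    exact h3
  obtain ⟨b, hb⟩ : ∃ b : symplecticGroup (Fin N) ℤ,
      (b : Matrix (Fin N ⊕ Fin N) (Fin N ⊕ Fin N) ℤ) = B := ⟨⟨B, hBsp⟩, rfl⟩
  have hinc : SpArith.inc N b = f (x ^ m) := by
    apply Subtype.ext
    change (b : Matrix (Fin N ⊕ Fin N) (Fin N ⊕ Fin N) ℤ).map (Int.cast : ℤ → ℚ) = _
    rw [hb]
    exact hpow.symm
  have hmem : b ∈ f.range.comap (SpArith.inc N) := ⟨x ^ m, hinc.symm⟩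
  have hne : (⟨b, hmem⟩ : f.range.comap (SpArith.inc N)) ≠ 1 := by
    intro h1
    have h2 : b = 1 := congrArg Subtype.val h1
    rw [h2, map_one] at hinc
    apply SpArith.pow_ne_one hnil hM0 hm
    rw [← hxM]
    have h3 : f x ^ m = 1 := by rw [← map_pow]; exact hinc.symm
    exact congrArg (fun y : symplecticGroup (Fin N) ℚ =>
      (y : Matrix (Fin N ⊕ Fin N) (Fin N ⊕ Fin N) ℚ)) h3
  refine ⟨m, ⟨b, hmem⟩, ?_, hne, ?_⟩
  · apply hj
    rw [hjj]
    exact hinc.symm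
  · have h1 : IsNilpotent (((1 : Matrix (Fin N ⊕ Fin N) (Fin N ⊕ Fin N) ℚ) + M) ^ m - 1) := by
      have hcomm : Commute M (∑ i ∈ Finset.range m, (1 + M) ^ i) := by
        refine Commute.sum_right _ _ _ fun i _ => ?_
        exact ((Commute.one_right M).add_right (Commute.refl M)).pow_right i
      have h2 := mul_geom_sum (1 + M) m
      rw [add_sub_cancel_left] at h2
      rw [← h2]
      exact hcomm.isNilpotent_mul_right hnil
    obtain ⟨r, hr⟩ := h1
    refine ⟨r, ?_⟩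
    apply SpArith.map_inj
    have h3 : ((B - 1) ^ r).map (Int.cast : ℤ → ℚ) = (B.map (Int.cast : ℤ → ℚ) - 1) ^ r := by
      have h4 := map_pow (RingHom.mapMatrix (m := Fin N ⊕ Fin N) (Int.castRingHom ℚ)) (B - 1) r
      rw [map_sub, map_one] at h4
      exact h4
    change (((b : Matrix (Fin N ⊕ Fin N) (Fin N ⊕ Fin N) ℤ) - 1) ^ r).map (Int.cast : ℤ → ℚ) =
      (0 : Matrix (Fin N ⊕ Fin N) (Fin N ⊕ Fin N) ℤ).map Int.cast
    rw [hb, h3, hB, hr]
    ext a b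
    simp

/-- The dichotomy for corners of matrices over `L(Λ)`, for groups of rational symplectic
matrices. -/
theorem canon_or_heights_spq (hN : 3 ≤ N) (f : Γ →* symplecticGroup (Fin N) ℚ)
    (hj : Function.Injective f) (hfi : (f.range.comap (SpArith.inc N)).FiniteIndex)
    (hΓ : ∀ g, (f g : Matrix (Fin N ⊕ Fin N) (Fin N ⊕ Fin N) ℚ) ≠ -1)
    {Λ : Type} [Group Λ] (hL : Mt.ICC Λ)
    {n : ℕ} {p : Mt.Mat n Λ} (hp : Mt.IsProj p) (θ : Mt.AmpIso Γ Λ n p) :
    (Mt.Canon θ ∧ Mt.trM p = 1) ∨ ∀ (x : Γ) (k : ℕ), x ^ k ≠ 1 →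
      IsNilpotent ((f (x ^ k) : Matrix (Fin N ⊕ Fin N) (Fin N ⊕ Fin N) ℚ) - 1) →
      Mt.HV θ x := by
  obtain ⟨jj, hjj⟩ := exists_jjq hj
  have hr := range_jjq hj hjj
  haveI := hfi
  rcases canon_or_heights_spc hN (f.range.comap (SpArith.inc N)) jj
    (sepSp_q (by omega) hj hΓ hjj)
    (by rw [hr]; exact ricc_HZq hj hfi hΓ)
    (by rw [hr]; exact comm_HZq hj hfi) hL hp θ with h | h
  · exact Or.inl h
  right
  intro x k hx hnil
  obtain ⟨m, y, h1, h2, h3⟩ := exists_int_powq f hj hjj (x ^ k) hx hnil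
  exact h x (k * m) y (by rw [pow_mul, h1]) h2 h3

end Vale.Agent.P092.R2.H289.Spn
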