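import Vale.Agent.P092.R3.H367.SArithSp

/-!
A unipotent rational matrix has an integral power, and a nontrivial unipotent matrix has infinite
order (index set of the symplectic case; copy of `R3/H367/UniPow`).
-/

set_option linter.all false

open Matrix

namespace Vale.Agent.P092.H367.SpArith

variable {N : ℕ}

/-- Integral matrices. -/
def IsInt (A : Matrix (Fin N ⊕ Fin N) (Fin N ⊕ Fin N) ℚ) : Prop :=
  ∃ B : Matrix (Fin N ⊕ Fin N) (Fin N ⊕ Fin N) ℤ, B.map (Int.cast : ℤ → ℚ) = A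

theorem IsInt.add {A A' : Matrix (Fin N ⊕ Fin N) (Fin N ⊕ Fin N) ℚ} (h : IsInt A) (h' : IsInt A') :
    IsInt (A + A') := by
  obtain ⟨B, rfl⟩ := h
  obtain ⟨B', rfl⟩ := h'
  exact ⟨B + B', by ext i j; simp⟩

theorem IsInt.zero : IsInt (0 : Matrix (Fin N ⊕ Fin N) (Fin N ⊕ Fin N) ℚ) := ⟨0, by ext i j; simp⟩

theorem IsInt.one : IsInt (1 : Matrix (Fin N ⊕ Fin N) (Fin N ⊕ Fin N) ℚ) := ⟨1, by
  ext i j
  by_cases h : i = j
  · subst h; simp
  · simp [Matrix.one_apply_ne h]⟩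

theorem IsInt.sum {ι : Type} (s : Finset ι) (f : ι → Matrix (Fin N ⊕ Fin N) (Fin N ⊕ Fin N) ℚ)
    (h : ∀ i ∈ s, IsInt (f i)) : IsInt (∑ i ∈ s, f i) := by
  classical
  induction s using Finset.induction_on with
  | empty => rw [Finset.sum_empty]; exact IsInt.zero
  | insert a s ha ih =>
    rw [Finset.sum_insert ha]
    exact (h a (Finset.mem_insert_self _ _)).add
      (ih fun i hi => h i (Finset.mem_insert_of_mem hi))

theorem IsInt.nsmul {A : Matrix (Fin N ⊕ Fin N) (Fin N ⊕ Fin N) ℚ} (h : IsInt A) (k : ℕ) :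
    IsInt ((k : ℚ) • A) := by
  obtain ⟨B, rfl⟩ := h
  exact ⟨(k : ℤ) • B, by
    ext i j
    rw [Matrix.map_apply, Matrix.smul_apply, Matrix.smul_apply, Matrix.map_apply, smul_eq_mul,
      smul_eq_mul]
    push_cast
    ring⟩

/-- A unipotent rational matrix has an integral power. -/
theorem exists_int_pow {M : Matrix (Fin N ⊕ Fin N) (Fin N ⊕ Fin N) ℚ} (hM : IsNilpotent M) :
    ∃ m : ℕ, 0 < m ∧ IsInt ((1 + M) ^ m) := by
  obtain ⟨r, hr⟩ := hM
  have hd : ∀ i : ℕ, ∃ d : ℕ, 0 < d ∧ IsInt ((d : ℚ) • M ^ i) := fun i => by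
    obtain ⟨d, hd, B, hB⟩ := exists_denom (M ^ i)
    exact ⟨d, hd, B, hB⟩
  choose d hd0 hdI using hd
  obtain ⟨D, hD⟩ : ∃ D : ℕ, D = ∏ i ∈ Finset.range r, d i := ⟨_, rfl⟩
  have hD0 : 0 < D := by rw [hD]; exact Finset.prod_pos fun i _ => hd0 i
  refine ⟨D * r.factorial, Nat.mul_pos hD0 (Nat.factorial_pos _), ?_⟩
  obtain ⟨m, hm⟩ : ∃ m : ℕ, m = D * r.factorial := ⟨_, rfl⟩
  rw [← hm, add_comm, (Commute.one_right M).add_pow]
  refine IsInt.sum _ _ fun i hi => ?_
  rw [one_pow, mul_one, ← nsmul_eq_mul', ← Nat.cast_smul_eq_nsmul ℚ]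
  by_cases hir : r ≤ i
  · have : M ^ i = 0 := pow_eq_zero_of_le hir hr
    rw [this, smul_zero]
    exact IsInt.zero
  push Not at hir
  rcases Nat.eq_zero_or_pos i with rfl | hi0
  · rw [Nat.choose_zero_right, Nat.cast_one, one_smul, pow_zero]
    exact IsInt.one
  have h1 : d i * i ∣ m := by
    rw [hm, hD]
    exact mul_dvd_mul (Finset.dvd_prod_of_mem d (Finset.mem_range.mpr hir))
      (Nat.dvd_factorial hi0 hir.le)
  obtain ⟨q, hq⟩ := h1
  have hm0 : 0 < m := by rw [hm]; exact Nat.mul_pos hD0 (Nat.factorial_pos _)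
  obtain ⟨m', hm'⟩ : ∃ m', m = m' + 1 := ⟨m - 1, by omega⟩
  obtain ⟨i', hi'⟩ : ∃ i', i = i' + 1 := ⟨i - 1, by omega⟩
  have h2 : m * m'.choose i' = m.choose i * i := by
    rw [hm', hi']
    exact Nat.add_one_mul_choose_eq m' i'
  have h3 : m.choose i = d i * (q * m'.choose i') := by
    have h4 : m.choose i * i = (d i * (q * m'.choose i')) * i := by
      rw [← h2, hq]; ring
    exact Nat.eq_of_mul_eq_mul_right hi0 h4
  rw [h3, Nat.cast_mul, mul_comm, mul_smul]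
  exact (hdI i).nsmul _

/-- A nontrivial unipotent matrix has infinite order. -/
theorem pow_ne_one {M : Matrix (Fin N ⊕ Fin N) (Fin N ⊕ Fin N) ℚ} (hM : IsNilpotent M) (h0 : M ≠ 0) {m : ℕ}
    (hm : 0 < m) : (1 + M) ^ m ≠ 1 := by
  intro h
  haveI : Nontrivial (Matrix (Fin N ⊕ Fin N) (Fin N ⊕ Fin N) ℚ) := ⟨⟨M, 0, h0⟩⟩
  have hc0 := pow_nilpotencyClass hM
  have hc1 := pow_pred_nilpotencyClass hM
  set c := nilpotencyClass M with hc
  have hc2 : 2 ≤ c := by
    by_contra hlt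
    apply h0
    have : M ^ 1 = 0 := pow_eq_zero_of_le (by omega) hc0
    simpa using this
  obtain ⟨e, he⟩ : ∃ e, c = e + 2 := ⟨c - 2, by omega⟩
  have key : ∀ k : ℕ, (1 + M) ^ k * M ^ e = M ^ e + (k : ℚ) • M ^ (e + 1) := by
    intro k
    induction k with
    | zero => simp
    | succ k ih =>
      rw [pow_succ', mul_assoc, ih, add_mul, one_mul, mul_add, mul_smul_comm, ← pow_succ',
        ← pow_succ', show e + 1 + 1 = c by omega, hc0, smul_zero, add_zero]
      push_cast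
      rw [add_smul, one_smul]
      abel
  have h1 := key m
  rw [h, one_mul] at h1
  have h2 : (m : ℚ) • M ^ (e + 1) = 0 := by
    have := h1.symm
    simpa using this
  rw [show c - 1 = e + 1 by omega] at hc1
  rcases smul_eq_zero.mp h2 with h3 | h3
  · exact hm.ne' (by exact_mod_cast h3)
  · exact hc1 h3

end Vale.Agent.P092.H367.SpArith
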