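import Vale.Agent.P092.R2.H289.SpSt
import Vale.Agent.P092.R2.H289.SpUniPow
import Vale.Agent.P092.R3.H381.Sub2

/-!
Groups of rational symplectic matrices commensurable with `Sp_{2N}(ℤ)`: the homomorphism of the
integral elements, commensuration, the relative ICC property and the representation of the elements
by integral matrices.
-/

set_option linter.all false

open Matrix

namespace Vale.Agent.P092.R2.H289.Spn

open Vale.Agent.P092.H381.Sg Vale.Agent.P092.H367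

variable {N : ℕ} {Γ : Type} [Group Γ] {f : Γ →* symplecticGroup (Fin N) ℚ}

theorem incq_inj : Function.Injective (SpArith.inc N) := by
  intro a b h
  apply Subtype.ext
  apply SpArith.map_inj
  exact congrArg (fun y : symplecticGroup (Fin N) ℚ =>
    (y : Matrix (Fin N ⊕ Fin N) (Fin N ⊕ Fin N) ℚ)) h

/-- The homomorphism of the integral elements into `Γ`. -/
theorem exists_jjq (hj : Function.Injective f) : ∃ jj : f.range.comap (SpArith.inc N) →* Γ,
    ∀ l, f (jj l) = SpArith.inc N l := by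
  have hex : ∀ l : f.range.comap (SpArith.inc N), ∃ k : Γ, f k = SpArith.inc N l := fun l => l.2
  choose k hk using hex
  exact ⟨{ toFun := k
           map_one' := by
            apply hj
            rw [hk, map_one]
            exact map_one (SpArith.inc N)
           map_mul' := fun a b => by
            apply hj
            rw [map_mul, hk, hk, hk]
            exact map_mul (SpArith.inc N) _ _ }, hk⟩

theorem range_jjq (hj : Function.Injective f) {jj : f.range.comap (SpArith.inc N) →* Γ}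
    (hjj : ∀ l, f (jj l) = SpArith.inc N l) : jj.range = SpArith.HZ f := by
  ext x
  constructor
  · rintro ⟨l, rfl⟩
    rw [Subgroup.mem_comap, hjj]
    exact ⟨l, rfl⟩
  · rintro ⟨l, hl⟩
    refine ⟨⟨l, ⟨x, hl.symm⟩⟩, hj ?_⟩
    rw [hjj, hl]

/-- The integral elements are commensurated. -/
theorem comm_HZq (hj : Function.Injective f) (hfi : (f.range.comap (SpArith.inc N)).FiniteIndex)
    (g : Γ) : (conj g (SpArith.HZ f)).relIndex (SpArith.HZ f) ≠ 0 := by
  obtain ⟨jj, hjj⟩ := exists_jjq hj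
  have hr := range_jjq hj hjj
  obtain ⟨n, hn, hc⟩ := SpArith.conj_mem (f g)
  haveI : NeZero n := ⟨hn.ne'⟩
  have hF : ((SpArith.cong N n).subgroupOf (f.range.comap (SpArith.inc N))).FiniteIndex :=
    Subgroup.instFiniteIndex_subgroupOf _ _
  have hle : (SpArith.cong N n).subgroupOf (f.range.comap (SpArith.inc N)) ≤
      (conj g (SpArith.HZ f)).comap jj := by
    intro l hl
    rw [Subgroup.mem_comap]
    refine H381.mem_conj.mpr ?_
    rw [Subgroup.mem_comap, map_mul, map_mul, map_inv, hjj]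
    exact hc _ hl
  have h1 : ((conj g (SpArith.HZ f)).comap jj).index ≠ 0 :=
    (Subgroup.finiteIndex_of_le hle).index_ne_zero
  rw [Subgroup.index_comap, hr] at h1
  exact h1

theorem ricc_HZq (hj : Function.Injective f)
    (hfi : (f.range.comap (SpArith.inc N)).FiniteIndex)
    (hΓ : ∀ g, (f g : Matrix (Fin N ⊕ Fin N) (Fin N ⊕ Fin N) ℚ) ≠ -1) : RICC (SpArith.HZ f) := by
  intro x hx
  refine (SpArith.rel_icc f hj hfi hΓ {1} x hx).mono ?_
  rintro y ⟨k, hk, rfl⟩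
  refine ⟨k, ?_, rfl⟩
  have := hk 1 (Finset.mem_singleton_self _)
  simpa using this

/-- The elements of `Γ` are represented by integral matrices. -/
theorem sepSp_q (hN : 1 ≤ N) (hj : Function.Injective f)
    (hΓ : ∀ g, (f g : Matrix (Fin N ⊕ Fin N) (Fin N ⊕ Fin N) ℚ) ≠ -1)
    {jj : f.range.comap (SpArith.inc N) →* Γ} (hjj : ∀ l, f (jj l) = SpArith.inc N l) :
    SepSp jj := by
  intro g
  obtain ⟨d, hd, A, hA⟩ := SpArith.exists_denom (f g : Matrix (Fin N ⊕ Fin N) (Fin N ⊕ Fin N) ℚ)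
  have hdQ : (d : ℚ) ≠ 0 := by exact_mod_cast hd.ne'
  have hsp : (f g : Matrix (Fin N ⊕ Fin N) (Fin N ⊕ Fin N) ℚ)ᵀ * J (Fin N) ℚ *
      (f g : Matrix (Fin N ⊕ Fin N) (Fin N ⊕ Fin N) ℚ) = J (Fin N) ℚ :=
    SymplecticGroup.mem_iff'.mp (f g).2
  have hAJ : Aᵀ * J (Fin N) ℤ * A = ((d : ℤ) ^ 2) • J (Fin N) ℤ := by
    apply SpArith.map_inj
    have e1 : (Aᵀ * J (Fin N) ℤ * A).map (Int.cast : ℤ → ℚ) =
        (A.map (Int.cast : ℤ → ℚ))ᵀ * J (Fin N) ℚ * A.map (Int.cast : ℤ → ℚ) := by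
      have h1 := (RingHom.mapMatrix (m := Fin N ⊕ Fin N) (Int.castRingHom ℚ)).map_mul
        (Aᵀ * J (Fin N) ℤ) A
      have h2 := (RingHom.mapMatrix (m := Fin N ⊕ Fin N) (Int.castRingHom ℚ)).map_mul
        Aᵀ (J (Fin N) ℤ)
      rw [h2] at h1
      have h3 : (RingHom.mapMatrix (m := Fin N ⊕ Fin N) (Int.castRingHom ℚ)) (J (Fin N) ℤ) =
          J (Fin N) ℚ := SpArith.map_J (Int.castRingHom ℚ)
      rw [h3] at h1
      exact h1
    have e2 : (((d : ℤ) ^ 2) • J (Fin N) ℤ).map (Int.cast : ℤ → ℚ) =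
        ((d : ℚ) ^ 2) • J (Fin N) ℚ := by
      rw [← SpArith.map_J (Int.castRingHom ℚ)]
      ext i j
      rw [Matrix.map_apply, Matrix.smul_apply, Matrix.smul_apply, Matrix.map_apply, smul_eq_mul,
        smul_eq_mul]
      push_cast
      rfl
    rw [e1, e2, hA, transpose_smul, Matrix.smul_mul, Matrix.smul_mul, Matrix.mul_smul, hsp,
      smul_smul, sq]
  refine ⟨A, (d : ℤ) ^ 2, pow_ne_zero 2 (by exact_mod_cast hd.ne'), ?_, ?_, ?_⟩
  · intro x y
    unfold om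
    rw [← vecMul_transpose, vecMul_vecMul, dotProduct_mulVec, vecMul_vecMul, hAJ, vecMul_smul,
      smul_dotProduct, smul_eq_mul]
  · rintro Z ⟨m, hm, hm0, hc⟩
    refine ⟨m, hm0, ?_⟩
    have h1 := congrArg f hc.eq
    rw [map_mul, map_mul, hjj] at h1
    have h2 : (((Z ^ m : symplecticGroup (Fin N) ℤ) :
        Matrix (Fin N ⊕ Fin N) (Fin N ⊕ Fin N) ℤ).map (Int.cast : ℤ → ℚ)) *
        (f g : Matrix (Fin N ⊕ Fin N) (Fin N ⊕ Fin N) ℚ) =
        (f g : Matrix (Fin N ⊕ Fin N) (Fin N ⊕ Fin N) ℚ) *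
        (((Z ^ m : symplecticGroup (Fin N) ℤ) :
        Matrix (Fin N ⊕ Fin N) (Fin N ⊕ Fin N) ℤ).map (Int.cast : ℤ → ℚ)) :=
      congrArg (fun y : symplecticGroup (Fin N) ℚ =>
        (y : Matrix (Fin N ⊕ Fin N) (Fin N ⊕ Fin N) ℚ)) h1
    apply SpArith.map_inj
    have h3 := (RingHom.mapMatrix (m := Fin N ⊕ Fin N) (Int.castRingHom ℚ)).map_mul
      ((Z ^ m : symplecticGroup (Fin N) ℤ) : Matrix (Fin N ⊕ Fin N) (Fin N ⊕ Fin N) ℤ) A
    have h4 := (RingHom.mapMatrix (m := Fin N ⊕ Fin N) (Int.castRingHom ℚ)).map_mul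
      A ((Z ^ m : symplecticGroup (Fin N) ℤ) : Matrix (Fin N ⊕ Fin N) (Fin N ⊕ Fin N) ℤ)
    change (RingHom.mapMatrix (m := Fin N ⊕ Fin N) (Int.castRingHom ℚ)) _ =
      (RingHom.mapMatrix (m := Fin N ⊕ Fin N) (Int.castRingHom ℚ)) _
    rw [h3, h4]
    change (((Z ^ m : symplecticGroup (Fin N) ℤ) :
        Matrix (Fin N ⊕ Fin N) (Fin N ⊕ Fin N) ℤ).map (Int.cast : ℤ → ℚ)) *
        A.map (Int.cast : ℤ → ℚ) = A.map (Int.cast : ℤ → ℚ) *
        (((Z ^ m : symplecticGroup (Fin N) ℤ) :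
        Matrix (Fin N ⊕ Fin N) (Fin N ⊕ Fin N) ℤ).map (Int.cast : ℤ → ℚ))
    rw [hA, Matrix.mul_smul, Matrix.smul_mul, h2]
  · intro c hc
    have h1 : (d : ℚ) • (f g : Matrix (Fin N ⊕ Fin N) (Fin N ⊕ Fin N) ℚ) =
        (c : ℚ) • (1 : Matrix (Fin N ⊕ Fin N) (Fin N ⊕ Fin N) ℚ) := by
      rw [← hA, hc]
      ext i j
      rw [Matrix.map_apply, Matrix.smul_apply, Matrix.smul_apply, smul_eq_mul, smul_eq_mul]
      by_cases hij : i = j
      · subst hij; simp
      · simp [Matrix.one_apply_ne hij]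
    have h2 : (f g : Matrix (Fin N ⊕ Fin N) (Fin N ⊕ Fin N) ℚ) =
        ((c : ℚ) / d) • (1 : Matrix (Fin N ⊕ Fin N) (Fin N ⊕ Fin N) ℚ) := by
      rw [div_eq_inv_mul, ← smul_smul, ← h1, smul_smul, inv_mul_cancel₀ hdQ, one_smul]
    obtain ⟨q, hq⟩ : ∃ q : ℚ, q = (c : ℚ) / d := ⟨_, rfl⟩
    rw [← hq] at h2
    have h3 : q * q = 1 := by
      have h4 := hsp
      rw [h2, transpose_smul, transpose_one, Matrix.smul_mul, Matrix.one_mul, Matrix.smul_mul,
        Matrix.mul_smul, Matrix.mul_one, smul_smul] at h4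
      have h5 := congrFun (congrFun h4 (Sum.inr ⟨0, hN⟩)) (Sum.inl ⟨0, hN⟩)
      rw [Matrix.smul_apply, smul_eq_mul] at h5
      have h6 : J (Fin N) ℚ (Sum.inr ⟨0, hN⟩) (Sum.inl ⟨0, hN⟩) = 1 := by
        simp [J]
      rwa [h6, mul_one] at h5
    rcases mul_self_eq_one_iff.mp h3 with h4 | h4
    · apply hj
      apply Subtype.ext
      rw [h2, h4, one_smul, map_one]
      rfl
    · exact absurd (by rw [h2, h4, neg_smul, one_smul]) (hΓ g)

theorem sepSp_rat {N : ℕ} {Γ : Type} [Group Γ] (f : Γ →* symplecticGroup (Fin N) ℚ)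
    (hf : Function.Injective f)
    (hΓ : ∀ g, (f g : Matrix (Fin N ⊕ Fin N) (Fin N ⊕ Fin N) ℚ) ≠ -1)
    (jj : f.range.comap (SpArith.inc N) →* Γ) (hjj : ∀ l, f (jj l) = SpArith.inc N l) :
    SepSp jj := by
  rcases Nat.eq_zero_or_pos N with rfl | h
  · exact absurd (Subsingleton.elim _ _) (hΓ 1)
  · exact sepSp_q h hf hΓ hjj

end Vale.Agent.P092.R2.H289.Spn
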