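import Vale.Agent.P092.R2.H289.SpBas
import Vale.Agent.P092.R2.H289.SpJT

/-!
If one transvection has a nonzero tight subspace, then all transvections are tight.
-/

set_option linter.all false

open scoped InnerProductSpace
open Filter Topology ContinuousLinearMap

namespace Vale.Agent.P092.R2.H289.Spn
open Matrix Vale.Agent.P092.H160
open Vale.Agent.P092 Vale.Agent.P092.H350 Vale.Agent.P092.H367.SpT

variable {n : ℕ}

/-- (D1), to be replaced by the import -/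
def D1 (n : ℕ) : Prop := ∀ {M : Matrix (Fin n ⊕ Fin n) (Fin n ⊕ Fin n) ℤ}
    {a b : Fin n ⊕ Fin n → ℤ} (hab : LI2 a b)
    (h1 : ∀ z, om a z = 0 → PC (ts z 1) M) (h2 : ∀ z, om b z = 0 → PC (ts z 1) M),
    ∃ c : ℤ, M = c • 1

/-- (D2), to be replaced by the import -/
def D2 (n : ℕ) : Prop := ∀ {M : Matrix (Fin n ⊕ Fin n) (Fin n ⊕ Fin n) ℤ} {μ : ℤ} (hμ : μ ≠ 0)
    (hM : ∀ x y, om (M *ᵥ x) (M *ᵥ y) = μ * om x y)
    {v w : Fin n ⊕ Fin n → ℤ} (hvw : om v w = 0) (hLI : LI2 v w)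
    (h : ∀ Z : symplecticGroup (Fin n) ℤ,
      (((Z : Matrix (Fin n ⊕ Fin n) (Fin n ⊕ Fin n) ℤ) *ᵥ v = v ∧
        ∃ e : ℤ, (Z : Matrix (Fin n ⊕ Fin n) (Fin n ⊕ Fin n) ℤ) *ᵥ w = w + e • v) ∨
      ((Z : Matrix (Fin n ⊕ Fin n) (Fin n ⊕ Fin n) ℤ) *ᵥ w = w ∧
        ∃ e : ℤ, (Z : Matrix (Fin n ⊕ Fin n) (Fin n ⊕ Fin n) ℤ) *ᵥ v = v + e • w)) → PC Z M),
    ∃ c : ℤ, M = c • 1

/-- The elements with matrix `1 + a t_v + b q(v, w) + c t_w`. -/
def SS (v w : Fin n ⊕ Fin n → ℤ) : Set (symplecticGroup (Fin n) ℤ) :=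
  {X | ∃ a b c : ℤ, (X : Matrix (Fin n ⊕ Fin n) (Fin n ⊕ Fin n) ℤ) = 1 + (a • tt v + b • qq v w + c • tt w)}

theorem ts_mem_SS_left (v w : Fin n ⊕ Fin n → ℤ) : ts v 1 ∈ SS v w :=
  ⟨1, 0, 0, by rw [ts_coe]; simp⟩

theorem ts_mem_SS_right (v w : Fin n ⊕ Fin n → ℤ) : ts w 1 ∈ SS v w :=
  ⟨0, 0, 1, by rw [ts_coe]; simp⟩

theorem inv_mulVec {Z : symplecticGroup (Fin n) ℤ} {v x : Fin n ⊕ Fin n → ℤ} (h : (Z : Matrix (Fin n ⊕ Fin n) (Fin n ⊕ Fin n) ℤ) *ᵥ v = x) :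
    ((Z⁻¹ : symplecticGroup (Fin n) ℤ) : Matrix (Fin n ⊕ Fin n) (Fin n ⊕ Fin n) ℤ) *ᵥ x = v := by
  rw [← h, mulVec_mulVec, coe_inv_mul, one_mulVec]

theorem SS_conj {Z : symplecticGroup (Fin n) ℤ} {v w : Fin n ⊕ Fin n → ℤ} (hv : (Z : Matrix (Fin n ⊕ Fin n) (Fin n ⊕ Fin n) ℤ) *ᵥ v = v) {e : ℤ}
    (hw : (Z : Matrix (Fin n ⊕ Fin n) (Fin n ⊕ Fin n) ℤ) *ᵥ w = w + e • v) {X : symplecticGroup (Fin n) ℤ} (hX : X ∈ SS v w) :
    Z * X * Z⁻¹ ∈ SS v w := by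
  obtain ⟨a, b, c, hX⟩ := hX
  refine ⟨a + 2 * (b * e) + c * (e * e), b + c * e, c, ?_⟩
  rw [coe_mul, coe_mul, hX, mul_add, mul_add, mul_add, mul_one, add_mul, add_mul, add_mul,
    coe_mul_inv, Matrix.mul_smul, Matrix.mul_smul, Matrix.mul_smul, Matrix.smul_mul,
    Matrix.smul_mul, Matrix.smul_mul, conj_tt, conj_qq, conj_tt, hv, hw, tt_add, qq_add_right,
    qq_smul_right, tt_smul, qq_comm w (e • v), qq_comm (e • v) w, qq_smul_right, qq_self,
    qq_comm w v]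
  module

theorem SS_conj' {Z : symplecticGroup (Fin n) ℤ} {v w : Fin n ⊕ Fin n → ℤ} (hv : (Z : Matrix (Fin n ⊕ Fin n) (Fin n ⊕ Fin n) ℤ) *ᵥ v = v) {e : ℤ}
    (hw : (Z : Matrix (Fin n ⊕ Fin n) (Fin n ⊕ Fin n) ℤ) *ᵥ w = w + e • v) {X : symplecticGroup (Fin n) ℤ} (hX : X ∈ SS v w) :
    Z⁻¹ * X * Z ∈ SS v w := by
  have h1 : ((Z⁻¹ : symplecticGroup (Fin n) ℤ) : Matrix (Fin n ⊕ Fin n) (Fin n ⊕ Fin n) ℤ) *ᵥ v = v := inv_mulVec hv
  have h2 : ((Z⁻¹ : symplecticGroup (Fin n) ℤ) : Matrix (Fin n ⊕ Fin n) (Fin n ⊕ Fin n) ℤ) *ᵥ w = w + (-e) • v := by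
    have h3 := inv_mulVec hw
    rw [mulVec_add, mulVec_smul, h1] at h3
    rw [neg_smul, ← sub_eq_add_neg, eq_sub_iff_add_eq]
    exact h3
  have := SS_conj h1 h2 hX
  rwa [inv_inv] at this

theorem SS_comm (v w : Fin n ⊕ Fin n → ℤ) : SS v w = SS w v := by
  ext X
  constructor <;> rintro ⟨a, b, c, h⟩ <;> refine ⟨c, b, a, ?_⟩ <;> rw [h, qq_comm] <;> abel

section

variable {Γ₁ : Subgroup (symplecticGroup (Fin n) ℤ)}
    [hfi : Γ₁.FiniteIndex] {Γ Λ H : Type} [Group Γ] [Group Λ] [NormedAddCommGroup H]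
    [InnerProductSpace ℂ H] [CompleteSpace H] {j : Γ₁ →* Γ}
    {α : Γ →* (H →L[ℂ] H)} {β : Λ →* (H →L[ℂ] H)} {u : H} {t : ℝ}

theorem JT_one (hα : Fr α β u t) {G₀ : Type} [Group G₀] {Γ₁ : Subgroup G₀}
    [hfi : Γ₁.FiniteIndex] {j : Γ₁ →* Γ} (ξ : H) : ξ ∈ hα.JT j (1 : G₀) := by
  have h1 : hα.Ht (j 1) = hα.JT j (1 : G₀) :=
    hα.JT_eq (m := 1) (l := 1) one_ne_zero one_ne_zero (by simp)
  rw [← h1, map_one]
  refine (hα.th_singleton ξ).mono ?_
  rintro _ ⟨k, rfl⟩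
  simp [Fr.ap_one]

theorem JT_zpow_mem (hα : Fr α β u t) {G₀ : Type} [Group G₀] {Γ₁ : Subgroup G₀}
    [hfi : Γ₁.FiniteIndex] {j : Γ₁ →* Γ} {X : G₀} {ξ : H} (h : ξ ∈ hα.JT j X) (m : ℤ) :
    ξ ∈ hα.JT j (X ^ m) := by
  by_cases hm : m = 0
  · subst hm
    rw [zpow_zero]
    exact JT_one hα ξ
  · rw [hα.JT_zpow X hm]
    exact h

/-- Products of powers of three commuting transvections. -/
theorem JT_prod3 (hα : Fr α β u t) {a b c : Fin n ⊕ Fin n → ℤ} (hab : om a b = 0) (hac : om a c = 0)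
    (hbc : om b c = 0) {ξ : H} (ha : ξ ∈ hα.JT j (ts a 1)) (hb : ξ ∈ hα.JT j (ts b 1))
    (hc : ξ ∈ hα.JT j (ts c 1)) {X : symplecticGroup (Fin n) ℤ} {D k l m : ℤ} (hD : D ≠ 0)
    (hX : X ^ D = ts a k * ts b l * ts c m) : ξ ∈ hα.JT j X := by
  rw [← hα.JT_zpow X hD, hX]
  refine JT_mul hα ?_ (JT_mul hα (ts_comm hab k l) ?_ ?_) ?_
  · exact (ts_comm hac k m).mul_left (ts_comm hbc l m)
  · rw [← ts_zpow]; exact JT_zpow_mem hα ha k
  · rw [← ts_zpow]; exact JT_zpow_mem hα hb l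
  · rw [← ts_zpow]; exact JT_zpow_mem hα hc m

theorem om_add_smul {v w : Fin n ⊕ Fin n → ℤ} (h : om v w = 0) (a b c d : ℤ) :
    om (a • v + b • w) (c • v + d • w) = 0 := by
  have h' : om w v = 0 := by rw [om_swap, h, neg_zero]
  rw [om_add_left, om_add_right, om_add_right, om_smul_left, om_smul_left, om_smul_left,
    om_smul_left, om_smul_right, om_smul_right, om_smul_right, om_smul_right, om_self, om_self, h,
    h']
  ring

/-- Three transvections of the plane give all elements of `SS v w`. -/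
theorem SS_tight (hα : Fr α β u t) {v w : Fin n ⊕ Fin n → ℤ} (h : om v w = 0) {k₁ k₂ : ℤ} (h1 : k₁ ≠ 0)
    (h2 : k₂ ≠ 0) (h12 : k₁ ≠ k₂) {ξ : H} (h3 : ξ ∈ hα.JT j (ts v 1))
    (h4 : ξ ∈ hα.JT j (ts (v + k₁ • w) 1)) (h5 : ξ ∈ hα.JT j (ts (v + k₂ • w) 1))
    {X : symplecticGroup (Fin n) ℤ} (hX : X ∈ SS v w) : ξ ∈ hα.JT j X := by
  obtain ⟨a, b, c, hX⟩ := hX
  have hw' : om w v = 0 := by rw [om_swap, h, neg_zero]
  have o1 : om v (v + k₁ • w) = 0 := by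
    rw [om_add_right, om_smul_right, om_self, h]; ring
  have o2 : om v (v + k₂ • w) = 0 := by
    rw [om_add_right, om_smul_right, om_self, h]; ring
  have o3 : om (v + k₁ • w) (v + k₂ • w) = 0 := by
    have := om_add_smul h 1 k₁ 1 k₂
    rwa [one_smul] at this
  have hD : k₁ * k₂ * (k₂ - k₁) ≠ 0 :=
    mul_ne_zero (mul_ne_zero h1 h2) (sub_ne_zero.mpr (Ne.symm h12))
  refine JT_prod3 hα o1 o2 o3 h3 h4 h5 hD
    (k := k₁ * k₂ * (k₂ - k₁) * a - k₂ * (k₂ * b - c) - k₁ * (c - k₁ * b))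
    (l := k₂ * (k₂ * b - c)) (m := k₁ * (c - k₁ * b)) ?_
  apply Subtype.ext
  have hN : (a • tt v + b • qq v w + c • tt w) * (a • tt v + b • qq v w + c • tt w) = 0 := by
    have q1 : tt v * qq v w = 0 := tt_mul_qq (om_self v) h
    have q2 : qq v w * tt v = 0 := qq_mul_tt (om_self v) hw'
    have q3 : tt w * qq v w = 0 := tt_mul_qq hw' (om_self w)
    have q4 : qq v w * tt w = 0 := qq_mul_tt h (om_self w)
    have q5 : qq v w * qq v w = 0 := qq_mul_qq (om_self v) h hw' (om_self w)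
    simp only [mul_add, add_mul, Matrix.smul_mul, Matrix.mul_smul, tt_mul_self, tt_mul_tt h,
      tt_mul_tt hw', q1, q2, q3, q4, q5, smul_zero, add_zero]
  rw [zpow_sq hX hN, ts_mul3 o1 o2 o3, tt_add, tt_add, qq_smul_right, qq_smul_right, tt_smul,
    tt_smul]
  module

/-- The plane case. -/
theorem plane_top (hD1 : D1 n) (hD2 : D2 n) (hj : SepSp j) (hα : Fr α β u t) {v w : Fin n ⊕ Fin n → ℤ}
    (hvw : om v w = 0) (hLI : LI2 v w) (hv : hα.JT j (ts v 1) ≠ ⊥) :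
    ∀ X ∈ SS v w, hα.JT j X = ⊤ := by
  have hwv : om w v = 0 := by rw [om_swap, hvw, neg_zero]
  obtain ⟨q, hq1, hq2⟩ := exists_dual hLI
  obtain ⟨Y, hY⟩ := exists_sh hq1 1
  rw [one_smul] at hY
  have hNN : qq w q * qq w q = 0 := by
    have : om q w = 0 := by rw [om_swap, hq1, neg_zero]
    exact qq_mul_qq (om_self w) hq1 this (om_self q)
  have hYm : ∀ m : ℤ, ((Y ^ m : symplecticGroup (Fin n) ℤ) : Matrix (Fin n ⊕ Fin n) (Fin n ⊕ Fin n) ℤ) *ᵥ v =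
      v + (-(m * om v q)) • w := fun m => by
    rw [zpow_sq hY hNN, add_mulVec, one_mulVec, smul_mulVec, qq_mulVec, hwv, zero_smul, add_zero,
      om_swap v q, smul_smul]
    congr 2
    ring
  have hconj : ∀ m : ℤ, Y ^ m * ts v 1 * (Y ^ m)⁻¹ = ts (v + (-(m * om v q)) • w) 1 := fun m => by
    rw [conj_ts, hYm]
  have hc : ∀ m : ℤ, Commute (ts v 1) (Y ^ m * ts v 1 * (Y ^ m)⁻¹) := fun m => by
    rw [hconj]
    refine ts_comm ?_ 1 1
    rw [om_add_right, om_self, om_smul_right, hvw]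
    ring
  have hsep : ∀ g : Γ, g ≠ 1 → ∀ m₁ m₂ : ℤ, m₁ ≠ m₂ →
      (∀ Z, Commute Z (Y ^ m₁ * ts v 1 * (Y ^ m₁)⁻¹) → VC j g Z) →
      (∀ Z, Commute Z (Y ^ m₂ * ts v 1 * (Y ^ m₂)⁻¹) → VC j g Z) → False := by
    intro g hg m₁ m₂ hm h1 h2
    obtain ⟨M, μ, hμ, hM, hVC, hsc⟩ := hj g
    have hA : LI2 (v + (-(m₁ * om v q)) • w) (v + (-(m₂ * om v q)) • w) := by
      obtain ⟨i, k, hik⟩ := hLI
      refine ⟨i, k, ?_⟩
      simp only [Pi.add_apply, Pi.smul_apply, smul_eq_mul]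
      have e : (v i + -(m₁ * om v q) * w i) * (v k + -(m₂ * om v q) * w k) -
          (v k + -(m₁ * om v q) * w k) * (v i + -(m₂ * om v q) * w i) =
          ((m₁ - m₂) * om v q) * (v i * w k - v k * w i) := by ring
      rw [e]
      exact mul_ne_zero (mul_ne_zero (sub_ne_zero.mpr hm) hq2) hik
    have hB : ∀ z, om (v + (-(m₁ * om v q)) • w) z = 0 → PC (ts z 1) M := by
      intro z hz
      refine hVC _ (h1 _ ?_)
      rw [hconj]
      exact (ts_comm hz 1 1).symm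
    have hC : ∀ z, om (v + (-(m₂ * om v q)) • w) z = 0 → PC (ts z 1) M := by
      intro z hz
      refine hVC _ (h2 _ ?_)
      rw [hconj]
      exact (ts_comm hz 1 1).symm
    obtain ⟨c, hc⟩ := hD1 hA hB hC
    exact hg (hsc c hc)
  obtain ⟨m₁, m₂, hm₁, hm₂, hm, ξ, hξ, hx0, hx1, hx2⟩ := JT_three hα hc hsep hv
  rw [hconj] at hx1 hx2
  have hall : ∀ X ∈ SS v w, ξ ∈ hα.JT j X := fun X hX => by
    refine SS_tight hα hvw (neg_ne_zero.mpr (mul_ne_zero hm₁ hq2))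
      (neg_ne_zero.mpr (mul_ne_zero hm₂ hq2)) ?_ hx0 hx1 hx2 hX
    intro e
    have := mul_right_cancel₀ hq2 (neg_injective e)
    exact hm this
  have hS : ∀ g : Γ, g ≠ 1 → ∃ Z : symplecticGroup (Fin n) ℤ,
      (∀ X ∈ SS v w, Z * X * Z⁻¹ ∈ SS v w ∧ Z⁻¹ * X * Z ∈ SS v w) ∧ ¬ VC j g Z := by
    intro g hg
    by_contra hcon
    push Not at hcon
    obtain ⟨M, μ, hμ, hM, hVC, hsc⟩ := hj g
    obtain ⟨c, hc⟩ := hD2 hμ hM hvw hLI (fun Z hZ => by
      refine hVC Z (hcon Z fun X hX => ?_)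
      rcases hZ with ⟨h1, e, h2⟩ | ⟨h1, e, h2⟩
      · exact ⟨SS_conj h1 h2 hX, SS_conj' h1 h2 hX⟩
      · rw [SS_comm v w] at hX ⊢
        exact ⟨SS_conj h1 h2 hX, SS_conj' h1 h2 hX⟩)
    exact hg (hsc c hc)
  rcases JT_inter (j := j) hα (SS v w) hS with h | h
  · exact absurd (h ξ hall) hξ
  · exact h

/-- (D3) -/
theorem all_top' (hD1 : D1 n) (hD2 : D2 n) (hn : 2 ≤ n) (hj : SepSp j) (hα : Fr α β u t)
    {v w : Fin n ⊕ Fin n → ℤ} (hv : v ≠ 0) (hw : w ≠ 0) (h : hα.JT j (ts v 1) ≠ ⊥) :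
    hα.JT j (ts w 1) = ⊤ := by
  have hne : ∀ {K : Submodule ℂ H}, K = ⊤ → K ≠ ⊥ := by
    rintro K rfl hK
    have h1 : u ∈ (⊤ : Submodule ℂ H) := trivial
    rw [hK, Submodule.mem_bot] at h1
    exact hα.u_ne h1
  have right : ∀ {v w : Fin n ⊕ Fin n → ℤ}, om v w = 0 → LI2 v w → hα.JT j (ts v 1) ≠ ⊥ →
      hα.JT j (ts w 1) = ⊤ := fun h1 h2 h3 =>
    plane_top hD1 hD2 hj hα h1 h2 h3 _ (ts_mem_SS_right _ _)
  have left : ∀ {v w : Fin n ⊕ Fin n → ℤ}, om v w = 0 → LI2 v w → hα.JT j (ts v 1) ≠ ⊥ →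
      hα.JT j (ts v 1) = ⊤ := fun h1 h2 h3 =>
    plane_top hD1 hD2 hj hα h1 h2 h3 _ (ts_mem_SS_left _ _)
  by_cases hLI : LI2 v w
  · by_cases hvw : om v w = 0
    · exact right hvw hLI h
    · obtain ⟨z, hz, h1, h2⟩ := exists_common hn hLI
      have hzv : LI2 v z := by
        by_contra hcon
        apply hvw
        unfold LI2 at hcon
        push Not at hcon
        obtain ⟨i, hi⟩ := Function.ne_iff.mp hz
        rw [Pi.zero_apply] at hi
        have e : z i • v = v i • z := by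
          ext k
          simp only [Pi.smul_apply, smul_eq_mul]
          linear_combination -(hcon i k)
        have e2 := congrArg (fun y => om y w) e
        simp only [om_smul_left] at e2
        rw [om_swap w z, h2, neg_zero, mul_zero] at e2
        exact (mul_eq_zero.mp e2).resolve_left hi
      have hzw : LI2 w z := by
        by_contra hcon
        apply hvw
        unfold LI2 at hcon
        push Not at hcon
        obtain ⟨i, hi⟩ := Function.ne_iff.mp hz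
        rw [Pi.zero_apply] at hi
        have e : z i • w = w i • z := by
          ext k
          simp only [Pi.smul_apply, smul_eq_mul]
          linear_combination -(hcon i k)
        have e2 := congrArg (fun y => om v y) e
        simp only [om_smul_right] at e2
        rw [h1, mul_zero] at e2
        exact (mul_eq_zero.mp e2).resolve_left hi
      have t1 := right h1 hzv h
      refine right ?_ hzw.symm (hne t1)
      rw [om_swap, h2, neg_zero]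
  · obtain ⟨z, h1, h2⟩ := exists_adj hn hv
    have t1 := left h1 h2 h
    have t2 := right h1 h2 h
    obtain ⟨z', h1', h2'⟩ := exists_adj hn hw
    -- v and w are parallel
    unfold LI2 at hLI
    push Not at hLI
    obtain ⟨i, hi⟩ := Function.ne_iff.mp hv
    rw [Pi.zero_apply] at hi
    have hwi : w i ≠ 0 := by
      intro h0
      apply hw
      ext k
      have := hLI i k
      rw [h0, mul_zero, sub_zero] at this
      exact (mul_eq_zero.mp this).resolve_left hi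
    have e : w i • v = v i • w := by
      ext k
      simp only [Pi.smul_apply, smul_eq_mul]
      linear_combination -(hLI i k)
    have e3 : ts v 1 ^ (w i * w i) = ts w 1 ^ (v i * v i) := by
      rw [ts_zpow, ts_zpow]
      apply Subtype.ext
      rw [ts_coe, ts_coe, ← tt_smul, ← tt_smul, e]
    rw [← hα.JT_zpow (ts w 1) (mul_ne_zero hi hi), ← e3, hα.JT_zpow _ (mul_ne_zero hwi hwi)]
    exact t1

end

end Vale.Agent.P092.R2.H289.Spn
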