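import Vale.Agent.P092.R2.H289.Brg

/-!
Heights of all pairs of vectors; the two final theorems.
-/

set_option linter.all false

open scoped InnerProductSpace
open Filter Topology ContinuousLinearMap

namespace Vale.Agent.P092.R2.H289
open Vale.Agent.P092.H160 (Ell2 dl rei lam LG uu icc_of_fi)

section van

variable {E : Type} [NormedAddCommGroup E] [InnerProductSpace ℂ E]

theorem van_le {f g : ℕ → ℝ} (h0 : ∀ k, 0 ≤ f k) (hfg : ∀ k, f k ≤ g k)
    (hg : Tendsto (fun N : ℕ => (∑ k ∈ Finset.range N, g k) / N) atTop (𝓝 0)) :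
    Tendsto (fun N : ℕ => (∑ k ∈ Finset.range N, f k) / N) atTop (𝓝 0) := by
  refine squeeze_zero (fun N => div_nonneg (Finset.sum_nonneg fun k _ => h0 k)
    (Nat.cast_nonneg _)) (fun N => ?_) hg
  gcongr with k _
  exact hfg k

theorem van_add {f g : ℕ → ℝ}
    (hf : Tendsto (fun N : ℕ => (∑ k ∈ Finset.range N, f k) / N) atTop (𝓝 0))
    (hg : Tendsto (fun N : ℕ => (∑ k ∈ Finset.range N, g k) / N) atTop (𝓝 0)) :
    Tendsto (fun N : ℕ => (∑ k ∈ Finset.range N, (f k + g k)) / N) atTop (𝓝 0) := by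
  have h1 := hf.add hg
  rw [add_zero] at h1
  refine h1.congr fun N => ?_
  rw [Finset.sum_add_distrib, add_div]

theorem van_mul {f : ℕ → ℝ} (c : ℝ)
    (hf : Tendsto (fun N : ℕ => (∑ k ∈ Finset.range N, f k) / N) atTop (𝓝 0)) :
    Tendsto (fun N : ℕ => (∑ k ∈ Finset.range N, c * f k) / N) atTop (𝓝 0) := by
  have h1 := hf.const_mul c
  rw [mul_zero] at h1
  refine h1.congr fun N => ?_
  rw [← Finset.mul_sum, mul_div_assoc]

theorem van_closure (f : E → ℕ → ℝ) (h0 : ∀ ξ k, 0 ≤ f ξ k)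
    (hadd : ∀ ξ η k, f (ξ + η) k ≤ f ξ k + f η k) (hsm : ∀ (c : ℂ) ξ k, f (c • ξ) k ≤ ‖c‖ * f ξ k)
    (C : ℝ) (hC0 : 0 ≤ C) (hC : ∀ ξ k, f ξ k ≤ C * ‖ξ‖) {S : Set E}
    (hS : ∀ ξ ∈ S, Tendsto (fun N : ℕ => (∑ k ∈ Finset.range N, f ξ k) / N) atTop (𝓝 0))
    {ξ : E} (hξ : ξ ∈ (Submodule.span ℂ S).topologicalClosure) :
    Tendsto (fun N : ℕ => (∑ k ∈ Finset.range N, f ξ k) / N) atTop (𝓝 0) := by
  have hspan : ∀ η ∈ Submodule.span ℂ S,
      Tendsto (fun N : ℕ => (∑ k ∈ Finset.range N, f η k) / N) atTop (𝓝 0) := by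
    intro η hη
    refine Submodule.span_induction ?_ ?_ ?_ ?_ hη
    · exact fun x hx => hS x hx
    · have h1 : ∀ k, f 0 k = 0 := fun k => le_antisymm (by simpa using hC 0 k) (h0 0 k)
      simp only [h1]
      simp
    · intro a b _ _ ha hb
      exact van_le (fun k => h0 _ k) (fun k => hadd a b k) (van_add ha hb)
    · intro c a _ ha
      exact van_le (fun k => h0 _ k) (fun k => hsm c a k) (van_mul ‖c‖ ha)
  have h2 : ξ ∈ closure (Submodule.span ℂ S : Set E) := by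
    rw [← Submodule.topologicalClosure_coe]
    exact hξ
  rw [Metric.tendsto_atTop]
  intro ε hε
  obtain ⟨η, hη, hd⟩ := Metric.mem_closure_iff.mp h2 (ε / (2 * (C + 1))) (by positivity)
  obtain ⟨N0, hN0⟩ := (Metric.tendsto_atTop.mp (hspan η hη)) (ε / 2) (by positivity)
  refine ⟨N0 + 1, fun N hN => ?_⟩
  have hNp : (0 : ℝ) < N := by
    have : 0 < N := by omega
    exact_mod_cast this
  have h3 := hN0 N (by omega)
  rw [Real.dist_eq, sub_zero] at h3 ⊢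
  have h4 : 0 ≤ (∑ k ∈ Finset.range N, f ξ k) / N :=
    div_nonneg (Finset.sum_nonneg fun k _ => h0 ξ k) hNp.le
  rw [abs_of_nonneg h4]
  have h5 := lt_of_le_of_lt (le_abs_self _) h3
  rw [dist_eq_norm] at hd
  have h6 : ∀ k, f ξ k ≤ f η k + ε / 2 := by
    intro k
    have e1 : ξ = η + (ξ - η) := by abel
    calc f ξ k = f (η + (ξ - η)) k := by rw [← e1]
      _ ≤ f η k + f (ξ - η) k := hadd _ _ k
      _ ≤ f η k + C * ‖ξ - η‖ := by gcongr; exact hC _ k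
      _ ≤ f η k + (C + 1) * (ε / (2 * (C + 1))) := by gcongr; linarith
      _ = f η k + ε / 2 := by field_simp
  calc (∑ k ∈ Finset.range N, f ξ k) / N ≤ (∑ k ∈ Finset.range N, (f η k + ε / 2)) / N := by
        gcongr with k _
        exact h6 k
    _ = (∑ k ∈ Finset.range N, f η k) / N + ε / 2 := by
        rw [Finset.sum_add_distrib, Finset.sum_const, Finset.card_range, nsmul_eq_mul]
        field_simp
    _ < ε := by linarith

end van

section

variable {Γ Λ H : Type} [Group Γ] [Group Λ] [NormedAddCommGroup H] [InnerProductSpace ℂ H]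
  [CompleteSpace H] {α : Γ →* (H →L[ℂ] H)} {β : Λ →* (H →L[ℂ] H)} {u : H} {t : ℝ}

namespace Fr

theorem norm_beta (h : Fr α β u t) (s : Λ) (v : H) : ‖β s v‖ = ‖v‖ := by
  have h1 : ⟪β s v, β s v⟫_ℂ = ⟪v, v⟫_ℂ := by
    rw [← adjoint_inner_left, h.adjβ, ← ap_mul, inv_mul_cancel, ap_one]
  rw [inner_self_eq_norm_sq_to_K, inner_self_eq_norm_sq_to_K] at h1
  have h2 : ‖β s v‖ ^ 2 = ‖v‖ ^ 2 := by exact_mod_cast h1
  exact (pow_left_inj₀ (norm_nonneg _) (norm_nonneg _) two_ne_zero).mp h2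

theorem inner_le (h : Fr α β u t) (s : Λ) (g : Γ) (ξ η : H) :
    ‖⟪β s ξ, α g η⟫_ℂ‖ ≤ ‖ξ‖ * ‖η‖ := by
  have h1 := norm_inner_le_norm (𝕜 := ℂ) (β s ξ) (α g η)
  rwa [h.norm_beta, h.norm_map] at h1

theorem bdd (h : Fr α β u t) (g : Γ) (ξ η : H) :
    BddAbove (Set.range fun s => ‖⟪β s ξ, α g η⟫_ℂ‖) :=
  ⟨‖ξ‖ * ‖η‖, by rintro _ ⟨s, rfl⟩; exact h.inner_le s g ξ η⟩

theorem span_top (h : Fr α β u t) (v : H) :
    v ∈ (Submodule.span ℂ (Set.range fun s => β s u)).topologicalClosure := by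
  have h1 : (Submodule.span ℂ (Set.range fun s => β s u)).topologicalClosure = ⊤ := by
    rw [Submodule.topologicalClosure_eq_top_iff, Submodule.eq_bot_iff]
    intro w hw
    rw [Submodule.mem_orthogonal] at hw
    have h2 := h.frame w
    have h3 : ∀ s, ‖⟪β s u, w⟫_ℂ‖ ^ 2 = 0 := by
      intro s
      rw [hw _ (Submodule.subset_span ⟨s, rfl⟩)]
      simp
    simp only [h3] at h2
    have h4 := h2.unique hasSum_zero
    rcases mul_eq_zero.mp h4 with h5 | h5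
    · exact absurd h5 h.tpos.ne'
    · exact norm_eq_zero.mp (pow_eq_zero_iff two_ne_zero |>.mp h5)
  rw [h1]
  trivial

theorem sup_add_left (h : Fr α β u t) (g : Γ) (ξ ξ' η : H) :
    ⨆ s, ‖⟪β s (ξ + ξ'), α g η⟫_ℂ‖ ≤ (⨆ s, ‖⟪β s ξ, α g η⟫_ℂ‖) + ⨆ s, ‖⟪β s ξ', α g η⟫_ℂ‖ := by
  refine ciSup_le fun s => ?_
  rw [map_add, inner_add_left]
  refine (norm_add_le _ _).trans (add_le_add ?_ ?_)
  · exact le_ciSup (h.bdd g ξ η) s
  · exact le_ciSup (h.bdd g ξ' η) s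

theorem sup_add_right (h : Fr α β u t) (g : Γ) (ξ η η' : H) :
    ⨆ s, ‖⟪β s ξ, α g (η + η')⟫_ℂ‖ ≤ (⨆ s, ‖⟪β s ξ, α g η⟫_ℂ‖) + ⨆ s, ‖⟪β s ξ, α g η'⟫_ℂ‖ := by
  refine ciSup_le fun s => ?_
  rw [map_add, inner_add_right]
  refine (norm_add_le _ _).trans (add_le_add ?_ ?_)
  · exact le_ciSup (h.bdd g ξ η) s
  · exact le_ciSup (h.bdd g ξ η') s

/-- If the heights of the pair `(u, u)` vanish on average, so do the heights of all pairs. -/
theorem van_all (h : Fr α β u t) (x : ℕ → Γ)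
    (hu : Tendsto (fun N : ℕ => (∑ k ∈ Finset.range N,
      ⨆ s, ‖⟪β s u, α (x k) u⟫_ℂ‖) / N) atTop (𝓝 0)) (ξ η : H) :
    Tendsto (fun N : ℕ => (∑ k ∈ Finset.range N,
      ⨆ s, ‖⟪β s ξ, α (x k) η⟫_ℂ‖) / N) atTop (𝓝 0) := by
  have h1 : ∀ ξ : H, Tendsto (fun N : ℕ => (∑ k ∈ Finset.range N,
      ⨆ s, ‖⟪β s ξ, α (x k) u⟫_ℂ‖) / N) atTop (𝓝 0) := by
    intro ξ
    refine van_closure (fun ξ k => ⨆ s, ‖⟪β s ξ, α (x k) u⟫_ℂ‖)
      (fun ξ k => Real.iSup_nonneg fun s => norm_nonneg _)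
      (fun ξ ξ' k => h.sup_add_left _ _ _ _) (fun c ξ k => ?_) ‖u‖ (norm_nonneg _)
      (fun ξ k => ?_) (S := Set.range fun s => β s u) ?_ (h.span_top ξ)
    · refine ciSup_le fun s => ?_
      rw [map_smul, inner_smul_left, norm_mul, RCLike.norm_conj]
      have := le_ciSup (h.bdd (x k) ξ u) s
      gcongr
    · refine ciSup_le fun s => ?_
      rw [mul_comm]
      exact h.inner_le s (x k) ξ u
    · rintro _ ⟨s', rfl⟩
      refine hu.congr fun N => ?_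
      congr 1
      refine Finset.sum_congr rfl fun k _ => ?_
      have e := (Equiv.mulRight s').iSup_comp (g := fun s => ‖⟪β s u, α (x k) u⟫_ℂ‖)
      rw [← e]
      simp only [Equiv.coe_mulRight, ap_mul]
  refine van_closure (fun η k => ⨆ s, ‖⟪β s ξ, α (x k) η⟫_ℂ‖)
      (fun η k => Real.iSup_nonneg fun s => norm_nonneg _)
      (fun η η' k => h.sup_add_right _ _ _ _) (fun c η k => ?_) ‖ξ‖ (norm_nonneg _)
      (fun η k => ?_) (S := Set.range fun s => β s u) ?_ (h.span_top η)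
  · refine ciSup_le fun s => ?_
    rw [map_smul, inner_smul_right, norm_mul]
    have := le_ciSup (h.bdd (x k) ξ η) s
    gcongr
  · exact ciSup_le fun s => h.inner_le s (x k) ξ η
  · rintro _ ⟨s', rfl⟩
    refine (h1 ξ).congr fun N => ?_
    congr 1
    refine Finset.sum_congr rfl fun k _ => ?_
    have e := (Equiv.mulLeft s'⁻¹).iSup_comp (g := fun s => ‖⟪β s ξ, α (x k) u⟫_ℂ‖)
    rw [← e]
    simp only [Equiv.coe_mulLeft]
    congr 1
    funext s
    rw [h.rc, ap_mul, ← h.adjβ, adjoint_inner_left]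

end Fr

end

end Vale.Agent.P092.R2.H289
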